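import Crest.Agent.R113.Mul

/-! Row 113: the algebra `Mem`, its trace, relations between the generators. -/

set_option autoImplicit false

open MeasureTheory Filter Topology
open scoped ENNReal

namespace Crest.Agent.R113.Sys

variable {X : Type*} [MeasurableSpace X] {D : Sys X}

theorem meas_σ (k : ℤ) : Measurable (D.σ k) := (D.mp k).measurable

/-- `(x,k) ↦ σ k x` is measurable (`measurable_from_prod_countable_left`-type lemma) -/
theorem meas_act : Measurable fun p : X × ℤ => D.σ p.2 p.1 := by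
  exact measurable_from_prod_countable_left fun k => meas_σ k

theorem bd_L {E : Type*} [MeasurableSpace E] [Norm E] {f : X → E} (hf : Bd f) :
    Bd fun p : X × ℤ => f (D.σ p.2 p.1) := hf.comp meas_act

theorem bd_R {E : Type*} [MeasurableSpace E] [Norm E] {f : X → E} (hf : Bd f) :
    Bd fun p : X × ℤ => f p.1 := hf.comp measurable_fst

theorem bd_Δ {f : X → ℝ} (hf : Bd f) : Bd (D.Δ f) := (bd_L hf).sub (bd_R hf)

theorem emb_slice (k : ℤ) : MeasurableEmbedding fun x : X => (x, k) :=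
  measurableEmbedding_prod_mk_right k

theorem ν_eq_sum : D.ν = Measure.sum fun k : ℤ => D.μ.map fun x => (x, k) := by
  unfold Sys.ν
  rw [Measure.count, Measure.prod_sum_right]
  simp only [Measure.prod_dirac]

theorem map_slice_le (k : ℤ) : (D.μ.map fun x => (x, k)) ≤ D.ν := by
  rw [ν_eq_sum]
  exact Measure.le_sum (fun k : ℤ => D.μ.map fun x => (x, k)) k

theorem hasSum_slice {E : Type*} [NormedAddCommGroup E] [NormedSpace ℝ E] {F : X × ℤ → E}
    (hF : Integrable F D.ν) : HasSum (fun k => ∫ x, F (x, k) ∂D.μ) (∫ p, F p ∂D.ν) := by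
  rw [ν_eq_sum] at hF ⊢
  have := hasSum_integral_measure hF
  simpa only [(emb_slice _).integral_map] using this

theorem integral_of_slice {E : Type*} [NormedAddCommGroup E] [NormedSpace ℝ E] {F : X × ℤ → E}
    (hF : Integrable F D.ν) (k : ℤ) (h : ∀ j, j ≠ k → ∀ᵐ x ∂D.μ, F (x, j) = 0) :
    ∫ p, F p ∂D.ν = ∫ x, F (x, k) ∂D.μ := by
  refine (hasSum_slice hF).unique (hasSum_single k fun j hj => ?_)
  rw [integral_congr_ae (h j hj), integral_zero]

/-- a.e. statements on `X × ℤ` are a.e. statements on each slice -/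
theorem ae_ν_iff {q : X × ℤ → Prop} : (∀ᵐ p ∂D.ν, q p) ↔ ∀ k, ∀ᵐ x ∂D.μ, q (x, k) := by
  rw [ν_eq_sum, Measure.ae_sum_iff]
  exact forall_congr' fun k => (emb_slice k).ae_map_iff

theorem U_ae (a : ℤ) (g : D.H) :
    (D.U a g : X × ℤ → ℂ) =ᵐ[D.ν] fun p => g (p.1, p.2 - a) := by
  exact Lp.coeFn_compMeasurePreserving g (D.mpU a)

theorem R_ae (b : ℤ) (g : D.H) :
    (D.R b g : X × ℤ → ℂ) =ᵐ[D.ν] fun p => g (D.σ b p.1, p.2 - b) := by
  exact Lp.coeFn_compMeasurePreserving g (D.mpR b)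

theorem Ω_ae : (D.Ω : X × ℤ → ℂ) =ᵐ[D.ν] fun p => if p.2 = 0 then 1 else 0 := by
  refine indicatorConstLp_coeFn.trans (Eventually.of_forall fun p => ?_)
  by_cases h : p.2 = 0 <;> simp [Set.indicator, h]

theorem norm_Ω : ‖D.Ω‖ = 1 := by
  unfold Sys.Ω
  rw [norm_indicatorConstLp (by simp) (by simp), Measure.real, Measure.prod_prod, measure_univ,
    Measure.count_singleton]
  simp

/-- inner product with `Ω` -/
theorem inner_Ω (g : D.H) : inner ℂ D.Ω g = ∫ x, (g : X × ℤ → ℂ) (x, 0) ∂D.μ := by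
  rw [L2.inner_def, integral_of_slice (L2.integrable_inner D.Ω g) 0]
  · refine integral_congr_ae ?_
    filter_upwards [ae_ν_iff.1 (Ω_ae (D := D)) 0] with x hx
    simp [hx]
  · intro j hj
    filter_upwards [ae_ν_iff.1 (Ω_ae (D := D)) j] with x hx
    simp [hx, hj]

/-- slices of an `L²` function are `L²` with smaller norm -/
theorem memLp_slice (g : D.H) (k : ℤ) : MemLp (fun x => (g : X × ℤ → ℂ) (x, k)) 2 D.μ := by
  exact (emb_slice k).memLp_map_measure_iff.1 ((Lp.memLp g).mono_measure (map_slice_le k))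

theorem slice_sq_le (g : D.H) (k : ℤ) :
    ∫ x, ‖(g : X × ℤ → ℂ) (x, k)‖ ^ 2 ∂D.μ ≤ ‖g‖ ^ 2 := by
  rw [norm_sq_eq]
  exact le_hasSum (hasSum_slice (integrable_norm_sq g)) k
    fun j _ => integral_nonneg fun x => by positivity

theorem U_zero : D.U 0 = 1 := by
  ext1 g
  apply Lp.ext
  filter_upwards [U_ae 0 g] with p hp
  simpa using hp

theorem U_add (a b : ℤ) : D.U (a + b) = D.U a * D.U b := by
  ext1 g
  apply Lp.ext
  filter_upwards [U_ae (a + b) g, U_ae a (D.U b g),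
    (D.mpU a).quasiMeasurePreserving.ae (U_ae b g)] with p h1 h2 h3
  rw [h1, mul_apply_eq_comp, h2, h3, sub_sub]

theorem inner_U (a : ℤ) (g h : D.H) : inner ℂ (D.U a g) (D.U a h) = inner ℂ g h :=
  (Lp.compMeasurePreservingₗᵢ ℂ _ (D.mpU a)).inner_map_map g h

theorem star_U (a : ℤ) : star (D.U a) = D.U (-a) := by
  rw [ContinuousLinearMap.star_eq_adjoint, eq_comm, ContinuousLinearMap.eq_adjoint_iff]
  intro g h
  rw [← inner_U a, ← mul_apply_eq_comp, ← U_add, add_neg_cancel, U_zero]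
  rfl

theorem norm_U (a : ℤ) (g : D.H) : ‖D.U a g‖ = ‖g‖ := by
  exact (Lp.compMeasurePreservingₗᵢ ℂ _ (D.mpU a)).norm_map g

theorem R_zero : D.R 0 = 1 := by
  ext1 g
  apply Lp.ext
  filter_upwards [R_ae 0 g] with p hp
  simpa [D.σ_zero] using hp

theorem R_add (a b : ℤ) : D.R (a + b) = D.R a * D.R b := by
  ext1 g
  apply Lp.ext
  filter_upwards [R_ae (a + b) g, R_ae a (D.R b g),
    (D.mpR a).quasiMeasurePreserving.ae (R_ae b g)] with p h1 h2 h3
  rw [h1, mul_apply_eq_comp, h2, h3, sub_sub, ← D.σ_add, add_comm b a]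

theorem inner_R (a : ℤ) (g h : D.H) : inner ℂ (D.R a g) (D.R a h) = inner ℂ g h :=
  (Lp.compMeasurePreservingₗᵢ ℂ _ (D.mpR a)).inner_map_map g h

theorem star_R (a : ℤ) : star (D.R a) = D.R (-a) := by
  rw [ContinuousLinearMap.star_eq_adjoint, eq_comm, ContinuousLinearMap.eq_adjoint_iff]
  intro g h
  rw [← inner_R a, ← mul_apply_eq_comp, ← R_add, add_neg_cancel, R_zero]
  rfl

theorem πL_ae {f : X → ℂ} (hf : Bd f) (g : D.H) :
    (D.πL f g : X × ℤ → ℂ) =ᵐ[D.ν] fun p => f (D.σ p.2 p.1) * g p := mulOp_ae (bd_L hf) g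

theorem πR_ae {f : X → ℂ} (hf : Bd f) (g : D.H) :
    (D.πR f g : X × ℤ → ℂ) =ᵐ[D.ν] fun p => f p.1 * g p := mulOp_ae (bd_R hf) g

theorem πL_mul {f g : X → ℂ} (hf : Bd f) (hg : Bd g) :
    D.πL f * D.πL g = D.πL fun x => f x * g x := mulOp_mul (bd_L hf) (bd_L hg)

theorem πL_U {f : X → ℂ} (hf : Bd f) (a : ℤ) :
    D.πL f * D.U a = D.U a * D.πL fun x => f (D.σ a x) := by
  ext1 g
  apply Lp.ext
  have hf' : Bd fun x => f (D.σ a x) := hf.comp (meas_σ a)
  filter_upwards [πL_ae hf (D.U a g), U_ae a g, U_ae a (D.πL (fun x => f (D.σ a x)) g),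
    (D.mpU a).quasiMeasurePreserving.ae (πL_ae hf' g)] with p h1 h2 h3 h4
  rw [mul_apply_eq_comp, mul_apply_eq_comp, h1, h2, h3, h4, ← D.σ_add,
    add_sub_cancel]

theorem ae_L {q : X → Prop} (h : ∀ᵐ x ∂D.μ, q x) : ∀ᵐ p ∂D.ν, q (D.σ p.2 p.1) :=
  ae_ν_iff.2 fun k => (D.mp k).quasiMeasurePreserving.ae h

theorem πL_congr {f g : X → ℂ} (hf : Bd f) (hg : Bd g) (h : f =ᵐ[D.μ] g) :
    D.πL f = D.πL g := by
  exact mulOp_congr (bd_L hf) (bd_L hg) (ae_L h)

theorem πL_Ω {f : X → ℂ} (hf : Bd f) : D.πL f D.Ω = D.πR f D.Ω := by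
  apply Lp.ext
  filter_upwards [πL_ae hf D.Ω, πR_ae hf D.Ω, Ω_ae (D := D)] with p h1 h2 h3
  rw [h1, h2, h3]
  by_cases h : p.2 = 0
  · rw [h, D.σ_zero]
  · simp [h]

theorem π_mul {f g : X → ℝ} (hf : Bd f) (hg : Bd g) :
    D.π f * D.π g = D.π fun x => f x * g x := by
  unfold Sys.π
  rw [πL_mul hf.ofReal hg.ofReal]
  simp only [Complex.ofReal_mul]

theorem π_add {f g : X → ℝ} (hf : Bd f) (hg : Bd g) :
    D.π (fun x => f x + g x) = D.π f + D.π g := by
  unfold Sys.π Sys.πL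
  rw [← mulOp_add (bd_L hf.ofReal) (bd_L hg.ofReal)]
  simp only [Complex.ofReal_add]

theorem π_sub {f g : X → ℝ} (hf : Bd f) (hg : Bd g) :
    D.π (fun x => f x - g x) = D.π f - D.π g := by
  unfold Sys.π Sys.πL
  rw [← mulOp_sub (bd_L hf.ofReal) (bd_L hg.ofReal)]
  simp only [Complex.ofReal_sub]

theorem π_const (c : ℝ) : D.π (fun _ => c) = (c : ℂ) • 1 := by
  exact mulOp_const _

theorem π_smul {f : X → ℝ} (hf : Bd f) (c : ℝ) : D.π (fun x => c * f x) = (c : ℂ) • D.π f := by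
  unfold Sys.π Sys.πL
  rw [← mulOp_smul (bd_L hf.ofReal)]
  simp only [Complex.ofReal_mul]

theorem star_π {f : X → ℝ} (hf : Bd f) : star (D.π f) = D.π f := by
  unfold Sys.π Sys.πL
  rw [star_mulOp (bd_L hf.ofReal)]
  simp only [Complex.conj_ofReal]

theorem π_U {f : X → ℝ} (hf : Bd f) (a : ℤ) :
    D.π f * D.U a = D.U a * D.π fun x => f (D.σ a x) := πL_U hf.ofReal a

theorem π_congr {f g : X → ℝ} (hf : Bd f) (hg : Bd g) (h : f =ᵐ[D.μ] g) : D.π f = D.π g := by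
  refine πL_congr hf.ofReal hg.ofReal ?_
  filter_upwards [h] with x hx
  rw [hx]

theorem norm_π_le {f : X → ℝ} (hf : Bd f) {C : ℝ} (hC : 0 ≤ C) (h : ∀ᵐ x ∂D.μ, |f x| ≤ C) :
    ‖D.π f‖ ≤ C := by
  refine norm_mulOp_le (bd_L hf.ofReal) hC (ae_L (q := fun x => ‖(f x : ℂ)‖ ≤ C) ?_)
  filter_upwards [h] with x hx
  simpa using hx

theorem norm_π_Ω_sq {f : X → ℝ} (hf : Bd f) : ‖D.π f D.Ω‖ ^ 2 = ∫ x, f x ^ 2 ∂D.μ := by
  have h := (πL_ae (D := D) hf.ofReal D.Ω).and (Ω_ae (D := D))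
  rw [norm_sq_eq, integral_of_slice (integrable_norm_sq _) 0]
  · refine integral_congr_ae ?_
    filter_upwards [ae_ν_iff.1 h 0] with x hx
    unfold Sys.π
    simp [hx.1, hx.2, D.σ_zero]
  · intro j hj
    filter_upwards [ae_ν_iff.1 h j] with x hx
    unfold Sys.π
    simp [hx.1, hx.2, hj]

theorem mem_U (a : ℤ) : D.Mem (D.U a) := by
  refine ⟨fun b => ?_, fun f hf => ?_⟩
  · refine ContinuousLinearMap.ext fun g => Lp.ext ?_
    filter_upwards [U_ae a (D.R b g), R_ae b (D.U a g),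
      (D.mpU a).quasiMeasurePreserving.ae (R_ae b g),
      (D.mpR b).quasiMeasurePreserving.ae (U_ae a g)] with p h1 h2 h3 h4
    rw [mul_apply_eq_comp, mul_apply_eq_comp, h1, h2, h3, h4,
      sub_right_comm]
  · refine ContinuousLinearMap.ext fun g => Lp.ext ?_
    filter_upwards [U_ae a (D.πR f g), πR_ae hf (D.U a g),
      (D.mpU a).quasiMeasurePreserving.ae (πR_ae hf g), U_ae a g] with p h1 h2 h3 h4
    rw [mul_apply_eq_comp, mul_apply_eq_comp, h1, h2, h3, h4]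

theorem mem_πL {f : X → ℂ} (hf : Bd f) : D.Mem (D.πL f) := by
  refine ⟨fun b => ?_, fun g hg => ?_⟩
  · refine ContinuousLinearMap.ext fun g => Lp.ext ?_
    filter_upwards [πL_ae hf (D.R b g), R_ae b (D.πL f g),
      (D.mpR b).quasiMeasurePreserving.ae (πL_ae hf g), R_ae b g] with p h1 h2 h3 h4
    rw [mul_apply_eq_comp, mul_apply_eq_comp, h1, h2, h3, h4, ← D.σ_add,
      sub_add_cancel]
  · change mulOp _ _ * mulOp _ _ = mulOp _ _ * mulOp _ _
    rw [mulOp_mul (bd_L hf) (bd_R hg), mulOp_mul (bd_R hg) (bd_L hf)]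
    simp only [mul_comm]

theorem mem_π {f : X → ℝ} (hf : Bd f) : D.Mem (D.π f) := mem_πL hf.ofReal

theorem mem_one : D.Mem 1 := ⟨fun _ => Commute.one_left _, fun _ _ => Commute.one_left _⟩

theorem mem_zero : D.Mem 0 := ⟨fun _ => Commute.zero_left _, fun _ _ => Commute.zero_left _⟩

theorem Mem.mul {x y : D.H →L[ℂ] D.H} (hx : D.Mem x) (hy : D.Mem y) : D.Mem (x * y) :=
  ⟨fun b => (hx.1 b).mul_left (hy.1 b), fun f hf => (hx.2 f hf).mul_left (hy.2 f hf)⟩

theorem Mem.add {x y : D.H →L[ℂ] D.H} (hx : D.Mem x) (hy : D.Mem y) : D.Mem (x + y) :=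
  ⟨fun b => (hx.1 b).add_left (hy.1 b), fun f hf => (hx.2 f hf).add_left (hy.2 f hf)⟩

theorem Mem.sub {x y : D.H →L[ℂ] D.H} (hx : D.Mem x) (hy : D.Mem y) : D.Mem (x - y) :=
  ⟨fun b => (hx.1 b).sub_left (hy.1 b), fun f hf => (hx.2 f hf).sub_left (hy.2 f hf)⟩

theorem Mem.smul {x : D.H →L[ℂ] D.H} (hx : D.Mem x) (c : ℂ) : D.Mem (c • x) :=
  ⟨fun b => (hx.1 b).smul_left c, fun f hf => (hx.2 f hf).smul_left c⟩

theorem Mem.pow {x : D.H →L[ℂ] D.H} (hx : D.Mem x) (n : ℕ) : D.Mem (x ^ n) :=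
  ⟨fun b => (hx.1 b).pow_left n, fun f hf => (hx.2 f hf).pow_left n⟩

theorem star_πR {f : X → ℂ} (hf : Bd f) :
    star (D.πR f) = D.πR fun x => (starRingEnd ℂ) (f x) := star_mulOp (bd_R hf)

theorem Mem.star {x : D.H →L[ℂ] D.H} (hx : D.Mem x) : D.Mem (star x) := by
  refine ⟨fun b => ?_, fun f hf => ?_⟩
  · have := (hx.1 (-b)).star_star
    rwa [star_R, neg_neg] at this
  · have := (hx.2 _ hf.conj).star_star
    rw [star_πR hf.conj] at this
    simpa only [Complex.conj_conj] using this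

theorem Mem.inverse {x : D.H →L[ℂ] D.H} (hx : D.Mem x) : D.Mem (Ring.inverse x) := by
  have key : ∀ y, Commute x y → Commute (Ring.inverse x) y := by
    intro y h
    by_cases hu : IsUnit x
    · obtain ⟨u, rfl⟩ := hu
      rw [Ring.inverse_unit]
      exact h.units_inv_left
    · rw [Ring.inverse_non_unit x hu]
      exact Commute.zero_left _
  exact ⟨fun b => key _ (hx.1 b), fun f hf => key _ (hx.2 f hf)⟩

theorem τ_one : D.τ 1 = 1 := by
  unfold Sys.τ
  rw [one_apply_eq_self, inner_self_eq_norm_sq_to_K, norm_Ω]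
  simp

theorem τ_star (x : D.H →L[ℂ] D.H) : D.τ (star x) = (starRingEnd ℂ) (D.τ x) := by
  unfold Sys.τ
  rw [ContinuousLinearMap.star_eq_adjoint, ContinuousLinearMap.adjoint_inner_right,
    inner_conj_symm]

theorem τ_add (x y : D.H →L[ℂ] D.H) : D.τ (x + y) = D.τ x + D.τ y := by
  simp [τ, inner_add_right]

theorem τ_sub (x y : D.H →L[ℂ] D.H) : D.τ (x - y) = D.τ x - D.τ y := by
  simp [τ, inner_sub_right]

theorem τ_smul (c : ℂ) (x : D.H →L[ℂ] D.H) : D.τ (c • x) = c * D.τ x := by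
  simp [τ, inner_smul_right]

theorem τ_star_mul (x y : D.H →L[ℂ] D.H) : D.τ (star x * y) = inner ℂ (x D.Ω) (y D.Ω) := by
  unfold Sys.τ
  rw [mul_apply_eq_comp, ContinuousLinearMap.star_eq_adjoint,
    ContinuousLinearMap.adjoint_inner_right]

theorem τ_π {f : X → ℝ} (hf : Bd f) : D.τ (D.π f) = (∫ x, f x ∂D.μ : ℝ) := by
  have h := (πL_ae (D := D) hf.ofReal D.Ω).and (Ω_ae (D := D))
  unfold Sys.τ
  rw [inner_Ω, ← integral_complex_ofReal]
  refine integral_congr_ae ?_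
  filter_upwards [ae_ν_iff.1 h 0] with x hx
  unfold Sys.π
  simp [hx.1, hx.2, D.σ_zero]

end Crest.Agent.R113.Sys
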