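import Crest.Agent.R113.Mul

/-! Row 113: a fixed point theorem for monotone Lipschitz maps. -/

set_option autoImplicit false

open MeasureTheory Filter Topology
open scoped ENNReal

namespace Crest.Agent.R113

namespace KKTA

theorem inner_toLp {X : Type*} [MeasurableSpace X] {μ : Measure X} {f g : X → ℝ}
    (F G : Lp ℝ 2 μ) (hF : F =ᵐ[μ] f) (hG : G =ᵐ[μ] g) : inner ℝ F G = ∫ x, f x * g x ∂μ := by
  rw [L2.inner_def]
  refine integral_congr_ae ?_
  filter_upwards [hF, hG] with x h1 h2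
  rw [h1, h2]; simp [mul_comm]

theorem clamp_lip (c s t : ℝ) : |max (-c) (min c s) - max (-c) (min c t)| ≤ |s - t| := by
  refine (abs_max_sub_max_le_max _ _ _ _).trans (max_le (by simp) ?_)
  exact (abs_min_sub_min_le_max _ _ _ _).trans (max_le (by simp) le_rfl)

theorem kkt {X : Type*} (m : MeasurableSpace X) [m0 : MeasurableSpace X] (hm : m ≤ m0)
    (μ : Measure X) [IsProbabilityMeasure μ] (A : (X → ℝ) → X → ℝ)
    (hA : ∀ h, Bd h → Measurable (A h) ∧ ∀ x, |A h x| ≤ 1)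
    (hmono : ∀ h h', Bd h → Bd h' → 0 ≤ ∫ x, (A h x - A h' x) * (h x - h' x) ∂μ)
    (hlip : ∀ h h', Bd h → Bd h' → ∫ x, (A h x - A h' x) ^ 2 ∂μ ≤ 4 * ∫ x, (h x - h' x) ^ 2 ∂μ)
    {a : ℝ} (ha : 0 < a) :
    ∃ h : X → ℝ, Measurable[m] h ∧ (∀ x, |h x| ≤ 1 / a) ∧
      ∀ g : X → ℝ, Measurable[m] g → Bd g →
        ∫ x, A h x * g x ∂μ = -a * ∫ x, h x * g x ∂μ := by
  obtain ⟨P, hP⟩ : ∃ P : Lp ℝ 2 μ → Lp ℝ 2 μ, ∀ H, P H = (condExpL2 ℝ ℝ hm H : Lp ℝ 2 μ) :=
    ⟨_, fun _ => rfl⟩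
  have Pm : ∀ H, AEStronglyMeasurable[m] (P H : X → ℝ) μ := fun H => by
    rw [hP]; exact aestronglyMeasurable_condExpL2 hm H
  have Psub : ∀ H H', P (H - H') = P H - P H' := fun H H' => by simp [hP]
  have Pnorm : ∀ H, ‖P H‖ ≤ ‖H‖ := fun H => by rw [hP]; exact norm_condExpL2_coe_le hm H
  have Pinner : ∀ H G : Lp ℝ 2 μ, AEStronglyMeasurable[m] (G : X → ℝ) μ →
      inner ℝ (P H) G = inner ℝ H G := fun H G hG => by
    rw [hP]; exact inner_condExpL2_eq_inner_fun hm H G hG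
  have ha' : 0 < 1 / a := by positivity
  obtain ⟨rep, rm, rb, re⟩ : ∃ rep : Lp ℝ 2 μ → X → ℝ, (∀ H, Measurable[m] (rep H)) ∧
      (∀ H x, |rep H x| ≤ 1 / a) ∧
      ∀ H, rep H =ᵐ[μ] fun x => max (-(1 / a)) (min (1 / a) (P H x)) := by
    refine ⟨fun H x => max (-(1 / a)) (min (1 / a) ((Pm H).mk _ x)), fun H => ?_, fun H x => ?_,
      fun H => ?_⟩
    · exact measurable_const.max (measurable_const.min (Pm H).stronglyMeasurable_mk.measurable)
    · rw [abs_le]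
      exact ⟨le_max_left _ _, max_le (by linarith) (min_le_left _ _)⟩
    · filter_upwards [(Pm H).ae_eq_mk] with x hx
      rw [hx]
  have brep : ∀ H, Bd (rep H) := fun H => ⟨(rm H).mono hm le_rfl, _, rb H⟩
  have bA : ∀ H, Bd (A (rep H)) := fun H => ⟨(hA _ (brep H)).1, 1, (hA _ (brep H)).2⟩
  obtain ⟨R, hR⟩ : ∃ R : Lp ℝ 2 μ → Lp ℝ 2 μ, ∀ H, R H =ᵐ[μ] rep H :=
    ⟨fun H => ((brep H).memLp_fin μ 2).toLp _, fun H => MemLp.coeFn_toLp _⟩
  set W : Lp ℝ 2 μ → Lp ℝ 2 μ := fun H => ((bA H).memLp_fin μ 2).toLp _ with hWdef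
  have hW : ∀ H, W H =ᵐ[μ] A (rep H) := fun H => MemLp.coeFn_toLp _
  have Rm : ∀ H, AEStronglyMeasurable[m] (R H : X → ℝ) μ := fun H =>
    (rm H).stronglyMeasurable.aestronglyMeasurable.congr (hR H).symm
  have PW : ∀ H, ∀ᵐ x ∂μ, |P (W H) x| ≤ 1 := fun H => by
    have h1 := ((bA H).memLp_fin μ 2).condExpL2_ae_eq_condExp (𝕜 := ℝ) hm
    have h2 := ae_bdd_abs_condExp_of_ae_bdd_abs (m := m) (μ := μ) (R := (1 : ℝ)) (f := A (rep H))
      (Eventually.of_forall (hA _ (brep H)).2)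
    filter_upwards [h1, h2] with x e1 e2
    rw [hP, hWdef]
    simp only
    rw [e1]; exact e2
  obtain ⟨t, ht⟩ : ∃ t, t = a / (a ^ 2 + 4) := ⟨_, rfl⟩
  have ht0 : 0 < t := by rw [ht]; positivity
  have hta : 1 - t * a = 4 / (a ^ 2 + 4) := by rw [ht]; field_simp; ring
  have hta0 : 0 < 1 - t * a := by rw [hta]; positivity
  have hq : (1 - t * a) ^ 2 + 4 * t ^ 2 = 1 - t * a := by rw [hta, ht]; field_simp; ring
  set Ψ : Lp ℝ 2 μ → Lp ℝ 2 μ := fun H => (1 - t * a) • R H - t • P (W H) with hΨ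
  have hcontr : ∀ H H', ‖Ψ H - Ψ H'‖ ≤ √(1 - t * a) * ‖H - H'‖ := by
    intro H H'
    have e : Ψ H - Ψ H' = (1 - t * a) • (R H - R H') - t • P (W H - W H') := by
      simp only [hΨ, Psub, smul_sub]; abel
    have dR : (R H - R H' : Lp ℝ 2 μ) =ᵐ[μ] fun x => rep H x - rep H' x := by
      filter_upwards [Lp.coeFn_sub (R H) (R H'), hR H, hR H'] with x h1 h2 h3
      rw [h1, Pi.sub_apply, h2, h3]
    have dW : (W H - W H' : Lp ℝ 2 μ) =ᵐ[μ] fun x => A (rep H) x - A (rep H') x := by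
      filter_upwards [Lp.coeFn_sub (W H) (W H'), hW H, hW H'] with x h1 h2 h3
      rw [h1, Pi.sub_apply, h2, h3]
    have h1 : 0 ≤ inner ℝ (R H - R H') (P (W H - W H')) := by
      rw [real_inner_comm, Pinner _ _ (((Rm H).sub (Rm H')).congr (Lp.coeFn_sub _ _).symm),
        inner_toLp _ _ dW dR]
      exact hmono _ _ (brep H) (brep H')
    have h2 : ‖W H - W H'‖ ^ 2 ≤ 4 * ‖R H - R H'‖ ^ 2 := by
      rw [← real_inner_self_eq_norm_sq, ← real_inner_self_eq_norm_sq, inner_toLp _ _ dW dW,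
        inner_toLp _ _ dR dR]
      simpa only [sq] using hlip _ _ (brep H) (brep H')
    have h3 : ‖R H - R H'‖ ≤ ‖H - H'‖ := by
      refine le_trans (Lp.norm_le_norm_of_ae_le ?_) (Pnorm (H - H'))
      rw [Psub]
      filter_upwards [dR, re H, re H', Lp.coeFn_sub (P H) (P H')] with x e1 e2 e3 e4
      rw [e1, e2, e3, e4]
      exact clamp_lip _ _ _
    have h4 : ‖P (W H - W H')‖ ^ 2 ≤ ‖W H - W H'‖ ^ 2 :=
      pow_le_pow_left₀ (norm_nonneg _) (Pnorm _) 2
    have h5 : ‖R H - R H'‖ ^ 2 ≤ ‖H - H'‖ ^ 2 := pow_le_pow_left₀ (norm_nonneg _) h3 2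
    rw [← Real.sqrt_sq (norm_nonneg (H - H')), ← Real.sqrt_mul hta0.le]
    refine Real.le_sqrt_of_sq_le ?_
    rw [e, norm_sub_sq_real, inner_smul_left, inner_smul_right, norm_smul, norm_smul, mul_pow,
      mul_pow, Real.norm_eq_abs, Real.norm_eq_abs, sq_abs, sq_abs]
    simp only [conj_trivial]
    have h6 : 0 ≤ (1 - t * a) * (t * inner ℝ (R H - R H') (P (W H - W H'))) := by positivity
    have h7 : t ^ 2 * ‖P (W H - W H')‖ ^ 2 ≤ t ^ 2 * (4 * ‖R H - R H'‖ ^ 2) :=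
      mul_le_mul_of_nonneg_left (h4.trans h2) (sq_nonneg _)
    have h8 : (1 - t * a) * ‖R H - R H'‖ ^ 2 ≤ (1 - t * a) * ‖H - H'‖ ^ 2 :=
      mul_le_mul_of_nonneg_left h5 hta0.le
    have h9 : (1 - t * a) ^ 2 * ‖R H - R H'‖ ^ 2 + t ^ 2 * (4 * ‖R H - R H'‖ ^ 2) =
        (1 - t * a) * ‖R H - R H'‖ ^ 2 := by
      conv_rhs => rw [← hq]
      ring
    linarith
  have hC : ContractingWith (NNReal.sqrt ⟨1 - t * a, hta0.le⟩) Ψ := by
    refine ⟨?_, LipschitzWith.of_dist_le_mul fun H H' => ?_⟩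
    · rw [← NNReal.coe_lt_coe, Real.coe_sqrt, NNReal.coe_one]
      refine (Real.sqrt_lt' one_pos).2 ?_
      have : 0 < t * a := by positivity
      show 1 - t * a < 1 ^ 2
      linarith
    · rw [dist_eq_norm, dist_eq_norm, Real.coe_sqrt]
      exact hcontr H H'
  obtain ⟨H, hH, -⟩ := hC.exists_fixedPoint 0 (edist_ne_top _ _)
  have hH' : H = (1 - t * a) • R H - t • P (W H) := hH.symm
  have hae : H =ᵐ[μ] fun x => (1 - t * a) * R H x - t * P (W H) x := by
    conv_lhs => rw [hH']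
    filter_upwards [Lp.coeFn_sub ((1 - t * a) • R H) (t • P (W H)),
      Lp.coeFn_smul (1 - t * a) (R H), Lp.coeFn_smul t (P (W H))] with x h1 h2 h3
    rw [h1, Pi.sub_apply, h2, h3]; rfl
  have Hm : AEStronglyMeasurable[m] (H : X → ℝ) μ :=
    (((Rm H).const_mul _).sub ((Pm _).const_mul _)).congr hae.symm
  have PH : P H = H := by
    have h1 := Pinner H (P H - H) (((Pm H).sub Hm).congr (Lp.coeFn_sub _ _).symm)
    rw [← sub_eq_zero, ← inner_sub_left, inner_self_eq_zero, sub_eq_zero] at h1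
    exact h1
  have RH : R H = H := by
    apply Lp.ext
    filter_upwards [hae, hR H, re H, PW H] with x h1 h2 h3 h4
    rw [h2, h3, PH]
    have h5 := abs_le.1 (rb H x)
    have h6 := abs_le.1 h4
    rw [h2] at h1
    have h7 : (1 - t * a) * (1 / a) + t = 1 / a := by field_simp; ring
    have h8 : H x ≤ 1 / a := by rw [h1]; nlinarith
    have h9 : -(1 / a) ≤ H x := by rw [h1]; nlinarith
    rw [min_eq_right h8, max_eq_right h9]
  have PWH : P (W H) = (-a) • R H := by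
    have h1 : t • P (W H) = t • ((-a) • R H) := by
      have : t • P (W H) = (1 - t * a) • R H - H := by
        conv_rhs => rw [hH']
        rw [← hH']
        conv_rhs => enter [2]; rw [hH']
        abel
      rw [this]
      conv_lhs => enter [2]; rw [← RH]
      module
    exact smul_right_injective _ ht0.ne' h1
  refine ⟨rep H, rm H, rb H, fun g hg bg => ?_⟩
  have hG := (bg.memLp_fin μ 2).coeFn_toLp
  have h1 := Pinner (W H) _ (hg.stronglyMeasurable.aestronglyMeasurable.congr hG.symm)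
  rw [PWH, inner_smul_left, inner_toLp _ _ (hR H) hG, inner_toLp _ _ (hW H) hG] at h1
  simpa using h1.symm

end KKTA

/-- PLAN. `m = MeasurableSpace.comap e _ ≤ _`. On the set `𝒦` of `H : Lp ℝ 2 μ` that are
`AEStronglyMeasurable[m]` and a.e. bounded by `1/a` (closed, hence complete, nonempty) choose for
each `H` an `m`-measurable representative `rep H` bounded by `1/a` everywhere (clamp `mk`), and put
`Ψ H = (1 - t a) • H - t • condExpL2 (A (rep H))` with `t = a/(a²+4)`. It maps `𝒦` to itself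
(`condExp` of a function bounded by `1` is a.e. bounded by `1`; `MemLp.condExpL2_ae_eq_condExp`),
and `‖ΨH - ΨH'‖² ≤ ((1-ta)² + 4t²)‖H-H'‖²` because `⟪H-H', condExpL2 (ΔA)⟫ = ⟪H-H', ΔA⟫ ≥ 0`.
`ContractingWith.exists_fixedPoint'`. At the fixed point `condExpL2 (A h) = -a h`, test against
`G ∘ e`. An `m`-measurable function is constant on the fibres of `e` (preimages of `{h x}` are
of the form `e ⁻¹' B`), and is of the form `G ∘ e` is NOT needed. -/
theorem exists_kkt {X : Type*} [MeasurableSpace X] (μ : Measure X) [IsProbabilityMeasure μ]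
    {e : X → X} (he : Measurable e) (A : (X → ℝ) → X → ℝ)
    (hA : ∀ h, Bd h → Measurable (A h) ∧ ∀ x, |A h x| ≤ 1)
    (hmono : ∀ h h', Bd h → Bd h' → 0 ≤ ∫ x, (A h x - A h' x) * (h x - h' x) ∂μ)
    (hlip : ∀ h h', Bd h → Bd h' → ∫ x, (A h x - A h' x) ^ 2 ∂μ ≤ 4 * ∫ x, (h x - h' x) ^ 2 ∂μ)
    {a : ℝ} (ha : 0 < a) (ha1 : a ≤ 1) :
    ∃ h : X → ℝ, Measurable[MeasurableSpace.comap e inferInstance] h ∧ (∀ x, |h x| ≤ 1 / a) ∧
      ∀ g : X → ℝ, Measurable[MeasurableSpace.comap e inferInstance] g → Bd g →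
        ∫ x, A h x * g x ∂μ = -a * ∫ x, h x * g x ∂μ :=
  have _ := ha1
  KKTA.kkt _ he.comap_le μ A hA hmono hlip ha

theorem eq_of_comap {X : Type*} [MeasurableSpace X] {e : X → X} {h : X → ℝ}
    (hh : Measurable[MeasurableSpace.comap e inferInstance] h) {x y : X} (hxy : e x = e y) :
    h x = h y := by
  obtain ⟨B, -, hB⟩ := hh (measurableSet_singleton (h x))
  have hx : x ∈ e ⁻¹' B := by rw [hB]; rfl
  have hy : y ∈ e ⁻¹' B := by simpa [hxy] using hx
  rw [hB] at hy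
  exact hy.symm

theorem meas_of_comap {X : Type*} [MeasurableSpace X] {e : X → X} (he : Measurable e) {h : X → ℝ}
    (hh : Measurable[MeasurableSpace.comap e inferInstance] h) : Measurable h :=
  hh.mono he.comap_le le_rfl

theorem comap_comp {X : Type*} [MeasurableSpace X] {e : X → X} {G : X → ℝ} (hG : Measurable G) :
    Measurable[MeasurableSpace.comap e inferInstance] fun x => G (e x) :=
  hG.comp (Measurable.of_comap_le le_rfl)

end Crest.Agent.R113
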