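import Crest.Agent.R113.Wait
import Crest.Agent.R113.KKT

/-! Row 113: a function which is monotone and unbiased in the blocks is almost block constant. -/

set_option autoImplicit false

open MeasureTheory Filter Topology
open scoped ENNReal

namespace Crest.Agent.R113.Sys

variable {X : Type*} [MeasurableSpace X] {D : Sys X} {S G : Set X} {N : ℕ} {r : X → ℝ}

namespace BlockA

theorem int_σ (k : ℤ) {F : X → ℝ} (hF : Measurable F) :
    ∫ x, F (D.σ k x) ∂D.μ = ∫ x, F x ∂D.μ := by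
  rw [← integral_map (meas_σ k).aemeasurable hF.aestronglyMeasurable, (D.mp k).map_eq]

theorem sum_ite_le (f : ℕ → ℝ) {t N : ℕ} (h : t < N) :
    ∑ s ∈ Finset.range N, (if s ≤ t then f s else 0) = ∑ s ∈ Finset.range (t + 1), f s := by
  rw [← Finset.sum_filter]
  congr 1
  ext s
  simp only [Finset.mem_filter, Finset.mem_range]
  omega

theorem bd_ite {t : X → ℕ} (ht : Measurable t) (s : ℕ) {f : X → ℝ} (hf : Bd f) :
    Bd fun x => if s ≤ t x then f x else 0 := by
  obtain ⟨h1, C, h2⟩ := hf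
  refine ⟨Measurable.ite (measurableSet_le measurable_const ht) h1 measurable_const, max C 0,
    fun x => ?_⟩
  simp only
  split_ifs
  · exact (h2 x).trans (le_max_left _ _)
  · simp

theorem bd_sum (hS : MeasurableSet S) (hit : D.Hit S N) {f : ℕ → X → ℝ} (hf : ∀ s, Bd (f s)) :
    Bd fun x => ∑ s ∈ Finset.range (D.wt S x + 1), f s x := by
  have := Bd.finset_sum (Finset.range N) fun s _ => bd_ite (hit.meas_wt hS) s (hf s)
  simpa only [sum_ite_le _ (hit.wt_lt _)] using this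

end BlockA

open BlockA

/-- PLAN. a.e. `x ∈ G` has `r x ≤ r (σ s x)` for all `s ≤ wt x` (induction, `mp`). So
`∫_{wt ≥ s} |r∘σ s - r| ≤ ∫_{wt ≥ s} (r∘σ s - r) + 2 μ Gᶜ` and
`∫_{wt ≥ s} r∘σ s = ∫_{wb ≥ s} r` (`wb_shift_iff`). Sum over `1 ≤ s ≤ N`. -/
theorem block_sum (hS : MeasurableSet S) (hit : D.Hit S N) (hr : Measurable r)
    (hr1 : ∀ x, 0 ≤ r x ∧ r x ≤ 1) (hG : MeasurableSet G) (hG1 : ∀ x ∈ G, x ∉ S → D.σ 1 x ∈ G)
    (hmono : ∀ᵐ x ∂D.μ, x ∈ G → x ∉ S → r x ≤ r (D.σ 1 x)) :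
    ∫ x, ∑ s ∈ Finset.range (D.wt S x + 1), |r (D.σ (s : ℕ) x) - r x| ∂D.μ ≤
      ∫ x, r x * ((D.wb S x : ℝ) - D.wt S x) ∂D.μ + 2 * N * D.μ.real Gᶜ := by
  have br : Bd r := Bd.of_bound hr hr1
  have brs : ∀ s : ℕ, Bd fun x => r (D.σ (s : ℕ) x) := fun s => br.comp (meas_σ _)
  have hall : ∀ᵐ x ∂D.μ, ∀ s : ℕ, D.σ (s : ℕ) x ∈ G → D.σ (s : ℕ) x ∉ S →
      r (D.σ (s : ℕ) x) ≤ r (D.σ 1 (D.σ (s : ℕ) x)) :=
    ae_all_iff.2 fun s => (D.mp s).quasiMeasurePreserving.ae hmono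
  have b1 := bd_sum hS hit fun s => (brs s).sub br
  have b2 := (Bd.const (2 * N : ℝ)).mul (Bd.indicator_one hG.compl)
  have h1 : ∫ x, ∑ s ∈ Finset.range (D.wt S x + 1), |r (D.σ (s : ℕ) x) - r x| ∂D.μ ≤
      ∫ x, (∑ s ∈ Finset.range (D.wt S x + 1), (r (D.σ (s : ℕ) x) - r x) +
        2 * N * Gᶜ.indicator 1 x) ∂D.μ := by
    refine integral_mono_ae ((bd_sum hS hit fun s => ((brs s).sub br).abs).integrable D.μ)
      ((b1.add b2).integrable D.μ) ?_
    filter_upwards [hall] with x hx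
    by_cases hxG : x ∈ G
    · have ind : ∀ s : ℕ, s ≤ D.wt S x → D.σ (s : ℕ) x ∈ G ∧ r x ≤ r (D.σ (s : ℕ) x) := by
        intro s hs
        induction s with
        | zero => simpa [D.σ_zero] using hxG
        | succ s ih =>
          obtain ⟨i1, i2⟩ := ih (by omega)
          have i3 : D.σ (s : ℕ) x ∉ S := not_mem_of_lt_wt (by omega)
          have e : D.σ ((s + 1 : ℕ) : ℤ) x = D.σ 1 (D.σ (s : ℕ) x) := by
            rw [← D.σ_add]; congr 1; push_cast; ring
          rw [e]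
          exact ⟨hG1 _ i1 i3, i2.trans (hx s i1 i3)⟩
      rw [Set.indicator_of_notMem (by simpa using hxG), mul_zero, add_zero]
      refine le_of_eq (Finset.sum_congr rfl fun s hs => abs_of_nonneg ?_)
      have := (ind s (by have := Finset.mem_range.1 hs; omega)).2
      linarith
    · rw [Set.indicator_of_mem (by simpa using hxG), Pi.one_apply, mul_one]
      have h2 : ∑ s ∈ Finset.range (D.wt S x + 1), |r (D.σ (s : ℕ) x) - r x| ≤
          ∑ s ∈ Finset.range (D.wt S x + 1), ((r (D.σ (s : ℕ) x) - r x) + 2) :=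
        Finset.sum_le_sum fun s _ => by
          have := hr1 x; have := hr1 (D.σ (s : ℕ) x)
          rw [abs_le]; constructor <;> linarith
      rw [Finset.sum_add_distrib, Finset.sum_const, Finset.card_range, nsmul_eq_mul] at h2
      have h3 : ((D.wt S x + 1 : ℕ) : ℝ) ≤ N := by exact_mod_cast hit.wt_lt x
      linarith
  rw [integral_add (b1.integrable D.μ) (b2.integrable D.μ), integral_const_mul,
    integral_indicator_one hG.compl] at h1
  refine h1.trans (le_of_eq ?_)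
  congr 1
  have e1 : ∀ s : ℕ, ∫ x, (if s ≤ D.wt S x then r (D.σ (s : ℕ) x) else 0) ∂D.μ =
      ∫ x, (if s ≤ D.wb S x then r x else 0) ∂D.μ := fun s => by
    rw [← int_σ s (bd_ite (hit.meas_wb hS) s br).1]
    congr 1; funext x
    have := hit.wb_shift_iff x s
    simp only [← not_le, not_iff_not] at this
    simp only [this]
  have e2 : ∫ x, ∑ s ∈ Finset.range (D.wt S x + 1), r (D.σ (s : ℕ) x) ∂D.μ =
      ∫ x, r x * (D.wb S x + 1) ∂D.μ := by
    simp only [← sum_ite_le _ (hit.wt_lt _)]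
    rw [integral_finset_sum _ fun s _ => (bd_ite (hit.meas_wt hS) s (brs s)).integrable D.μ]
    simp only [e1]
    rw [← integral_finset_sum _ fun s _ => (bd_ite (hit.meas_wb hS) s br).integrable D.μ]
    congr 1; funext x
    rw [sum_ite_le (fun _ => r x) (hit.wb_lt x)]
    simp [mul_comm]
  simp only [Finset.sum_sub_distrib, Finset.sum_const, Finset.card_range, nsmul_eq_mul]
  rw [integral_sub ((bd_sum hS hit brs).integrable D.μ), e2, ← integral_sub]
  · congr 1; funext x; push_cast; ring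
  · exact (br.mul ((hit.bd_wb hS).add (Bd.const 1))).integrable D.μ
  · simpa using (((hit.bd_wt hS).add (Bd.const 1)).mul br).integrable D.μ
  · simpa using (((hit.bd_wt hS).add (Bd.const 1)).mul br).integrable D.μ

/-- PLAN. `g k x = r (σ (-k) (fin x)) = r (σ (wt x - k) x)`; pointwise
`∑_{k ≤ wt x} |r x - g k x| = ∑_{s ≤ wt x} |r (σ s x) - r x|`. With `k₀ = ⌊N/Γ⌋₊ + 1 ≥ N/Γ`,
`∑_{k<k₀} ∫_{k ≤ wt} |r - g k| ≤ N b`, so some `k < k₀` has `∫_{k ≤ wt}|r - g k| ≤ Γ b`, and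
`{wt < k} ⊆ {wt ≤ N/Γ}`. -/
theorem block_const (hS : MeasurableSet S) (hit : D.Hit S N) (hr : Measurable r)
    (hr1 : ∀ x, 0 ≤ r x ∧ r x ≤ 1) {b Γ δ : ℝ} (hΓ : 1 ≤ Γ)
    (hb : ∫ x, ∑ s ∈ Finset.range (D.wt S x + 1), |r (D.σ (s : ℕ) x) - r x| ∂D.μ ≤ N * b)
    (hδ : D.μ.real {x | (D.wt S x : ℝ) ≤ N / Γ} ≤ δ) :
    ∃ G₀ : X → ℝ, Measurable G₀ ∧ (∀ x, 0 ≤ G₀ x ∧ G₀ x ≤ 1) ∧
      ∫ x, |r x - G₀ (D.fin S x)| ∂D.μ ≤ Γ * b + δ := by
  have : Nonempty X := nonempty_of_isProbabilityMeasure D.μ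
  have hN0 : (0 : ℝ) < N := by exact_mod_cast hit.pos (Classical.arbitrary X)
  have hΓ0 : 0 < Γ := by linarith
  have br : Bd r := Bd.of_bound hr hr1
  have hb0 : 0 ≤ b := by
    have : 0 ≤ N * b := le_trans
      (integral_nonneg fun x => Finset.sum_nonneg fun s _ => abs_nonneg _) hb
    exact nonneg_of_mul_nonneg_right this hN0 |> fun h => by nlinarith
  set f : ℕ → X → ℝ := fun k x => |r x - r (D.σ (-(k : ℤ)) (D.fin S x))| with hf
  have bf : ∀ k, Bd (f k) := fun k =>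
    (br.sub (br.comp ((meas_σ _).comp (hit.meas_fin hS)))).abs
  have e1 : ∀ x, ∑ k ∈ Finset.range (D.wt S x + 1), f k x =
      ∑ s ∈ Finset.range (D.wt S x + 1), |r (D.σ (s : ℕ) x) - r x| := fun x => by
    rw [← Finset.sum_flip]
    refine Finset.sum_congr rfl fun s hs => ?_
    have hs' : s ≤ D.wt S x := by have := Finset.mem_range.1 hs; omega
    simp only [hf, fin]
    rw [← D.σ_add, abs_sub_comm]
    congr 4
    push_cast [hs']
    ring
  set k₀ := ⌊(N : ℝ) / Γ⌋₊ + 1 with hk₀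
  have hk₀' : (N : ℝ) ≤ k₀ * Γ := by
    rw [← div_le_iff₀ hΓ0, hk₀]
    push_cast
    exact (Nat.lt_floor_add_one _).le
  have h1 : ∑ k ∈ Finset.range k₀, ∫ x, (if k ≤ D.wt S x then f k x else 0) ∂D.μ ≤
      ∑ _k ∈ Finset.range k₀, Γ * b := by
    rw [← integral_finset_sum _ fun k _ => (bd_ite (hit.meas_wt hS) k (bf k)).integrable D.μ,
      Finset.sum_const, Finset.card_range, nsmul_eq_mul]
    refine le_trans ?_ (hb.trans (by nlinarith))
    refine integral_mono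
      ((Bd.finset_sum _ fun k _ => bd_ite (hit.meas_wt hS) k (bf k)).integrable D.μ)
      ((bd_sum hS hit fun s => ((br.comp (meas_σ _)).sub br).abs).integrable D.μ) fun x => ?_
    simp only
    rw [← e1, ← Finset.sum_filter]
    refine Finset.sum_le_sum_of_subset_of_nonneg (fun k hk => ?_) fun k _ _ => abs_nonneg _
    simp only [Finset.mem_filter, Finset.mem_range] at hk ⊢
    omega
  obtain ⟨k, hk, hk2⟩ := Finset.exists_le_of_sum_le ⟨0, by simp [hk₀]⟩ h1
  refine ⟨fun y => r (D.σ (-(k : ℤ)) y), hr.comp (meas_σ _), fun y => hr1 _, ?_⟩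
  have mA : MeasurableSet {x | (D.wt S x : ℝ) ≤ N / Γ} :=
    measurableSet_le (hit.bd_wt hS).1 measurable_const
  have i1 := (bd_ite (hit.meas_wt hS) k (bf k)).integrable D.μ
  have i2 := (Bd.indicator_one mA).integrable D.μ
  have h2 : ∫ x, f k x ∂D.μ ≤ ∫ x, ((if k ≤ D.wt S x then f k x else 0) +
      {x | (D.wt S x : ℝ) ≤ N / Γ}.indicator 1 x) ∂D.μ := by
    refine integral_mono ((bf k).integrable D.μ) (i1.fun_add i2) fun x => ?_
    simp only
    split_ifs with c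
    · exact le_add_of_nonneg_right (Set.indicator_nonneg (fun _ _ => zero_le_one) _)
    · have : x ∈ {x | (D.wt S x : ℝ) ≤ N / Γ} := by
        have h3 : D.wt S x ≤ ⌊(N : ℝ) / Γ⌋₊ := by have := Finset.mem_range.1 hk; omega
        exact (Nat.le_floor_iff (by positivity)).1 h3
      rw [Set.indicator_of_mem this, zero_add, Pi.one_apply]
      have := hr1 x; have := hr1 (D.σ (-(k : ℤ)) (D.fin S x))
      simp only [hf]
      rw [abs_le]; constructor <;> linarith
  rw [integral_add i1 i2, integral_indicator_one mA] at h2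
  have h3 : ∫ x, f k x ∂D.μ ≤ Γ * b + δ := by linarith
  exact h3

end Crest.Agent.R113.Sys
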