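import Crest.Agent.R113.Mul

/-! Row 113: functional calculus of multiplication operators. -/

set_option autoImplicit false

open MeasureTheory Filter Topology
open scoped ENNReal

namespace Crest.Agent.R113

/-- the real functional calculus on `B(H)`, with the instances found for a general `H`
(instance search fails when `H` is `Lp ..`; prove what you need about `rcfc` for general `H`). -/
noncomputable def rcfc {H : Type*} [NormedAddCommGroup H] [InnerProductSpace ℂ H] [CompleteSpace H]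
    (g : ℝ → ℝ) (a : H →L[ℂ] H) : H →L[ℂ] H := cfc g a

section General
variable {H : Type*} [NormedAddCommGroup H] [InnerProductSpace ℂ H] [CompleteSpace H]

/-- a unital star homomorphism `C(K, ℂ) → B(H)` which is continuous computes `cfc` -/
theorem cfc_eq_of_hom {a : H →L[ℂ] H} (ha : IsStarNormal a) {K : Set ℂ} [CompactSpace K]
    (hK : spectrum ℂ a ⊆ K) (φ : C(K, ℂ) →⋆ₐ[ℂ] (H →L[ℂ] H)) (hφ : Continuous φ)
    (h1 : φ ((ContinuousMap.id ℂ).restrict K) = a) {g : ℂ → ℂ} (hg : Continuous g) :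
    cfc g a = φ ((⟨g, hg⟩ : C(ℂ, ℂ)).restrict K) := by
  have e : cfcHomSuperset ha hK = φ :=
    ContinuousMap.UniqueHom.eq_of_continuous_of_map_id K _ _ (cfcHomSuperset_continuous ha hK) hφ
      (by rw [cfcHomSuperset_id, h1])
  rw [← e, cfcHomSuperset_apply, cfc_apply g a ha hg.continuousOn]
  rfl

theorem rcfc_eq {a : H →L[ℂ] H} (ha : IsSelfAdjoint a) (g : ℝ → ℝ) :
    rcfc g a = cfc (fun z : ℂ => (g z.re : ℂ)) a := cfc_real_eq_complex g ha

theorem rcfc_log {a b : H →L[ℂ] H} {ε : ℝ} (h : a = star b * b + (ε : ℂ) • 1) :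
    rcfc Real.log a = rcfc (fun t => Real.log (max ε t)) a := by
  unfold rcfc
  refine cfc_congr fun t ht => ?_
  have h1 : algebraMap ℝ (H →L[ℂ] H) ε ≤ a := by
    rw [h, Algebra.algebraMap_eq_smul_one, Complex.coe_smul]
    exact le_add_of_nonneg_left (star_mul_self_nonneg b)
  have ha : IsSelfAdjoint a := by
    rw [h, Complex.coe_smul, ← Algebra.algebraMap_eq_smul_one]
    exact (IsSelfAdjoint.star_mul_self b).add (IsSelfAdjoint.algebraMap _ (IsSelfAdjoint.all ε))
  rw [max_eq_right ((algebraMap_le_iff_le_spectrum ha).1 h1 t ht)]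

end General

variable {Y : Type*} [MeasurableSpace Y] {ν : Measure Y}

theorem bd_comp_K {F : Y → ℂ} (hF : Measurable F) {K : Set ℂ} [CompactSpace K] (h : ∀ y, F y ∈ K)
    (g : C(K, ℂ)) : Bd fun y => g ⟨F y, h y⟩ :=
  ⟨g.continuous.measurable.comp (hF.subtype_mk), ‖g‖, fun _ => g.norm_coe_le_norm _⟩

/-- the homomorphism `g ↦ mulOp (g ∘ F)` -/
noncomputable def mulHom (ν : Measure Y) {F : Y → ℂ} (hF : Measurable F) {K : Set ℂ}
    [CompactSpace K] (h : ∀ y, F y ∈ K) : C(K, ℂ) →⋆ₐ[ℂ] (Lp ℂ 2 ν →L[ℂ] Lp ℂ 2 ν) where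
  toFun g := mulOp ν fun y => g ⟨F y, h y⟩
  map_one' := by simpa using mulOp_const (ν := ν) 1
  map_mul' f g := (mulOp_mul (bd_comp_K hF h f) (bd_comp_K hF h g)).symm
  map_zero' := by simpa using mulOp_const (ν := ν) 0
  map_add' f g := mulOp_add (bd_comp_K hF h f) (bd_comp_K hF h g)
  commutes' c := by
    rw [Algebra.algebraMap_eq_smul_one c, Algebra.algebraMap_eq_smul_one c]
    simpa using mulOp_const (ν := ν) c
  map_star' f := (star_mulOp (bd_comp_K hF h f)).symm

theorem mulHom_cont {F : Y → ℂ} (hF : Measurable F) {K : Set ℂ}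
    [CompactSpace K] (h : ∀ y, F y ∈ K) : Continuous (mulHom ν hF h) :=
  AddMonoidHomClass.continuous_of_bound (mulHom ν hF h) 1 fun g => by
    rw [one_mul]
    exact norm_mulOp_le (bd_comp_K hF h g) (norm_nonneg _)
      (Eventually.of_forall fun _ => g.norm_coe_le_norm _)

/-- PLAN. `K := closedBall 0 r` with `r ≥ C` (bound of `F`) and `r ≥ ‖mulOp ν F‖` (so the spectrum
is inside `K`); `mulOp ν F` is normal (`star_mulOp`, `mulOp_mul`). Prove for every `h : C(K, ℂ)`
and its extension `h' : ℂ → ℂ` (e.g. `fun z => if hz : z ∈ K then h ⟨z,hz⟩ else 0`, or state the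
predicate for all continuous `g : ℂ → ℂ` with `g|K = h`) that `cfc h' (mulOp F) = mulOp (h' ∘ F)`,
by `ContinuousMap.induction_on_of_compact` (const, id, star id, add, mul, closure: both sides are
1-Lipschitz in sup norm over `K`: `norm_cfc_le`, `norm_mulOp_le`). -/
theorem cfc_mulOp {F : Y → ℂ} (hF : Bd F) {g : ℂ → ℂ} (hg : Continuous g) :
    cfc g (mulOp ν F) = mulOp ν (fun y => g (F y)) := by
  obtain ⟨C, hC⟩ := hF.2
  have hn : IsStarNormal (mulOp ν F) := ⟨by
    rw [star_mulOp hF, Commute, SemiconjBy, mulOp_mul hF.conj hF, mulOp_mul hF hF.conj]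
    simp only [mul_comm]⟩
  have hK : spectrum ℂ (mulOp ν F) ⊆ Metric.closedBall 0 (max C (‖mulOp ν F‖ * ‖(1 : Lp ℂ 2 ν →L[ℂ] Lp ℂ 2 ν)‖)) :=
    (spectrum.subset_closedBall_norm_mul _).trans
      (Metric.closedBall_subset_closedBall (le_max_right _ _))
  have hm : ∀ y, F y ∈ Metric.closedBall 0 (max C (‖mulOp ν F‖ * ‖(1 : Lp ℂ 2 ν →L[ℂ] Lp ℂ 2 ν)‖)) :=
    fun y => mem_closedBall_zero_iff.2 ((hC y).trans (le_max_left _ _))
  exact cfc_eq_of_hom hn hK (mulHom ν hF.1 hm) (mulHom_cont hF.1 hm) rfl hg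

/-- real version. PLAN: `cfc_real_eq_complex` and `cfc_mulOp` with `z ↦ (g z.re : ℂ)`;
self-adjointness from `star_mulOp`. -/
theorem cfc_mulOp_real {F : Y → ℝ} (hF : Bd F) {g : ℝ → ℝ} (hg : Continuous g) :
    rcfc g (mulOp ν fun y => (F y : ℂ)) = mulOp ν (fun y => (g (F y) : ℂ)) := by
  have ha : IsSelfAdjoint (mulOp ν fun y => (F y : ℂ)) := by
    rw [IsSelfAdjoint, star_mulOp hF.ofReal]
    simp only [Complex.conj_ofReal]
  rw [rcfc_eq ha, cfc_mulOp hF.ofReal (g := fun z => (g z.re : ℂ))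
    (Complex.continuous_ofReal.comp (hg.comp Complex.continuous_re))]
  simp only [Complex.ofReal_re]

/-- the logarithm of a multiplication operator bounded below. PLAN: `mulOp F - ε • 1 = star a * a`
with `a = mulOp √(F - ε)`, so the real spectrum lies in `[ε,∞)`; there `log = log ∘ max ε`
(`cfc_congr`), which is continuous; use `cfc_mulOp_real`. -/
theorem cfc_log_mulOp {F : Y → ℝ} (hF : Bd F) {ε : ℝ} (hε : 0 < ε) (h : ∀ y, ε ≤ F y) :
    rcfc Real.log (mulOp ν fun y => (F y : ℂ)) = mulOp ν (fun y => (Real.log (F y) : ℂ)) := by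
  have hb : Bd fun y => √(F y - ε) := by
    obtain ⟨h1, C, h2⟩ := hF.sub (Bd.const ε)
    exact ⟨h1.sqrt, √C, fun y => by
      rw [Real.norm_eq_abs, abs_of_nonneg (Real.sqrt_nonneg _)]
      exact Real.sqrt_le_sqrt ((le_abs_self _).trans (h2 y))⟩
  have e : (mulOp ν fun y => (F y : ℂ)) = star (mulOp ν fun y => ((√(F y - ε) : ℝ) : ℂ)) *
      (mulOp ν fun y => ((√(F y - ε) : ℝ) : ℂ)) + (ε : ℂ) • 1 := by
    rw [star_mulOp hb.ofReal, mulOp_mul hb.ofReal.conj hb.ofReal, ← mulOp_const,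
      ← mulOp_add (hb.ofReal.conj.mul hb.ofReal) (Bd.const _)]
    congr 1
    funext y
    rw [Complex.conj_ofReal, ← Complex.ofReal_mul, Real.mul_self_sqrt (sub_nonneg.2 (h y))]
    simp
  have hc : Continuous fun t : ℝ => Real.log (max ε t) :=
    (continuous_const.max continuous_id).log fun t => (hε.trans_le (le_max_left _ _)).ne'
  rw [rcfc_log e, cfc_mulOp_real hF hc]
  simp only [fun y => max_eq_right (h y)]

end Crest.Agent.R113
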