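import Crest.Agent.R113.Geo

/-! Row 113: variance bounds over windows of levels. -/

set_option autoImplicit false

open MeasureTheory Filter Topology
open scoped ENNReal

namespace Crest.Agent.R113.Lev

local notation "μT" => (AddCircle.haarAddCircle : Measure UnitAddCircle)

variable {θ : ℝ} (L : Lev θ)

private theorem cov_int_le {u : UnitAddCircle → ℝ} (hu : Bd u) {A : Set UnitAddCircle}
    (hA : MeasurableSet A) {d : ℝ} (hd : 0 ≤ d) (h1 : ∀ x, |u x| ≤ 1) (h2 : ∀ x ∉ A, |u x| ≤ d) :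
    ∫ x, |u x| ∂μT ≤ (μT).real A + d := by
  have h3 : ∫ x, (A.indicator (1 : UnitAddCircle → ℝ) x + d) ∂μT = (μT).real A + d := by
    rw [integral_add ((Bd.indicator_one hA).integrable _) (integrable_const _),
      integral_indicator_one hA]
    simp
  rw [← h3]
  refine integral_mono (hu.abs.integrable _) (((Bd.indicator_one hA).add (Bd.const d)).integrable _)
    fun x => ?_
  by_cases hx : x ∈ A
  · simp only [Set.indicator_of_mem hx, Pi.one_apply]
    linarith [h1 x]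
  · simp only [Set.indicator_of_notMem hx, zero_add]
    exact h2 x hx

private theorem cov_bd (θ : ℝ) (a : ℕ → ℕ) (ϑ : ℕ → ℝ) (R : ℕ → ℕ) (b : Bool) (i l : ℕ) :
    Bd (xi θ a ϑ R b i l) := Bd.of_bound (bd_xi θ a ϑ R b i l).1 (bd_xi θ a ϑ R b i l).2

private theorem cov_mean {u : UnitAddCircle → ℝ} (hu : Bd u) (h : ∀ x, 0 ≤ u x ∧ u x ≤ 1) :
    0 ≤ ∫ x, u x ∂μT ∧ ∫ x, u x ∂μT ≤ 1 := by
  refine ⟨integral_nonneg fun x => (h x).1, ?_⟩
  have := integral_mono (μ := μT) (hu.integrable _) (integrable_const (1 : ℝ)) fun x => (h x).2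
  simpa using this

private theorem cov_center {f g : UnitAddCircle → ℝ} (hf : Bd f) (hg : Bd g) :
    ∫ x, (f x - ∫ y, f y ∂μT) * (g x - ∫ y, g y ∂μT) ∂μT =
      ∫ x, f x * g x ∂μT - (∫ x, f x ∂μT) * ∫ x, g x ∂μT := by
  set a := ∫ y, f y ∂μT with ha
  set c := ∫ y, g y ∂μT with hc
  have e : (fun x => (f x - a) * (g x - c)) = fun x => (f x * g x - c * f x) - (a * g x - a * c) := by
    funext x; ring
  rw [e, integral_sub (((hf.mul hg).sub ((Bd.const c).mul hf)).integrable _)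
      ((((Bd.const a).mul hg).sub (Bd.const _)).integrable _),
    integral_sub ((hf.mul hg).integrable _) (((Bd.const c).mul hf).integrable _),
    integral_sub (((Bd.const a).mul hg).integrable _) (integrable_const _),
    integral_const_mul, integral_const_mul, ← ha, ← hc]
  simp only [integral_const, probReal_univ, one_smul]
  ring

private theorem cov_geo1 (s n : ℕ) :
    ∑ i ∈ Finset.Ico s (s + n), (1 : ℝ) / 2 ^ (s + n - i) ≤ 1 := by
  induction n with
  | zero => simp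
  | succ n ih =>
    rw [← add_assoc, Finset.sum_Ico_succ_top (by omega),
      Finset.sum_congr rfl (g := fun i => 1 / 2 * ((1 : ℝ) / 2 ^ (s + n - i))) (fun i hi => by
        have := (Finset.mem_Ico.1 hi).2
        rw [show s + n + 1 - i = s + n - i + 1 by omega, pow_succ]
        field_simp), ← Finset.mul_sum, show s + n + 1 - (s + n) = 1 by omega]
    linarith

private theorem cov_geo2 (s n : ℕ) :
    ∑ i ∈ Finset.Ico s (s + n), (1 : ℝ) / 2 ^ (i + 1) = 1 / 2 ^ s - 1 / 2 ^ (s + n) := by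
  induction n with
  | zero => simp
  | succ n ih =>
    rw [← add_assoc, Finset.sum_Ico_succ_top (by omega), ih, pow_succ]
    field_simp
    ring

private theorem cov_lin (l : ℕ) : ((l : ℝ) + 1) / 1000 ^ l ≤ 1 / 2 ^ l := by
  have h1 : ((l : ℝ) + 1) ≤ 2 ^ l := by exact_mod_cast Nat.lt_two_pow_self
  rw [div_le_div_iff₀ (by positivity) (by positivity), one_mul]
  calc ((l : ℝ) + 1) * 2 ^ l ≤ 2 ^ l * 2 ^ l := by gcongr
    _ = 4 ^ l := by rw [← mul_pow]; norm_num
    _ ≤ _ := pow_le_pow_left₀ (by norm_num) (by norm_num) _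

private theorem cov_NN (i : ℕ) : (NN i : ℝ) = 4 * 1000 ^ i := by simp [NN]

/-- PLAN. replace `ξ b i` by `xi .. i l` (`xi_trunc`, `real_near`: the exceptional set has measure
`≤ 7 (l + 1 + 4·1000^i)/1000^l ≤ 35/2^(l-i)`; this costs twice that), then `L.cov` with
`g = ξ b l` (`xi_periodic`, `bd_xi`), `1/2^l ≤ 1/2^(l-i)`. -/
theorem cov_le (b : Bool) {i l : ℕ} (hi : L.i₀ ≤ i) (hl : i < l) :
    |∫ x, L.ξ b i x * L.ξ b l x ∂μT - (∫ x, L.ξ b i x ∂μT) * ∫ x, L.ξ b l x ∂μT| ≤
      100 / 2 ^ (l - i) := by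
  set f := L.ξ b i with hf
  set f' := xi θ L.a L.ϑ L.R b i l with hf'
  set g := L.ξ b l with hg
  have bf : Bd f := cov_bd _ _ _ _ _ _ _
  have bf' : Bd f' := cov_bd _ _ _ _ _ _ _
  have bg : Bd g := cov_bd _ _ _ _ _ _ _
  have mf : ∀ x, 0 ≤ f x ∧ f x ≤ 1 := (bd_xi _ _ _ _ _ _ _).2
  have mf' : ∀ x, 0 ≤ f' x ∧ f' x ≤ 1 := (bd_xi _ _ _ _ _ _ _).2
  have mg : ∀ x, 0 ≤ g x ∧ g x ≤ 1 := (bd_xi _ _ _ _ _ _ _).2
  have h1 := L.cov b i l hl g bg.1 (fun x => by rw [abs_of_nonneg (mg x).1]; exact (mg x).2)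
    (L.xi_periodic b l)
  rw [← hf'] at h1
  have h2 := cov_int_le (bf.sub bf') (L.meas_near l (NN i)) le_rfl
    (fun x => by rw [abs_le]; constructor <;> linarith [mf x, mf' x])
    (fun x hx => by rw [hf, L.xi_trunc b hi hl hx, sub_self, abs_zero])
  have h3 := L.real_near l (by omega) (s := NN i) (by positivity)
  have h4 : 7 * ((l : ℝ) + 1 + NN i) / 1000 ^ l ≤ 35 / 2 ^ (l - i) := by
    have a1 := cov_lin l
    have a2 : (1 : ℝ) / 2 ^ l ≤ 1 / 2 ^ (l - i) :=
      one_div_le_one_div_of_le (by positivity) (pow_le_pow_right₀ (by norm_num) (by omega))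
    have a3 : (1000 : ℝ) ^ i / 1000 ^ l ≤ 1 / 2 ^ (l - i) := by
      rw [show l = i + (l - i) by omega, pow_add, ← div_div, div_self (by positivity),
        show i + (l - i) - i = l - i by omega]
      exact one_div_le_one_div_of_le (by positivity) (pow_le_pow_left₀ (by norm_num) (by norm_num) _)
    calc _ = 7 * (((l : ℝ) + 1) / 1000 ^ l) + 28 * ((1000 : ℝ) ^ i / 1000 ^ l) := by
          rw [cov_NN]; ring
      _ ≤ 7 * (1 / 2 ^ (l - i)) + 28 * (1 / 2 ^ (l - i)) := by linarith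
      _ = _ := by ring
  have h5 : ∫ x, |f x - f' x| ∂μT ≤ 35 / 2 ^ (l - i) := by linarith
  have h6 : |∫ x, f x * g x ∂μT - ∫ x, f' x * g x ∂μT| ≤ 35 / 2 ^ (l - i) := by
    rw [← integral_sub ((bf.mul bg).integrable _) ((bf'.mul bg).integrable _)]
    refine abs_integral_le_integral_abs.trans (le_trans (integral_mono
      (((bf.mul bg).sub (bf'.mul bg)).abs.integrable _) ((bf.sub bf').abs.integrable _)
      fun x => ?_) h5)
    show |f x * g x - f' x * g x| ≤ |f x - f' x|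
    rw [← sub_mul, abs_mul, abs_of_nonneg (mg x).1]
    exact mul_le_of_le_one_right (abs_nonneg _) (mg x).2
  have h7 : |(∫ x, f x ∂μT) * ∫ x, g x ∂μT - (∫ x, f' x ∂μT) * ∫ x, g x ∂μT| ≤
      35 / 2 ^ (l - i) := by
    rw [← sub_mul, abs_mul, abs_of_nonneg (cov_mean bg mg).1,
      ← integral_sub (bf.integrable _) (bf'.integrable _)]
    exact (mul_le_of_le_one_right (abs_nonneg _) (cov_mean bg mg).2).trans
      (abs_integral_le_integral_abs.trans h5)
  have a2 : (1 : ℝ) / 2 ^ l ≤ 1 / 2 ^ (l - i) :=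
    one_div_le_one_div_of_le (by positivity) (pow_le_pow_right₀ (by norm_num) (by omega))
  have a4 : (0 : ℝ) ≤ 1 / 2 ^ (l - i) := by positivity
  have e1 : (35 : ℝ) / 2 ^ (l - i) = 35 * (1 / 2 ^ (l - i)) := by ring
  have e2 : (100 : ℝ) / 2 ^ (l - i) = 100 * (1 / 2 ^ (l - i)) := by ring
  rw [abs_le] at h1 h6 h7 ⊢
  constructor <;> linarith [h1.1, h1.2, h6.1, h6.2, h7.1, h7.2]

/-- PLAN. expand the square: diagonal terms `≤ 1`, off-diagonal `2 ∑_{i<l} 100/2^(l-i) ≤ 200 n`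
(induction on `n` is convenient). -/
theorem var_window (b : Bool) {s : ℕ} (hs : L.i₀ ≤ s) (n : ℕ) :
    ∫ x, (∑ i ∈ Finset.Ico s (s + n), L.ξ b i x -
      ∑ i ∈ Finset.Ico s (s + n), ∫ y, L.ξ b i y ∂μT) ^ 2 ∂μT ≤ 300 * n := by
  have bY : ∀ i, Bd fun x => L.ξ b i x - ∫ y, L.ξ b i y ∂μT := fun i =>
    (cov_bd _ _ _ _ _ _ _).sub (Bd.const _)
  simp only [← Finset.sum_sub_distrib]
  induction n with
  | zero => simp
  | succ n ih =>
    have bS := Bd.finset_sum (Finset.Ico s (s + n)) fun i _ => bY i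
    have h1 : ∫ x, (L.ξ b (s + n) x - ∫ y, L.ξ b (s + n) y ∂μT) *
        (L.ξ b (s + n) x - ∫ y, L.ξ b (s + n) y ∂μT) ∂μT ≤ 1 := by
      have hm := cov_mean (cov_bd θ L.a L.ϑ L.R b (s + n) (2 * (s + n))) (bd_xi _ _ _ _ _ _ _).2
      have := integral_mono (μ := μT) (((bY (s + n)).mul (bY (s + n))).integrable _)
        (integrable_const (1 : ℝ)) fun x => by
          have := (bd_xi θ L.a L.ϑ L.R b (s + n) (2 * (s + n))).2 x
          show (L.ξ b (s + n) x - ∫ y, L.ξ b (s + n) y ∂μT) *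
            (L.ξ b (s + n) x - ∫ y, L.ξ b (s + n) y ∂μT) ≤ 1
          nlinarith [hm.1, hm.2, this.1, this.2]
      simpa using this
    have h2 : ∫ x, (∑ i ∈ Finset.Ico s (s + n), (L.ξ b i x - ∫ y, L.ξ b i y ∂μT)) *
        (L.ξ b (s + n) x - ∫ y, L.ξ b (s + n) y ∂μT) ∂μT ≤ 100 := by
      simp only [Finset.sum_mul]
      rw [integral_finsetSum _ fun i _ => ((bY i).mul (bY (s + n))).integrable _]
      calc _ ≤ ∑ i ∈ Finset.Ico s (s + n), 100 * ((1 : ℝ) / 2 ^ (s + n - i)) := by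
            refine Finset.sum_le_sum fun i hi => ?_
            rw [Finset.mem_Ico] at hi
            rw [cov_center (cov_bd _ _ _ _ _ _ _) (cov_bd _ _ _ _ _ _ _), mul_one_div]
            exact (le_abs_self _).trans (L.cov_le b (hs.trans hi.1) hi.2)
        _ ≤ 100 := by
            rw [← Finset.mul_sum]
            linarith [cov_geo1 s n]
    simp only [← add_assoc, Finset.sum_Ico_succ_top (Nat.le_add_right s n)]
    simp only [add_sq, mul_assoc]
    rw [integral_add, integral_add, integral_const_mul]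
    · simp only [sq] at ih ⊢
      push_cast
      linarith
    · simpa only [sq] using (bS.mul bS).integrable _
    · exact ((Bd.const 2).mul (bS.mul (bY _))).integrable _
    · simpa only [sq] using ((bS.mul bS).add ((Bd.const 2).mul (bS.mul (bY _)))).integrable _
    · simpa only [sq] using ((bY (s + n)).mul (bY _)).integrable _

/-- PLAN. `|wt_i/NN i - ξ true i| ≤ 2i/NN i + 1_{Exc i}` (`wt_ideal`, both lie in `[0,1]`), so
`∫ (..)² ≤ 1/4^i`; the sum of the errors has `L²` norm `≤ 2`; `(a+b)² ≤ 2a² + 2b²`. -/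
theorem var_wt {s : ℕ} (hs : L.i₀ ≤ s) {n : ℕ} (hn : 1 ≤ n) :
    ∃ c₀ : ℝ, ∫ x, (∑ i ∈ Finset.Ico s (s + n), ((rot θ).wt (L.S i) x : ℝ) / NN i - c₀) ^ 2 ∂μT
      ≤ 700 * n := by
  refine ⟨∑ i ∈ Finset.Ico s (s + n), ∫ y, L.ξ true i y ∂μT, ?_⟩
  have h30 := L.i₀_ge
  have hNN : ∀ i, (0 : ℝ) < NN i := fun i => by rw [cov_NN]; positivity
  have bw : ∀ i ∈ Finset.Ico s (s + n), Bd fun x => ((rot θ).wt (L.S i) x : ℝ) / NN i := by
    intro i hi
    simpa only [div_eq_mul_inv] using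
      ((L.hit_S (hs.trans (Finset.mem_Ico.1 hi).1)).bd_wt (L.S_meas i)).mul (Bd.const _)
  have be : ∀ i ∈ Finset.Ico s (s + n),
      Bd fun x => ((rot θ).wt (L.S i) x : ℝ) / NN i - L.ξ true i x := fun i hi =>
    (bw i hi).sub (cov_bd _ _ _ _ _ _ _)
  have e1 : ∀ i ∈ Finset.Ico s (s + n), ∀ x,
      |((rot θ).wt (L.S i) x : ℝ) / NN i - L.ξ true i x| ≤ 1 := by
    intro i hi x
    have a1 := (bd_xi θ L.a L.ϑ L.R true i (2 * i)).2 x
    have a2 : ((rot θ).wt (L.S i) x : ℝ) / NN i ≤ 1 := by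
      rw [div_le_one (hNN i)]
      exact_mod_cast ((L.hit_S (hs.trans (Finset.mem_Ico.1 hi).1)).wt_lt x).le
    have a3 : 0 ≤ ((rot θ).wt (L.S i) x : ℝ) / NN i := by positivity
    rw [abs_le]
    constructor <;> linarith [a1.1, a1.2]
  have e2 : ∀ i ∈ Finset.Ico s (s + n),
      ∫ x, |((rot θ).wt (L.S i) x : ℝ) / NN i - L.ξ true i x| ∂μT ≤ 4 * (1 / 2 ^ (i + 1)) := by
    intro i hi
    have hi' : L.i₀ ≤ i := hs.trans (Finset.mem_Ico.1 hi).1
    refine (cov_int_le (be i hi) (L.Exc_meas i) (d := 2 * i / NN i) (by positivity) (e1 i hi)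
      fun x hx => ?_).trans ?_
    · obtain ⟨a1, a2⟩ := L.wt_ideal hi' hx
      have a3 := (L.hit_Ut hi' (l := 2 * i) (by omega)).wt_lt x
      have a4 : L.ξ true i x = ((rot θ).wt (Ut L.a L.ϑ L.R i (2 * i)) x : ℝ) / NN i := by
        show max 0 (min 1 _) = _
        rw [min_eq_right, max_eq_right (by positivity)]
        rw [div_le_one (hNN i)]
        exact_mod_cast a3.le
      rw [a4, ← sub_div, abs_div, abs_of_pos (hNN i)]
      refine div_le_div_of_nonneg_right ?_ (hNN i).le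
      have b1 : (((rot θ).wt (Ut L.a L.ϑ L.R i (2 * i)) x : ℕ) : ℝ) ≤ (rot θ).wt (L.S i) x := by
        exact_mod_cast a1
      have b2 : (((rot θ).wt (L.S i) x : ℕ) : ℝ) ≤
          (rot θ).wt (Ut L.a L.ϑ L.R i (2 * i)) x + 2 * i := by exact_mod_cast a2
      rw [abs_le]
      constructor <;> linarith
    · have a1 := L.real_Exc hi'
      have a2 : (1 : ℝ) / 100 ^ i ≤ 1 / 2 ^ i :=
        one_div_le_one_div_of_le (by positivity) (pow_le_pow_left₀ (by norm_num) (by norm_num) _)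
      have a3 : (2 * i : ℝ) / NN i ≤ 1 / 2 ^ i := by
        refine le_trans ?_ (cov_lin i)
        rw [cov_NN, div_le_div_iff₀ (by positivity) (by positivity)]
        have : (0 : ℝ) ≤ 1000 ^ i := by positivity
        have : (0 : ℝ) ≤ i * 1000 ^ i := by positivity
        nlinarith
      have a4 : (4 : ℝ) * (1 / 2 ^ (i + 1)) = 1 / 2 ^ i + 1 / 2 ^ i := by
        rw [pow_succ]; field_simp; norm_num
      linarith
  have hv := L.var_window true hs n
  have bS := (Bd.finset_sum (Finset.Ico s (s + n)) fun i _ =>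
    cov_bd θ L.a L.ϑ L.R true i (2 * i)).sub
    (Bd.const (∑ i ∈ Finset.Ico s (s + n), ∫ y, L.ξ true i y ∂μT))
  have bE := Bd.finset_sum (Finset.Ico s (s + n)) fun i hi => (be i hi).abs
  have bW := (Bd.finset_sum (Finset.Ico s (s + n)) bw).sub
    (Bd.const (∑ i ∈ Finset.Ico s (s + n), ∫ y, L.ξ true i y ∂μT))
  have hE : ∫ x, ∑ i ∈ Finset.Ico s (s + n),
      |((rot θ).wt (L.S i) x : ℝ) / NN i - L.ξ true i x| ∂μT ≤ 4 := by
    rw [integral_finsetSum _ fun i hi => (be i hi).abs.integrable _]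
    refine (Finset.sum_le_sum e2).trans ?_
    rw [← Finset.mul_sum, cov_geo2]
    have : (1 : ℝ) / 2 ^ s ≤ 1 := by
      rw [div_le_one (by positivity)]; exact one_le_pow₀ (by norm_num)
    have : (0 : ℝ) ≤ 1 / 2 ^ (s + n) := by positivity
    linarith
  calc _ ≤ ∫ x, (2 * (∑ i ∈ Finset.Ico s (s + n), L.ξ true i x -
          ∑ i ∈ Finset.Ico s (s + n), ∫ y, L.ξ true i y ∂μT) ^ 2 +
        2 * n * ∑ i ∈ Finset.Ico s (s + n),
          |((rot θ).wt (L.S i) x : ℝ) / NN i - L.ξ true i x|) ∂μT := by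
        refine integral_mono ?_ ?_ fun x => ?_
        · simpa only [sq] using (bW.mul bW).integrable _
        · simpa only [sq] using
            (((Bd.const 2).mul (bS.mul bS)).add ((Bd.const (2 * n : ℝ)).mul bE)).integrable _
        · have a1 := Finset.abs_sum_le_sum_abs
            (fun i => ((rot θ).wt (L.S i) x : ℝ) / NN i - L.ξ true i x) (Finset.Ico s (s + n))
          have a2 := Finset.sum_le_card_nsmul _ _ _ fun i hi => e1 i hi x
          rw [Nat.card_Ico, Nat.add_sub_cancel_left, nsmul_eq_mul, mul_one] at a2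
          rw [Finset.sum_sub_distrib] at a1
          simp only
          generalize ∑ i ∈ Finset.Ico s (s + n), ((rot θ).wt (L.S i) x : ℝ) / NN i = A at a1 ⊢
          generalize ∑ i ∈ Finset.Ico s (s + n), L.ξ true i x = B at a1 ⊢
          generalize ∑ i ∈ Finset.Ico s (s + n), ∫ y, L.ξ true i y ∂μT = C
          generalize ∑ i ∈ Finset.Ico s (s + n),
            |((rot θ).wt (L.S i) x : ℝ) / NN i - L.ξ true i x| = E at a1 a2 ⊢
          have a3 : (A - B) ^ 2 ≤ n * E := by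
            rw [← sq_abs, sq]
            exact mul_le_mul (a1.trans a2) a1 (abs_nonneg _) (by positivity)
          nlinarith [sq_nonneg (A - B - (B - C))]
    _ ≤ 700 * (n : ℝ) := by
        rw [integral_add, integral_const_mul, integral_const_mul]
        · have : (0 : ℝ) ≤ n := by positivity
          nlinarith
        · simpa only [sq] using ((Bd.const 2).mul (bS.mul bS)).integrable _
        · exact ((Bd.const (2 * n : ℝ)).mul bE).integrable _

/-- PLAN. off `⋃_{i ≥ s} Exc (i+1)`, `wt_{i+1} x < 2 NN i` implies `ξ false (i+1) x = 1`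
(`wt_ideal`); Chebyshev with `var_window false` at `s+1`, `mean_false`:
`μ{∑ ξ - mean ≥ n/8} ≤ 64·300/n`. -/
theorem exists_bad {s : ℕ} (hs : L.i₀ ≤ s) {n : ℕ} (hn : 1 ≤ n) :
    ∃ Bad : Set UnitAddCircle, MeasurableSet Bad ∧ (μT).real Bad ≤ 20000 / n + 1 / 2 ^ s ∧
      ∀ x ∉ Bad, 4 * ((Finset.Ico s (s + n)).filter fun i =>
        (rot θ).wt (L.S (i + 1)) x < 2 * NN i).card ≤ n := by
  have hn' : (0 : ℝ) < n := by exact_mod_cast hn
  set Z : UnitAddCircle → ℝ := fun x => ∑ i ∈ Finset.Ico (s + 1) (s + 1 + n), L.ξ false i x -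
      ∑ i ∈ Finset.Ico (s + 1) (s + 1 + n), ∫ y, L.ξ false i y ∂μT with hZ
  have bZ : Bd Z := (Bd.finset_sum _ fun i _ => cov_bd θ L.a L.ϑ L.R false i (2 * i)).sub
    (Bd.const _)
  refine ⟨{x | ((n : ℝ) / 8) ^ 2 ≤ Z x ^ 2} ∪ ⋃ i ∈ Finset.Ico s (s + n), L.Exc (i + 1),
    (measurableSet_le measurable_const (bZ.1.pow_const 2)).union
      (Finset.measurableSet_biUnion _ fun i _ => L.Exc_meas _), ?_, fun x hx => ?_⟩
  · refine (measureReal_union_le _ _).trans (add_le_add ?_ ?_)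
    · have h1 := mul_meas_ge_le_integral_of_nonneg (μ := μT) (f := fun x => Z x ^ 2)
        (Eventually.of_forall fun x => sq_nonneg _)
        (by simpa only [sq] using (bZ.mul bZ).integrable _) (((n : ℝ) / 8) ^ 2)
      have h2 := h1.trans (L.var_window false (s := s + 1) (by omega) n)
      rw [le_div_iff₀ hn']
      have h3 : 0 ≤ (μT).real {x | ((n : ℝ) / 8) ^ 2 ≤ Z x ^ 2} := measureReal_nonneg
      refine le_of_mul_le_mul_right ?_ hn'
      nlinarith
    · refine (measureReal_biUnion_finset_le _ _).trans ?_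
      refine (Finset.sum_le_sum (g := fun i => (1 : ℝ) / 2 ^ (i + 1)) fun i hi => ?_).trans ?_
      · have := (Finset.mem_Ico.1 hi).1
        exact (L.real_Exc (by omega)).trans (one_div_le_one_div_of_le (by positivity)
          (pow_le_pow_left₀ (by norm_num) (by norm_num) _))
      · rw [cov_geo2]
        exact sub_le_self _ (by positivity)
  · simp only [Set.mem_union, Set.mem_iUnion, not_or, not_exists, Set.mem_ofPred_eq,
      not_le] at hx
    have h1 : Z x < n / 8 := lt_of_pow_lt_pow_left₀ 2 (by positivity) hx.1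
    have h2 := Finset.sum_le_card_nsmul (Finset.Ico (s + 1) (s + 1 + n)) _ _
      fun i hi => L.mean_false (i := i) (by have := (Finset.mem_Ico.1 hi).1; omega)
    rw [Nat.card_Ico, Nat.add_sub_cancel_left, nsmul_eq_mul] at h2
    have h3 : (((Finset.Ico s (s + n)).filter fun i =>
        (rot θ).wt (L.S (i + 1)) x < 2 * NN i).card : ℝ) ≤
        ∑ i ∈ Finset.Ico (s + 1) (s + 1 + n), L.ξ false i x := by
      rw [show s + 1 + n = s + n + 1 by omega, ← Finset.sum_Ico_add' (fun i => L.ξ false i x),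
        Finset.card_filter]
      push_cast
      refine Finset.sum_le_sum fun i hi => ?_
      split_ifs with hc
      · have hi' : L.i₀ ≤ i + 1 := by have := (Finset.mem_Ico.1 hi).1; omega
        have a1 := (L.wt_ideal hi' (hx.2 i hi)).1
        have a2 : (((rot θ).wt (Ut L.a L.ϑ L.R (i + 1) (2 * (i + 1))) x : ℕ) : ℝ) < 2 * NN i := by
          exact_mod_cast lt_of_le_of_lt a1 hc
        refine le_of_eq (Eq.symm ?_)
        show (if _ then _ else _) = _
        rw [if_pos]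
        rw [cov_NN] at a2
        rw [cov_NN, div_lt_iff₀ (by positivity), pow_succ]
        linarith
      · exact ((bd_xi _ _ _ _ _ _ _).2 x).1
    simp only [hZ] at h1
    have : (4 * ((Finset.Ico s (s + n)).filter fun i =>
        (rot θ).wt (L.S (i + 1)) x < 2 * NN i).card : ℝ) ≤ n := by linarith
    exact_mod_cast this

/-- PLAN. at least `n/4` levels of the window are good for `x` and non rigid for `r`
(`exists_bad`, `L.nr`), `pair_sep`. -/
theorem window_sep {s n : ℕ} (hs : L.i₀ ≤ s) (hn : 5 ≤ n) (hns : n ≤ s) :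
    ∃ Bad : Set UnitAddCircle, MeasurableSet Bad ∧ (μT).real Bad ≤ 20000 / n + 1 / 2 ^ s ∧
      ∀ x ∉ Bad, ∀ r : ℤ, (1000 : ℤ) ^ (s + n) ≤ |r| → |r| ≤ 1000 ^ (s + 4 * n) →
        (n : ℝ) / (80 * 1000 ^ 20) ≤ ∑ i ∈ Finset.Ico s (s + n),
          (|((rot θ).wt (L.S i) ((rot θ).σ r x) : ℝ) - (rot θ).wt (L.S i) x| / NN i +
          |((rot θ).wt (L.S (i + 1)) ((rot θ).σ r x) : ℝ) - (rot θ).wt (L.S (i + 1)) x| /
            NN (i + 1)) := by
  obtain ⟨Bad, h1, h2, h3⟩ := L.exists_bad hs (n := n) (by omega)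
  refine ⟨Bad, h1, h2, fun x hx r hr1 hr2 => ?_⟩
  have a1 := h3 x hx
  have a2 := L.nr s n hn hns r hr1 hr2
  set G := (Finset.Ico s (s + n)).filter fun i => 2 * NN i ≤ (rot θ).wt (L.S (i + 1)) x ∧
    1 / 1000 ^ 20 ≤ ‖(((r : ℝ) * L.ϑ i : ℝ) : UnitAddCircle)‖ with hG
  have a3 : n ≤ 4 * G.card := by
    have b1 : Finset.Ico s (s + n) ⊆ G ∪ (((Finset.Ico s (s + n)).filter fun i =>
        (rot θ).wt (L.S (i + 1)) x < 2 * NN i) ∪ (Finset.Ico s (s + n)).filter fun i =>
        ‖(((r : ℝ) * L.ϑ i : ℝ) : UnitAddCircle)‖ < 1 / 1000 ^ 20) := by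
      intro i hi
      simp only [hG, Finset.mem_union, Finset.mem_filter, hi, true_and]
      by_contra hc
      simp only [not_or, not_lt, not_and] at hc
      exact hc.1 hc.2.1 hc.2.2
    have b2 := (Finset.card_le_card b1).trans ((Finset.card_union_le _ _).trans
      (Nat.add_le_add_left (Finset.card_union_le _ _) _))
    rw [Nat.card_Ico, Nat.add_sub_cancel_left] at b2
    omega
  refine le_trans ?_ (Finset.sum_le_sum_of_subset_of_nonneg (Finset.filter_subset _ _ : G ⊆ _)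
    fun i _ _ => by positivity)
  refine le_trans ?_ (Finset.card_nsmul_le_sum G _ (1 / (20 * 1000 ^ 20 : ℝ)) fun i hi => ?_)
  · have : (n : ℝ) ≤ 4 * G.card := by exact_mod_cast a3
    rw [nsmul_eq_mul, div_le_iff₀ (by positivity)]
    linarith
  · obtain ⟨b1, b2, b3⟩ := Finset.mem_filter.1 hi
    exact L.pair_sep (hs.trans (Finset.mem_Ico.1 b1).1) b2 b3

end Crest.Agent.R113.Lev
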