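import Crest.Agent.R113.Alg
import Crest.Prelude.Def_ProductShift

/-! Row 113 (S0151): the rotation of the infinite cube. -/

set_option autoImplicit false

open MeasureTheory Filter Topology
open scoped ENNReal

namespace Crest.Agent.R113

open Crest.AnalysisR.ProductShift

namespace CubeA

theorem mp_fract (a : ℝ) :
    MeasurePreserving (fun t : ℝ => Int.fract (t + a)) unitLebesgue unitLebesgue := by
  have hm : Measurable (fun t : ℝ => Int.fract (t + a)) := (measurable_id.add_const a).fract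
  refine ⟨hm, ?_⟩
  ext s hs
  rw [Measure.map_apply hm hs, unitLebesgue, Measure.restrict_apply (hm hs),
    Measure.restrict_apply hs]
  set f := Int.fract a with hf
  have hf0 : 0 ≤ f := Int.fract_nonneg a
  have hf1 : f < 1 := Int.fract_lt_one a
  have ha : a = f + (⌊a⌋ : ℤ) := by rw [hf, Int.fract]; ring
  have e1 : (fun t : ℝ => Int.fract (t + a)) ⁻¹' s ∩ Set.Ico 0 1 =
      ((fun t : ℝ => t + f) ⁻¹' (s ∩ Set.Ico f 1)) ∪
        ((fun t : ℝ => t + (f - 1)) ⁻¹' (s ∩ Set.Ico 0 f)) := by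
    ext t
    simp only [Set.mem_inter_iff, Set.mem_preimage, Set.mem_Ico, Set.mem_union]
    have h1 : Int.fract (t + a) = Int.fract (t + f) := by
      rw [ha, ← add_assoc, Int.fract_add_intCast]
    rw [h1]
    constructor
    · rintro ⟨h2, h3, h4⟩
      by_cases h5 : t + f < 1
      · left
        rw [Int.fract_eq_self.2 ⟨by linarith, h5⟩] at h2
        exact ⟨h2, by linarith, h5⟩
      · right
        have h6 : Int.fract (t + f) = t + (f - 1) := by
          rw [Int.fract_eq_iff]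
          exact ⟨by linarith, by linarith, 1, by simp⟩
        rw [h6] at h2
        exact ⟨h2, by linarith, by linarith⟩
    · rintro (⟨h2, h3, h4⟩ | ⟨h2, h3, h4⟩)
      · rw [Int.fract_eq_self.2 ⟨by linarith, h4⟩]
        exact ⟨h2, by linarith, by linarith⟩
      · have h6 : Int.fract (t + f) = t + (f - 1) := by
          rw [Int.fract_eq_iff]
          exact ⟨by linarith, by linarith, 1, by simp⟩
        rw [h6]
        exact ⟨h2, by linarith, by linarith⟩
  have e2 : s ∩ Set.Ico 0 1 = (s ∩ Set.Ico f 1) ∪ (s ∩ Set.Ico 0 f) := by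
    ext t
    simp only [Set.mem_inter_iff, Set.mem_Ico, Set.mem_union]
    constructor
    · rintro ⟨h2, h3, h4⟩
      by_cases h5 : t < f
      · exact Or.inr ⟨h2, h3, h5⟩
      · exact Or.inl ⟨h2, by linarith, h4⟩
    · rintro (⟨h2, h3, h4⟩ | ⟨h2, h3, h4⟩)
      · exact ⟨h2, by linarith, h4⟩
      · exact ⟨h2, h3, by linarith⟩
  rw [e1, e2, measure_union, measure_union, measure_preimage_add_right,
    measure_preimage_add_right]
  · rw [Set.disjoint_left]
    rintro t ⟨_, h2, _⟩ ⟨_, _, h3⟩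
    linarith
  · exact hs.inter measurableSet_Ico
  · rw [Set.disjoint_left]
    rintro t ⟨_, _, h2⟩ ⟨_, h3, _⟩
    simp only at h2 h3
    linarith
  · exact (measurable_id.add_const _) (hs.inter measurableSet_Ico)

theorem dropCost_meas (θ c : ℕ → ℝ) : Measurable (dropCost θ c) := by
  unfold dropCost
  refine Measurable.ennreal_tsum fun i => ?_
  refine Measurable.ennreal_ofReal (Measurable.const_mul ?_ _)
  exact (measurable_from_top (f := fun z : ℤ => (z : ℝ))).comp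
    (((measurable_pi_apply i).add_const _).floor)

theorem floor_step (t θ : ℝ) : ⌊Int.fract t + θ⌋ = ⌊t + θ⌋ - ⌊t⌋ := by
  have : Int.fract t + θ = t + θ - (⌊t⌋ : ℤ) := by rw [Int.fract]; ring
  rw [this, Int.floor_sub_intCast]

theorem sum_floor (t θ : ℝ) (n : ℕ) :
    ∑ j ∈ Finset.range n, (⌊Int.fract (t + ((j : ℕ) : ℤ) * θ) + θ⌋ : ℝ) =
      (⌊t + n * θ⌋ : ℝ) - ⌊t⌋ := by
  induction n with
  | zero => simp
  | succ n ih =>
    rw [Finset.sum_range_succ, ih, floor_step]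
    push_cast
    have : t + (n : ℝ) * θ + θ = t + ((n : ℝ) + 1) * θ := by ring
    rw [this]
    ring

theorem lint_floor {θ c : ℝ} (h0 : 0 < θ) (h1 : θ < 1) (hc : 0 ≤ c) :
    ∫⁻ t, ENNReal.ofReal (c * (⌊t + θ⌋ : ℝ)) ∂unitLebesgue ≤ ENNReal.ofReal (c * θ) := by
  have h : ∀ᵐ t ∂unitLebesgue, ENNReal.ofReal (c * (⌊t + θ⌋ : ℝ)) ≤
      (Set.Ico (1 - θ) 1).indicator (fun _ => ENNReal.ofReal c) t := by
    filter_upwards [(ae_restrict_mem measurableSet_Ico :
      ∀ᵐ t ∂unitLebesgue, t ∈ Set.Ico (0 : ℝ) 1)] with t ht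
    by_cases h2 : 1 - θ ≤ t
    · rw [Set.indicator_of_mem (show t ∈ Set.Ico (1 - θ) 1 from ⟨h2, ht.2⟩)]
      apply ENNReal.ofReal_le_ofReal
      have : ⌊t + θ⌋ = 1 := by
        rw [Int.floor_eq_iff]
        constructor <;> push_cast <;> linarith [ht.2]
      rw [this]; simp
    · have : ⌊t + θ⌋ = 0 := by
        rw [Int.floor_eq_iff]
        constructor <;> push_cast <;> linarith [ht.1]
      rw [this]; simp
  refine (lintegral_mono_ae h).trans ?_
  rw [lintegral_indicator_const measurableSet_Ico, ENNReal.ofReal_mul hc]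
  gcongr
  refine (Measure.restrict_apply_le _ _).trans ?_
  rw [Real.volume_Ico]
  simp

theorem weight_le {θ c : ℕ → ℝ} (hθ : ∀ i, 0 < θ i ∧ θ i < 1) (hc : ∀ i, 0 ≤ c i)
    {y : ℕ → ℝ} (hy : ∀ i, 0 ≤ y i) (K : ℕ) :
    weight θ c y ≤ Real.exp (-∑ i ∈ Finset.range K, c i * (⌊y i + θ i⌋ : ℝ)) := by
  unfold weight
  split_ifs with h
  · exact (Real.exp_pos _).le
  · apply Real.exp_le_exp.2
    rw [neg_le_neg_iff]
    have hnn : ∀ i ∈ Finset.range K, 0 ≤ c i * (⌊y i + θ i⌋ : ℝ) := fun i _ =>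
      mul_nonneg (hc i) (by exact_mod_cast Int.floor_nonneg.2 (by linarith [hy i, (hθ i).1]))
    rw [← ENNReal.ofReal_le_iff_le_toReal h, ENNReal.ofReal_sum_of_nonneg hnn]
    exact ENNReal.sum_le_tsum _

end CubeA

theorem ae_cube : ∀ᵐ x ∂cubeMeasure, ∀ i, x i ∈ Set.Ico (0 : ℝ) 1 := by
  rw [ae_all_iff]
  intro i
  have h : ∀ᵐ t ∂unitLebesgue, t ∈ Set.Ico (0 : ℝ) 1 := ae_restrict_mem measurableSet_Ico
  exact (measurePreserving_eval_infinitePi (fun _ : ℕ => unitLebesgue) i).quasiMeasurePreserving.ae h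

/-- PLAN. `t ↦ fract (t + a)` preserves `unitLebesgue` (piecewise translation; or through
`AddCircle.measurePreserving_equivIco`-type lemmas), then `Measure.infinitePi_map_pi` /
`measurePreserving` of coordinatewise maps. -/
theorem mp_orbit (θ : ℕ → ℝ) (k : ℤ) :
    MeasurePreserving (orbitPoint θ k) cubeMeasure cubeMeasure := by
  have hm : ∀ i, Measurable fun t : ℝ => Int.fract (t + (k : ℝ) * θ i) :=
    fun i => (CubeA.mp_fract _).measurable
  refine ⟨measurable_pi_iff.2 fun i => (hm i).comp (measurable_pi_apply i), ?_⟩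
  have h := Measure.infinitePi_map_pi (fun _ : ℕ => unitLebesgue)
    (f := fun i (t : ℝ) => Int.fract (t + (k : ℝ) * θ i)) hm
  simp only [(CubeA.mp_fract _).map_eq] at h
  exact h

theorem orbit_add (θ : ℕ → ℝ) (k l : ℤ) (x : ℕ → ℝ) :
    orbitPoint θ (k + l) x = orbitPoint θ k (orbitPoint θ l x) := by
  funext i
  simp only [orbitPoint]
  rw [Int.fract_eq_fract]
  refine ⟨⌊x i + (l : ℝ) * θ i⌋, ?_⟩
  rw [Int.fract]
  push_cast
  ring

open Classical in
/-- the action, made the identity off the cube -/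
noncomputable def cubeσ (θ : ℕ → ℝ) (k : ℤ) (x : ℕ → ℝ) : ℕ → ℝ :=
  if ∀ i, x i ∈ Set.Ico (0 : ℝ) 1 then orbitPoint θ k x else x

theorem mp_cubeσ (θ : ℕ → ℝ) (k : ℤ) : MeasurePreserving (cubeσ θ k) cubeMeasure cubeMeasure := by
  have hs : MeasurableSet {x : ℕ → ℝ | ∀ i, x i ∈ Set.Ico (0 : ℝ) 1} := by
    rw [Set.setOf_forall]
    exact MeasurableSet.iInter fun i => (measurable_pi_apply i) measurableSet_Ico
  have hm : Measurable (cubeσ θ k) := by
    unfold cubeσ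
    exact Measurable.ite hs (mp_orbit θ k).measurable measurable_id
  refine (mp_orbit θ k).congr hm ?_
  filter_upwards [ae_cube] with x hx
  simp only [cubeσ, if_pos hx]

theorem cubeσ_zero (θ : ℕ → ℝ) (x : ℕ → ℝ) : cubeσ θ 0 x = x := by
  unfold cubeσ
  split_ifs with h
  · funext i
    simp only [orbitPoint, Int.cast_zero, zero_mul, add_zero]
    exact Int.fract_eq_self.2 (h i)
  · rfl

theorem cubeσ_add (θ : ℕ → ℝ) (k l : ℤ) (x : ℕ → ℝ) :
    cubeσ θ (k + l) x = cubeσ θ k (cubeσ θ l x) := by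
  by_cases h : ∀ i, x i ∈ Set.Ico (0 : ℝ) 1
  · have h2 : ∀ i, orbitPoint θ l x i ∈ Set.Ico (0 : ℝ) 1 := fun i =>
      ⟨Int.fract_nonneg _, Int.fract_lt_one _⟩
    have e1 : ∀ m, cubeσ θ m x = orbitPoint θ m x := fun m => if_pos h
    have e2 : cubeσ θ k (orbitPoint θ l x) = orbitPoint θ k (orbitPoint θ l x) := if_pos h2
    rw [e1, e1, e2, orbit_add]
  · have e1 : ∀ m, cubeσ θ m x = x := fun m => if_neg h
    rw [e1, e1, e1]

/-- the system -/
noncomputable def cube (θ : ℕ → ℝ) : Sys (ℕ → ℝ) where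
  μ := cubeMeasure
  prob := inferInstance
  σ := cubeσ θ
  mp := mp_cubeσ θ
  σ_zero := cubeσ_zero θ
  σ_add := cubeσ_add θ

theorem weight_meas (θ c : ℕ → ℝ) : Measurable (weight θ c) := by
  unfold weight
  refine Measurable.ite ((CubeA.dropCost_meas θ c) (measurableSet_singleton ⊤)) measurable_const ?_
  exact (CubeA.dropCost_meas θ c).ennreal_toReal.neg.exp

theorem weight_mem (θ c : ℕ → ℝ) (x : ℕ → ℝ) : 0 ≤ weight θ c x ∧ weight θ c x ≤ 1 := by
  unfold weight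
  split_ifs
  · exact ⟨le_rfl, zero_le_one⟩
  · exact ⟨(Real.exp_pos _).le, Real.exp_le_one_iff.2 (neg_nonpos.2 ENNReal.toReal_nonneg)⟩

/-- `pairSpace` is `(cube θ).H` by unfolding `pairMeasure`; `U_ae`, `mulOp_ae`, `ae_ν_iff`,
`ae_cube`, and `mpU` to transport an a.e. identity -/
theorem shift_eq {θ c : ℕ → ℝ} {T : pairSpace →L[ℂ] pairSpace} (hT : IsWeightedShift θ c T) :
    T = ((cube θ).U 1 * (cube θ).π (weight θ c) : (cube θ).H →L[ℂ] (cube θ).H) := by
  have hb : Bd (weight θ c) := Bd.of_bound (weight_meas θ c) (weight_mem θ c)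
  refine ContinuousLinearMap.ext fun g => ?_
  apply Lp.ext
  have h1 := hT g
  have h2 := Sys.U_ae (D := cube θ) 1 ((cube θ).π (weight θ c) g)
  have h3 := ((cube θ).mpU 1).quasiMeasurePreserving.ae (Sys.πL_ae (D := cube θ) hb.ofReal g)
  have h4 : ∀ᵐ p ∂(cube θ).ν, ∀ i, p.1 i ∈ Set.Ico (0 : ℝ) 1 :=
    Sys.ae_ν_iff.2 fun _ => ae_cube
  have h1' : (T g : (ℕ → ℝ) × ℤ → ℂ) =ᵐ[(cube θ).ν]
      fun p => (weight θ c (orbitPoint θ (p.2 - 1) p.1) : ℂ) *
        (g : (ℕ → ℝ) × ℤ → ℂ) (p.1, p.2 - 1) := h1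
  refine h1'.trans (EventuallyEq.symm (h2.trans ?_))
  filter_upwards [h3, h4] with p hp3 hp4
  refine hp3.trans ?_
  simp only [cube, cubeσ, if_pos hp4]
  rfl

/-- PLAN. `ofReal(-log weight) ≤ dropCost` pointwise, and `∫⁻ dropCost = ∑' ofReal (c i θ i)`
(`lintegral_tsum`, coordinate law `unitLebesgue`, `⌊t+θ⌋ = 1[t ≥ 1-θ]` on `[0,1)`). -/
theorem sum_eq_top {θ c : ℕ → ℝ} (hθ : ∀ i, 0 < θ i ∧ θ i < 1) (hc : ∀ i, 0 ≤ c i)
    (hlog : ∫⁻ x, ENNReal.ofReal (- Real.log (weight θ c x)) ∂cubeMeasure = ⊤) (M : ℝ) :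
    ∃ K : ℕ, M ≤ ∑ i ∈ Finset.range K, c i * θ i := by
  by_contra hcon
  push Not at hcon
  have h1 : ∀ x, ENNReal.ofReal (- Real.log (weight θ c x)) ≤ dropCost θ c x := by
    intro x
    unfold weight
    split_ifs with h
    · rw [h]; exact le_top
    · rw [Real.log_exp, neg_neg, ENNReal.ofReal_toReal h]
  have h2 : ∫⁻ x, dropCost θ c x ∂cubeMeasure ≤ ∑' i, ENNReal.ofReal (c i * θ i) := by
    unfold dropCost
    have hm : ∀ i, Measurable fun t : ℝ => ENNReal.ofReal (c i * (⌊t + θ i⌋ : ℝ)) := fun i =>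
      Measurable.ennreal_ofReal (Measurable.const_mul
        ((measurable_from_top (f := fun z : ℤ => (z : ℝ))).comp
          ((measurable_id.add_const _).floor)) _)
    rw [lintegral_tsum (f := fun i (x : ℕ → ℝ) => ENNReal.ofReal (c i * (⌊x i + θ i⌋ : ℝ)))
      fun i => ((hm i).comp (measurable_pi_apply i)).aemeasurable]
    refine ENNReal.tsum_le_tsum fun i => ?_
    have := (measurePreserving_eval_infinitePi (fun _ : ℕ => unitLebesgue) i).lintegral_comp (hm i)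
    exact (le_of_eq this).trans (CubeA.lint_floor (hθ i).1 (hθ i).2 (hc i))
  have h3 : ∑' i, ENNReal.ofReal (c i * θ i) ≤ ENNReal.ofReal M := by
    rw [ENNReal.tsum_eq_iSup_nat]
    refine iSup_le fun K => ?_
    rw [← ENNReal.ofReal_sum_of_nonneg fun i _ => mul_nonneg (hc i) (hθ i).1.le]
    exact ENNReal.ofReal_le_ofReal (hcon K).le
  have h4 := ((lintegral_mono h1).trans h2).trans h3
  rw [hlog] at h4
  exact ENNReal.ofReal_ne_top (top_le_iff.1 h4)

/-- PLAN. On the cube `weight y ≤ exp(-∑_{i<K} c i ⌊y i + θ i⌋)` and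
`∑_{j<n} ⌊fract(t + jθ) + θ⌋ = ⌊t + nθ⌋ ≥ nθ - 1` for `t ∈ [0,1)` (induction); take
`M = log r` in `sum_eq_top`, `C = exp(∑_{i<K} c i)`. -/
theorem cube_quasi {θ c : ℕ → ℝ} (hθ : ∀ i, 0 < θ i ∧ θ i < 1) (hc : ∀ i, 0 ≤ c i)
    (hlog : ∫⁻ x, ENNReal.ofReal (- Real.log (weight θ c x)) ∂cubeMeasure = ⊤) :
    ∀ r > (0 : ℝ), ∃ C : ℝ, ∀ n : ℕ, ∀ᵐ x ∂(cube θ).μ,
      (∏ j ∈ Finset.range n, weight θ c ((cube θ).σ (j : ℕ) x)) * r ^ n ≤ C := by
  intro r hr
  obtain ⟨K, hK⟩ := sum_eq_top hθ hc hlog (Real.log r)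
  refine ⟨Real.exp (∑ i ∈ Finset.range K, c i), fun n => ?_⟩
  filter_upwards [ae_cube] with x hx
  have h1 : ∏ j ∈ Finset.range n, weight θ c ((cube θ).σ (j : ℕ) x) ≤
      ∏ j ∈ Finset.range n, Real.exp (-∑ i ∈ Finset.range K,
        c i * (⌊Int.fract (x i + ((j : ℕ) : ℤ) * θ i) + θ i⌋ : ℝ)) := by
    refine Finset.prod_le_prod (fun j _ => (weight_mem _ _ _).1) fun j _ => ?_
    have : (cube θ).σ (j : ℕ) x = orbitPoint θ (j : ℕ) x := by
      simp only [cube, cubeσ, if_pos hx]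
    rw [this]
    exact CubeA.weight_le hθ hc (fun i => Int.fract_nonneg _) K
  rw [← Real.exp_sum, Finset.sum_neg_distrib, Finset.sum_comm] at h1
  have h2 : ∑ i ∈ Finset.range K, (n * (c i * θ i) - c i) ≤ ∑ i ∈ Finset.range K,
      ∑ j ∈ Finset.range n, c i * (⌊Int.fract (x i + ((j : ℕ) : ℤ) * θ i) + θ i⌋ : ℝ) := by
    refine Finset.sum_le_sum fun i _ => ?_
    rw [← Finset.mul_sum, CubeA.sum_floor]
    have e0 : ⌊x i⌋ = 0 := Int.floor_eq_zero_iff.2 (hx i)
    have e1 := Int.sub_one_lt_floor (x i + n * θ i)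
    rw [e0]
    have e2 : (n : ℝ) * θ i - 1 ≤ (⌊x i + n * θ i⌋ : ℝ) - ((0 : ℤ) : ℝ) := by
      push_cast
      linarith [(hx i).1]
    have := mul_le_mul_of_nonneg_left e2 (hc i)
    linarith
  rw [Finset.sum_sub_distrib, ← Finset.mul_sum] at h2
  have h3 : r ^ n = Real.exp (n * Real.log r) := by
    rw [Real.exp_nat_mul, Real.exp_log hr]
  have h4 : (n : ℝ) * Real.log r ≤ n * ∑ i ∈ Finset.range K, c i * θ i :=
    mul_le_mul_of_nonneg_left hK (Nat.cast_nonneg n)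
  refine (mul_le_mul_of_nonneg_right h1 (pow_pos hr n).le).trans ?_
  rw [h3, ← Real.exp_add]
  apply Real.exp_le_exp.2
  linarith

end Crest.Agent.R113
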