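import Mathlib

/-!
Row 113 (S0149, S0151): crossed product model `L²(X × ℤ)` of a measure preserving `ℤ`-action,
reweighted projections and waiting times.
-/

set_option autoImplicit false

open MeasureTheory Filter Topology
open scoped ENNReal

namespace Crest.Agent.R113

/-- bounded measurable functions -/
def Bd {Y E : Type*} [MeasurableSpace Y] [MeasurableSpace E] [Norm E] (F : Y → E) : Prop :=
  Measurable F ∧ ∃ C : ℝ, ∀ y, ‖F y‖ ≤ C

open Classical in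
/-- multiplication by an essentially bounded function on `L²` (zero if `F ∉ L^∞`) -/
noncomputable def mulOp {Y : Type*} [MeasurableSpace Y] (ν : Measure Y) (F : Y → ℂ) :
    Lp ℂ 2 ν →L[ℂ] Lp ℂ 2 ν :=
  if h : MemLp F ∞ ν then (ContinuousLinearMap.lsmul ℂ ℂ).holderL ν ∞ 2 2 (h.toLp F) else 0

/-- a measure preserving action of `ℤ` on a probability space -/
structure Sys (X : Type*) [MeasurableSpace X] where
  μ : Measure X
  prob : IsProbabilityMeasure μ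
  σ : ℤ → X → X
  mp : ∀ k, MeasurePreserving (σ k) μ μ
  σ_zero : ∀ x, σ 0 x = x
  σ_add : ∀ k l x, σ (k + l) x = σ k (σ l x)

namespace Sys

variable {X : Type*} [MeasurableSpace X] (D : Sys X)

instance : IsProbabilityMeasure D.μ := D.prob

/-- `μ ⊗ counting measure` -/
noncomputable abbrev ν : Measure (X × ℤ) := D.μ.prod Measure.count

/-- the Hilbert space -/
noncomputable abbrev H := Lp ℂ 2 D.ν

theorem mpU (a : ℤ) : MeasurePreserving (fun p : X × ℤ => (p.1, p.2 - a)) D.ν D.ν :=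
  (MeasurePreserving.id D.μ).prod (measurePreserving_sub_right Measure.count a)

theorem mpR (b : ℤ) : MeasurePreserving (fun p : X × ℤ => (D.σ b p.1, p.2 - b)) D.ν D.ν :=
  (D.mp b).prod (measurePreserving_sub_right Measure.count b)

/-- the shift `(U a g)(x,k) = g(x,k-a)` -/
noncomputable def U (a : ℤ) : D.H →L[ℂ] D.H :=
  (Lp.compMeasurePreservingₗᵢ ℂ _ (D.mpU a)).toContinuousLinearMap

/-- the right shift `(R b g)(x,k) = g(σ b x,k-b)` -/
noncomputable def R (b : ℤ) : D.H →L[ℂ] D.H :=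
  (Lp.compMeasurePreservingₗᵢ ℂ _ (D.mpR b)).toContinuousLinearMap

/-- left multiplication operators -/
noncomputable def πL (f : X → ℂ) : D.H →L[ℂ] D.H := mulOp D.ν fun p => f (D.σ p.2 p.1)

/-- right multiplication operators -/
noncomputable def πR (f : X → ℂ) : D.H →L[ℂ] D.H := mulOp D.ν fun p => f p.1

/-- left multiplication by a real function -/
noncomputable def π (f : X → ℝ) : D.H →L[ℂ] D.H := D.πL fun x => (f x : ℂ)

/-- the trace vector -/
noncomputable def Ω : D.H :=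
  indicatorConstLp 2 (MeasurableSet.univ.prod (measurableSet_singleton (0 : ℤ)))
    (by
      rw [Measure.prod_prod, measure_univ, Measure.count_singleton, one_mul]
      exact ENNReal.one_ne_top)
    (1 : ℂ)

/-- the commutant of the right action -/
def Mem (x : D.H →L[ℂ] D.H) : Prop :=
  (∀ b, Commute x (D.R b)) ∧ ∀ f : X → ℂ, Bd f → Commute x (D.πR f)

/-- the trace -/
noncomputable def τ (x : D.H →L[ℂ] D.H) : ℂ := inner ℂ D.Ω (x D.Ω)

/-- projections of the algebra -/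
def Proj (P : D.H →L[ℂ] D.H) : Prop := D.Mem P ∧ IsStarProjection P

/-- the projection onto `e^u · range P` -/
noncomputable def rw (P : D.H →L[ℂ] D.H) (u : X → ℝ) : D.H →L[ℂ] D.H :=
  D.π (fun x => Real.exp (u x)) * P *
    Ring.inverse (P * D.π (fun x => Real.exp (2 * u x)) * P + (1 - P)) * P *
      D.π (fun x => Real.exp (u x))

/-- the diagonal density of a projection -/
noncomputable def ρ (P : D.H →L[ℂ] D.H) (x : X) : ℝ :=
  max 0 (min 1 ((P D.Ω : X × ℤ → ℂ) (x, 0)).re)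

/-- integrals against the coupling measure `|P Ω|²` -/
noncomputable def En (P : D.H →L[ℂ] D.H) (Φ : X × ℤ → ℝ) : ℝ :=
  ∫ p, Φ p * ‖(P D.Ω : X × ℤ → ℂ) p‖ ^ 2 ∂D.ν

/-- increments along the orbit -/
def Δ (f : X → ℝ) (p : X × ℤ) : ℝ := f (D.σ p.2 p.1) - f p.1

/-- `P` is invariant under the weighted shift `U π(w)` -/
def Inv (P : D.H →L[ℂ] D.H) (w : X → ℝ) : Prop := (1 - P) * (D.U 1 * D.π w) * P = 0

/-- every orbit meets `S` within `N` steps -/
def Hit (S : Set X) (N : ℕ) : Prop := ∀ x, ∃ j < N, D.σ (j : ℕ) x ∈ S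

/-- forward waiting time -/
noncomputable def wt (S : Set X) (x : X) : ℕ := sInf {j : ℕ | D.σ j x ∈ S}

/-- backward waiting time -/
noncomputable def wb (S : Set X) (x : X) : ℕ := sInf {j : ℕ | D.σ (-(j + 1 : ℕ)) x ∈ S}

/-- end point of the block of `x` -/
noncomputable def fin (S : Set X) (x : X) : X := D.σ (D.wt S x) x

/-- couplings inside a block -/
def IB (S : Set X) : Set (X × ℤ) :=
  {p | p.2 ≠ 0 ∧ p.2 + (D.wt S (D.σ p.2 p.1) : ℤ) = D.wt S p.1}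

/-- bounded functions decorrelate from slowly varying functions (ergodicity) -/
def Erg : Prop :=
  ∀ f : X → ℝ, Bd f → ∀ ε > 0, ∃ η > 0, ∀ g : X → ℝ, Bd g → ∫ x, g x ^ 2 ∂D.μ ≤ 1 →
    ∫ x, |g (D.σ 1 x) - g x| ∂D.μ ≤ η →
      |∫ x, f x * g x ∂D.μ - (∫ x, f x ∂D.μ) * ∫ x, g x ∂D.μ| ≤ ε

/-- separation property of a family of walls -/
def Sep (S : ℕ → Set X) (N : ℕ → ℕ) : Prop :=
  ∀ δ > (0 : ℝ), ∃ Γ ≥ (1 : ℝ), ∀ m₀ : ℕ, ∃ m ≥ m₀,
    D.μ.real {x | (D.wt (S m) x : ℝ) ≤ N m / Γ} ≤ δ ∧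
    ∀ Rr : ℕ, ∃ (I : Finset (ℕ × ℕ × ℕ)) (lev : ℕ × ℕ × ℕ → ℕ) (w : ℕ × ℕ × ℕ → ℝ),
      (∀ a ∈ I, m ≤ lev a ∧ 0 ≤ w a) ∧
      ∑ a ∈ I, w a * ((N m : ℝ) / N (lev a)) ≤ Γ ∧
      (∃ c₀ : ℝ, ∫ x, (∑ a ∈ I, w a * ((D.wt (S (lev a)) x : ℝ) / N (lev a)) - c₀) ^ 2 ∂D.μ
        ≤ Γ ^ 2) ∧
      (∃ c₀ : ℝ, ∫ x, (∑ a ∈ I, w a * ((D.wb (S (lev a)) x : ℝ) / N (lev a)) - c₀) ^ 2 ∂D.μ
        ≤ Γ ^ 2) ∧
      ∃ Bad : Set X, MeasurableSet Bad ∧ D.μ.real Bad ≤ δ ∧
        ∀ x ∉ Bad, ∀ r : ℤ, r ≠ 0 → |r| ≤ Rr → (x, r) ∉ D.IB (S m) →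
          1 ≤ ∑ a ∈ I, w a *
            (|(D.wt (S (lev a)) (D.σ r x) : ℝ) - D.wt (S (lev a)) x| / N (lev a))

end Sys

/-- the size of the reweightings used at a level with block length `N` and background `C` -/
noncomputable def EE (m N : ℕ) (C : ℝ) : ℝ := N * C + (m + 1) * (N * C + 1 + N ^ 2)

/-- bound for the reweightings -/
noncomputable def KK (m N : ℕ) (C : ℝ) : ℝ := (m + 2) * EE m N C

/-- walls and costs -/
structure Design {X : Type*} [MeasurableSpace X] (D : Sys X) (φ : X → ℝ) where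
  S : ℕ → Set X
  N : ℕ → ℕ
  Z : ℕ → Set X
  c : ℕ → ℝ
  C : ℕ → ℝ
  φ_meas : Measurable φ
  φ_nonneg : ∀ x, 0 ≤ φ x
  S_meas : ∀ i, MeasurableSet (S i)
  Z_meas : ∀ i, MeasurableSet (Z i)
  anti : Antitone S
  hit : ∀ i, D.Hit (S i) (N i)
  N_mono : Monotone N
  N_tend : Tendsto N atTop atTop
  S_tend : Tendsto (fun i => D.μ.real (S i)) atTop (𝓝 0)
  C_nonneg : ∀ i, 0 ≤ C i
  φ_ge : ∀ i, ∀ x ∈ S i, c i ≤ φ x
  φ_le : ∀ i, ∀ x ∉ S i, x ∉ Z i → φ x ≤ C i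
  Z_small : ∀ i, (N i : ℝ) ^ 3 * D.μ.real (Z i) ≤ 1
  cost : ∀ m i, m ≤ i → N i * C i + 3 * KK m (N m) (C m) + 1 ≤ c i
  sep : D.Sep S N

/-- the irrational rotation -/
noncomputable def rot (θ : ℝ) : Sys UnitAddCircle where
  μ := AddCircle.haarAddCircle
  prob := inferInstance
  σ k x := x + k • (θ : UnitAddCircle)
  mp k := measurePreserving_add_right _ _
  σ_zero x := by simp
  σ_add k l x := by rw [add_zsmul]; abel

end Crest.Agent.R113
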