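import Crest.Agent.R113.Trace

/-! Row 113: the density `ρ` and the coupling integrals `En`. -/

set_option autoImplicit false

open MeasureTheory Filter Topology
open scoped ENNReal

namespace Crest.Agent.R113.Sys

variable {X : Type*} [MeasurableSpace X] {D : Sys X} {P Q : D.H →L[ℂ] D.H}

theorem ρ_nonneg (P : D.H →L[ℂ] D.H) (x : X) : 0 ≤ D.ρ P x := le_max_left _ _

theorem ρ_le_one (P : D.H →L[ℂ] D.H) (x : X) : D.ρ P x ≤ 1 :=
  max_le zero_le_one (min_le_left _ _)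

/-- `Lp.stronglyMeasurable` -/
theorem bd_ρ (P : D.H →L[ℂ] D.H) : Bd (D.ρ P) := by
  refine Bd.of_bound ?_ (a := 0) (b := 1) fun x => ⟨ρ_nonneg P x, ρ_le_one P x⟩
  have h : Measurable fun x : X => (P D.Ω : X × ℤ → ℂ) (x, 0) :=
    (Lp.stronglyMeasurable (P D.Ω)).measurable.comp measurable_prodMk_right
  exact measurable_const.max (measurable_const.min (Complex.measurable_re.comp h))

theorem τ_π_mul' (P : D.H →L[ℂ] D.H) {f : X → ℝ} (hf : Bd f) :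
    D.τ (D.π f * P) = ∫ x, f x * (P D.Ω : X × ℤ → ℂ) (x, 0) ∂D.μ := by
  unfold Sys.τ
  rw [inner_Ω]
  refine integral_congr_ae ?_
  filter_upwards [ae_ν_iff.1 (πL_ae hf.ofReal (P D.Ω)) 0] with x hx
  rw [mul_apply_eq_comp, Sys.π, hx]
  simp only [D.σ_zero]

theorem proj_ind {A : Set X} (hA : MeasurableSet A) : D.Proj (D.π (A.indicator 1)) := by
  have hb := Bd.indicator_one hA
  refine ⟨mem_π hb, ?_, star_π hb⟩
  rw [IsIdempotentElem, π_mul hb hb]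
  congr 1
  funext x
  by_cases h : x ∈ A <;> simp [h]

theorem τ_proj_mul (hP : D.Proj P) (hQ : D.Proj Q) :
    D.τ (Q * P) = (‖(P * Q) D.Ω‖ ^ 2 : ℝ) := by
  have h := τ_star_mul (P * Q) (P * Q)
  rw [star_mul, hP.2.isSelfAdjoint.star_eq, hQ.2.isSelfAdjoint.star_eq, mul_assoc,
    ← mul_assoc P, hP.2.isIdempotentElem.eq, τ_comm hQ.1 (hP.1.mul hQ.1), mul_assoc,
    hQ.2.isIdempotentElem.eq, τ_comm hP.1 hQ.1, inner_self_eq_norm_sq_to_K] at h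
  rw [h]
  simp

theorem slice_real (hP : D.Proj P) : ∀ᵐ x ∂D.μ, ((P D.Ω : X × ℤ → ℂ) (x, 0)).im = 0 ∧
    0 ≤ ((P D.Ω : X × ℤ → ℂ) (x, 0)).re := by
  have hi := integrable_slice (P D.Ω) 0
  have key : ∀ A, MeasurableSet A → ∫ x in A, (P D.Ω : X × ℤ → ℂ) (x, 0) ∂D.μ =
      (‖(P * D.π (A.indicator 1)) D.Ω‖ ^ 2 : ℝ) := by
    intro A hA
    rw [← τ_proj_mul hP (proj_ind hA), τ_π_mul' P (Bd.indicator_one hA), ← integral_indicator hA]
    congr 1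
    funext x
    by_cases h : x ∈ A <;> simp [h]
  refine Eventually.and ?_ ?_
  · refine Integrable.ae_eq_zero_of_forall_setIntegral_eq_zero hi.im fun A hA _ => ?_
    have := integral_im (𝕜 := ℂ) (hi.integrableOn (s := A))
    rw [key A hA] at this
    refine this.trans ?_
    exact Complex.ofReal_im (‖(P * D.π (A.indicator 1)) D.Ω‖ ^ 2)
  · refine ae_nonneg_of_forall_setIntegral_nonneg hi.re fun A hA _ => ?_
    have := integral_re (𝕜 := ℂ) (hi.integrableOn (s := A))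
    rw [key A hA] at this
    refine le_of_le_of_eq ?_ this.symm
    exact le_of_le_of_eq (sq_nonneg _) (Complex.ofReal_re _).symm

/-- PLAN. For measurable `A`, `e = π 1_A` is a projection in `Mem` and
`∫_A (PΩ)(x,0) = τ(e P) = τ(e P e) = ‖P e Ω‖² ∈ [0, μ A]`; so the imaginary part vanishes a.e. and
`0 ≤ re ≤ 1` a.e. (`ae_nonneg_of_forall_setIntegral_nonneg` etc.). -/
theorem ρ_ae (hP : D.Proj P) : ∀ᵐ x ∂D.μ, (P D.Ω : X × ℤ → ℂ) (x, 0) = (D.ρ P x : ℂ) := by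
  filter_upwards [slice_real hP, slice_real hP.one_sub,
    ae_ν_iff.1 (Lp.coeFn_sub D.Ω (P D.Ω)) 0, ae_ν_iff.1 (Ω_ae (D := D)) 0] with x h1 h2 h3 h4
  rw [sub_apply, one_apply_eq_self, h3, Pi.sub_apply, h4] at h2
  have h5 : ((P D.Ω : X × ℤ → ℂ) (x, 0)).re ≤ 1 := by simpa using h2.2
  rw [Sys.ρ, min_eq_right h5, max_eq_right h1.2]
  exact Complex.ext rfl (by simpa using h1.1)

theorem τ_π_mul (hP : D.Proj P) {f : X → ℝ} (hf : Bd f) :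
    D.τ (D.π f * P) = (∫ x, f x * D.ρ P x ∂D.μ : ℝ) := by
  rw [τ_π_mul' P hf, ← integral_complex_ofReal]
  refine integral_congr_ae ?_
  filter_upwards [ρ_ae hP] with x hx
  rw [hx, Complex.ofReal_mul]

theorem integral_ρ (hP : D.Proj P) : ∫ x, D.ρ P x ∂D.μ = (D.τ P).re := by
  have h := τ_π_mul hP (Bd.const (1 : ℝ))
  rw [π_const, Complex.ofReal_one, one_smul, one_mul] at h
  rw [h]
  simp

theorem integrable_En (P : D.H →L[ℂ] D.H) {Φ : X × ℤ → ℝ} (hΦ : Bd Φ) :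
    Integrable (fun p => Φ p * ‖(P D.Ω : X × ℤ → ℂ) p‖ ^ 2) D.ν := by
  obtain ⟨h1, C, h2⟩ := hΦ
  exact (integrable_norm_sq (P D.Ω)).bdd_mul h1.aestronglyMeasurable (Eventually.of_forall h2)

theorem En_add (P : D.H →L[ℂ] D.H) {Φ Ψ : X × ℤ → ℝ} (hΦ : Bd Φ) (hΨ : Bd Ψ) :
    D.En P (fun p => Φ p + Ψ p) = D.En P Φ + D.En P Ψ := by
  unfold Sys.En
  rw [← integral_add (integrable_En P hΦ) (integrable_En P hΨ)]
  simp only [add_mul]

theorem En_smul (P : D.H →L[ℂ] D.H) (Φ : X × ℤ → ℝ) (c : ℝ) :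
    D.En P (fun p => c * Φ p) = c * D.En P Φ := by
  unfold Sys.En
  rw [← integral_const_mul]
  simp only [mul_assoc]

theorem En_sum {ι : Type*} (P : D.H →L[ℂ] D.H) (s : Finset ι) {Φ : ι → X × ℤ → ℝ}
    (hΦ : ∀ i ∈ s, Bd (Φ i)) :
    D.En P (fun p => ∑ i ∈ s, Φ i p) = ∑ i ∈ s, D.En P (Φ i) := by
  unfold Sys.En
  rw [← integral_finsetSum s fun i hi => integrable_En P (hΦ i hi)]
  simp only [Finset.sum_mul]

theorem En_mono (P : D.H →L[ℂ] D.H) {Φ Ψ : X × ℤ → ℝ} (hΦ : Bd Φ) (hΨ : Bd Ψ)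
    (h : ∀ p, Φ p ≤ Ψ p) : D.En P Φ ≤ D.En P Ψ := by
  exact integral_mono (integrable_En P hΦ) (integrable_En P hΨ) fun p =>
    mul_le_mul_of_nonneg_right (h p) (by positivity)

theorem En_nonneg (P : D.H →L[ℂ] D.H) {Φ : X × ℤ → ℝ} (h : ∀ p, 0 ≤ Φ p) : 0 ≤ D.En P Φ := by
  exact integral_nonneg fun p => mul_nonneg (h p) (by positivity)

theorem inner_mulOp (g : D.H) {Φ Ψ : X × ℤ → ℝ} (hΦ : Bd Φ) (hΨ : Bd Ψ) :
    inner ℂ (mulOp D.ν (fun p => (Φ p : ℂ)) g) (mulOp D.ν (fun p => (Ψ p : ℂ)) g) =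
      (∫ p, Φ p * Ψ p * ‖(g : X × ℤ → ℂ) p‖ ^ 2 ∂D.ν : ℝ) := by
  rw [L2.inner_def, ← integral_complex_ofReal]
  refine integral_congr_ae ?_
  filter_upwards [mulOp_ae hΦ.ofReal g, mulOp_ae hΨ.ofReal g] with p h1 h2
  rw [h1, h2, RCLike.inner_apply, map_mul, Complex.conj_ofReal]
  push_cast
  rw [← Complex.mul_conj']
  ring

theorem En_eq_inner (P : D.H →L[ℂ] D.H) {Φ : X × ℤ → ℝ} (hΦ : Bd Φ) :
    (D.En P Φ : ℂ) = inner ℂ (P D.Ω) (mulOp D.ν (fun p => (Φ p : ℂ)) (P D.Ω)) := by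
  have := inner_mulOp (P D.Ω) (Bd.const (1 : ℝ)) hΦ
  rw [mulOp_const, Complex.ofReal_one, one_smul, one_apply_eq_self] at this
  rw [this, Sys.En]
  simp only [one_mul]

theorem Mem.πR_apply (hP : D.Mem P) {f : X → ℝ} (hf : Bd f) :
    D.πR (fun x => (f x : ℂ)) (P D.Ω) = (P * D.π f) D.Ω := by
  rw [← mul_apply_eq_comp, ← (hP.2 _ hf.ofReal).eq, mul_apply_eq_comp, mul_apply_eq_comp, Sys.π,
    πL_Ω hf.ofReal]

/-- PLAN. `En P (f ∘ fst) = ⟪PΩ, πR f (PΩ)⟫ = ⟪PΩ, P (πL f Ω)⟫ = τ(P π f) = τ(π f P)`. -/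
theorem En_fst (hP : D.Proj P) {f : X → ℝ} (hf : Bd f) :
    D.En P (fun p => f p.1) = ∫ x, f x * D.ρ P x ∂D.μ := by
  have h := En_eq_inner P (bd_R hf)
  have e := hP.1.πR_apply hf
  unfold Sys.πR at e
  rw [e, ← τ_star_mul, hP.2.isSelfAdjoint.star_eq, ← mul_assoc, hP.2.isIdempotentElem.eq,
    τ_comm hP.1 (mem_π hf), τ_π_mul hP hf] at h
  exact_mod_cast h

/-- the off-diagonal mass -/
theorem En_off (hP : D.Proj P) :
    D.En P (fun p => if p.2 = 0 then 0 else 1) = (D.τ P).re - ∫ x, D.ρ P x ^ 2 ∂D.μ := by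
  have b1 : Bd fun p : X × ℤ => if p.2 = 0 then (1 : ℝ) else 0 :=
    Bd.of_bound (Measurable.ite (measurable_snd (measurableSet_singleton 0)) measurable_const
      measurable_const) (a := 0) (b := 1) fun p => by split_ifs <;> simp
  have b2 : Bd fun p : X × ℤ => if p.2 = 0 then (0 : ℝ) else 1 :=
    Bd.of_bound (Measurable.ite (measurable_snd (measurableSet_singleton 0)) measurable_const
      measurable_const) (a := 0) (b := 1) fun p => by split_ifs <;> simp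
  have h1 := En_add P b2 b1
  have e : (fun p : X × ℤ => (if p.2 = 0 then (0 : ℝ) else 1) + if p.2 = 0 then 1 else 0) =
      fun _ => 1 := by
    funext p
    split_ifs <;> simp
  have h2 := En_fst hP (Bd.const (1 : ℝ))
  simp only [one_mul] at h2
  rw [e, h2, integral_ρ hP] at h1
  have h3 : D.En P (fun p => if p.2 = 0 then 1 else 0) = ∫ x, D.ρ P x ^ 2 ∂D.μ := by
    rw [Sys.En, integral_of_slice (integrable_En P b1) 0]
    · refine integral_congr_ae ?_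
      filter_upwards [ρ_ae hP] with x hx
      simp [hx]
    · intro j hj
      simp [hj]
  linarith

/-- dominated convergence -/
theorem En_tail (P : D.H →L[ℂ] D.H) :
    Tendsto (fun r : ℕ => D.En P (fun p => if (r : ℤ) < |p.2| then 1 else 0)) atTop (𝓝 0) := by
  have h := tendsto_integral_of_dominated_convergence (μ := D.ν)
    (F := fun (r : ℕ) p => (if (r : ℤ) < |p.2| then (1 : ℝ) else 0) *
      ‖(P D.Ω : X × ℤ → ℂ) p‖ ^ 2) (f := fun _ => 0)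
    (fun p => ‖(P D.Ω : X × ℤ → ℂ) p‖ ^ 2) (fun r => ?_) (integrable_norm_sq _) (fun r => ?_) ?_
  · simpa only [integral_zero, Sys.En] using h
  · refine AEStronglyMeasurable.mul (Measurable.aestronglyMeasurable ?_) (integrable_norm_sq _).1
    exact Measurable.ite (measurable_snd (MeasurableSet.of_discrete (s := {k : ℤ | (r : ℤ) < |k|})))
      measurable_const measurable_const
  · refine Eventually.of_forall fun p => ?_
    split_ifs <;> simp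
  · refine Eventually.of_forall fun p => tendsto_const_nhds.congr' ?_
    filter_upwards [eventually_ge_atTop p.2.natAbs] with r hr
    rw [if_neg (by rw [Int.abs_eq_natAbs]; omega), zero_mul]

/-- `En P (Φ²) = ‖Φ · PΩ‖²` -/
theorem En_sq (P : D.H →L[ℂ] D.H) {Φ : X × ℤ → ℝ} (hΦ : Bd Φ) :
    D.En P (fun p => Φ p ^ 2) = ‖mulOp D.ν (fun p => (Φ p : ℂ)) (P D.Ω)‖ ^ 2 := by
  have h := inner_mulOp (P D.Ω) hΦ hΦ
  rw [inner_self_eq_norm_sq_to_K] at h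
  have h2 : ((‖mulOp D.ν (fun p => (Φ p : ℂ)) (P D.Ω)‖ ^ 2 : ℝ) : ℂ) =
      (D.En P (fun p => Φ p ^ 2) : ℝ) := by
    rw [Sys.En]
    simp only [sq (Φ _)]
    rw [← h]
    simp
  exact_mod_cast h2.symm

theorem norm_mulOp_real_le {Φ : X × ℤ → ℝ} (hΦ : Bd Φ) (h : ∀ p, |Φ p| ≤ 1) (g : D.H) :
    ‖mulOp D.ν (fun p => (Φ p : ℂ)) g‖ ≤ ‖g‖ := by
  refine ((mulOp D.ν _).le_of_opNorm_le (norm_mulOp_le hΦ.ofReal zero_le_one
    (Eventually.of_forall fun p => ?_)) g).trans_eq (one_mul _)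
  simpa using h p

theorem Proj.norm_Ω_le (hP : D.Proj P) : ‖P D.Ω‖ ≤ 1 := by
  have h := hP.τ_mem.2
  rw [hP.τ_eq, Complex.ofReal_re] at h
  exact (pow_le_one_iff_of_nonneg (norm_nonneg _) two_ne_zero).1 h

theorem sqrt_En_lip (P Q : D.H →L[ℂ] D.H) {Φ : X × ℤ → ℝ} (hΦ : Bd Φ) (h : ∀ p, |Φ p| ≤ 1) :
    √(D.En P fun p => Φ p ^ 2) ≤ √(D.En Q fun p => Φ p ^ 2) + ‖P D.Ω - Q D.Ω‖ := by
  rw [En_sq P hΦ, En_sq Q hΦ, Real.sqrt_sq (norm_nonneg _), Real.sqrt_sq (norm_nonneg _)]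
  have := norm_mulOp_real_le hΦ h (P D.Ω - Q D.Ω)
  rw [map_sub] at this
  linarith [norm_sub_norm_le (mulOp D.ν (fun p => (Φ p : ℂ)) (P D.Ω))
    (mulOp D.ν (fun p => (Φ p : ℂ)) (Q D.Ω))]

theorem En_lip (hP : D.Proj P) (hQ : D.Proj Q) {Φ : X × ℤ → ℝ} (hΦ : Bd Φ) (h : ∀ p, |Φ p| ≤ 1) :
    |D.En P Φ - D.En Q Φ| ≤ 2 * ‖P D.Ω - Q D.Ω‖ := by
  have e : ((D.En P Φ - D.En Q Φ : ℝ) : ℂ) =
      inner ℂ (P D.Ω - Q D.Ω) (mulOp D.ν (fun p => (Φ p : ℂ)) (P D.Ω)) +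
        inner ℂ (Q D.Ω) (mulOp D.ν (fun p => (Φ p : ℂ)) (P D.Ω - Q D.Ω)) := by
    rw [Complex.ofReal_sub, En_eq_inner P hΦ, En_eq_inner Q hΦ, map_sub, inner_sub_left,
      inner_sub_right]
    ring
  rw [← Real.norm_eq_abs, ← Complex.norm_real, e]
  have h1 := norm_inner_le_norm (𝕜 := ℂ) (P D.Ω - Q D.Ω) (mulOp D.ν (fun p => (Φ p : ℂ)) (P D.Ω))
  have h2 := norm_inner_le_norm (𝕜 := ℂ) (Q D.Ω) (mulOp D.ν (fun p => (Φ p : ℂ)) (P D.Ω - Q D.Ω))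
  have h3 := mul_le_mul_of_nonneg_left ((norm_mulOp_real_le hΦ h (P D.Ω)).trans hP.norm_Ω_le)
    (norm_nonneg (P D.Ω - Q D.Ω))
  have h4 := mul_le_mul hQ.norm_Ω_le (norm_mulOp_real_le hΦ h (P D.Ω - Q D.Ω)) (norm_nonneg _)
    zero_le_one
  refine (norm_add_le _ _).trans ?_
  linarith

theorem ρ_dist (hP : D.Proj P) (hQ : D.Proj Q) :
    ∫ x, (D.ρ P x - D.ρ Q x) ^ 2 ∂D.μ ≤ ‖P D.Ω - Q D.Ω‖ ^ 2 := by
  refine le_of_eq_of_le (integral_congr_ae ?_) (slice_sq_le (P D.Ω - Q D.Ω) 0)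
  filter_upwards [ρ_ae hP, ρ_ae hQ, ae_ν_iff.1 (Lp.coeFn_sub (P D.Ω) (Q D.Ω)) 0] with x h1 h2 h3
  rw [h3, Pi.sub_apply, h1, h2, ← Complex.ofReal_sub, Complex.norm_real, Real.norm_eq_abs, sq_abs]

theorem pair_eq_inner (hP : D.Proj P) {f : X → ℝ} (hf : Bd f) :
    ((∫ x, f x * D.ρ P x ∂D.μ : ℝ) : ℂ) = inner ℂ (D.π f D.Ω) (P D.Ω) := by
  rw [← τ_π_mul hP hf, ← τ_star_mul, star_π hf]

/-- Cauchy-Schwarz and `ρ_dist` -/
theorem pair_ρ_dist (hP : D.Proj P) (hQ : D.Proj Q) {f : X → ℝ} (hf : Bd f) :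
    |∫ x, f x * D.ρ P x ∂D.μ - ∫ x, f x * D.ρ Q x ∂D.μ| ≤
      √(∫ x, f x ^ 2 ∂D.μ) * ‖P D.Ω - Q D.Ω‖ := by
  rw [← Real.norm_eq_abs, ← Complex.norm_real, Complex.ofReal_sub, pair_eq_inner hP hf,
    pair_eq_inner hQ hf, ← inner_sub_right, ← norm_π_Ω_sq hf, Real.sqrt_sq (norm_nonneg _)]
  exact norm_inner_le_norm _ _

/-- the commutator `[π f, P] Ω = Δ f · PΩ` -/
theorem comm_Ω (hP : D.Mem P) {f : X → ℝ} (hf : Bd f) :
    (D.π f * P - P * D.π f) D.Ω = mulOp D.ν (fun p => (D.Δ f p : ℂ)) (P D.Ω) := by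
  rw [sub_apply, ← hP.πR_apply hf, mul_apply_eq_comp, ← sub_apply, Sys.π, Sys.πL, Sys.πR,
    ← mulOp_sub (bd_L hf.ofReal) (bd_R hf.ofReal)]
  simp only [Sys.Δ, Complex.ofReal_sub]

/-- PLAN. With `A = (1-P) g P + P g (1-P)`: `τ(f A) = 2τ(fgP) - 2τ(fPgP)` and
`⟪[f,P]Ω,[g,P]Ω⟫ = τ((Pf - fP)(gP - Pg))` equals the same number by `τ_comm`. -/
theorem τ_π_deriv (hP : D.Proj P) {f g : X → ℝ} (hf : Bd f) (hg : Bd g) :
    D.τ (D.π f * ((1 - P) * D.π g * P + P * D.π g * (1 - P))) =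
      (D.En P (fun p => D.Δ f p * D.Δ g p) : ℝ) := by
  have hF := mem_π (D := D) hf
  have hG := mem_π (D := D) hg
  have iP := hP.2.isIdempotentElem.eq
  have h := τ_star_mul (D.π f * P - P * D.π f) (D.π g * P - P * D.π g)
  rw [comm_Ω hP.1 hf, comm_Ω hP.1 hg, inner_mulOp _ (bd_Δ hf) (bd_Δ hg), star_sub, star_mul,
    star_mul, star_π hf, hP.2.isSelfAdjoint.star_eq] at h
  rw [Sys.En, ← h]
  generalize D.π f = F at hF ⊢
  generalize D.π g = G at hG ⊢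
  have iP' : ∀ z, P * (P * z) = P * z := fun z => by rw [← mul_assoc, iP]
  have c1 : D.τ (P * (F * (G * P))) = D.τ (F * (G * P)) := by
    rw [τ_comm hP.1 (hF.mul (hG.mul hP.1)), mul_assoc, mul_assoc, iP]
  have c2 : D.τ (P * (F * (P * G))) = D.τ (F * (P * (G * P))) := by
    rw [τ_comm hP.1 (hF.mul (hP.1.mul hG)), mul_assoc, mul_assoc]
  simp only [mul_add, sub_mul, mul_sub, one_mul, mul_one, mul_assoc, τ_add, τ_sub, iP', c1, c2]
  ring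

/-- PLAN. `A = (1-P) g P + P g (1-P)` and `B = g P - P g = (1-P) g P - P g (1-P)`; the two pieces
applied to `Ω` are orthogonal, so `‖AΩ‖ = ‖BΩ‖`. -/
theorem norm_deriv_sq (hP : D.Proj P) {g : X → ℝ} (hg : Bd g) :
    ‖((1 - P) * D.π g * P + P * D.π g * (1 - P)) D.Ω‖ ^ 2 = D.En P (fun p => D.Δ g p ^ 2) := by
  rw [En_sq P (bd_Δ hg), ← comm_Ω hP.1 hg]
  have iP := hP.2.isIdempotentElem.eq
  have e : D.π g * P - P * D.π g = (1 - P) * D.π g * P - P * D.π g * (1 - P) := by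
    simp only [sub_mul, mul_sub, one_mul, mul_one]
    abel
  have o : inner ℂ (((1 - P) * D.π g * P) D.Ω) ((P * D.π g * (1 - P)) D.Ω) = 0 := by
    have : (1 - P) * P = 0 := by rw [sub_mul, one_mul, iP, sub_self]
    rw [← τ_star_mul, star_mul, star_mul, hP.one_sub.2.isSelfAdjoint.star_eq, mul_assoc, mul_assoc,
      mul_assoc P, ← mul_assoc (1 - P), this]
    simp [Sys.τ]
  rw [e, add_apply, sub_apply, @norm_add_sq ℂ, @norm_sub_sq ℂ, o]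
  simp

/-- `‖[g,P]‖₂ ≤ 2‖g‖₂` -/
theorem En_Δ_sq_le (hP : D.Proj P) {g : X → ℝ} (hg : Bd g) :
    D.En P (fun p => D.Δ g p ^ 2) ≤ 4 * ∫ x, g x ^ 2 ∂D.μ := by
  rw [En_sq P (bd_Δ hg), ← comm_Ω hP.1 hg, ← norm_π_Ω_sq hg, sub_apply]
  have hn : ‖P‖ ≤ 1 := hP.2.norm_le
  have h1 := (norm_mul_Ω_le (mem_π hg) hP.1).trans
    (mul_le_of_le_one_right (norm_nonneg _) hn)
  have h2 : ‖(P * D.π g) D.Ω‖ ≤ ‖D.π g D.Ω‖ :=
    (P.le_of_opNorm_le hn _).trans_eq (one_mul _)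
  have h3 := norm_sub_le ((D.π g * P) D.Ω) ((P * D.π g) D.Ω)
  calc _ ≤ (2 * ‖D.π g D.Ω‖) ^ 2 := pow_le_pow_left₀ (norm_nonneg _) (by linarith) 2
    _ = _ := by ring

end Crest.Agent.R113.Sys
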