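import Crest.Agent.R113.Alg

/-! Row 113: `Ω` is a separating trace vector for `Mem`. -/

set_option autoImplicit false

open MeasureTheory Filter Topology
open scoped ENNReal

namespace Crest.Agent.R113.Sys

variable {X : Type*} [MeasurableSpace X] {D : Sys X}

theorem RπR_ae {f : X → ℂ} (hf : Bd f) (k : ℤ) (g : D.H) :
    ∀ᵐ p ∂D.ν, (D.R k (D.πR f g) : X × ℤ → ℂ) p = f (D.σ k p.1) * g (D.σ k p.1, p.2 - k) := by
  filter_upwards [R_ae k (D.πR f g), (D.mpR k).quasiMeasurePreserving.ae (πR_ae hf g)]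
    with p h1 h2
  rw [h1, h2]

theorem inner_RπR {f : X → ℂ} (hf : Bd f) (k : ℤ) (g : D.H) :
    inner ℂ (D.R k (D.πR f D.Ω)) g =
      ∫ y, (starRingEnd ℂ) (f (D.σ k y)) * (g : X × ℤ → ℂ) (y, k) ∂D.μ := by
  have h := (RπR_ae hf k D.Ω).and ((D.mpR k).quasiMeasurePreserving.ae (Ω_ae (D := D)))
  rw [L2.inner_def, integral_of_slice (L2.integrable_inner _ g) k]
  · refine integral_congr_ae ?_
    filter_upwards [ae_ν_iff.1 h k] with x hx
    rw [hx.1, hx.2]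
    simp [mul_comm]
  · intro j hj
    filter_upwards [ae_ν_iff.1 h j] with x hx
    rw [hx.1, hx.2]
    simp [sub_eq_zero, hj]

theorem ae_eq_of_test (k : ℤ) {h₁ h₂ : X → ℂ} (i₁ : Integrable h₁ D.μ) (i₂ : Integrable h₂ D.μ)
    (h : ∀ f : X → ℂ, Bd f → ∫ y, (starRingEnd ℂ) (f (D.σ k y)) * h₁ y ∂D.μ =
      ∫ y, (starRingEnd ℂ) (f (D.σ k y)) * h₂ y ∂D.μ) : h₁ =ᵐ[D.μ] h₂ := by
  refine Integrable.ae_eq_of_forall_setIntegral_eq _ _ i₁ i₂ fun s hs _ => ?_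
  have := h (fun y => ((s.indicator (1 : X → ℝ) (D.σ (-k) y) : ℝ) : ℂ))
    ((Bd.indicator_one hs).ofReal.comp (meas_σ (-k)))
  have e : ∀ F : X → ℂ, (fun y => (starRingEnd ℂ)
      ((s.indicator (1 : X → ℝ) (D.σ (-k) (D.σ k y)) : ℝ) : ℂ) * F y) = s.indicator F := by
    intro F
    funext y
    rw [← D.σ_add, neg_add_cancel, D.σ_zero]
    by_cases hy : y ∈ s <;> simp [hy]
  rwa [e, e, integral_indicator hs, integral_indicator hs] at this

theorem integrable_slice (g : D.H) (k : ℤ) :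
    Integrable (fun x => (g : X × ℤ → ℂ) (x, k)) D.μ :=
  (memLp_slice g k).integrable (by norm_num)

theorem Mem.apply_RπR {x : D.H →L[ℂ] D.H} (hx : D.Mem x) {f : X → ℂ} (hf : Bd f) (k : ℤ)
    (g : D.H) : x (D.R k (D.πR f g)) = D.R k (D.πR f (x g)) := by
  rw [← mul_apply_eq_comp, (hx.1 k).eq, mul_apply_eq_comp, ← mul_apply_eq_comp x, (hx.2 f hf).eq,
    mul_apply_eq_comp]

/-- PLAN. For bounded `f` put `v = R k (πR f Ω)`; a.e. `v (y,j) = if j = k then f (σ k y) else 0`.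
`⟪v, star x Ω⟫ = ⟪x v, Ω⟫ = ⟪R k (πR f (x Ω)), Ω⟫` (commutation), so
`∫ conj f(σ k y) * (star x Ω)(y,k) = ∫ conj (f (σ k y) * (xΩ)(σ k y, -k))` for all bounded `f`;
since `f ↦ f ∘ σ k` is onto (inverse `σ (-k)`), take indicator functions and use
`Integrable.ae_eq_of_forall_setIntegral_eq` (slices are `L²`, so integrable). -/
theorem star_Ω_ae {x : D.H →L[ℂ] D.H} (hx : D.Mem x) (k : ℤ) :
    ∀ᵐ y ∂D.μ, (star x D.Ω : X × ℤ → ℂ) (y, k) =
      (starRingEnd ℂ) ((x D.Ω : X × ℤ → ℂ) (D.σ k y, -k)) := by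
  have i2 : Integrable (fun y => (starRingEnd ℂ) ((x D.Ω : X × ℤ → ℂ) (D.σ k y, -k))) D.μ :=
    Complex.conjCLE.toContinuousLinearMap.integrable_comp
      ((D.mp k).integrable_comp_of_integrable (integrable_slice (x D.Ω) (-k)))
  refine ae_eq_of_test k (integrable_slice _ k) i2 fun f hf => ?_
  rw [← inner_RπR hf, ContinuousLinearMap.star_eq_adjoint, ContinuousLinearMap.adjoint_inner_right,
    hx.apply_RπR hf, ← inner_conj_symm, inner_Ω, ← integral_conj]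
  refine integral_congr_ae ?_
  filter_upwards [ae_ν_iff.1 (RπR_ae hf k (x D.Ω)) 0] with y hy
  rw [hy]
  simp

/-- PLAN. `(y,k) ↦ (σ k y, -k)` preserves `ν` (slice by slice, `Measure.prod` with `count`:
e.g. via `lintegral_prod`/`lintegral_count` after swapping); compare `norm_sq_eq`. -/
theorem norm_star_Ω {x : D.H →L[ℂ] D.H} (hx : D.Mem x) : ‖star x D.Ω‖ = ‖x D.Ω‖ := by
  have h1 := hasSum_slice (D := D) (integrable_norm_sq (star x D.Ω))
  have h2 := (Equiv.neg ℤ).hasSum_iff.2 (hasSum_slice (D := D) (integrable_norm_sq (x D.Ω)))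
  rw [← norm_sq_eq] at h1 h2
  have e : (fun k => ∫ y, ‖(star x D.Ω : X × ℤ → ℂ) (y, k)‖ ^ 2 ∂D.μ) =
      (fun k => ∫ y, ‖(x D.Ω : X × ℤ → ℂ) (y, k)‖ ^ 2 ∂D.μ) ∘ (Equiv.neg ℤ) := by
    funext k
    have m : AEStronglyMeasurable (fun y => ‖(x D.Ω : X × ℤ → ℂ) (y, -k)‖ ^ 2)
        (D.μ.map (D.σ k)) := by
      rw [(D.mp k).map_eq]
      exact (memLp_slice (x D.Ω) (-k)).1.norm.pow 2
    have := integral_map (meas_σ k).aemeasurable m
    rw [(D.mp k).map_eq] at this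
    simp only [Function.comp_apply, Equiv.neg_apply]
    rw [this]
    refine integral_congr_ae ?_
    filter_upwards [star_Ω_ae hx k] with y hy
    rw [hy, Complex.norm_conj]
  rw [e] at h1
  exact (pow_left_inj₀ (norm_nonneg _) (norm_nonneg _) two_ne_zero).1 (h1.unique h2)

theorem inner_star_Ω {a b : D.H →L[ℂ] D.H} (ha : D.Mem a) (hb : D.Mem b) :
    inner ℂ (star b D.Ω) (star a D.Ω) = inner ℂ (a D.Ω) (b D.Ω) := by
  have key : ∀ c : ℂ, (c * inner ℂ (star b D.Ω) (star a D.Ω)).re =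
      (c * inner ℂ (a D.Ω) (b D.Ω)).re := by
    intro c
    have h := norm_star_Ω (ha.add (hb.smul c))
    have h1 := norm_star_Ω ha
    have h2 := norm_star_Ω (hb.smul c)
    rw [star_add, add_apply, add_apply, add_comm] at h
    have e1 := norm_add_sq (𝕜 := ℂ) (star (c • b) D.Ω) (star a D.Ω)
    have e2 := norm_add_sq (𝕜 := ℂ) (a D.Ω) ((c • b) D.Ω)
    rw [h, e2, h1, h2, star_smul, smul_apply, smul_apply,
      inner_smul_left, inner_smul_right] at e1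
    simp only [RCLike.star_def, Complex.conj_conj, RCLike.re_to_complex] at e1
    linarith
  apply Complex.ext
  · simpa using key 1
  · simpa using key Complex.I

/-- PLAN. polarisation of `norm_star_Ω`: `⟪star x Ω, y Ω⟫ = ⟪star y Ω, x Ω⟫`. -/
theorem τ_comm {x y : D.H →L[ℂ] D.H} (hx : D.Mem x) (hy : D.Mem y) :
    D.τ (x * y) = D.τ (y * x) := by
  have h1 := τ_star_mul (star x) y
  have h2 := τ_star_mul (star y) x
  have h3 := inner_star_Ω hx.star hy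
  rw [star_star] at h1 h2 h3
  rw [h1, h2, h3]

/-- PLAN. If `x Ω = 0` then `x (R k (πR f Ω)) = 0`, so for every `g`, `star x g` is orthogonal to
all `R k (πR f Ω)`, hence all its slices vanish (`ae_ν_iff`), so `star x = 0`. -/
theorem eq_zero_of_Ω {x : D.H →L[ℂ] D.H} (hx : D.Mem x) (h : x D.Ω = 0) : x = 0 := by
  suffices h0 : star x = 0 by simpa using congrArg star h0
  refine ContinuousLinearMap.ext fun g => Lp.ext ?_
  refine EventuallyEq.trans (ae_ν_iff.2 fun k => ?_) (Lp.coeFn_zero ℂ 2 D.ν).symm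
  refine ae_eq_of_test k (integrable_slice (star x g) k) (integrable_zero _ _ _) fun f hf => ?_
  rw [← inner_RπR hf, ContinuousLinearMap.star_eq_adjoint, ContinuousLinearMap.adjoint_inner_right,
    hx.apply_RπR hf, h]
  simp

/-- `‖x y‖₂ ≤ ‖x‖₂ ‖y‖` -/
theorem norm_mul_Ω_le {x y : D.H →L[ℂ] D.H} (hx : D.Mem x) (hy : D.Mem y) :
    ‖(x * y) D.Ω‖ ≤ ‖x D.Ω‖ * ‖y‖ := by
  rw [← norm_star_Ω (hx.mul hy), star_mul, mul_apply_eq_comp, ← norm_star_Ω hx, mul_comm,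
    ← norm_star y]
  exact ContinuousLinearMap.le_opNorm _ _

theorem Proj.τ_eq {P : D.H →L[ℂ] D.H} (hP : D.Proj P) : D.τ P = (‖P D.Ω‖ ^ 2 : ℝ) := by
  have h := τ_star_mul P P
  rw [hP.2.isSelfAdjoint.star_eq, hP.2.isIdempotentElem.eq, inner_self_eq_norm_sq_to_K] at h
  rw [h]
  simp

/-- two projections of equal trace: `‖Q - P‖₂² = 2 ‖(1-Q) P‖₂²` -/
theorem Proj.dist_sq {P Q : D.H →L[ℂ] D.H} (hP : D.Proj P) (hQ : D.Proj Q) (h : D.τ Q = D.τ P) :
    ‖Q D.Ω - P D.Ω‖ ^ 2 = 2 * ‖((1 - Q) * P) D.Ω‖ ^ 2 := by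
  have sP := hP.2.isSelfAdjoint.star_eq
  have sQ := hQ.2.isSelfAdjoint.star_eq
  have iP := hP.2.isIdempotentElem.eq
  have iQ := hQ.2.isIdempotentElem.eq
  have h1 := τ_star_mul (Q - P) (Q - P)
  have h2 := τ_star_mul ((1 - Q) * P) ((1 - Q) * P)
  have e1 : star (Q - P) * (Q - P) = Q + P - Q * P - P * Q := by
    rw [star_sub, sP, sQ, sub_mul, mul_sub, mul_sub, iP, iQ]
    abel
  have e2 : star ((1 - Q) * P) * ((1 - Q) * P) = P - P * (Q * P) := by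
    have : (1 - Q) * (1 - Q) = 1 - Q := hQ.2.one_sub.isIdempotentElem.eq
    rw [star_mul, star_sub, star_one, sP, sQ, mul_assoc, ← mul_assoc (1 - Q), this, sub_mul,
      one_mul, mul_sub, iP]
  have c1 : D.τ (P * Q) = D.τ (Q * P) := τ_comm hP.1 hQ.1
  have c2 : D.τ (P * (Q * P)) = D.τ (Q * P) := by
    rw [τ_comm hP.1 (hQ.1.mul hP.1), mul_assoc, iP]
  rw [e1, τ_sub, τ_sub, τ_add, c1, h, inner_self_eq_norm_sq_to_K,
    sub_apply] at h1
  rw [e2, τ_sub, c2, inner_self_eq_norm_sq_to_K] at h2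
  have : ((‖Q D.Ω - P D.Ω‖ ^ 2 : ℝ) : ℂ) = ((2 * ‖((1 - Q) * P) D.Ω‖ ^ 2 : ℝ) : ℂ) := by
    push_cast
    erw [← h1, ← h2]
    ring
  exact_mod_cast this

theorem Proj.one_sub {P : D.H →L[ℂ] D.H} (hP : D.Proj P) : D.Proj (1 - P) :=
  ⟨mem_one.sub hP.1, hP.2.one_sub⟩

theorem Proj.trivial {P : D.H →L[ℂ] D.H} (hP : D.Proj P) (h : (D.τ P).re = 0 ∨ (D.τ P).re = 1) :
    P = 0 ∨ P = 1 := by
  have key : ∀ Q : D.H →L[ℂ] D.H, D.Proj Q → (D.τ Q).re = 0 → Q = 0 := by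
    intro Q hQ h0
    rw [hQ.τ_eq, Complex.ofReal_re] at h0
    exact eq_zero_of_Ω hQ.1 (norm_eq_zero.1 (pow_eq_zero_iff two_ne_zero |>.1 h0))
  refine h.imp (key P hP) fun h1 => ?_
  have := key _ hP.one_sub (by rw [τ_sub, τ_one, Complex.sub_re, h1]; simp)
  exact (sub_eq_zero.1 this).symm

theorem Proj.τ_mem {P : D.H →L[ℂ] D.H} (hP : D.Proj P) : 0 ≤ (D.τ P).re ∧ (D.τ P).re ≤ 1 := by
  have key : ∀ Q : D.H →L[ℂ] D.H, D.Proj Q → 0 ≤ (D.τ Q).re := by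
    intro Q hQ
    rw [hQ.τ_eq, Complex.ofReal_re]
    positivity
  have := key _ hP.one_sub
  rw [τ_sub, τ_one, Complex.sub_re, Complex.one_re] at this
  exact ⟨key P hP, by linarith⟩

end Crest.Agent.R113.Sys
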