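import Crest.Agent.R113.Cfc
import Crest.Agent.R113.Trace
import Crest.Agent.R177.DetKlein
import Crest.Prelude.Def_ProductShift

/-! Row 113 (S0151): determinants of quasinilpotent weighted shifts. -/

set_option autoImplicit false

open MeasureTheory Filter Topology
open scoped ENNReal

namespace Crest.Agent.R113

open Crest.AnalysisR.ProductShift

namespace DetA

open R177.DetAux

theorem real_step {f : ℝ → ℝ} {M : ℝ}
    (h : ∀ s ∈ Set.Icc (0 : ℝ) 1, ∀ s' ∈ Set.Icc (0 : ℝ) 1, f s' ≤ f s + (s' - s) ^ 2 * M) :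
    f 1 = f 0 := by
  have key : ∀ n : ℕ, 0 < n → ∀ k : ℕ, k ≤ n →
      f (k / n) ≤ f 0 + k * (M / n ^ 2) ∧ f 0 ≤ f (k / n) + k * (M / n ^ 2) := by
    intro n hn k
    have hn' : (0 : ℝ) < n := by exact_mod_cast hn
    induction k with
    | zero => intro _; simp
    | succ k ih =>
      intro hk
      obtain ⟨h1, h2⟩ := ih (by omega)
      have hk' : ((k : ℝ) + 1) ≤ n := by exact_mod_cast hk
      have hk0 : (0 : ℝ) ≤ k := Nat.cast_nonneg k
      have ma : ((k : ℝ) / n) ∈ Set.Icc (0 : ℝ) 1 :=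
        ⟨by positivity, by rw [div_le_one hn']; linarith⟩
      have mb : (((k + 1 : ℕ) : ℝ) / n) ∈ Set.Icc (0 : ℝ) 1 :=
        ⟨by positivity, by rw [div_le_one hn']; push_cast; linarith⟩
      have e1 := h _ ma _ mb
      have e2 := h _ mb _ ma
      have q1 : (((k + 1 : ℕ) : ℝ) / n - k / n) ^ 2 * M = M / n ^ 2 := by
        push_cast; field_simp; ring
      have q2 : ((k : ℝ) / n - ((k + 1 : ℕ) : ℝ) / n) ^ 2 * M = M / n ^ 2 := by
        push_cast; field_simp; ring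
      rw [q1] at e1
      rw [q2] at e2
      have q3 : ((k + 1 : ℕ) : ℝ) * (M / n ^ 2) = k * (M / n ^ 2) + M / n ^ 2 := by
        push_cast; ring
      rw [q3]
      constructor <;> linarith
  have key2 : ∀ n : ℕ, 0 < n → f 1 ≤ f 0 + M / n ∧ f 0 ≤ f 1 + M / n := by
    intro n hn
    have hn' : (n : ℝ) ≠ 0 := by positivity
    have := key n hn n le_rfl
    have q : (n : ℝ) * (M / n ^ 2) = M / n := by field_simp
    rwa [div_self hn', q] at this
  exact le_antisymm (Tr.le_of_div 0 fun k hk => (key2 k hk).1)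
    (Tr.le_of_div 0 fun k hk => (key2 k hk).2)

variable {A : Type*} [CStarAlgebra A] [PartialOrder A] [StarOrderedRing A]

theorem abs_one_sub (t : Tr A) (hc : Continuous t.τ) {S : A} (hS : t.Mem S) {C : ℝ}
    (hq : ∀ n : ℕ, ‖S ^ n‖ * 2 ^ n ≤ C) (h0 : ∀ k : ℕ, t.τ (S ^ (k + 1)) = 0) :
    IsUnit (1 - S) ∧ t.Φ (1 - S) = 0 := by
  have hb : ∀ s ∈ Set.Icc (0 : ℝ) 1, ∀ n : ℕ, ‖(s • S) ^ n‖ ≤ C * (1 / 2) ^ n := by
    intro s hs n
    rw [smul_pow, norm_smul, norm_pow, Real.norm_of_nonneg hs.1]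
    have h1 : s ^ n ≤ 1 := pow_le_one₀ hs.1 hs.2
    have h2 : ‖S ^ n‖ ≤ C * (1 / 2) ^ n := by
      rw [one_div, inv_pow, ← div_eq_mul_inv, le_div_iff₀ (by positivity)]
      exact hq n
    calc s ^ n * ‖S ^ n‖ ≤ 1 * ‖S ^ n‖ := by gcongr
      _ ≤ _ := by rwa [one_mul]
  have hg : HasSum (fun n : ℕ => C * (1 / 2 : ℝ) ^ n) (C * 2) := hasSum_geometric_two.mul_left C
  have hsum : ∀ s ∈ Set.Icc (0 : ℝ) 1, Summable fun n : ℕ => (s • S) ^ n := fun s hs =>
    Summable.of_norm_bounded hg.summable (hb s hs)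
  set G : ℝ → A := fun s => ∑' n : ℕ, (s • S) ^ n with hG
  have hGn : ∀ s ∈ Set.Icc (0 : ℝ) 1, ‖G s‖ ≤ C * 2 := fun s hs =>
    tsum_of_norm_bounded hg (hb s hs)
  have hl : ∀ s ∈ Set.Icc (0 : ℝ) 1, G s * (1 - s • S) = 1 := fun s hs =>
    (hsum s hs).tsum_pow_mul_one_sub
  have hr : ∀ s ∈ Set.Icc (0 : ℝ) 1, (1 - s • S) * G s = 1 := fun s hs =>
    (hsum s hs).one_sub_mul_tsum_pow
  have hu : ∀ s ∈ Set.Icc (0 : ℝ) 1, IsUnit (1 - s • S) := fun s hs =>
    ⟨⟨1 - s • S, G s, hr s hs, hl s hs⟩, rfl⟩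
  have hu' : ∀ s ∈ Set.Icc (0 : ℝ) 1, IsUnit (G s) := fun s hs =>
    ⟨⟨G s, 1 - s • S, hl s hs, hr s hs⟩, rfl⟩
  have hm : ∀ s : ℝ, t.Mem (1 - s • S) := fun s => Tr.mem_one.sub (hS.smul s)
  have hm' : ∀ s ∈ Set.Icc (0 : ℝ) 1, t.Mem (G s) := fun s hs =>
    Tr.Mem.inv (x := ⟨1 - s • S, G s, hr s hs, hl s hs⟩) (hm s)
  have hτ : ∀ s ∈ Set.Icc (0 : ℝ) 1, t.τ (S * G s) = 0 := by
    intro s hs
    have h1 : HasSum (fun n : ℕ => S * (s • S) ^ n) (S * G s) := (hsum s hs).hasSum.mul_left S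
    have h2 := h1.map t.τ hc
    have h3 : (t.τ ∘ fun n : ℕ => S * (s • S) ^ n) = fun _ => 0 := by
      funext n
      simp only [Function.comp, smul_pow, mul_smul_comm, map_smul, ← pow_succ', h0, smul_zero]
    rw [h3] at h2
    exact h2.unique hasSum_zero
  have h1τ : 0 ≤ t.τ 1 := t.pos _ zero_le_one
  have hstep : ∀ s ∈ Set.Icc (0 : ℝ) 1, ∀ s' ∈ Set.Icc (0 : ℝ) 1,
      t.Φ (1 - s' • S) ≤ t.Φ (1 - s • S) + (s' - s) ^ 2 * ((‖S‖ * (C * 2)) ^ 2 * t.τ 1) := by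
    intro s hs s' hs'
    set Q := S * G s with hQ
    have e1 : (1 - (s' - s) • Q) * (1 - s • S) = 1 - s' • S := by
      rw [sub_mul, one_mul, smul_mul_assoc, hQ, mul_assoc, hl s hs, mul_one, sub_smul]
      abel
    have e2 : 1 - (s' - s) • Q = (1 - s' • S) * G s := by
      rw [← e1, mul_assoc, hr s hs, mul_one]
    have uu : IsUnit (1 - (s' - s) • Q) := e2 ▸ (hu s' hs').mul (hu' s hs)
    have mQ : t.Mem Q := hS.mul (hm' s hs)
    have := Tr.step (Tr.mem_one.sub (mQ.smul (s' - s))) (hm s) uu (hu s hs)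
    rw [e1] at this
    refine this.trans (add_le_add le_rfl ?_)
    have e3 : star (1 - (s' - s) • Q) * (1 - (s' - s) • Q) =
        1 - (s' - s) • Q - (s' - s) • star Q + (s' - s) ^ 2 • (star Q * Q) := by
      simp only [star_sub, star_one, star_smul, star_trivial, sub_mul, mul_sub, one_mul, mul_one,
        smul_mul_assoc, mul_smul_comm, smul_smul, pow_two]
      module
    have e4 : t.τ (star Q * Q) ≤ (‖S‖ * (C * 2)) ^ 2 * t.τ 1 := by
      have h1 := Tr.mono (t := t) (CStarAlgebra.star_mul_le_algebraMap_norm_sq (a := Q))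
      rw [Algebra.algebraMap_eq_smul_one, map_smul, smul_eq_mul] at h1
      refine h1.trans ?_
      have : ‖Q‖ ≤ ‖S‖ * (C * 2) :=
        (norm_mul_le _ _).trans (mul_le_mul_of_nonneg_left (hGn s hs) (norm_nonneg _))
      gcongr
    rw [e3, map_add, map_sub, map_sub, map_smul, map_smul, map_smul, t.τ_star, hτ s hs]
    simp only [smul_eq_mul, mul_zero, sub_zero, add_sub_cancel_left]
    exact mul_le_mul_of_nonneg_left e4 (sq_nonneg _)
  have := real_step (f := fun s => t.Φ (1 - s • S)) hstep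
  have h1 := hu 1 ⟨zero_le_one, le_rfl⟩
  simp only [one_smul, zero_smul, sub_zero, Tr.Φ_one] at this h1
  exact ⟨h1, this⟩

omit [PartialOrder A] [StarOrderedRing A] in
theorem log_add_eps {Y : A} (hY : IsSelfAdjoint Y) (hp : ∀ x ∈ spectrum ℝ Y, 0 < x) {ε : ℝ}
    (hε : 0 < ε) :
    cfc Real.log (Y + (ε : ℂ) • (1 : A)) = cfc (fun x => Real.log (x + ε)) Y := by
  have h1 : Y + (ε : ℂ) • (1 : A) = cfc (fun x : ℝ => x + ε) Y := by
    rw [cfc_add_const ε (fun x : ℝ => x) Y, cfc_id' ℝ Y, Algebra.algebraMap_eq_smul_one,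
      Complex.coe_smul]
  have hc : ContinuousOn Real.log ((fun x : ℝ => x + ε) '' spectrum ℝ Y) := by
    refine Real.continuousOn_log.mono ?_
    rintro _ ⟨x, hx, rfl⟩
    exact (add_pos (hp x hx) hε).ne'
  rw [h1, ← cfc_comp' Real.log (fun x : ℝ => x + ε) Y hc]

theorem log_eps_bounds {Y : A} (hY : IsSelfAdjoint Y) (hp : ∀ x ∈ spectrum ℝ Y, 0 < x) :
    ∃ K : ℝ, ∀ ε : ℝ, 0 < ε → cfc Real.log Y ≤ cfc Real.log (Y + (ε : ℂ) • (1 : A)) ∧
      cfc Real.log (Y + (ε : ℂ) • (1 : A)) ≤ cfc Real.log Y + (ε * K) • (1 : A) := by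
  have hc : ContinuousOn (fun x : ℝ => x⁻¹) (spectrum ℝ Y) :=
    continuousOn_inv₀.mono fun x hx => (hp x hx).ne'
  obtain ⟨K, hK⟩ := (spectrum.isCompact (𝕜 := ℝ) Y).bddAbove_image hc
  refine ⟨K, fun ε hε => ?_⟩
  have c1 : ContinuousOn Real.log (spectrum ℝ Y) :=
    Real.continuousOn_log.mono fun x hx => (hp x hx).ne'
  have c2 : ContinuousOn (fun x => Real.log (x + ε)) (spectrum ℝ Y) :=
    ContinuousOn.log (by fun_prop) fun x hx => (add_pos (hp x hx) hε).ne'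
  rw [log_add_eps hY hp hε]
  refine ⟨cfc_mono (fun x hx => Real.log_le_log (hp x hx) (by linarith)) c1 c2, ?_⟩
  rw [← Algebra.algebraMap_eq_smul_one, ← cfc_add_const (ε * K) Real.log Y c1 hY]
  refine cfc_mono (fun x hx => ?_) c2 (c1.add continuousOn_const)
  have hx0 := hp x hx
  have h1 : x⁻¹ ≤ K := hK ⟨x, hx, rfl⟩
  have h2 : x + ε = x * (1 + ε * x⁻¹) := by field_simp
  have h3 : 0 < 1 + ε * x⁻¹ := by positivity
  rw [h2, Real.log_mul hx0.ne' h3.ne']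
  have h4 := Real.log_le_sub_one_of_pos h3
  have h5 : ε * x⁻¹ ≤ ε * K := by gcongr
  linarith

section
variable {H : Type*} [NormedAddCommGroup H] [InnerProductSpace ℂ H] [CompleteSpace H]

/-- the vector state -/
noncomputable def vs (ξ : H) : (H →L[ℂ] H) →ₗ[ℝ] ℝ where
  toFun x := RCLike.re (inner ℂ ξ (x ξ))
  map_add' x y := by simp [inner_add_right]
  map_smul' c x := by
    rw [← Complex.coe_smul, ContinuousLinearMap.smul_apply, inner_smul_right]
    simp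

theorem vs_apply (ξ : H) (x : H →L[ℂ] H) : vs ξ x = RCLike.re (inner ℂ ξ (x ξ)) := rfl

theorem vs_pos (ξ : H) {x : H →L[ℂ] H} (hx : 0 ≤ x) : 0 ≤ vs ξ x :=
  ((ContinuousLinearMap.nonneg_iff_isPositive x).1 hx).re_inner_nonneg_right ξ

theorem vs_mono (ξ : H) {x y : H →L[ℂ] H} (h : x ≤ y) : vs ξ x ≤ vs ξ y := by
  have := vs_pos ξ (sub_nonneg.2 h)
  rw [map_sub] at this
  linarith

theorem vs_one {ξ : H} (hξ : ‖ξ‖ = 1) : vs ξ 1 = 1 := by
  rw [vs_apply, ContinuousLinearMap.one_apply, inner_self_eq_norm_sq, hξ, one_pow]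

theorem vs_cont (ξ : H) : Continuous (vs ξ) := by
  change Continuous fun x : H →L[ℂ] H => RCLike.re (inner ℂ ξ (x ξ))
  fun_prop

theorem vectorDet_eq (ξ : H) (B : H →L[ℂ] H) : vectorDet ξ B = ⨅ ε : {r : ℝ // 0 < r},
    Real.exp (RCLike.re (inner ℂ ξ
      (rcfc Real.log (star B * B + ((ε : ℝ) : ℂ) • (1 : H →L[ℂ] H)) ξ)) / 2) := rfl

end

end DetA

section Abs

variable {H : Type*} [NormedAddCommGroup H] [InnerProductSpace ℂ H] [CompleteSpace H]

/-- PLAN. Build `t : R177.DetAux.Tr (H →L[ℂ] H)` with `R = Rs`, `τ x = re ⟪ξ, x ξ⟫`. For real `s`,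
`B s = 1 - s • S` has the inverse `∑' (s S)^k` (summable by `hq` with `r = 2(|s|+1)`), which lies in
the commutant, and `τ(S (B s)⁻¹) = ∑ s^k τ(S^{k+1}) = 0`. `B (s+h) = (1 - h Q) B s` with
`Q = S (B s)⁻¹`; `Tr.step` gives `Φ(B(s+h)) ≤ Φ(B s) + h² ‖Q‖²` for all `s, h`; with
`‖Q‖ ≤ M := ∑ ‖S‖^..` uniformly for `s ∈ [0,1]`, subdividing `[0,1]` in `n` steps in both directions
(`Tr.le_of_div`) gives `Φ(B 1) = Φ(B 0) = 0`. -/
theorem logdet_one_sub {ξ : H} (hξ : ‖ξ‖ = 1) {Rs : Set (H →L[ℂ] H)} (hRs : ∀ r ∈ Rs, star r ∈ Rs)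
    (htr : ∀ x y : H →L[ℂ] H, (∀ r ∈ Rs, Commute x r) → (∀ r ∈ Rs, Commute y r) →
      inner ℂ ξ ((x * y) ξ) = inner ℂ ξ ((y * x) ξ))
    {S : H →L[ℂ] H} (hS : ∀ r ∈ Rs, Commute S r)
    (hq : ∀ r > (0 : ℝ), ∃ C : ℝ, ∀ n : ℕ, ‖S ^ n‖ * r ^ n ≤ C)
    (h0 : ∀ k : ℕ, inner ℂ ξ ((S ^ (k + 1)) ξ) = 0) :
    IsUnit (1 - S) ∧
      RCLike.re (inner ℂ ξ (cfc Real.log (star (1 - S) * (1 - S)) ξ)) = 0 := by
  let t : R177.DetAux.Tr (H →L[ℂ] H) :=
    { R := Rs
      star_R := hRs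
      τ := DetA.vs ξ
      pos := fun x hx => DetA.vs_pos ξ hx
      tr := fun x y hx hy => by rw [DetA.vs_apply, DetA.vs_apply, htr x y hx hy]
      τ_star := fun x => by
        rw [DetA.vs_apply, DetA.vs_apply, ContinuousLinearMap.star_eq_adjoint,
          ContinuousLinearMap.adjoint_inner_right, inner_re_symm] }
  obtain ⟨C, hC⟩ := hq 2 two_pos
  exact DetA.abs_one_sub t (DetA.vs_cont ξ) hS hC fun k => by
    change DetA.vs ξ _ = 0
    rw [DetA.vs_apply, h0 k, map_zero]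

/-- PLAN. `Y = star A * A` has spectrum in `[δ, ∞)`, `δ > 0`; `cfc log (Y + ε) = cfc (log (· + ε)) Y`
and `0 ≤ log (x+ε) - log x ≤ ε/δ` on the spectrum. -/
theorem vectorDet_unit {ξ : H} (hξ : ‖ξ‖ = 1) {A : H →L[ℂ] H} (hA : IsUnit A) :
    vectorDet ξ A = Real.exp (RCLike.re (inner ℂ ξ (cfc Real.log (star A * A) ξ)) / 2) := by
  obtain ⟨K, hK⟩ := DetA.log_eps_bounds (IsSelfAdjoint.star_mul_self A)
    (R177.DetAux.Tr.spec_pos hA)
  have hbdd : BddBelow (Set.range fun ε : {r : ℝ // 0 < r} => Real.exp (RCLike.re (inner ℂ ξ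
      (cfc Real.log (star A * A + ((ε : ℝ) : ℂ) • (1 : H →L[ℂ] H)) ξ)) / 2)) :=
    ⟨0, by rintro _ ⟨ε, rfl⟩; exact (Real.exp_pos _).le⟩
  have : Nonempty {r : ℝ // 0 < r} := ⟨⟨1, one_pos⟩⟩
  refine le_antisymm ?_ (le_ciInf fun ε => ?_)
  · set L := RCLike.re (inner ℂ ξ (cfc Real.log (star A * A) ξ)) with hL
    have h1 : ∀ ε : ℝ, 0 < ε → vectorDet ξ A ≤ Real.exp ((L + ε * K) / 2) := by
      intro ε hε
      refine (ciInf_le hbdd ⟨ε, hε⟩).trans ?_
      have := DetA.vs_mono ξ (hK ε hε).2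
      rw [map_add, map_smul, DetA.vs_one hξ, smul_eq_mul, mul_one, DetA.vs_apply,
        DetA.vs_apply] at this
      exact Real.exp_le_exp.2 (by linarith)
    have h2 : Tendsto (fun ε : ℝ => Real.exp ((L + ε * K) / 2)) (𝓝[>] 0)
        (𝓝 (Real.exp ((L + 0 * K) / 2))) :=
      (Continuous.tendsto (by fun_prop) 0).mono_left nhdsWithin_le_nhds
    rw [zero_mul, add_zero] at h2
    exact ge_of_tendsto h2 (eventually_nhdsWithin_of_forall h1)
  · have := DetA.vs_mono ξ (hK ε ε.2).1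
    rw [DetA.vs_apply, DetA.vs_apply] at this
    exact Real.exp_le_exp.2 (by linarith)

/-- PLAN. `T - z = -z (1 - z⁻¹ T)`, `star A * A = ‖z‖² • star B * B`,
`cfc log (c • Y) = log c + cfc log Y`. -/
theorem vectorDet_sub {ξ : H} (hξ : ‖ξ‖ = 1) {Rs : Set (H →L[ℂ] H)} (hRs : ∀ r ∈ Rs, star r ∈ Rs)
    (htr : ∀ x y : H →L[ℂ] H, (∀ r ∈ Rs, Commute x r) → (∀ r ∈ Rs, Commute y r) →
      inner ℂ ξ ((x * y) ξ) = inner ℂ ξ ((y * x) ξ))
    {T : H →L[ℂ] H} (hT : ∀ r ∈ Rs, Commute T r)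
    (hq : ∀ r > (0 : ℝ), ∃ C : ℝ, ∀ n : ℕ, ‖T ^ n‖ * r ^ n ≤ C)
    (h0 : ∀ k : ℕ, inner ℂ ξ ((T ^ (k + 1)) ξ) = 0) {z : ℂ} (hz : z ≠ 0) :
    vectorDet ξ (T - z • (1 : H →L[ℂ] H)) = ‖z‖ := by
  have hz' : 0 < ‖z‖ := norm_pos_iff.2 hz
  obtain ⟨hu, hl⟩ := logdet_one_sub hξ hRs htr (S := z⁻¹ • T) (fun r hr => (hT r hr).smul_left _)
    (fun r hr => by
      obtain ⟨C, hC⟩ := hq (‖z‖⁻¹ * r) (by positivity)
      refine ⟨C, fun n => ?_⟩
      have := hC n
      rw [smul_pow, norm_smul, norm_pow, norm_inv]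
      rw [mul_pow] at this
      linarith)
    (fun k => by
      rw [smul_pow, ContinuousLinearMap.smul_apply, inner_smul_right, h0 k, mul_zero])
  set B := 1 - z⁻¹ • T with hB
  have e1 : T - z • (1 : H →L[ℂ] H) = (-z) • B := by
    rw [hB, smul_sub, smul_smul, neg_mul, mul_inv_cancel₀ hz]
    module
  have e2 : star ((-z) • B) * ((-z) • B) = (‖z‖ ^ 2 : ℝ) • (star B * B) := by
    rw [star_smul, smul_mul_smul_comm, ← Complex.coe_smul]
    congr 1
    rw [star_neg, neg_mul_neg, RCLike.star_def, Complex.conj_mul']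
    push_cast
    rfl
  have hu' : IsUnit ((-z) • B) := by
    rw [Algebra.smul_def]
    exact ((neg_ne_zero.2 hz).isUnit.map _).mul hu
  have e3 := CFC.log_smul (r := ‖z‖ ^ 2) (star B * B)
    (fun x hx => (R177.DetAux.Tr.spec_pos hu x hx).ne') (by positivity)
    (IsSelfAdjoint.star_mul_self B)
  unfold CFC.log at e3
  rw [e1, vectorDet_unit hξ hu', e2, e3, ← DetA.vs_apply, map_add, Algebra.algebraMap_eq_smul_one,
    map_smul, DetA.vs_one hξ, DetA.vs_apply, hl, Real.log_pow]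
  simp only [smul_eq_mul, mul_one, add_zero, Nat.cast_ofNat]
  rw [mul_div_cancel_left₀ _ two_ne_zero, Real.exp_log hz']

end Abs

variable {X : Type*} [MeasurableSpace X] {D : Sys X} {w : X → ℝ}

theorem shift_pow (hw : Bd w) (n : ℕ) :
    (D.U 1 * D.π w) ^ n = D.U n * D.π fun x => ∏ j ∈ Finset.range n, w (D.σ (j : ℕ) x) := by
  have hb : ∀ n : ℕ, Bd fun x => ∏ j ∈ Finset.range n, w (D.σ (j : ℕ) x) := by
    intro n
    induction n with
    | zero => simpa using Bd.const (1 : ℝ)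
    | succ n ih =>
      simp only [Finset.prod_range_succ]
      exact ih.mul (hw.comp (Sys.meas_σ _))
  induction n with
  | zero =>
    simp only [pow_zero, Nat.cast_zero, Sys.U_zero, Finset.range_zero, Finset.prod_empty, one_mul]
    rw [Sys.π_const]
    simp
  | succ n ih =>
    rw [pow_succ, ih, mul_assoc, ← mul_assoc (D.π _), Sys.π_U (hb n), mul_assoc (D.U 1),
      Sys.π_mul ((hb n).comp (Sys.meas_σ _)) hw, ← mul_assoc, ← Sys.U_add]
    have e : (fun x => (∏ j ∈ Finset.range n, w (D.σ (j : ℕ) (D.σ 1 x))) * w x) =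
        fun x => ∏ j ∈ Finset.range (n + 1), w (D.σ (j : ℕ) x) := by
      funext x
      rw [Finset.prod_range_succ']
      simp only [Nat.cast_zero, D.σ_zero, Nat.cast_add, Nat.cast_one, D.σ_add]
    rw [e, Nat.cast_succ]

/-- PLAN. `star T * T + ε = π(w² + ε)`, `cfc_log_mulOp` (`vectorDet` unfolds to `rcfc`), `τ_π`:
the term is `exp(½∫ log(w²+ε))`, which tends to `0` as `ε → 0`: as `log(w²+ε) ≤ log 2` and
`∫⁻ ofReal(-log(w²+ε)) ↑ ∫⁻ ofReal(-2 log w) = ⊤` (monotone convergence along `ε = 1/(n+1)`). -/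
theorem vectorDet_shift_zero (hw : Measurable w) (hw1 : ∀ x, 0 ≤ w x ∧ w x ≤ 1)
    (hpos : ∀ᵐ x ∂D.μ, 0 < w x) (hlog : ∫⁻ x, ENNReal.ofReal (-Real.log (w x)) ∂D.μ = ⊤) :
    vectorDet D.Ω (D.U 1 * D.π w) = 0 := by
  have hwb : Bd w := Bd.of_bound hw hw1
  have key : ∀ ε : ℝ, 0 < ε → RCLike.re (inner ℂ D.Ω (rcfc Real.log
      (star (D.U 1 * D.π w) * (D.U 1 * D.π w) + (ε : ℂ) • (1 : D.H →L[ℂ] D.H)) D.Ω)) =
        ∫ x, Real.log (w x * w x + ε) ∂D.μ := by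
    intro ε hε
    have hb2 : Bd fun x => w x * w x + ε := (hwb.mul hwb).add (Bd.const ε)
    have hge : ∀ x, ε ≤ w x * w x + ε := fun x => by nlinarith [mul_self_nonneg (w x)]
    have hb3 : Bd fun x => Real.log (w x * w x + ε) :=
      Bd.of_bound (a := Real.log ε) (b := Real.log (1 + ε)) (Real.measurable_log.comp hb2.1)
        fun x => ⟨Real.log_le_log hε (hge x), Real.log_le_log (hε.trans_le (hge x))
          (by nlinarith [(hw1 x).1, (hw1 x).2])⟩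
    have e1 : star (D.U 1 * D.π w) * (D.U 1 * D.π w) + (ε : ℂ) • (1 : D.H →L[ℂ] D.H) =
        D.π fun x => w x * w x + ε := by
      rw [star_mul, Sys.star_U, Sys.star_π hwb, mul_assoc, ← mul_assoc (D.U (-1)), ← Sys.U_add,
        neg_add_cancel, Sys.U_zero, one_mul, Sys.π_mul hwb hwb,
        Sys.π_add (hwb.mul hwb) (Bd.const ε), Sys.π_const]
    have e2 : rcfc Real.log (D.π fun x => w x * w x + ε) =
        D.π fun x => Real.log (w x * w x + ε) :=
      cfc_log_mulOp (ν := D.ν) (F := fun p : X × ℤ => w (D.σ p.2 p.1) * w (D.σ p.2 p.1) + ε)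
        (Sys.bd_L hb2) hε fun p => hge _
    rw [e1, e2]
    have := Sys.τ_π (D := D) hb3
    unfold Sys.τ at this
    rw [this]
    simp
  rw [DetA.vectorDet_eq]
  simp only [key _ (Subtype.prop _)]
  have : Nonempty {r : ℝ // 0 < r} := ⟨⟨1, one_pos⟩⟩
  have hbdd : BddBelow (Set.range fun ε : {r : ℝ // 0 < r} =>
      Real.exp ((∫ x, Real.log (w x * w x + ε) ∂D.μ) / 2)) :=
    ⟨0, by rintro _ ⟨ε, rfl⟩; exact (Real.exp_pos _).le⟩
  refine le_antisymm ?_ (le_ciInf fun ε => (Real.exp_pos _).le)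
  -- monotone convergence
  set e : ℕ → ℝ := fun n => 1 / ((n : ℝ) + 1) with he
  have he0 : ∀ n, 0 < e n := fun n => by simp only [he]; positivity
  have he1 : ∀ n, e n ≤ 1 := fun n => by
    simp only [he]
    rw [div_le_one (by positivity)]
    linarith [(Nat.cast_nonneg n : (0 : ℝ) ≤ n)]
  have hpos' : ∀ n x, 0 < w x * w x + e n := fun n x => by
    nlinarith [mul_self_nonneg (w x), he0 n]
  have hmeas : ∀ n, Measurable fun x => Real.log (w x * w x + e n) := fun n =>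
    Real.measurable_log.comp ((hw.mul hw).add_const _)
  have hle2 : ∀ n x, Real.log (w x * w x + e n) ≤ Real.log 2 := fun n x =>
    Real.log_le_log (hpos' n x) (by nlinarith [(hw1 x).1, (hw1 x).2, he1 n])
  have hbn : ∀ n, Bd fun x => Real.log (w x * w x + e n) := fun n =>
    Bd.of_bound (a := Real.log (e n)) (b := Real.log 2) (hmeas n)
      fun x => ⟨Real.log_le_log (he0 n) (by nlinarith [mul_self_nonneg (w x)]), hle2 n x⟩
  have hT := lintegral_tendsto_of_tendsto_of_monotone (μ := D.μ)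
    (f := fun n x => ENNReal.ofReal (Real.log 2 - Real.log (w x * w x + e n)))
    (F := fun x => ENNReal.ofReal (Real.log 2 - Real.log (w x * w x + 0)))
    (fun n => (ENNReal.measurable_ofReal.comp ((hmeas n).const_sub _)).aemeasurable)
    (Eventually.of_forall fun x m n hmn => by
      refine ENNReal.ofReal_le_ofReal (sub_le_sub_left (Real.log_le_log (hpos' n x) ?_) _)
      have : e n ≤ e m := Nat.one_div_le_one_div hmn
      linarith)
    (hpos.mono fun x hx => by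
      refine ENNReal.tendsto_ofReal (Tendsto.const_sub _ (Tendsto.log ?_ ?_))
      · exact tendsto_one_div_add_atTop_nhds_zero_nat.const_add _
      · rw [add_zero]; positivity)
  have htop : ∫⁻ x, ENNReal.ofReal (Real.log 2 - Real.log (w x * w x + 0)) ∂D.μ = ⊤ := by
    refine top_unique (hlog ▸ lintegral_mono_ae (hpos.mono fun x hx => ?_))
    refine ENNReal.ofReal_le_ofReal ?_
    rw [add_zero, Real.log_mul hx.ne' hx.ne']
    have h1 := Real.log_nonpos hx.le (hw1 x).2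
    have h2 : 0 ≤ Real.log 2 := Real.log_nonneg one_le_two
    linarith
  rw [htop] at hT
  have hint : ∀ n, ∫⁻ x, ENNReal.ofReal (Real.log 2 - Real.log (w x * w x + e n)) ∂D.μ =
      ENNReal.ofReal (Real.log 2 - ∫ x, Real.log (w x * w x + e n) ∂D.μ) := by
    intro n
    rw [← ofReal_integral_eq_lintegral_ofReal
      (f := fun x => Real.log 2 - Real.log (w x * w x + e n))
      ((integrable_const _).sub ((hbn n).integrable _))
      (Eventually.of_forall fun x => sub_nonneg.2 (hle2 n x)),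
      integral_sub (integrable_const _) ((hbn n).integrable _)]
    simp
  simp only [hint] at hT
  have hT2 : Tendsto (fun n => Real.log 2 - ∫ x, Real.log (w x * w x + e n) ∂D.μ) atTop atTop :=
    ENNReal.tendsto_ofReal_nhds_top.1 hT
  have hT3 : Tendsto (fun n => (∫ x, Real.log (w x * w x + e n) ∂D.μ) / 2) atTop atBot := by
    refine Tendsto.atBot_div_const two_pos ?_
    have := tendsto_atBot_add_const_left atTop (Real.log 2) (tendsto_neg_atTop_atBot.comp hT2)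
    refine this.congr fun n => ?_
    simp
  refine ge_of_tendsto (Real.tendsto_exp_atBot.comp hT3) (Eventually.of_forall fun n => ?_)
  exact ciInf_le hbdd ⟨e n, he0 n⟩

/-- PLAN. `z = 0`: `vectorDet_shift_zero`; otherwise `vectorDet_sub` with
`Rs = range R ∪ {πR f | Bd f}`, `τ_comm`, `shift_pow`, `norm_π_le`; `⟪Ω, U n π g Ω⟫ = 0` for `n ≠ 0`
(`inner_Ω`, `U_ae`, `Ω_ae`). -/
theorem vectorDet_shift (hw : Measurable w) (hw1 : ∀ x, 0 ≤ w x ∧ w x ≤ 1)
    (hpos : ∀ᵐ x ∂D.μ, 0 < w x) (hlog : ∫⁻ x, ENNReal.ofReal (-Real.log (w x)) ∂D.μ = ⊤)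
    (hq : ∀ r > (0 : ℝ), ∃ C : ℝ, ∀ n : ℕ, ∀ᵐ x ∂D.μ,
      (∏ j ∈ Finset.range n, w (D.σ (j : ℕ) x)) * r ^ n ≤ C) (z : ℂ) :
    vectorDet D.Ω (D.U 1 * D.π w - z • (1 : D.H →L[ℂ] D.H)) = ‖z‖ := by
  rcases eq_or_ne z 0 with rfl | hz
  · rw [zero_smul, sub_zero, norm_zero]
    exact vectorDet_shift_zero hw hw1 hpos hlog
  have hwb : Bd w := Bd.of_bound hw hw1
  have hb : ∀ n : ℕ, Bd fun x => ∏ j ∈ Finset.range n, w (D.σ (j : ℕ) x) := by
    intro n
    induction n with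
    | zero => simpa using Bd.const (1 : ℝ)
    | succ n ih =>
      simp only [Finset.prod_range_succ]
      exact ih.mul (hwb.comp (Sys.meas_σ _))
  have hmem : ∀ x : D.H →L[ℂ] D.H,
      (∀ r ∈ Set.range D.R ∪ {y | ∃ f : X → ℂ, Bd f ∧ y = D.πR f}, Commute x r) ↔ D.Mem x := by
    intro x
    constructor
    · intro h
      exact ⟨fun b => h _ (Or.inl ⟨b, rfl⟩), fun f hf => h _ (Or.inr ⟨f, hf, rfl⟩)⟩
    · rintro h r (⟨b, rfl⟩ | ⟨f, hf, rfl⟩)
      · exact h.1 b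
      · exact h.2 f hf
  refine vectorDet_sub Sys.norm_Ω (Rs := Set.range D.R ∪ {y | ∃ f : X → ℂ, Bd f ∧ y = D.πR f})
    ?_ ?_ ((hmem _).2 ((Sys.mem_U 1).mul (Sys.mem_π hwb))) ?_ ?_ hz
  · rintro r (⟨b, rfl⟩ | ⟨f, hf, rfl⟩)
    · exact Or.inl ⟨-b, (Sys.star_R b).symm⟩
    · exact Or.inr ⟨_, hf.conj, Sys.star_πR hf⟩
  · intro x y hx hy
    exact Sys.τ_comm ((hmem x).1 hx) ((hmem y).1 hy)
  · intro r hr
    obtain ⟨C, hC⟩ := hq r hr
    refine ⟨max C 0, fun n => ?_⟩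
    have hrn : 0 < r ^ n := by positivity
    have h1 : ‖D.π fun x => ∏ j ∈ Finset.range n, w (D.σ (j : ℕ) x)‖ ≤ max C 0 / r ^ n := by
      refine Sys.norm_π_le (hb n) (by positivity) ((hC n).mono fun x hx => ?_)
      rw [abs_of_nonneg (Finset.prod_nonneg fun j _ => (hw1 _).1), le_div_iff₀ hrn]
      exact hx.trans (le_max_left _ _)
    have h2 : ‖D.U n‖ ≤ 1 :=
      ContinuousLinearMap.opNorm_le_bound _ zero_le_one fun g => by rw [Sys.norm_U, one_mul]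
    rw [shift_pow hwb, ← le_div_iff₀ hrn]
    refine (norm_mul_le _ _).trans ?_
    calc _ ≤ 1 * (max C 0 / r ^ n) := by gcongr
      _ = _ := one_mul _
  · intro k
    rw [shift_pow hwb, Sys.inner_Ω]
    refine integral_eq_zero_of_ae ?_
    have h1 := Sys.ae_ν_iff.1 (Sys.U_ae (D := D) ((k + 1 : ℕ) : ℤ)
      (D.π (fun x => ∏ j ∈ Finset.range (k + 1), w (D.σ (j : ℕ) x)) D.Ω)) 0
    have h2 := Sys.ae_ν_iff.1 (Sys.πL_ae (D := D) (hb (k + 1)).ofReal D.Ω) (0 - ((k + 1 : ℕ) : ℤ))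
    have h3 := Sys.ae_ν_iff.1 (Sys.Ω_ae (D := D)) (0 - ((k + 1 : ℕ) : ℤ))
    filter_upwards [h1, h2, h3] with x e1 e2 e3
    rw [ContinuousLinearMap.mul_apply, e1]
    refine e2.trans ?_
    rw [e3, if_neg (by omega), mul_zero]
    rfl

end Crest.Agent.R113
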