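import Crest.Agent.R113.Mul

/-! Row 113: Fourier analysis on the circle. -/

set_option autoImplicit false

open MeasureTheory Filter Topology
open scoped ENNReal

namespace Crest.Agent.R113

local notation "μT" => (AddCircle.haarAddCircle : Measure UnitAddCircle)

theorem haar_eq : μT = volume := by
  rw [AddCircle.volume_eq_smul_haarAddCircle]; simp

theorem ae_ne_zero : ∀ᵐ x ∂μT, x ≠ 0 := by
  rw [ae_iff, haar_eq]
  have h : {a : UnitAddCircle | ¬ a ≠ 0} = Metric.closedBall 0 0 := by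
    ext a; simp
  rw [h, AddCircle.volume_closedBall]
  simp

namespace ErgA

/-- a bounded real function as an element of `L²` -/
noncomputable def L {f : UnitAddCircle → ℝ} (hf : Bd f) : Lp ℂ 2 μT :=
  (hf.ofReal.memLp_fin μT 2).toLp _

theorem L_ae {f : UnitAddCircle → ℝ} (hf : Bd f) :
    (L hf : UnitAddCircle → ℂ) =ᵐ[μT] fun x => (f x : ℂ) := MemLp.coeFn_toLp _

theorem inner_b {g : UnitAddCircle → ℝ} (hg : Bd g) (k : ℤ) :
    inner ℂ (fourierBasis (-k)) (L hg) = ∫ x, fourier k x * (g x : ℂ) ∂μT := by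
  rw [← HilbertBasis.repr_apply_apply, fourierBasis_repr, fourierCoeff, neg_neg]
  refine integral_congr_ae ?_
  filter_upwards [L_ae hg] with x hx
  rw [hx, smul_eq_mul]

theorem inner_L {f g : UnitAddCircle → ℝ} (hf : Bd f) (hg : Bd g) :
    inner ℂ (L hf) (L hg) = ((∫ x, f x * g x ∂μT : ℝ) : ℂ) := by
  rw [L2.inner_def, ← integral_complex_ofReal]
  refine integral_congr_ae ?_
  filter_upwards [L_ae hf, L_ae hg] with x h1 h2
  rw [h1, h2, RCLike.inner_apply', Complex.conj_ofReal, Complex.ofReal_mul]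

theorem norm_L {g : UnitAddCircle → ℝ} (hg : Bd g) : ‖L hg‖ = √(∫ x, g x ^ 2 ∂μT) := by
  rw [← Real.sqrt_sq (norm_nonneg (L hg)), norm_sq_eq]
  congr 1
  refine integral_congr_ae ?_
  filter_upwards [L_ae hg] with x h1
  rw [h1, Complex.norm_real, Real.norm_eq_abs, sq_abs]

theorem norm_fourier (k : ℤ) (x : UnitAddCircle) : ‖fourier k x‖ = 1 := by
  rw [fourier_apply, Circle.norm_coe]

theorem bd_fourier (k : ℤ) : Bd fun x : UnitAddCircle => fourier k x :=
  ⟨(fourier k).continuous.measurable, 1, fun x => (norm_fourier k x).le⟩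

theorem coef_le {g : UnitAddCircle → ℝ} (hg : Bd g) (k : ℤ) (t : UnitAddCircle) :
    ‖1 - fourier k t‖ * ‖∫ x, fourier k x * (g x : ℂ) ∂μT‖ ≤ ∫ x, |g (x + t) - g x| ∂μT := by
  have h1 := hg.comp (measurable_add_const t)
  have e1 : ∫ x, fourier k x * (g x : ℂ) ∂μT =
      fourier k t * ∫ x, fourier k x * (g (x + t) : ℂ) ∂μT := by
    rw [← integral_add_right_eq_self _ t, ← integral_const_mul]
    refine integral_congr_ae (Eventually.of_forall fun x => ?_)
    simp only [fourier_apply, smul_add, AddCircle.toCircle_add, Circle.coe_mul]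
    ring
  have e2 : (1 - fourier k t) * ∫ x, fourier k x * (g x : ℂ) ∂μT =
      fourier k t * ∫ x, fourier k x * ((g (x + t) - g x : ℝ) : ℂ) ∂μT := by
    simp only [Complex.ofReal_sub, mul_sub]
    rw [integral_sub (((bd_fourier k).mul h1.ofReal).integrable _)
      (((bd_fourier k).mul hg.ofReal).integrable _)]
    linear_combination e1
  rw [← norm_mul, e2, norm_mul, norm_fourier, one_mul]
  refine (norm_integral_le_integral_norm _).trans (le_of_eq ?_)
  simp only [norm_mul, norm_fourier, one_mul, Complex.norm_real, Real.norm_eq_abs]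

theorem int_of_fourier {k : ℤ} {r : ℝ} (h : 1 - fourier k (r : UnitAddCircle) = 0) :
    ∃ n : ℤ, (n : ℝ) = k * r := by
  rw [sub_eq_zero, fourier_apply, eq_comm, Circle.coe_eq_one, ← AddCircle.toCircle_zero (T := 1),
    (AddCircle.injective_toCircle one_ne_zero).eq_iff, ← AddCircle.coe_zsmul,
    AddCircle.coe_eq_zero_iff] at h
  simpa using h

theorem lift (z : UnitAddCircle) : ∃ r : ℝ, |r| = ‖z‖ ∧ z = r := by
  obtain ⟨r, rfl⟩ := QuotientAddGroup.mk_surjective z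
  refine ⟨r - round r, UnitAddCircle.norm_eq.symm, ?_⟩
  rw [AddCircle.coe_sub, (AddCircle.coe_eq_zero_iff (p := (1 : ℝ)) (x := round r)).2
    ⟨round r, by simp⟩, sub_zero]

theorem dense {θ : ℝ} (hθ : Irrational θ) : DenseRange (· • (θ : UnitAddCircle) : ℤ → _) :=
  AddCircle.denseRange_zsmul_coe_iff.2 (by rwa [div_one])

end ErgA

/-- PLAN. Parseval (`fourierBasis`, `HilbertBasis.hasSum_inner_mul_inner`, `fourierBasis_repr`)
`∫ f g - ∫f ∫g = ∑_{k ≠ 0} conj f̂(k) ĝ(k)`. The tail over `k ∉ s` is at most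
`(∑_{k∉s}|f̂|²)^{1/2} ‖g‖₂`; equivalently: let `f_s` be the partial Fourier sum with
`‖f - f_s‖₂ ≤ ε`, Cauchy-Schwarz. -/
theorem fourier_cov {f : UnitAddCircle → ℝ} (hf : Bd f) {ε : ℝ} (hε : 0 < ε) :
    ∃ s : Finset ℤ, 0 ∉ s ∧ ∃ M : ℝ, 0 ≤ M ∧ ∀ g : UnitAddCircle → ℝ, Bd g →
      |∫ x, f x * g x ∂μT - (∫ x, f x ∂μT) * ∫ x, g x ∂μT| ≤
        ε * √(∫ x, g x ^ 2 ∂μT) + M * ∑ k ∈ s, ‖∫ x, fourier k x * (g x : ℂ) ∂μT‖ := by
  classical
  have h1 : HasSum (fun k : ℤ => inner ℂ (fourierBasis (-k)) (ErgA.L hf) • fourierBasis (-k))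
      (ErgA.L hf) := by
    have := (Equiv.neg ℤ).hasSum_iff.2 (fourierBasis.hasSum_repr (ErgA.L hf))
    simpa only [Function.comp_def, Equiv.neg_apply, HilbertBasis.repr_apply_apply] using this
  obtain ⟨t, ht0, ht⟩ := ((eventually_ge_atTop {0}).and
    (Metric.tendsto_nhds.1 (show Tendsto _ atTop _ from h1) ε hε)).exists
  have h0 : (0 : ℤ) ∈ t := ht0 (Finset.mem_singleton_self 0)
  rw [dist_comm, dist_eq_norm] at ht
  set c : ℤ → ℂ := fun k => inner ℂ (fourierBasis (-k)) (ErgA.L hf) with hc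
  refine ⟨t.erase 0, Finset.notMem_erase _ _, ∑ k ∈ t, ‖c k‖, by positivity, fun g hg => ?_⟩
  have e1 : inner ℂ (ErgA.L hf) (ErgA.L hg) =
      inner ℂ (ErgA.L hf - ∑ k ∈ t, c k • fourierBasis (-k)) (ErgA.L hg) +
        ∑ k ∈ t, (starRingEnd ℂ) (c k) * ∫ x, fourier k x * (g x : ℂ) ∂μT := by
    rw [inner_sub_left, sum_inner]
    simp only [inner_smul_left, ErgA.inner_b, sub_add_cancel]
  have e2 : c 0 = ((∫ x, f x ∂μT : ℝ) : ℂ) := by
    simp only [hc, ErgA.inner_b, fourier_zero, one_mul, integral_complex_ofReal]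
  rw [← Finset.add_sum_erase _ (fun k => (starRingEnd ℂ) (c k) * ∫ x, fourier k x * (g x : ℂ) ∂μT)
    h0, e2, ErgA.inner_L] at e1
  have e4 : ∀ g : UnitAddCircle → ℝ, ∫ x, fourier 0 x * (g x : ℂ) ∂μT = ((∫ x, g x ∂μT : ℝ) : ℂ) :=
    fun g => by simp only [fourier_zero, one_mul, integral_complex_ofReal]
  rw [e4, Complex.conj_ofReal] at e1
  have e3 : ((∫ x, f x * g x ∂μT - (∫ x, f x ∂μT) * ∫ x, g x ∂μT : ℝ) : ℂ) =
      inner ℂ (ErgA.L hf - ∑ k ∈ t, c k • fourierBasis (-k)) (ErgA.L hg) +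
        ∑ k ∈ t.erase 0, (starRingEnd ℂ) (c k) * ∫ x, fourier k x * (g x : ℂ) ∂μT := by
    push_cast
    linear_combination e1
  rw [← Real.norm_eq_abs, ← Complex.norm_real, e3]
  refine (norm_add_le _ _).trans (add_le_add ((norm_inner_le_norm _ _).trans ?_) ?_)
  · rw [ErgA.norm_L]
    exact mul_le_mul_of_nonneg_right ht.le (Real.sqrt_nonneg _)
  · rw [Finset.mul_sum]
    refine (norm_sum_le _ _).trans (Finset.sum_le_sum fun k hk => ?_)
    rw [norm_mul, Complex.norm_conj]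
    exact mul_le_mul_of_nonneg_right (Finset.single_le_sum (f := fun k => ‖c k‖)
      (fun _ _ => norm_nonneg _) (Finset.mem_of_mem_erase hk)) (norm_nonneg _)

/-- PLAN. `(fourier k (-θ) - 1) ĝ = ∫ fourier k x (g(x+θ) - g x)`, and `fourier k θ ≠ 1` for
`k ≠ 0`. -/
theorem rot_erg {θ : ℝ} (hθ : Irrational θ) : (rot θ).Erg := by
  intro f hf ε hε
  obtain ⟨s, h0, M, hM, H⟩ := fourier_cov hf (half_pos hε)
  set B := ∑ k ∈ s, ‖1 - fourier k (θ : UnitAddCircle)‖⁻¹ with hB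
  have hB0 : 0 ≤ B := by positivity
  have hp : 0 < M * B + 1 := by positivity
  refine ⟨ε / 2 / (M * B + 1), by positivity, fun g hg h1 h2 => (H g hg).trans ?_⟩
  have h3 : √(∫ x, g x ^ 2 ∂μT) ≤ 1 := Real.sqrt_le_one.2 h1
  have h4 : ∑ k ∈ s, ‖∫ x, fourier k x * (g x : ℂ) ∂μT‖ ≤ B * (ε / 2 / (M * B + 1)) := by
    rw [hB, Finset.sum_mul]
    refine Finset.sum_le_sum fun k hk => ?_
    have h5 : 0 < ‖1 - fourier k (θ : UnitAddCircle)‖ := by
      refine norm_pos_iff.2 fun h => ?_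
      obtain ⟨n, hn⟩ := ErgA.int_of_fourier h
      exact (hθ.intCast_mul fun hk0 => h0 (hk0 ▸ hk)).ne_int n hn.symm
    rw [le_inv_mul_iff₀ h5]
    refine (ErgA.coef_le hg k _).trans (le_trans (le_of_eq ?_) h2)
    simp only [rot, one_zsmul]
  have h5 : M * (B * (ε / 2 / (M * B + 1))) ≤ ε / 2 := by
    rw [← mul_assoc, ← mul_div_assoc, div_le_iff₀ hp]
    nlinarith
  have h6 := mul_le_mul_of_nonneg_left h4 hM
  nlinarith

/-- PLAN. a `1/a`-periodic function has `ĝ(k) = 0` for `0 < |k| < a`. -/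
theorem periodic_cov {f : UnitAddCircle → ℝ} (hf : Bd f) {ε : ℝ} (hε : 0 < ε) :
    ∃ A : ℕ, ∀ a : ℕ, A ≤ a → ∀ g : UnitAddCircle → ℝ, Measurable g → (∀ x, |g x| ≤ 1) →
      (∀ x, g (x + ((1 / (a : ℝ) : ℝ) : UnitAddCircle)) = g x) →
        |∫ x, f x * g x ∂μT - (∫ x, f x ∂μT) * ∫ x, g x ∂μT| ≤ ε := by
  obtain ⟨s, h0, M, hM, H⟩ := fourier_cov hf hε
  refine ⟨s.sup Int.natAbs + 1, fun a ha g hg h1 h2 => ?_⟩
  have hb : Bd g := ⟨hg, 1, h1⟩
  refine (H g hb).trans ?_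
  have h3 : √(∫ x, g x ^ 2 ∂μT) ≤ 1 := by
    refine Real.sqrt_le_one.2 ((integral_mono_of_nonneg (Eventually.of_forall fun x => sq_nonneg _)
      (integrable_const (1 : ℝ)) (Eventually.of_forall fun x => ?_)).trans (by simp))
    exact (sq_le_one_iff_abs_le_one _).2 (h1 x)
  have h4 : ∑ k ∈ s, ‖∫ x, fourier k x * (g x : ℂ) ∂μT‖ = 0 := by
    refine Finset.sum_eq_zero fun k hk => ?_
    have h5 := ErgA.coef_le hb k ((1 / (a : ℝ) : ℝ) : UnitAddCircle)
    simp only [h2, sub_self, abs_zero, integral_zero] at h5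
    have h6 : 0 < ‖1 - fourier k ((1 / (a : ℝ) : ℝ) : UnitAddCircle)‖ := by
      refine norm_pos_iff.2 fun h => ?_
      obtain ⟨n, hn⟩ := ErgA.int_of_fourier h
      have h7 : k.natAbs ≤ s.sup Int.natAbs := Finset.le_sup hk
      have h8 : (a : ℝ) ≠ 0 := by exact_mod_cast (by omega : a ≠ 0)
      have h9 : (a : ℤ) * n = k := by
        have : (a : ℝ) * n = k := by rw [hn]; field_simp
        exact_mod_cast this
      have h10 := Int.natAbs_le_of_dvd_ne_zero (Dvd.intro _ h9) fun hk0 => h0 (hk0 ▸ hk)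
      omega
    exact le_antisymm (nonpos_of_mul_nonpos_right h5 h6) (norm_nonneg _)
  rw [h4]
  nlinarith

/-- measure of an arc pulled back by multiplication by `a ≠ 0`
(`AddCircle.volume_closedBall`, `measurePreserving_zsmul`/`AddCircle` ergodic lemmas) -/
theorem real_arc_le {a : ℕ} (ha : 0 < a) {s : ℝ} (hs : 0 ≤ s) :
    (μT).real {x | ‖a • x‖ ≤ s} ≤ 2 * s := by
  have h1 : {x : UnitAddCircle | ‖a • x‖ ≤ s} =
      (fun x => (a : ℤ) • x) ⁻¹' Metric.closedBall 0 s := by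
    ext x
    simp
  have h2 : MeasurePreserving (fun x : UnitAddCircle => (a : ℤ) • x) volume volume :=
    Measure.measurePreserving_zsmul volume (by omega)
  rw [h1, haar_eq, h2.measureReal_preimage
    measurableSet_closedBall.nullMeasurableSet, Measure.real, AddCircle.volume_closedBall,
    ENNReal.toReal_ofReal (by positivity)]
  exact min_le_right _ _

/-- uniform recurrence (compactness and `AddCircle.denseRange_zsmul_coe_iff`-type density; use
negative and positive multiples and shift) -/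
theorem exists_hit {θ : ℝ} (hθ : Irrational θ) {J : Set UnitAddCircle}
    (hJ : (interior J).Nonempty) : ∃ N, (rot θ).Hit J N := by
  have hd := denseRange_zsmul_iff_nsmul.1 (ErgA.dense hθ)
  obtain ⟨t, ht⟩ := isCompact_univ.elim_finite_subcover
    (fun j : ℕ => (fun x => x + j • (θ : UnitAddCircle)) ⁻¹' interior J)
    (fun j => isOpen_interior.preimage (by fun_prop)) fun x _ => by
      obtain ⟨y, hy⟩ := hJ
      obtain ⟨j, hj⟩ := hd.exists_mem_open (s := (fun z => x + z) ⁻¹' interior J)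
        (isOpen_interior.preimage (by fun_prop)) ⟨y - x, by simpa using hy⟩
      exact Set.mem_iUnion.2 ⟨j, hj⟩
  refine ⟨t.sup id + 1, fun x => ?_⟩
  obtain ⟨j, hj, hx⟩ := Set.mem_iUnion₂.1 (ht (Set.mem_univ x))
  refine ⟨j, Nat.lt_succ_of_le (Finset.le_sup (f := id) hj), ?_⟩
  simpa [rot] using interior_subset hx

/-- multiples of `a₀ θ` beyond any bound approximate any real number modulo one -/
theorem exists_freq {θ : ℝ} (hθ : Irrational θ) {a₀ : ℕ} (ha₀ : 0 < a₀) (A : ℕ) (t : ℝ) {ε : ℝ}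
    (hε : 0 < ε) : ∃ a : ℕ, a₀ ∣ a ∧ A ≤ a ∧ 0 < a ∧ ∃ ϑ : ℝ, |ϑ - t| ≤ ε ∧
      a • ((θ : ℝ) : UnitAddCircle) = (ϑ : UnitAddCircle) := by
  have hd := ErgA.dense (hθ.natCast_mul ha₀.ne')
  have h1 : MapClusterPt (t : UnitAddCircle) atTop
      (· • (((a₀ : ℝ) * θ : ℝ) : UnitAddCircle) : ℕ → _) :=
    ((mapClusterPt_atTop_nsmul_tfae _ _).out 3 0).1 (hd t)
  obtain ⟨n, hn, hA⟩ := ((mapClusterPt_iff_frequently.1 h1 _
    (Metric.ball_mem_nhds _ hε)).and_eventually (eventually_ge_atTop (A + 1))).exists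
  obtain ⟨r, h2, h3⟩ := ErgA.lift (n • (((a₀ : ℝ) * θ : ℝ) : UnitAddCircle) - t)
  refine ⟨a₀ * n, Dvd.intro _ rfl, by nlinarith, Nat.mul_pos ha₀ (by omega), r + t, ?_, ?_⟩
  · rw [add_sub_cancel_right, h2, ← dist_eq_norm]
    exact hn.le
  · rw [AddCircle.coe_add, ← h3, sub_add_cancel, mul_comm a₀, mul_smul, ← nsmul_eq_mul,
      AddCircle.coe_nsmul]

end Crest.Agent.R113
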