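import Crest.Agent.R113.Uni

/-! Row 113 (S0150): the weights over the 2-adic odometer. -/

set_option autoImplicit false

open Filter Topology MeasureTheory

namespace Crest.Agent.R113

open Crest.AnalysisR.TwoAdic

attribute [local instance] Crest.AnalysisR.TwoAdic.borelTwoAdic
  Crest.AnalysisR.TwoAdic.borelSpace_twoAdic

instance prob_haar : IsProbabilityMeasure haarTwoAdic := by
  exact ⟨Measure.addHaarMeasure_self (K₀ := ⊤)⟩

instance haar_haar : Measure.IsAddHaarMeasure haarTwoAdic := by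
  unfold haarTwoAdic; infer_instance

theorem haar_singleton (x : ℤ_[2]) : haarTwoAdic {x} = 0 := by
  by_contra h
  refine measure_ne_top haarTwoAdic Set.univ (Set.infinite_univ.meas_eq_top ⟨_, h, fun y _ => ?_⟩)
  rw [Measure.addHaar_singleton _ x, Measure.addHaar_singleton _ y]

theorem OdoA.appr_eq {x : ℤ_[2]} {k a : ℕ} (ha : a < 2 ^ k)
    (h : x - a ∈ Ideal.span {((2 : ℕ) : ℤ_[2]) ^ k}) : x.appr k = a := by
  have := (ZMod.natCast_eq_natCast_iff' _ _ _).1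
    (PadicInt.zmod_congr_of_sub_mem_span k x _ _ (PadicInt.appr_spec k x) h)
  rwa [Nat.mod_eq_of_lt (PadicInt.appr_lt x k), Nat.mod_eq_of_lt ha] at this

/-- `x mod 2^k` is locally constant -/
theorem meas_appr (k : ℕ) : Measurable fun x : ℤ_[2] => (x.appr k : ℝ) := by
  refine ((IsLocallyConstant.iff_eventually_eq _).2 fun x => ?_).continuous.measurable
  filter_upwards [Metric.closedBall_mem_nhds x (ε := ((2 : ℕ) : ℝ) ^ (-k : ℤ)) (by positivity)]
    with y hy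
  rw [mem_closedBall_iff_norm, PadicInt.norm_le_pow_iff_mem_span_pow] at hy
  rw [OdoA.appr_eq (PadicInt.appr_lt x k) (by
    simpa using Ideal.add_mem _ hy (PadicInt.appr_spec k x))]

theorem appr_succ {x : ℤ_[2]} (hx : x ≠ -1) :
    ∃ k₀ : ℕ, ∀ k ≥ k₀, (x + 1).appr k = x.appr k + 1 := by
  obtain ⟨k₀, hk⟩ := PadicInt.exists_pow_neg_lt 2 (norm_pos_iff.2 (add_eq_zero_iff_eq_neg.not.2 hx))
  refine ⟨k₀, fun k hk' => ?_⟩
  have h1 := PadicInt.appr_spec k x
  refine OdoA.appr_eq ((Nat.succ_le_of_lt (PadicInt.appr_lt x k)).lt_of_ne fun h => ?_)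
    (by simpa using h1)
  refine hk.not_ge ((PadicInt.norm_le_pow_iff_mem_span_pow _ _).2 ?_)
  have h2 : x + 1 = (x - x.appr k) + ((2 : ℕ) : ℤ_[2]) ^ k := by
    rw [← Nat.cast_pow, ← h]
    push_cast
    ring
  rw [Ideal.mem_span_singleton] at h1 ⊢
  rw [h2]
  exact (pow_dvd_pow _ hk').trans (dvd_add h1 dvd_rfl)

namespace OdoA

theorem bdd {f h : ℕ → ℝ} {N : ℕ} {C : ℝ} (h1 : ∀ n ≥ N, f (n + 1) - f n ≤ h (n + 1) - h n)
    (h2 : ∀ n, h n ≤ C) : ∃ M, ∀ n, f n ≤ M := by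
  have k1 : ∀ n ≤ N, f n - h n ≤ ∑ i ∈ Finset.range (N + 1), |f i - h i| := fun n hn =>
    (le_abs_self _).trans (Finset.single_le_sum (f := fun i => |f i - h i|)
      (fun _ _ => abs_nonneg _) (Finset.mem_range.2 (by omega)))
  have k2 : ∀ n ≥ N, f n - h n ≤ f N - h N := by
    intro n hn
    induction n, hn using Nat.le_induction with
    | base => exact le_rfl
    | succ n hn ih => linarith [h1 n hn]
  refine ⟨∑ i ∈ Finset.range (N + 1), |f i - h i| + C, fun n => ?_⟩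
  rcases le_total n N with hn | hn
  · linarith [k1 n hn, h2 n]
  · linarith [k1 N le_rfl, k2 n hn, h2 n]

theorem exists_prim {d : ℤ → ℤ_[2] → ℝ} (hd : ∀ j, Measurable (d j)) :
    ∃ l : ℤ → ℤ_[2] → ℝ, (∀ j, Measurable (l j)) ∧ ∀ j x, l (j + 1) x = l j x + d j x := by
  refine ⟨fun j x => ∑ i ∈ Finset.range j.toNat, d i x -
    ∑ i ∈ Finset.range (-j).toNat, d (-(i + 1 : ℕ)) x, fun j => by fun_prop, fun j x => ?_⟩
  beta_reduce
  rcases le_or_gt 0 j with hj | hj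
  · obtain ⟨n, rfl⟩ := Int.eq_ofNat_of_zero_le hj
    rw [show ((n : ℤ) + 1).toNat = n + 1 by omega, show (-((n : ℤ) + 1)).toNat = 0 by omega,
      show (-(n : ℤ)).toNat = 0 by omega, Int.toNat_natCast, Finset.sum_range_succ]
    ring
  · obtain ⟨n, rfl⟩ : ∃ n : ℕ, j = -(n + 1 : ℕ) := ⟨(-j).toNat - 1, by omega⟩
    rw [show (-((n + 1 : ℕ) : ℤ) + 1).toNat = 0 by omega, show (-((n + 1 : ℕ) : ℤ)).toNat = 0 by omega,
      show (-(-((n + 1 : ℕ) : ℤ) + 1)).toNat = n by omega,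
      show (-(-((n + 1 : ℕ) : ℤ))).toNat = n + 1 by omega, Finset.sum_range_succ]
    ring

/-- the slowly growing approximations -/
noncomputable def ap (n : ℕ) (y : ℤ_[2]) : ℝ := y.appr (Nat.log 2 n - 1)

theorem ap_nonneg (n : ℕ) (y : ℤ_[2]) : 0 ≤ ap n y := Nat.cast_nonneg _

theorem ap_mono (n : ℕ) (y : ℤ_[2]) : ap n y ≤ ap (n + 1) y :=
  Nat.cast_le.2 (PadicInt.appr_mono y (Nat.sub_le_sub_right (Nat.log_mono_right n.le_succ) 1))

theorem ap_le (n : ℕ) (y : ℤ_[2]) : 20 * ap n y - 10 * n ≤ 20 := by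
  have h1 := PadicInt.appr_lt y (Nat.log 2 n - 1)
  have h2 : 2 * 2 ^ (Nat.log 2 n - 1) ≤ n + 2 := by
    rcases Nat.eq_zero_or_pos (Nat.log 2 n) with h | h
    · rw [h]; omega
    · have := Nat.pow_log_le_self 2 (x := n) (by rintro rfl; simp at h)
      rw [← pow_succ', Nat.sub_add_cancel h]
      omega
  have h3 : 2 * y.appr (Nat.log 2 n - 1) ≤ n + 2 := by omega
  have h4 : 2 * ap n y ≤ n + 2 := by unfold ap; exact_mod_cast h3
  linarith

theorem ap_succ {x : ℤ_[2]} (hx : x ≠ -1) : ∃ N, ∀ n ≥ N, ap n (x + 1) = ap n x + 1 := by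
  obtain ⟨k, hk⟩ := appr_succ hx
  refine ⟨2 ^ (k + 1), fun n hn => ?_⟩
  have := Nat.le_log_of_pow_le one_lt_two hn
  rw [ap, ap, hk _ (by omega)]
  push_cast
  rfl

/-- the costs -/
noncomputable def cost : ℤ → ℤ_[2] → ℝ
  | .ofNat n, x => 10 * (n + 1) + 20 * ap n x
  | .negSucc n, x => 10 * (n + 1) + 20 * ap n (-1 - x)

theorem cost_nat (n : ℕ) (x : ℤ_[2]) : cost n x = 10 * (n + 1) + 20 * ap n x := rfl

theorem cost_neg (n : ℕ) (x : ℤ_[2]) : cost (-(n + 1)) x = 10 * (n + 1) + 20 * ap n (-1 - x) := rfl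

theorem cases_int (j : ℤ) : (∃ n : ℕ, j = n) ∨ ∃ n : ℕ, j = -(n + 1) := by
  cases j with
  | ofNat n => exact Or.inl ⟨n, rfl⟩
  | negSucc n => exact Or.inr ⟨n, rfl⟩

theorem meas_cost (j : ℤ) : Measurable (cost j) := by
  have h : ∀ n, Measurable (ap n) := fun n => meas_appr _
  rcases cases_int j with ⟨n, rfl⟩ | ⟨n, rfl⟩
  · exact ((h n).const_mul 20).const_add _
  · exact (((h n).comp (measurable_const.sub measurable_id)).const_mul 20).const_add _

theorem grow_cost (x : ℤ_[2]) : Grow fun j => cost j x := by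
  refine ⟨fun j => ?_, fun j hj => ?_, fun j hj => ?_⟩
  · rcases cases_int j with ⟨n, rfl⟩ | ⟨n, rfl⟩
    · rw [cost_nat, Int.cast_natCast, abs_of_nonneg (by positivity)]
      linarith [ap_nonneg n x]
    · have : (0 : ℝ) ≤ n := n.cast_nonneg
      rw [cost_neg]
      push_cast
      rw [abs_of_nonpos (by linarith)]
      linarith [ap_nonneg n (-1 - x)]
  · obtain ⟨n, rfl⟩ := Int.eq_ofNat_of_zero_le hj
    rw [← Nat.cast_succ, cost_nat, cost_nat]
    push_cast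
    linarith [ap_mono n x]
  · obtain ⟨n, rfl⟩ : ∃ n : ℕ, j = -(n + 1) := ⟨(-j).toNat - 1, by omega⟩
    rw [show -((n : ℤ) + 1) - 1 = -((n + 1 : ℕ) + 1) by omega, cost_neg, cost_neg]
    push_cast
    linarith [ap_mono n (-1 - x)]

theorem bdd_prim {l : ℤ → ℝ} {x : ℤ_[2]} (hx : x ≠ -1)
    (hl : ∀ j, l (j + 1) = l j + (cost j x - cost (j - 1) (x + 1))) : BddAbove (Set.range l) := by
  obtain ⟨N, hN⟩ := ap_succ hx
  obtain ⟨N', hN'⟩ := ap_succ (x := -1 - (x + 1)) fun h => hx (by linear_combination -h)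
  obtain ⟨M, hM⟩ := bdd (f := fun n => l (n + 1)) (h := fun n => 20 * ap n x - 10 * n) (N := N)
    (fun n hn => by
      rw [hl ((n + 1 : ℕ) : ℤ), cost_nat, show ((n + 1 : ℕ) : ℤ) - 1 = n by omega, cost_nat, hN n hn]
      push_cast
      linarith) fun n => ap_le n x
  obtain ⟨M', hM'⟩ := bdd (f := fun n => l (-n)) (h := fun n => 20 * ap n (-1 - x) - 10 * n)
    (N := N') (fun n hn => by
      have h1 := hl (-(n + 1))
      have h2 := hN' (n + 1) (by omega)
      rw [show -((n : ℤ) + 1) - 1 = -((n + 1 : ℕ) + 1) by omega, cost_neg, cost_neg,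
        show -((n : ℤ) + 1) + 1 = -n by ring] at h1
      rw [show -1 - (x + 1) + 1 = -1 - x by ring] at h2
      push_cast at h1 ⊢
      linarith) fun n => ap_le n _
  refine ⟨max M M', ?_⟩
  rintro _ ⟨j, rfl⟩
  rcases le_or_gt j 0 with hj | hj
  · obtain ⟨n, rfl⟩ : ∃ n : ℕ, j = -n := ⟨(-j).toNat, by omega⟩
    exact (hM' n).trans (le_max_right _ _)
  · obtain ⟨n, rfl⟩ : ∃ n : ℕ, j = n + 1 := ⟨j.toNat - 1, by omega⟩
    exact (hM n).trans (le_max_left _ _)

end OdoA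
open OdoA

/-- PLAN. `κ j = Nat.log 2 j - 1` (monotone, `κ 0 = 0`, `2 · 2^(κ j) ≤ j + 2`, `κ → ∞`),
`u j x = 10(j+1) + 20 appr x (κ j)` for `j ≥ 0`, `u (-j) x = 10 j + 20 appr (-1-x) (κ j)` for `j ≥ 1`
(`PadicInt.appr_mono`, `appr_lt`). `ℓ j x = ∑_{i∈[0,j)} (u i x - u (i-1) (x+1))` for `j ≥ 0` and
minus the sum over `[j,0)` for `j < 0`. For `x ≠ -1` and large `|i|` the increments telescope
(`appr_succ` for `x` and for `-2-x`): `u i x - u (i-1) (x+1) = -10 + 20(appr x (κ i) - appr x (κ (i-1)))`,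
resp. `u (-j) x - u (-j-1) (x+1) = 10 + 20(appr y (κ j) - appr y (κ (j+1)))`, `y = -1-x`; so
`j ↦ ℓ j x` is bounded above. `b j x = exp(ℓ j x - ⨆ j, ℓ j x)` for `x ≠ -1`, `0` at `-1`
(`Measurable.iSup`). -/
theorem exists_weights : ∃ u b : ℤ → ℤ_[2] → ℝ, (∀ j, Measurable (u j)) ∧
    (∀ x, Grow fun j => u j x) ∧ (∀ x, u 0 x = 10) ∧ (∀ j, Measurable (b j)) ∧
    (∀ j x, 0 ≤ b j x ∧ b j x ≤ 1) ∧ (∀ j x, x ≠ -1 → 0 < b j x) ∧
    ∀ j x, Real.exp (-u j x) * b (j + 1) x = b j x * Real.exp (-u (j - 1) (x + 1)) := by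
  classical
  obtain ⟨l, hm, hl⟩ := exists_prim (d := fun j x => cost j x - cost (j - 1) (x + 1))
    fun j => (meas_cost j).sub ((meas_cost _).comp (measurable_add_const 1))
  refine ⟨cost, fun j x => if x = -1 then 0 else Real.exp (l j x - ⨆ i, l i x), meas_cost,
    grow_cost, fun x => ?_, fun j => ?_, fun j x => ?_, fun j x hx => ?_, fun j x => ?_⟩
  · rw [← Nat.cast_zero, cost_nat]
    simp [ap, PadicInt.appr]
  · exact Measurable.ite (measurableSet_singleton _) measurable_const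
      ((hm j).sub (Measurable.iSup hm)).exp
  · beta_reduce
    split_ifs with hx
    · exact ⟨le_rfl, zero_le_one⟩
    · exact ⟨(Real.exp_pos _).le, Real.exp_le_one_iff.2
        (sub_nonpos.2 (le_ciSup (bdd_prim (l := fun i => l i x) hx fun j => hl j x) j))⟩
  · beta_reduce
    rw [if_neg hx]
    exact Real.exp_pos _
  · beta_reduce
    split_ifs
    · simp
    · rw [← Real.exp_add, ← Real.exp_add, hl]
      congr 1
      ring

/-- PLAN. `t ↦ μ(A ∩ (· + t)⁻¹' B)` is continuous (`tendsto_measure_symmDiff_preimage_nhds_zero`)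
with integral `μ A μ B > 0` (Fubini), and `{k : ℕ | K ≤ k}` is dense
(`PadicInt.denseRange_natCast`, translate by `K`). -/
theorem exists_shift_inter {A B : Set ℤ_[2]} (hA : MeasurableSet A) (hB : MeasurableSet B)
    (hA0 : haarTwoAdic A ≠ 0) (hB0 : haarTwoAdic B ≠ 0) (K : ℕ) :
    ∃ k : ℕ, K ≤ k ∧ haarTwoAdic (A ∩ (fun x => x + (k : ℤ_[2])) ⁻¹' B) ≠ 0 := by
  by_contra hc
  have h1 : ∀ k : ℕ, haarTwoAdic (A ∩ (fun x => x + ((k + K : ℕ) : ℤ_[2])) ⁻¹' B) = 0 :=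
    fun k => not_not.1 fun h => hc ⟨_, Nat.le_add_left _ _, h⟩
  let f : C(ℤ_[2], C(ℤ_[2], ℤ_[2])) := ContinuousMap.curry ⟨fun p => p.2 + p.1, by fun_prop⟩
  have h2 : DenseRange fun k : ℕ => ((k + K : ℕ) : ℤ_[2]) := by
    have := (Homeomorph.addRight (K : ℤ_[2])).surjective.denseRange.comp
      PadicInt.denseRange_natCast (Homeomorph.addRight (K : ℤ_[2])).continuous
    simpa [Function.comp_def] using this
  have h3 : ∀ t, haarTwoAdic (A ∩ (fun x => x + t) ⁻¹' B) = 0 := by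
    intro t
    have k1 := tendsto_measure_symmDiff_preimage_nhds_zero (μ := haarTwoAdic) (f.continuous.tendsto t)
      (Eventually.of_forall fun a => measurePreserving_add_right _ a)
      (measurePreserving_add_right _ t) hB.nullMeasurableSet (measure_ne_top _ _)
    refine le_antisymm (ge_of_tendsto_of_frequently k1
      ((mem_closure_iff_frequently.1 (h2 t)).mono ?_)) zero_le
    rintro _ ⟨k, rfl⟩
    rw [← zero_add (haarTwoAdic (symmDiff _ _)), ← h1 k]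
    refine (measure_mono fun x hx => ?_).trans (measure_union_le _ _)
    by_cases h : x + ((k + K : ℕ) : ℤ_[2]) ∈ B
    · exact Or.inl ⟨hx.1, h⟩
    · exact Or.inr (Or.inr ⟨hx.2, h⟩)
  have h4 : ∀ᵐ x ∂haarTwoAdic, ∀ᵐ t ∂haarTwoAdic, ¬ (x ∈ A ∧ x + t ∈ B) :=
    (Measure.ae_ae_comm (p := fun x t => ¬ (x ∈ A ∧ x + t ∈ B))
      ((measurable_fst hA).inter (measurable_add hB)).compl).2
      (Eventually.of_forall fun t => measure_eq_zero_iff_ae_notMem.1 (h3 t))
  refine hA0 (measure_eq_zero_iff_ae_notMem.2 (h4.mono fun x hx hxA => hB0 ?_))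
  rw [← measure_preimage_add haarTwoAdic x B]
  exact measure_eq_zero_iff_ae_notMem.2 (hx.mono fun t ht h => ht ⟨hxA, h⟩)

end Crest.Agent.R113
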