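import Crest.Agent.R113.Shift
import Crest.Agent.R113.Odo

/-! Row 113 (S0150): fibred operators. -/

set_option autoImplicit false

open Filter Topology MeasureTheory

namespace Crest.Agent.R113

open Crest.AnalysisR.TwoAdic

attribute [local instance] Crest.AnalysisR.TwoAdic.borelTwoAdic
  Crest.AnalysisR.TwoAdic.borelSpace_twoAdic

namespace FibA

theorem ae_add {q : ℤ_[2] → Prop} (h : ∀ᵐ x ∂haarTwoAdic, q x) (a : ℤ_[2]) :
    ∀ᵐ x ∂haarTwoAdic, q (x + a) :=
  (measurePreserving_add_right haarTwoAdic a).quasiMeasurePreserving.ae h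

theorem ae_of_add {q : ℤ_[2] → Prop} {a : ℤ_[2]} (h : ∀ᵐ x ∂haarTwoAdic, q (x + a)) :
    ∀ᵐ x ∂haarTwoAdic, q x := by
  simpa using ae_add h (-a)

theorem cont_eval (j : ℤ) : Continuous fun v : seqHilbert => v j :=
  (lp.evalCLM ℂ (fun _ : ℤ => ℂ) 2 j).continuous

theorem norm_basis (j : ℤ) : ‖basisVec j‖ = 1 := by
  rw [basisVec, lp.norm_single (by norm_num), norm_one]

end FibA

open FibA

/-- PLAN. pointwise limit of the finite sums `∑_{j ∈ s} (w j x * f x j) • basisVec (j+e)`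
(`lp.hasSum_single`, `aestronglyMeasurable_of_tendsto_ae` along `atTop : Filter (Finset ℤ)`). -/
theorem meas_wsh {w : ℤ → ℤ_[2] → ℝ} (hm : ∀ j, Measurable (w j)) (hw : ∀ j x, |w j x| ≤ 1) (e : ℤ)
    {f : ℤ_[2] → seqHilbert} (hf : AEStronglyMeasurable f haarTwoAdic) :
    AEStronglyMeasurable (fun x => wsh (fun j => w j x) e (f x)) haarTwoAdic := by
  refine aestronglyMeasurable_of_tendsto_ae (atTop : Filter (Finset ℤ))
    (f := fun s x => ∑ k ∈ s, ((w (k - e) x : ℂ) * f x (k - e)) • basisVec k) (fun s => ?_)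
    (Eventually.of_forall fun x => ?_)
  · refine Finset.aestronglyMeasurable_fun_sum s fun k _ => AEStronglyMeasurable.smul_const ?_ _
    exact (Complex.measurable_ofReal.comp (hm _)).aestronglyMeasurable.mul
      ((cont_eval _).comp_aestronglyMeasurable hf)
  · have h := lp.hasSum_single (p := 2) (by norm_num) (wsh (fun j => w j x) e (f x))
    have e1 : (fun k : ℤ => lp.single 2 k ((wsh (fun j => w j x) e (f x)) k)) =
        fun k => ((w (k - e) x : ℂ) * f x (k - e)) • basisVec k := by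
      funext k
      rw [← wsh_apply (e := e) (fun j => hw j x), sub_add_cancel, basisVec, ← lp.single_smul,
        smul_eq_mul, mul_one]
    rw [e1] at h
    exact h

/-- a bounded measurable field of operators, followed by a translation -/
theorem exists_field (A : ℤ_[2] → (seqHilbert →L[ℂ] seqHilbert)) {C : ℝ} (hC : 0 ≤ C)
    (hA : ∀ x, ‖A x‖ ≤ C)
    (hm : ∀ f : ℤ_[2] → seqHilbert, AEStronglyMeasurable f haarTwoAdic →
      AEStronglyMeasurable (fun x => A x (f x)) haarTwoAdic) (a : ℤ_[2]) :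
    ∃ F : fibreSpace →L[ℂ] fibreSpace, ‖F‖ ≤ C ∧ ∀ f : fibreSpace, ∀ᵐ x ∂haarTwoAdic,
      (F f : ℤ_[2] → seqHilbert) (x + a) = A x ((f : ℤ_[2] → seqHilbert) x) := by
  have hb : ∀ (x : ℤ_[2]) (v : seqHilbert), ‖A x v‖ ≤ C * ‖v‖ := fun x v =>
    (A x).le_of_opNorm_le (hA x) v
  have hmem : ∀ f : fibreSpace, MemLp (fun x => A x (f x)) 2 haarTwoAdic := fun f =>
    (Lp.memLp f).of_le_mul (hm _ (Lp.aestronglyMeasurable f)) (Eventually.of_forall fun x => hb x _)
  let L : fibreSpace →ₗ[ℂ] fibreSpace :=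
    { toFun := fun f => (hmem f).toLp _
      map_add' := fun f g => by
        apply Lp.ext
        filter_upwards [(hmem (f + g)).coeFn_toLp, (hmem f).coeFn_toLp, (hmem g).coeFn_toLp,
          Lp.coeFn_add f g, Lp.coeFn_add ((hmem f).toLp _) ((hmem g).toLp _)] with x h1 h2 h3 h4 h5
        rw [h1, h5, h4, Pi.add_apply, Pi.add_apply, h2, h3, map_add]
      map_smul' := fun c f => by
        apply Lp.ext
        filter_upwards [(hmem (c • f)).coeFn_toLp, (hmem f).coeFn_toLp,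
          Lp.coeFn_smul c f, Lp.coeFn_smul c ((hmem f).toLp _)] with x h1 h2 h4 h5
        rw [h1, RingHom.id_apply, h5, h4, Pi.smul_apply, Pi.smul_apply, h2, map_smul] }
  have hL : ∀ f, ∀ᵐ x ∂haarTwoAdic, L f x = A x (f x) := fun f => (hmem f).coeFn_toLp
  have hLn : ∀ f, ‖L f‖ ≤ C * ‖f‖ := fun f => Lp.norm_le_mul_norm_of_ae_le_mul <| by
    filter_upwards [hL f] with x hx
    rw [hx]; exact hb x _
  let T := Lp.compMeasurePreservingₗᵢ (E := seqHilbert) (p := 2) ℂ (fun y : ℤ_[2] => y - a)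
    (measurePreserving_sub_right haarTwoAdic a)
  refine ⟨T.toContinuousLinearMap ∘L L.mkContinuous C hLn,
    ContinuousLinearMap.opNorm_le_bound _ hC fun f => ?_, fun f => ?_⟩
  · exact (T.norm_map (L f)).le.trans (hLn f)
  · have h1 := ae_add (Lp.coeFn_compMeasurePreserving (L f)
      (measurePreserving_sub_right haarTwoAdic a)) a
    filter_upwards [h1, hL f] with x h2 h3
    rw [← h3]
    refine Eq.trans h2 ?_
    simp

theorem field_pow {A : ℤ_[2] → (seqHilbert →L[ℂ] seqHilbert)} {S : fibreSpace →L[ℂ] fibreSpace}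
    (hS : ∀ f : fibreSpace, ∀ᵐ x ∂haarTwoAdic,
      (S f : ℤ_[2] → seqHilbert) x = A x ((f : ℤ_[2] → seqHilbert) x)) (n : ℕ) (f : fibreSpace) :
    ∀ᵐ x ∂haarTwoAdic,
      ((S ^ n) f : ℤ_[2] → seqHilbert) x = (A x ^ n) ((f : ℤ_[2] → seqHilbert) x) := by
  induction n with
  | zero => exact Eventually.of_forall fun x => rfl
  | succ n ih =>
    filter_upwards [ih, hS ((S ^ n) f)] with x h1 h2
    rw [pow_succ', pow_succ', ContinuousLinearMap.mul_apply, ContinuousLinearMap.mul_apply, h2, h1]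

theorem field_norm {A : ℤ_[2] → (seqHilbert →L[ℂ] seqHilbert)} {S : fibreSpace →L[ℂ] fibreSpace}
    (hS : ∀ f : fibreSpace, ∀ᵐ x ∂haarTwoAdic,
      (S f : ℤ_[2] → seqHilbert) x = A x ((f : ℤ_[2] → seqHilbert) x)) {C : ℝ} (hC : 0 ≤ C)
    (hA : ∀ x, ‖A x‖ ≤ C) : ‖S‖ ≤ C := by
  refine ContinuousLinearMap.opNorm_le_bound _ hC fun f => Lp.norm_le_mul_norm_of_ae_le_mul ?_
  filter_upwards [hS f] with x hx
  rw [hx]; exact (A x).le_of_opNorm_le (hA x) _

/-- test on the constant function `basisVec 0` (`Lp.const`) -/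
theorem field_norm_ge {A : ℤ_[2] → (seqHilbert →L[ℂ] seqHilbert)} {S : fibreSpace →L[ℂ] fibreSpace}
    (hS : ∀ f : fibreSpace, ∀ᵐ x ∂haarTwoAdic,
      (S f : ℤ_[2] → seqHilbert) x = A x ((f : ℤ_[2] → seqHilbert) x)) {c : ℝ} (hc : 0 ≤ c)
    (hA : ∀ x, A x (basisVec 0) = (c : ℂ) • basisVec 1) : c ≤ ‖S‖ := by
  have h1 : S (Lp.const 2 haarTwoAdic (basisVec 0)) =
      Lp.const 2 haarTwoAdic ((c : ℂ) • basisVec 1) := by
    apply Lp.ext
    filter_upwards [hS (Lp.const 2 haarTwoAdic (basisVec 0)),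
      Lp.coeFn_const 2 haarTwoAdic (basisVec 0),
      Lp.coeFn_const 2 haarTwoAdic ((c : ℂ) • basisVec 1)] with x h1 h2 h3
    rw [h1, h2, h3, Function.const_apply, Function.const_apply, hA]
  have h2 := S.le_opNorm (Lp.const 2 haarTwoAdic (basisVec 0))
  rw [h1, Lp.norm_const _ _ _ (by norm_num), Lp.norm_const _ _ _ (by norm_num), norm_smul,
    norm_basis, norm_basis] at h2
  simpa [abs_of_nonneg hc] using h2

theorem field_comm {A B : ℤ_[2] → (seqHilbert →L[ℂ] seqHilbert)}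
    {S V : fibreSpace →L[ℂ] fibreSpace}
    (hS : ∀ f : fibreSpace, ∀ᵐ x ∂haarTwoAdic,
      (S f : ℤ_[2] → seqHilbert) x = A x ((f : ℤ_[2] → seqHilbert) x))
    (hV : ∀ f : fibreSpace, ∀ᵐ x ∂haarTwoAdic,
      (V f : ℤ_[2] → seqHilbert) (x + 1) = B x ((f : ℤ_[2] → seqHilbert) x))
    (h : ∀ x, B x * A x = A (x + 1) * B x) : V * S = S * V := by
  ext1 f
  apply Lp.ext
  refine ae_of_add (a := 1) ?_
  filter_upwards [hV (S f), hS f, ae_add (hS (V f)) 1, hV f] with x h1 h2 h3 h4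
  rw [ContinuousLinearMap.mul_apply, ContinuousLinearMap.mul_apply, h1, h2, h3, h4,
    ← ContinuousLinearMap.mul_apply, h, ContinuousLinearMap.mul_apply]

/-- PLAN. If `W ≠ ⊥, ⊤` take `0 ≠ f ∈ W`, `0 ≠ g ∈ Wᗮ`. For `n k : ℕ`, `F = S^n V^k f ∈ W`; for a
measurable set `E`, `1_E • F ∈ W` (`MemLp.indicator`/`toLp`), so `∫_E ⟪g x, F x⟫ = 0`, hence
`⟪g x, S_x^n ((V^k f) x)⟫ = 0` a.e. for all `n` (`field_pow`), and `Grow.orth` gives: a.e.
`a ≤ b → (V^k f) x a = 0 ∨ g x b = 0`. By induction a.e. `(V^k f)(x+k)(a-k) ≠ 0 ↔ f x a ≠ 0`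
(`wsh_apply`, `b > 0` off `-1`, translation invariance). Choose `a b : ℤ` with
`A = {x | f x a ≠ 0}`, `B = {x | g x b ≠ 0}` of positive measure (use `Lp.stronglyMeasurable`
for measurability) and `k ≥ |a - b|` from `exists_shift_inter`: contradiction. -/
theorem transitive {u b : ℤ → ℤ_[2] → ℝ} (hu : ∀ x, Grow fun j => u j x)
    (hb : ∀ j x, 0 ≤ b j x ∧ b j x ≤ 1) (hb0 : ∀ j x, x ≠ -1 → 0 < b j x)
    {S V : fibreSpace →L[ℂ] fibreSpace}
    (hS : ∀ f : fibreSpace, ∀ᵐ x ∂haarTwoAdic, (S f : ℤ_[2] → seqHilbert) x =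
      wsh (fun j => Real.exp (-u j x)) 1 ((f : ℤ_[2] → seqHilbert) x))
    (hV : ∀ f : fibreSpace, ∀ᵐ x ∂haarTwoAdic, (V f : ℤ_[2] → seqHilbert) (x + 1) =
      wsh (fun j => b j x) (-1) ((f : ℤ_[2] → seqHilbert) x))
    (W : Submodule ℂ fibreSpace) (hW : IsClosed (W : Set fibreSpace))
    (h1 : ∀ f ∈ W, S f ∈ W) (h2 : ∀ f ∈ W, V f ∈ W)
    (h3 : ∀ g : ℤ_[2] → ℂ, Measurable g → (∃ C : ℝ, ∀ x, ‖g x‖ ≤ C) →
      ∀ f ∈ W, ∀ f' : fibreSpace, (∀ᵐ x ∂haarTwoAdic,
        (f' : ℤ_[2] → seqHilbert) x = g x • (f : ℤ_[2] → seqHilbert) x) → f' ∈ W) :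
    W = ⊥ ∨ W = ⊤ := by
  by_contra hcon
  push Not at hcon
  have := hW.completeSpace_coe
  obtain ⟨f, hf, hf0⟩ := (Submodule.ne_bot_iff _).1 hcon.1
  obtain ⟨g, hg, hg0⟩ := (Submodule.ne_bot_iff _).1
    fun h' => hcon.2 (Submodule.orthogonal_eq_bot_iff.1 h')
  have hb1 : ∀ x j, |b j x| ≤ 1 := fun x j => by rw [abs_of_nonneg (hb j x).1]; exact (hb j x).2
  have powm : ∀ {T : fibreSpace →L[ℂ] fibreSpace}, (∀ f ∈ W, T f ∈ W) → ∀ n : ℕ, ∀ f ∈ W,
      (T ^ n) f ∈ W := fun hT n f hf => by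
    induction n with
    | zero => exact hf
    | succ n ih => rw [pow_succ']; exact hT _ ih
  have orth : ∀ F ∈ W, ∀ᵐ x ∂haarTwoAdic, inner ℂ (g x) (F x) = 0 := by
    intro F hF
    refine (L2.integrable_inner (𝕜 := ℂ) g F).ae_eq_zero_of_forall_setIntegral_eq_zero
      fun E hE _ => ?_
    have hm := (Lp.memLp F).indicator hE
    have hmem : hm.toLp _ ∈ W := by
      refine h3 (E.indicator 1) (measurable_one.indicator hE) ⟨1, fun x => ?_⟩ F hF _ ?_
      · by_cases hx : x ∈ E <;> simp [hx]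
      · filter_upwards [hm.coeFn_toLp] with x hx
        rw [hx]
        by_cases hx : x ∈ E <;> simp [hx]
    have h0 := Submodule.inner_left_of_mem_orthogonal hmem hg
    rw [L2.inner_def] at h0
    rw [← integral_indicator hE, ← h0]
    refine integral_congr_ae ?_
    filter_upwards [hm.coeFn_toLp] with x hx
    rw [hx]
    by_cases hx : x ∈ E <;> simp [hx]
  have sep : ∀ F ∈ W, ∀ᵐ x ∂haarTwoAdic, ∀ a b, a ≤ b → F x a = 0 ∨ g x b = 0 := by
    intro F hF
    have e1 := ae_all_iff.2 fun n : ℕ => orth _ (powm h1 n F hF)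
    have e2 := ae_all_iff.2 fun n : ℕ => field_pow hS n F
    filter_upwards [e1, e2] with x e1 e2
    exact (hu x).orth fun n => by rw [← e2 n]; exact e1 n
  have hne : ∀ᵐ x ∂haarTwoAdic, x ≠ -1 := by
    rw [ae_iff]; simpa using haar_singleton (-1)
  have shift : ∀ k : ℕ, ∀ᵐ x ∂haarTwoAdic, ∀ a : ℤ, f x a ≠ 0 →
      ((V ^ k) f) (x + k) (a - k) ≠ 0 := by
    intro k
    induction k with
    | zero => exact Eventually.of_forall fun x a ha => by simpa using ha
    | succ k ih =>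
      filter_upwards [ih, ae_add (hV ((V ^ k) f)) k, ae_add hne k] with x e1 e2 e3 a ha
      rw [pow_succ', ContinuousLinearMap.mul_apply, Nat.cast_succ, ← add_assoc, e2,
        show a - ((k + 1 : ℕ) : ℤ) = a - k + -1 by push_cast; ring, wsh_apply (hb1 _)]
      exact mul_ne_zero (by exact_mod_cast (hb0 _ _ e3).ne') (e1 a ha)
  have pos : ∀ F : fibreSpace, F ≠ 0 → ∃ a : ℤ, haarTwoAdic {x | F x a ≠ 0} ≠ 0 := by
    intro F hF
    by_contra hc
    push Not at hc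
    apply hF
    rw [Lp.eq_zero_iff_ae_eq_zero]
    have : ∀ᵐ x ∂haarTwoAdic, ∀ a : ℤ, F x a = 0 := ae_all_iff.2 fun a => by
      rw [ae_iff]; exact hc a
    filter_upwards [this] with x hx
    exact lp.ext (funext hx)
  have meas : ∀ (F : fibreSpace) (a : ℤ), MeasurableSet {x | F x a ≠ 0} := fun F a =>
    (((cont_eval a).comp_stronglyMeasurable (Lp.stronglyMeasurable F)).measurable
      (measurableSet_singleton 0)).compl
  obtain ⟨a, ha⟩ := pos f hf0
  obtain ⟨c, hc⟩ := pos g hg0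
  obtain ⟨k, hk, hk0⟩ := exists_shift_inter (meas f a) (meas g c) ha hc (a - c).natAbs
  apply hk0
  have := (shift k).and (ae_add (sep _ (powm h2 k f hf)) k)
  refine measure_mono_null (fun x hx => ?_) (ae_iff.1 this)
  rintro ⟨e1, e2⟩
  exact (e2 (a - k) c (by omega)).elim (e1 a hx.1) hx.2

end Crest.Agent.R113
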