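import Crest.Agent.R113.Lev

/-! Row 113: geometry of the walls. -/

set_option autoImplicit false

open MeasureTheory Filter Topology
open scoped ENNReal

namespace Crest.Agent.R113.Lev

local notation "μT" => (AddCircle.haarAddCircle : Measure UnitAddCircle)

variable {θ : ℝ} (L : Lev θ)

private theorem geo_norm_le (r : ℝ) : ‖(r : UnitAddCircle)‖ ≤ |r| := by
  rw [UnitAddCircle.norm_eq]
  simpa using round_le r 0

private theorem geo_pow {i : ℕ} (hi : 30 ≤ i) : 15 * (i : ℝ) * 1000 ^ 20 ≤ 1000 ^ i := by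
  induction i, hi using Nat.le_induction with
  | base => norm_num
  | succ n hn ih =>
    have : (30 : ℝ) ≤ n := by exact_mod_cast hn
    rw [pow_succ _ n]
    push_cast
    linarith

private theorem geo_pos (l : ℕ) : 0 < L.ϑ l := lt_of_lt_of_le (by positivity) (L.ϑ_ge l)

private theorem geo_mem_S {i : ℕ} {x : UnitAddCircle} : x ∈ L.S i ↔ ∃ l ≥ i, x ∈ L.W l := by
  simp [S]

private theorem geo_mem_Ut {i l : ℕ} {x : UnitAddCircle} :
    x ∈ Ut L.a L.ϑ L.R i l ↔ ∃ j, i ≤ j ∧ j < l ∧ j < 2 * i ∧ x ∈ L.I j := by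
  simp [Ut, and_assoc]

theorem smul_σ (l : ℕ) (k : ℤ) (x : UnitAddCircle) :
    L.a l • (rot θ).σ k x = L.a l • x + (((k : ℝ) * L.ϑ l : ℝ) : UnitAddCircle) := by
  change L.a l • (x + k • ((θ : ℝ) : UnitAddCircle)) = _
  rw [smul_add, smul_comm, L.hϑ, ← AddCircle.coe_zsmul, zsmul_eq_mul]

theorem I_closed (l : ℕ) : IsClosed (L.I l) :=
  isClosed_le (continuous_norm.comp (continuous_nsmul (L.a l))) continuous_const

theorem W_closed (l : ℕ) : IsClosed (L.W l) := (L.J_closed l).inter (L.I_closed l)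

theorem S_meas (i : ℕ) : MeasurableSet (L.S i) :=
  MeasurableSet.biUnion (Set.to_countable _) fun l _ => (L.W_closed l).measurableSet

theorem S_anti : Antitone L.S := fun _ _ h =>
  Set.biUnion_subset_biUnion_left (Set.Ici_subset_Ici.2 h)

theorem S_symm (i : ℕ) {x : UnitAddCircle} (hx : x ∈ L.S i) : -x ∈ L.S i := by
  obtain ⟨l, hl, h1, h2⟩ := L.geo_mem_S.1 hx
  refine L.geo_mem_S.2 ⟨l, hl, L.J_symm l x h1, ?_⟩
  change ‖L.a l • -x‖ ≤ _
  rwa [smul_neg, norm_neg]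

theorem mem_W_of {i : ℕ} {x : UnitAddCircle} (h : x ∈ L.S i) (h' : x ∉ L.S (i + 1)) :
    x ∈ L.W i := by
  obtain ⟨l, hl, h1⟩ := L.geo_mem_S.1 h
  rcases hl.eq_or_lt with rfl | h2
  · exact h1
  · exact (h' (L.geo_mem_S.2 ⟨l, h2, h1⟩)).elim

/-- PLAN. lift `a • x` to `ζ ∈ [-Rϑ, -Rϑ+ϑ]`; then `‖ζ + sϑ‖ ≤ Rϑ` for `s ≤ R`; `J_hit`. -/
theorem entry (l : ℕ) {x : UnitAddCircle} {ζ : ℝ} (hζ : L.a l • x = (ζ : UnitAddCircle))
    (h1 : -(L.R l * L.ϑ l) ≤ ζ) (h2 : ζ ≤ -(L.R l * L.ϑ l) + L.ϑ l) :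
    ∃ s < L.R l, (rot θ).σ (s : ℕ) x ∈ L.W l := by
  obtain ⟨s, hs, hJ⟩ := L.J_hit l x
  refine ⟨s, hs, hJ, ?_⟩
  change ‖L.a l • _‖ ≤ _
  rw [L.smul_σ, hζ, ← AddCircle.coe_add]
  refine (geo_norm_le _).trans (abs_le.2 ?_)
  have h3 := L.geo_pos l
  have h4 : (s : ℝ) + 1 ≤ L.R l := by exact_mod_cast hs
  have h5 : (0 : ℝ) ≤ s := Nat.cast_nonneg _
  push_cast
  constructor <;> nlinarith

/-- PLAN. lift `a • x` to `ζ₀ ∈ (-Rϑ - 1, -Rϑ]`, `j = ⌈(-Rϑ - ζ₀)/ϑ⌉₊ ≤ 1/ϑ + 1`, `entry`. -/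
theorem hit_W {l : ℕ} (hl : L.i₀ ≤ l) : (rot θ).Hit (L.W l) (NN l) := by
  intro x
  obtain ⟨r, -, hr⟩ := ErgA.lift (L.a l • x)
  have h0 := L.geo_pos l
  have h1 := Int.le_ceil (r + L.R l * L.ϑ l)
  have h2 := Int.ceil_lt_add_one (r + L.R l * L.ϑ l)
  set n := ⌈r + L.R l * L.ϑ l⌉
  have h3 : 0 ≤ (n - (r + L.R l * L.ϑ l)) / L.ϑ l := div_nonneg (by linarith) h0.le
  have h4 := Nat.le_ceil ((n - (r + L.R l * L.ϑ l)) / L.ϑ l)
  have h5 := Nat.ceil_lt_add_one h3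
  set j := ⌈(n - (r + L.R l * L.ϑ l)) / L.ϑ l⌉₊
  rw [div_le_iff₀ h0] at h4
  rw [← sub_lt_iff_lt_add, lt_div_iff₀ h0] at h5
  obtain ⟨s, hs, hW⟩ := L.entry l (x := (rot θ).σ j x) (ζ := r - n + j * L.ϑ l) (by
    rw [L.smul_σ, hr, AddCircle.coe_add, AddCircle.coe_sub,
      (AddCircle.coe_eq_zero_iff (p := (1 : ℝ)) (x := n)).2 ⟨n, by simp⟩, sub_zero, Int.cast_natCast])
    (by linarith) (by linarith)
  refine ⟨s + j, ?_, by rwa [Nat.cast_add, (rot θ).σ_add]⟩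
  have h6 := L.ϑ_ge l
  rw [div_le_iff₀ (by positivity)] at h6
  have h7 : (j : ℝ) - 1 < 2 * 1000 ^ l := by
    refine lt_of_mul_lt_mul_right ?_ h0.le
    linarith
  have h8 : j < 2 * 1000 ^ l + 1 := by exact_mod_cast (by linarith : (j : ℝ) < 2 * 1000 ^ l + 1)
  have h9 := L.R_le l hl
  have h10 : l < 1000 ^ l := Nat.lt_pow_self (by norm_num)
  unfold NN
  omega

theorem hit_S {i : ℕ} (hi : L.i₀ ≤ i) : (rot θ).Hit (L.S i) (NN i) :=
  (L.hit_W hi).mono (fun _ h => L.geo_mem_S.2 ⟨i, le_rfl, h⟩) le_rfl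

/-- a first entrance into the ideal wall is followed by a wall.
PLAN: lift `a • σ j x` to `|ζ| ≤ Rϑ` (`AddCircle.norm_eq`, `ζ = t - round t`); since the previous
point is outside, `ζ - ϑ < -Rϑ`; `entry`. -/
theorem first_entry (l : ℕ) {x : UnitAddCircle} (h : (rot θ).σ 1 x ∈ L.I l) (h' : x ∉ L.I l) :
    ∃ s < L.R l, (rot θ).σ ((s + 1 : ℕ) : ℤ) x ∈ L.W l := by
  obtain ⟨r, h1, hr⟩ := ErgA.lift (L.a l • (rot θ).σ 1 x)
  have h0 := L.geo_pos l
  have h2 : |r| ≤ L.R l * L.ϑ l := h1.le.trans h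
  have h3 : L.a l • x = ((r - L.ϑ l : ℝ) : UnitAddCircle) := by
    rw [AddCircle.coe_sub, ← hr, L.smul_σ, Int.cast_one, one_mul, add_sub_cancel_right]
  have h4 : L.R l * L.ϑ l < |r - L.ϑ l| :=
    lt_of_lt_of_le (not_le.1 h') (h3 ▸ geo_norm_le _)
  rw [abs_le] at h2
  obtain ⟨s, hs, hW⟩ := L.entry l hr h2.1 (by
    rcases lt_abs.1 h4 with h5 | h5 <;> linarith)
  exact ⟨s, hs, by rwa [Nat.cast_add, Nat.cast_one, (rot θ).σ_add]⟩

/-- `real_arc_le` -/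
theorem real_near_I (l : ℕ) {s : ℝ} (hs : 0 ≤ s) :
    (μT).real {x | ∃ j : ℤ, |(j : ℝ)| ≤ s ∧ (rot θ).σ j x ∈ L.I l} ≤ 2 * (L.R l + s) * L.ϑ l := by
  have h0 := L.geo_pos l
  rw [mul_assoc]
  refine le_trans (measureReal_mono fun x hx => ?_) (real_arc_le (L.a_pos l) (by positivity))
  obtain ⟨j, h1, h2⟩ := hx
  have h3 : L.a l • x = L.a l • (rot θ).σ j x - (((j : ℝ) * L.ϑ l : ℝ) : UnitAddCircle) := by
    rw [L.smul_σ, add_sub_cancel_right]
  change ‖L.a l • x‖ ≤ _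
  rw [h3, add_mul]
  refine (norm_sub_le _ _).trans (add_le_add h2 ((geo_norm_le _).trans ?_))
  rw [abs_mul, abs_of_pos h0]
  exact mul_le_mul_of_nonneg_right h1 h0.le

/-- countable union bound, `∑_{l ≥ i} 6 (l + s)/1000^l ≤ 7 (i + 1 + s)/1000^i` -/
theorem real_near (i : ℕ) (hi : L.i₀ ≤ i) {s : ℝ} (hs : 0 ≤ s) :
    (μT).real {x | ∃ l ≥ i, ∃ j : ℤ, |(j : ℝ)| ≤ s ∧ (rot θ).σ j x ∈ L.I l} ≤
      7 * (i + 1 + s) / 1000 ^ i := by
  have e : {x | ∃ l ≥ i, ∃ j : ℤ, |(j : ℝ)| ≤ s ∧ (rot θ).σ j x ∈ L.I l} =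
      ⋃ n : ℕ, {x | ∃ j : ℤ, |(j : ℝ)| ≤ s ∧ (rot θ).σ j x ∈ L.I (i + n)} := by
    ext x
    simp only [Set.mem_iUnion, Set.mem_ofPred_eq]
    constructor
    · rintro ⟨l, hl, h⟩
      obtain ⟨n, rfl⟩ := Nat.exists_eq_add_of_le hl
      exact ⟨n, h⟩
    · rintro ⟨n, h⟩
      exact ⟨i + n, by omega, h⟩
  set c : ℝ := 6 * (i + 1 + s) / 1000 ^ i with hc
  have hc0 : 0 ≤ c := by positivity
  have hs1 : HasSum (fun n : ℕ => c * (1 / 500 : ℝ) ^ n) (c * (1 - 1 / 500)⁻¹) :=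
    (hasSum_geometric_of_lt_one (by norm_num) (by norm_num)).mul_left c
  rw [e]
  refine ENNReal.toReal_le_of_le_ofReal (by positivity) ((measure_iUnion_le _).trans ?_)
  refine (ENNReal.tsum_le_tsum (g := fun n => ENNReal.ofReal (c * (1 / 500 : ℝ) ^ n))
    fun n => ?_).trans ?_
  · rw [← ofReal_measureReal (measure_ne_top _ _)]
    refine ENNReal.ofReal_le_ofReal ((L.real_near_I (i + n) hs).trans ?_)
    have h1 : (L.R (i + n) : ℝ) ≤ i + n := by exact_mod_cast L.R_le (i + n) (by omega)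
    have h2 : (n : ℝ) + 1 ≤ 2 ^ n := by exact_mod_cast Nat.lt_two_pow_self
    have h3 : (L.R (i + n) : ℝ) + s ≤ (i + 1 + s) * 2 ^ n := by
      have : (0 : ℝ) ≤ (i + s) * n := by positivity
      have h4 : (0 : ℝ) ≤ i + 1 + s := by positivity
      nlinarith [mul_le_mul_of_nonneg_left h2 h4]
    calc 2 * (L.R (i + n) + s) * L.ϑ (i + n) ≤ 2 * ((i + 1 + s) * 2 ^ n) * (3 / 1000 ^ (i + n)) :=
          mul_le_mul (by linarith) (L.ϑ_le _) (L.geo_pos _).le (by positivity)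
      _ = c * (1 / 500 : ℝ) ^ n := by
          rw [hc, pow_add, show (1 / 500 : ℝ) = 2 / 1000 by norm_num, div_pow]
          field_simp
          norm_num
  · rw [← ENNReal.ofReal_tsum_of_nonneg (fun n => by positivity) hs1.summable, hs1.tsum_eq]
    refine ENNReal.ofReal_le_ofReal ?_
    rw [show 7 * (i + 1 + s) / (1000 : ℝ) ^ i = c * (7 / 6) by rw [hc]; ring]
    exact mul_le_mul_of_nonneg_left (by norm_num) hc0

theorem meas_near (i : ℕ) (s : ℝ) :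
    MeasurableSet {x | ∃ l ≥ i, ∃ j : ℤ, |(j : ℝ)| ≤ s ∧ (rot θ).σ j x ∈ L.I l} := by
  simp only [Set.setOf_exists, Set.setOf_and]
  exact .iUnion fun l => (MeasurableSet.const _).inter (.iUnion fun j =>
    (MeasurableSet.const _).inter (Sys.meas_σ j (L.I_closed l).measurableSet))

theorem S_tend : Tendsto (fun i => (μT).real (L.S i)) atTop (𝓝 0) := by
  have h1 : Tendsto (fun i : ℕ => 7 * (1 / 500 : ℝ) ^ i) atTop (𝓝 0) := by
    simpa using (tendsto_pow_atTop_nhds_zero_of_lt_one (r := (1 / 500 : ℝ)) (by norm_num)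
      (by norm_num)).const_mul 7
  refine squeeze_zero' (Eventually.of_forall fun _ => measureReal_nonneg) ?_ h1
  filter_upwards [eventually_ge_atTop L.i₀] with i hi
  refine (measureReal_mono fun x hx => ?_).trans ((L.real_near i hi le_rfl).trans ?_)
  · obtain ⟨l, hl, h⟩ := L.geo_mem_S.1 hx
    exact ⟨l, hl, 0, by simp, by rw [(rot θ).σ_zero]; exact h.2⟩
  · have h2 : (i : ℝ) + 1 ≤ 2 ^ i := by exact_mod_cast Nat.lt_two_pow_self
    rw [show (1 / 500 : ℝ) = 2 / 1000 by norm_num, div_pow, ← mul_div_assoc]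
    gcongr
    linarith

/-- backward waiting times are reflected forward ones -/
theorem wb_eq (i : ℕ) (x : UnitAddCircle) :
    (rot θ).wb (L.S i) x = (rot θ).wt (L.S i) (((θ : ℝ) : UnitAddCircle) - x) := by
  unfold Sys.wb Sys.wt
  congr 1
  ext j
  have e : (rot θ).σ j (((θ : ℝ) : UnitAddCircle) - x) = -(rot θ).σ (-(j + 1 : ℕ)) x := by
    simp only [rot, Nat.cast_add, Nat.cast_one, neg_smul, add_smul, one_smul]
    abel
  simp only [Set.mem_ofPred_eq, e]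
  exact ⟨L.S_symm i, fun h => by simpa using L.S_symm i h⟩

/-- PLAN. If `wt_{i+1} x' < NN i` the second term is `≥ 1/1000`. Otherwise the walls reached from
`x` and `x' = σ r x` at times `t = wt_i x`, `t' = wt_i x' < NN i` are in `W i` (`mem_W_of`), so
`‖(r + t' - t) ϑ‖ ≤ 2Rϑ`, `tol ≤ (|t'-t| + 2R) ϑ`, `|t' - t| ≥ tol 1000^i/3 - 2i ≥ tol 1000^i/5`. -/
theorem pair_sep {i : ℕ} (hi : L.i₀ ≤ i) {x : UnitAddCircle} {r : ℤ}
    (hx : 2 * NN i ≤ (rot θ).wt (L.S (i + 1)) x)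
    (hr : 1 / 1000 ^ 20 ≤ ‖(((r : ℝ) * L.ϑ i : ℝ) : UnitAddCircle)‖) :
    1 / (20 * 1000 ^ 20 : ℝ) ≤
      |((rot θ).wt (L.S i) ((rot θ).σ r x) : ℝ) - (rot θ).wt (L.S i) x| / NN i +
      |((rot θ).wt (L.S (i + 1)) ((rot θ).σ r x) : ℝ) - (rot θ).wt (L.S (i + 1)) x| /
        NN (i + 1) := by
  have hN : (0 : ℝ) < NN i := by unfold NN; positivity
  have hN1 : (NN (i + 1) : ℝ) = 1000 * NN i := by unfold NN; push_cast; ring
  have hN2 : (NN i : ℝ) = 4 * 1000 ^ i := by unfold NN; push_cast; ring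
  by_cases h : (rot θ).wt (L.S (i + 1)) ((rot θ).σ r x) < NN i
  · refine le_add_of_nonneg_of_le (by positivity) ?_
    have h1 : ((rot θ).wt (L.S (i + 1)) ((rot θ).σ r x) : ℝ) + NN i ≤
        (rot θ).wt (L.S (i + 1)) x := by exact_mod_cast (by omega)
    rw [hN1, le_div_iff₀ (by positivity)]
    refine le_trans ?_ (neg_le_abs _)
    nlinarith
  · refine le_add_of_le_of_nonneg ?_ (by positivity)
    have H := L.hit_S hi
    have h1 := (L.mem_W_of (H.fin_mem x) (Sys.not_mem_of_lt_wt (by have := H.wt_lt x; omega))).2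
    have h2 := (L.mem_W_of (H.fin_mem ((rot θ).σ r x))
      (Sys.not_mem_of_lt_wt (by have := H.wt_lt ((rot θ).σ r x); omega))).2
    unfold Sys.fin at h1 h2
    generalize (rot θ).wt (L.S i) x = t at h1 h2 ⊢
    generalize (rot θ).wt (L.S i) ((rot θ).σ r x) = t' at h2 ⊢
    have e : (((r : ℝ) * L.ϑ i : ℝ) : UnitAddCircle) = L.a i • (rot θ).σ t' ((rot θ).σ r x) -
        L.a i • (rot θ).σ t x - ((((t' : ℝ) - t) * L.ϑ i : ℝ) : UnitAddCircle) := by
      rw [L.smul_σ, L.smul_σ, L.smul_σ, sub_mul, AddCircle.coe_sub, Int.cast_natCast,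
        Int.cast_natCast]
      abel
    have h0 := L.geo_pos i
    have h3 : 1 / 1000 ^ 20 ≤ (2 * L.R i + |(t' : ℝ) - t|) * L.ϑ i := by
      refine hr.trans ?_
      rw [e]
      refine (norm_sub_le _ _).trans ((add_le_add ((norm_sub_le _ _).trans (add_le_add h2 h1))
        (geo_norm_le _)).trans (le_of_eq ?_))
      rw [abs_mul, abs_of_pos h0]
      ring
    have h4 : (L.R i : ℝ) ≤ i := by exact_mod_cast L.R_le i hi
    have h5 := h3.trans (mul_le_mul (add_le_add (mul_le_mul_of_nonneg_left h4 zero_le_two) le_rfl)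
      (L.ϑ_le i) h0.le (by positivity))
    have h6 := geo_pow (L.i₀_ge.trans hi)
    rw [← mul_div_assoc, div_le_div_iff₀ (by positivity) (by positivity)] at h5
    rw [hN2, div_le_div_iff₀ (by positivity) (by positivity)]
    linarith

/-- the exceptional set of level `i` -/
def Exc (i : ℕ) : Set UnitAddCircle :=
  {x | ∃ l ≥ i, ∃ j : ℤ, |(j : ℝ)| ≤ 0 ∧ (rot θ).σ j x ∈ L.I l} ∪
    {x | ∃ l ≥ 2 * i, ∃ j : ℤ, |(j : ℝ)| ≤ NN i ∧ (rot θ).σ j x ∈ L.I l}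

theorem Exc_meas (i : ℕ) : MeasurableSet (L.Exc i) := (L.meas_near _ _).union (L.meas_near _ _)

/-- `real_near` twice -/
theorem real_Exc {i : ℕ} (hi : L.i₀ ≤ i) : (μT).real (L.Exc i) ≤ 1 / 100 ^ i := by
  refine (measureReal_union_le _ _).trans ((add_le_add (L.real_near i hi le_rfl)
    (L.real_near (2 * i) (by omega) (Nat.cast_nonneg _))).trans ?_)
  have hN2 : (NN i : ℝ) = 4 * 1000 ^ i := by unfold NN; push_cast; ring
  have h0 := L.i₀_ge.trans hi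
  have h1 := geo_pow h0
  have h2 : 7 * (i : ℝ) + 42 ≤ 10 ^ i := by
    clear hi h1 hN2
    induction i, h0 using Nat.le_induction with
    | base => norm_num
    | succ n hn ih =>
      have : (0 : ℝ) ≤ n := Nat.cast_nonneg _
      rw [pow_succ _ n]
      push_cast
      linarith
  have h3 : (30 : ℝ) ≤ i := by exact_mod_cast h0
  have h4 : (0 : ℝ) < 1000 ^ i := by positivity
  have h5 : 7 * (((2 * i : ℕ) : ℝ) + 1 + NN i) / 1000 ^ (2 * i) ≤ 35 / 1000 ^ i := by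
    rw [hN2, two_mul i, pow_add, ← div_div]
    refine div_le_div_of_nonneg_right ?_ h4.le
    rw [div_le_iff₀ h4]
    push_cast
    linarith
  refine (add_le_add le_rfl h5).trans ?_
  rw [← add_div, show (1 : ℝ) / 100 ^ i = 10 ^ i / 1000 ^ i by
    rw [show (1000 : ℝ) = 10 * 100 by norm_num, mul_pow]; field_simp]
  exact div_le_div_of_nonneg_right (by linarith) h4.le

theorem hit_Ut {i l : ℕ} (hi : L.i₀ ≤ i) (hl : i < l) :
    (rot θ).Hit (Ut L.a L.ϑ L.R i l) (NN i) :=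
  (L.hit_W hi).mono (fun _ h => L.geo_mem_Ut.2
    ⟨i, le_rfl, hl, by have := L.i₀_ge; omega, h.2⟩) le_rfl

/-- PLAN. `≥`: the wall reached at time `wt_i x < NN i` has level `< 2i`, so lies in `Ut`.
`≤`: the time `t = wt (Ut) x` is `≥ 1` and is a first entrance into some `I l`, `i ≤ l < 2i`
(`first_entry` at `σ (t-1) x`), `R l ≤ l ≤ 2i`. (`Ut ⊇ I i ⊇ W i` is hit.) -/
theorem wt_ideal {i : ℕ} (hi : L.i₀ ≤ i) {x : UnitAddCircle} (hx : x ∉ L.Exc i) :
    (rot θ).wt (Ut L.a L.ϑ L.R i (2 * i)) x ≤ (rot θ).wt (L.S i) x ∧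
      (rot θ).wt (L.S i) x ≤ (rot θ).wt (Ut L.a L.ϑ L.R i (2 * i)) x + 2 * i := by
  have h0 := L.i₀_ge
  constructor
  · obtain ⟨l, hl, h⟩ := L.geo_mem_S.1 ((L.hit_S hi).fin_mem x)
    have h1 : l < 2 * i := by
      by_contra h1
      refine hx (.inr ⟨l, by omega, (rot θ).wt (L.S i) x, ?_, h.2⟩)
      rw [Int.cast_natCast, Nat.abs_cast]
      exact_mod_cast ((L.hit_S hi).wt_lt x).le
    exact Sys.wt_le (L.geo_mem_Ut.2 ⟨l, hl, h1, h1, h.2⟩)
  · obtain ⟨l, h1, h2, -, h3⟩ := L.geo_mem_Ut.1 ((L.hit_Ut hi (l := 2 * i) (by omega)).fin_mem x)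
    have h4 := fun j => Sys.not_mem_of_lt_wt (D := rot θ) (S := Ut L.a L.ϑ L.R i (2 * i))
      (x := x) (j := j)
    unfold Sys.fin at h3
    generalize (rot θ).wt (Ut L.a L.ϑ L.R i (2 * i)) x = u at h3 h4 ⊢
    rcases u with _ | v
    · exact (hx (.inl ⟨l, h1, 0, by simp, h3⟩)).elim
    · obtain ⟨s, hs, hW⟩ := L.first_entry l (x := (rot θ).σ v x)
        (by rwa [← (rot θ).σ_add, add_comm])
        fun h => h4 v (by omega) (L.geo_mem_Ut.2 ⟨l, h1, h2, h2, h⟩)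
      rw [← (rot θ).σ_add, ← Nat.cast_add] at hW
      have h5 := Sys.wt_le (L.geo_mem_S.2 ⟨l, h1, hW⟩)
      have h6 := L.R_le l (by omega)
      omega

/-- truncation: the two waiting times agree unless a wall of level `≥ l` is met before `NN i` -/
theorem xi_trunc (b : Bool) {i l : ℕ} (hi : L.i₀ ≤ i) (hl : i < l) {x : UnitAddCircle}
    (hx : ¬ ∃ l' ≥ l, ∃ j : ℤ, |(j : ℝ)| ≤ NN i ∧ (rot θ).σ j x ∈ L.I l') :
    L.ξ b i x = xi θ L.a L.ϑ L.R b i l x := by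
  have h0 := L.i₀_ge
  have H := L.hit_Ut hi (l := 2 * i) (by omega)
  have e : (rot θ).wt (Ut L.a L.ϑ L.R i (2 * i)) x = (rot θ).wt (Ut L.a L.ϑ L.R i l) x := by
    refine le_antisymm ((L.hit_Ut hi hl).wt_anti (fun y hy => ?_) x) ?_
    · obtain ⟨j, h1, -, h2, h3⟩ := L.geo_mem_Ut.1 hy
      exact L.geo_mem_Ut.2 ⟨j, h1, h2, h2, h3⟩
    · obtain ⟨j, h1, h2, -, h3⟩ := L.geo_mem_Ut.1 (H.fin_mem x)
      refine Sys.wt_le (L.geo_mem_Ut.2 ⟨j, h1, ?_, h2, h3⟩)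
      by_contra h4
      refine hx ⟨j, by omega, _, ?_, h3⟩
      rw [Int.cast_natCast, Nat.abs_cast]
      exact_mod_cast (H.wt_lt x).le
  unfold ξ xi
  rw [e]

/-- `a l ∣ a j` for `l ≤ j` -/
theorem xi_periodic (b : Bool) (l : ℕ) (x : UnitAddCircle) :
    L.ξ b l (x + ((1 / (L.a l : ℝ) : ℝ) : UnitAddCircle)) = L.ξ b l x := by
  have h1 : ∀ j, l ≤ j → L.a j • ((1 / (L.a l : ℝ) : ℝ) : UnitAddCircle) = 0 := by
    intro j hj
    have h2 : L.a l ∣ L.a j := by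
      induction j, hj using Nat.le_induction with
      | base => rfl
      | succ n _ ih => exact ih.trans (L.a_dvd n)
    obtain ⟨m, hm⟩ := h2
    have h3 : (L.a l : ℝ) ≠ 0 := by exact_mod_cast (L.a_pos l).ne'
    rw [← AddCircle.coe_nsmul, AddCircle.coe_eq_zero_iff]
    refine ⟨m, ?_⟩
    rw [hm]
    simp only [zsmul_eq_mul, nsmul_eq_mul, Int.cast_natCast, Nat.cast_mul]
    field_simp
  unfold ξ xi Sys.wt
  congr 4
  ext k
  simp only [Set.mem_ofPred_eq, L.geo_mem_Ut]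
  refine exists_congr fun j => and_congr_right fun hj => ?_
  simp only [Iw, Set.mem_ofPred_eq, L.smul_σ, smul_add, h1 j hj, add_zero]

/-- `ξ false i x = 1` forces an ideal wall of level `≥ i` within `8 * 1000^(i-1)` steps -/
theorem mean_false {i : ℕ} (hi : L.i₀ ≤ i) : ∫ x, L.ξ false i x ∂μT ≤ 1 / 8 := by
  have h0 := L.i₀_ge
  have H := L.hit_Ut hi (l := 2 * i) (by omega)
  have hN2 : (NN i : ℝ) = 4 * 1000 ^ i := by unfold NN; push_cast; ring
  have h4 : (0 : ℝ) < 1000 ^ i := by positivity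
  have h1 := L.meas_near i (8 / 1000 * 1000 ^ i)
  refine (integral_mono_of_nonneg (Eventually.of_forall fun x => ((bd_xi _ _ _ _ _ _ _).2 x).1)
    ((Bd.indicator_one h1).integrable _) (Eventually.of_forall fun x => ?_)).trans ?_
  · simp only [ξ, xi, Phi]
    split_ifs with h
    · obtain ⟨j, h2, -, -, h3⟩ := L.geo_mem_Ut.1 (H.fin_mem x)
      rw [Set.indicator_of_mem]
      · rfl
      · refine ⟨j, h2, _, ?_, h3⟩
        rw [Int.cast_natCast, Nat.abs_cast]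
        rw [hN2, div_lt_iff₀ (by positivity)] at h
        linarith
    · exact Set.indicator_nonneg (fun _ _ => zero_le_one) x
  · rw [integral_indicator_one h1]
    refine (L.real_near i hi (by positivity)).trans ?_
    have h5 := geo_pow (h0.trans hi)
    have h3 : (30 : ℝ) ≤ i := by exact_mod_cast h0.trans hi
    rw [div_le_iff₀ h4]
    linarith

end Crest.Agent.R113.Lev
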