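import Crest.Agent.S0150
import Crest.Agent.R113.Fib

/-! Row 113 (S0148): a quasinilpotent operator without hyperinvariant subspaces. -/

set_option autoImplicit false

open Filter Topology MeasureTheory

namespace Crest.Agent.R113

open Crest.AnalysisR.TwoAdic

attribute [local instance] Crest.AnalysisR.TwoAdic.borelTwoAdic
  Crest.AnalysisR.TwoAdic.borelSpace_twoAdic

/-- PLAN. `exists_hilbertBasis`; the index set is countable (separable: the basis vectors are
`√2`-separated, `Orthonormal.countable`-type / `Set.PairwiseDisjoint.countable_of_isOpen`) and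
infinite (else finite dimensional); reindex by `ℕ` (`HilbertBasis.mk` with `Orthonormal.comp`). -/
theorem exists_basis_nat (H : Type*) [NormedAddCommGroup H] [InnerProductSpace ℂ H]
    [CompleteSpace H] [TopologicalSpace.SeparableSpace H] (hH : ¬ FiniteDimensional ℂ H) :
    Nonempty (HilbertBasis ℕ ℂ H) := by
  obtain ⟨w, b, -⟩ := exists_hilbertBasis ℂ H
  have hc : Countable w := by
    refine Pairwise.countable_of_isOpen_disjoint (s := fun i => Metric.ball (b i) (1 / 2))
      (fun i j hij => Metric.ball_disjoint_ball ?_) (fun _ => Metric.isOpen_ball)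
      fun i => Metric.nonempty_ball.2 (by norm_num)
    have h := norm_sub_sq (𝕜 := ℂ) (b i) (b j)
    rw [b.orthonormal.inner_eq_zero hij, b.orthonormal.norm_eq_one, b.orthonormal.norm_eq_one] at h
    rw [dist_eq_norm]
    simp only [map_zero] at h
    nlinarith [norm_nonneg (b i - b j)]
  have hi : Infinite w := by
    rw [← not_finite_iff_infinite]
    intro hf
    have := Fintype.ofFinite w
    exact hH (Module.Finite.of_basis b.toOrthonormalBasis.toBasis)
  obtain ⟨e⟩ := nonempty_equiv_of_countable (α := ℕ) (β := w)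
  refine ⟨HilbertBasis.mk (b.orthonormal.comp e e.injective) ?_⟩
  rw [e.surjective.range_comp, b.dense_span]

/-- `Lp.SecondCountableTopology` (needs `IsSeparable haarTwoAdic`, `SeparableSpace seqHilbert`) -/
theorem fibre_separable : TopologicalSpace.SeparableSpace fibreSpace := by
  have h1 : TopologicalSpace.SeparableSpace seqHilbert := by
    let b : HilbertBasis ℤ ℂ seqHilbert := default
    have h := ((Set.countable_range b).isSeparable.span (R := ℂ)).closure
    rw [← Submodule.topologicalClosure_coe, b.dense_span] at h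
    exact TopologicalSpace.isSeparable_univ_iff.1 h
  have : Fact ((2 : ENNReal) ≠ ⊤) := ⟨by norm_num⟩
  infer_instance

/-- the constants `Lp.const (basisVec j)` are linearly independent -/
theorem fibre_infinite : ¬ FiniteDimensional ℂ fibreSpace := by
  intro h
  have h1 : FiniteDimensional ℂ seqHilbert := by
    refine FiniteDimensional.of_injective (Lp.constₗ 2 haarTwoAdic ℂ) ?_
    rw [injective_iff_map_eq_zero]
    intro v hv
    have h2 := Lp.norm_const 2 haarTwoAdic v (by norm_num)
    have h3 : Lp.const 2 haarTwoAdic v = 0 := hv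
    rw [h3] at h2
    simpa using h2.symm
  have : Finite ℤ := (default : HilbertBasis ℤ ℂ seqHilbert).orthonormal.linearIndependent.finite
  exact not_finite ℤ

/-- PLAN. `T = S` from `S0150.result`; `S`, `V` and the multipliers (`exists_field` with
`A x = g x • 1`, `a = 0`) commute with `S`. `‖S^n‖^(1/n) ≤ exp(-10⌊(n+1)²/4⌋/n) → 0`. -/
theorem fibre_hyper : ∃ T : fibreSpace →L[ℂ] fibreSpace, T ≠ 0 ∧
    Tendsto (fun n : ℕ => ‖T ^ n‖ ^ (1 / (n : ℝ))) atTop (𝓝 0) ∧
    ∀ V : Submodule ℂ fibreSpace, IsClosed (V : Set fibreSpace) →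
      (∀ A : fibreSpace →L[ℂ] fibreSpace, A * T = T * A → ∀ v ∈ V, A v ∈ V) → V = ⊥ ∨ V = ⊤ := by
  obtain ⟨-, -, Sfib, -, S, V, -, -, -, hS, -, hS0, -, hpow, -, hVS, -, -, -, -, -, htr⟩ :=
    S0150.result
  refine ⟨S, hS0, ?_, fun W hW hA => htr W hW (hA S rfl) (hA V hVS) ?_⟩
  · refine squeeze_zero' (Eventually.of_forall fun n => by positivity) ?_
      (Real.tendsto_exp_neg_atTop_nhds_zero.comp tendsto_natCast_atTop_atTop)
    filter_upwards [eventually_ge_atTop 1] with n hn
    have hn0 : (0 : ℝ) < n := by exact_mod_cast hn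
    refine (Real.rpow_le_rpow (norm_nonneg _) (hpow n hn) (by positivity)).trans ?_
    rw [← Real.exp_mul, Function.comp_apply, Real.exp_le_exp, mul_one_div, div_le_iff₀ hn0]
    have h1 : n * n ≤ 10 * ((n + 1) ^ 2 / 4) := by
      have := Nat.div_add_mod ((n + 1) ^ 2) 4
      have := Nat.mod_lt ((n + 1) ^ 2) (show 0 < 4 by norm_num)
      nlinarith
    have h2 : (n : ℝ) * n ≤ 10 * (((n + 1) ^ 2 / 4 : ℕ) : ℝ) := by exact_mod_cast h1
    linarith
  · rintro g hg ⟨C, hC⟩ f hf f' hf'
    obtain ⟨M, -, hM⟩ := exists_field (fun x => g x • (1 : seqHilbert →L[ℂ] seqHilbert))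
      (le_max_right C 0) (fun x => by
        rw [norm_smul]
        exact (mul_le_of_le_one_right (norm_nonneg _) ContinuousLinearMap.norm_id_le).trans
          ((hC x).trans (le_max_left _ _)))
      (fun f hf => hg.aestronglyMeasurable.smul hf) 0
    simp only [add_zero] at hM
    have e : f' = M f := by
      apply Lp.ext
      filter_upwards [hf', hM f] with x h1 h2
      rw [h1, h2]; rfl
    rw [e]
    refine hA M ?_ f hf
    ext1 F
    apply Lp.ext
    filter_upwards [hM (S F), hS F, hS (M F), hM F] with x h1 h2 h3 h4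
    rw [ContinuousLinearMap.mul_apply, ContinuousLinearMap.mul_apply, h1, h2, h3, h4]
    simp

/-- transport along a unitary (`LinearIsometryEquiv.conjStarAlgEquiv`, `Submodule.map`) -/
theorem hyper_transport {H K : Type*} [NormedAddCommGroup H] [InnerProductSpace ℂ H]
    [CompleteSpace H] [NormedAddCommGroup K] [InnerProductSpace ℂ K] [CompleteSpace K]
    (e : H ≃ₗᵢ[ℂ] K)
    (h : ∃ T : H →L[ℂ] H, T ≠ 0 ∧ Tendsto (fun n : ℕ => ‖T ^ n‖ ^ (1 / (n : ℝ))) atTop (𝓝 0) ∧
      ∀ V : Submodule ℂ H, IsClosed (V : Set H) →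
        (∀ A : H →L[ℂ] H, A * T = T * A → ∀ v ∈ V, A v ∈ V) → V = ⊥ ∨ V = ⊤) :
    ∃ T : K →L[ℂ] K, T ≠ 0 ∧ Tendsto (fun n : ℕ => ‖T ^ n‖ ^ (1 / (n : ℝ))) atTop (𝓝 0) ∧
      ∀ V : Submodule ℂ K, IsClosed (V : Set K) →
        (∀ A : K →L[ℂ] K, A * T = T * A → ∀ v ∈ V, A v ∈ V) → V = ⊥ ∨ V = ⊤ := by
  obtain ⟨T, h0, h1, h2⟩ := h
  refine ⟨e.conjStarAlgEquiv T, by simpa using h0, ?_, fun V hV hA => ?_⟩
  · simpa only [← map_pow, StarAlgEquiv.norm_map] using h1
  · have := h2 (V.comap e.toLinearEquiv.toLinearMap) (hV.preimage e.continuous) fun A hAT v hv => by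
      have := hA (e.conjStarAlgEquiv A) (by rw [← map_mul, ← map_mul, hAT]) (e v) hv
      simpa using this
    refine this.imp (fun h => ?_) fun h => ?_
    · refine (Submodule.eq_bot_iff _).2 fun v hv => ?_
      have : e.symm v ∈ V.comap e.toLinearEquiv.toLinearMap := by simpa using hv
      rw [h] at this
      simpa using this
    · refine (Submodule.eq_top_iff').2 fun v => ?_
      have : e.symm v ∈ V.comap e.toLinearEquiv.toLinearMap := by rw [h]; trivial
      simpa using this

end Crest.Agent.R113
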