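import Crest.Agent.R113.Rw
import Crest.Agent.R113.Dens

/-! Row 113: consequences of invariance under a weighted shift. -/

set_option autoImplicit false

open MeasureTheory Filter Topology
open scoped ENNReal

namespace Crest.Agent.R113.Sys

variable {X : Type*} [MeasurableSpace X] {D : Sys X} {P Q : D.H →L[ℂ] D.H} {w : X → ℝ}

theorem U_mul_neg (n : ℤ) : D.U n * D.U (-n) = 1 := by rw [← U_add, add_neg_cancel, U_zero]

theorem U_neg_mul (n : ℤ) : D.U (-n) * D.U n = 1 := by rw [← U_add, neg_add_cancel, U_zero]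

theorem conj_proj (hP : D.Proj P) (n : ℤ) : D.Proj (D.U (-n) * P * D.U n) := by
  refine ⟨((mem_U _).mul hP.1).mul (mem_U _), ?_, ?_⟩
  · rw [IsIdempotentElem]
    calc _ = D.U (-n) * (P * (D.U n * D.U (-n)) * P) * D.U n := by simp only [mul_assoc]
      _ = _ := by rw [U_mul_neg, mul_one, hP.2.isIdempotentElem.eq]
  · rw [IsSelfAdjoint, star_mul, star_mul, star_U, star_U, neg_neg, hP.2.isSelfAdjoint.star_eq,
      mul_assoc]

theorem τ_conj (hP : D.Mem P) (n : ℤ) : D.τ (D.U (-n) * P * D.U n) = D.τ P := by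
  rw [τ_comm ((mem_U _).mul hP) (mem_U _), ← mul_assoc, U_mul_neg, one_mul]

/-- PLAN. `τ(π f U(-n) P U n) = τ(U n π f U(-n) P)` and `U n π f = π(f ∘ σ (-n)) U n` (`π_U`). -/
theorem pair_conj (hP : D.Proj P) (n : ℤ) {f : X → ℝ} (hf : Bd f) :
    ∫ x, f x * D.ρ (D.U (-n) * P * D.U n) x ∂D.μ = ∫ x, f (D.σ (-n) x) * D.ρ P x ∂D.μ := by
  have hf' : Bd fun x => f (D.σ (-n) x) := hf.comp (meas_σ _)
  have h1 := τ_π_mul (conj_proj hP n) hf
  rw [← mul_assoc, ← mul_assoc, π_U hf, τ_comm (((mem_U _).mul (mem_π hf')).mul hP.1) (mem_U _),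
    ← mul_assoc, ← mul_assoc, U_mul_neg, one_mul, τ_π_mul hP hf'] at h1
  exact_mod_cast h1.symm

theorem inv_bd_prod (hw : Bd w) (n : ℕ) :
    Bd fun x => ∏ j ∈ Finset.range n, w (D.σ (j : ℕ) x) := by
  induction n with
  | zero => simpa using Bd.const (Y := X) (1 : ℝ)
  | succ n ih =>
    simp only [Finset.prod_range_succ]
    exact ih.mul (hw.comp (meas_σ _))

theorem inv_shift_pow (hw : Bd w) (n : ℕ) : (D.U 1 * D.π w) ^ n =
    D.U n * D.π (fun x => ∏ j ∈ Finset.range n, w (D.σ (j : ℕ) x)) := by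
  induction n with
  | zero => simp [U_zero, π_one]
  | succ n ih =>
    rw [pow_succ', ih, mul_assoc, ← mul_assoc (D.π w), π_U hw, mul_assoc,
      π_mul (hw.comp (meas_σ _)) (inv_bd_prod hw n), ← mul_assoc, ← U_add]
    simp only [Finset.prod_range_succ, mul_comm, Nat.cast_succ, add_comm]

theorem Inv.eq (h : D.Inv P w) : D.U 1 * D.π w * P = P * (D.U 1 * D.π w) * P := by
  rw [Sys.Inv, sub_mul, sub_mul, one_mul, sub_eq_zero] at h
  exact h

/-- PLAN. `(U 1 π w)^n = U n π(∏_{j<n} w ∘ σ j)` and `(1-P) T^n P = 0` by induction. -/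
theorem Inv.pow (hP : D.Proj P) (hw : Bd w) (h : D.Inv P w) (n : ℕ) :
    (1 - D.U (-(n : ℤ)) * P * D.U n) * D.π (fun x => ∏ j ∈ Finset.range n, w (D.σ (j : ℕ) x)) * P
      = 0 := by
  have key : ∀ n : ℕ, (1 - P) * (D.U 1 * D.π w) ^ n * P = 0 := by
    intro n
    induction n with
    | zero => rw [pow_zero, mul_one, sub_mul, one_mul, hP.2.isIdempotentElem.eq, sub_self]
    | succ n ih =>
      rw [pow_succ, mul_assoc, mul_assoc, h.eq, ← mul_assoc, ← mul_assoc,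
        ← mul_assoc, ← mul_assoc, ih]
      simp only [zero_mul]
  have e : 1 - D.U (-(n : ℤ)) * P * D.U n = D.U (-(n : ℤ)) * (1 - P) * D.U n := by
    rw [mul_sub, sub_mul, mul_one, U_neg_mul]
  have := key n
  rw [inv_shift_pow hw] at this
  rw [e]
  calc _ = D.U (-(n : ℤ)) * ((1 - P) * (D.U n *
        D.π (fun x => ∏ j ∈ Finset.range n, w (D.σ (j : ℕ) x))) * P) := by simp only [mul_assoc]
    _ = 0 := by rw [this, mul_zero]

/-- PLAN. `rw P u = X P Z`, `T P = P T P`, `(1 - rw P u) X P = 0`,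
`X U π(w) = U π(w') X` up to the scalar `c`. -/
theorem Inv.rw (hP : D.Proj P) (hw : Bd w) (h : D.Inv P w) {u : X → ℝ} (hu : Bd u) (c : ℝ) :
    D.Inv (D.rw P u) fun x => c * (Real.exp (u (D.σ 1 x) - u x) * w x) := by
  obtain ⟨Z, -, hZ⟩ := rw_eq_mul hP hu
  have hu1 : Bd fun x => u (D.σ 1 x) := hu.comp (meas_σ _)
  have b := (hu1.sub hu).exp.mul hw
  have e : D.U 1 * D.π (fun x => c * (Real.exp (u (D.σ 1 x) - u x) * w x)) *
      D.π (fun x => Real.exp (u x)) =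
        (c : ℂ) • (D.π (fun x => Real.exp (u x)) * (D.U 1 * D.π w)) := by
    rw [π_smul b, mul_smul_comm, smul_mul_assoc, ← mul_assoc, π_U hu.exp, mul_assoc, mul_assoc,
      π_mul b hu.exp, π_mul hu1.exp hw]
    congr 3
    funext x
    rw [mul_right_comm, ← Real.exp_add, sub_add_cancel]
  have h2 := rw_range hP hu
  rw [Sys.Inv]
  calc _ = (1 - D.rw P u) * (D.U 1 * D.π (fun x => c * (Real.exp (u (D.σ 1 x) - u x) * w x)) *
        D.π (fun x => Real.exp (u x))) * P * Z := by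
        conv_lhs => arg 2; rw [hZ]
        simp only [mul_assoc]
    _ = (c : ℂ) • ((1 - D.rw P u) * D.π (fun x => Real.exp (u x)) *
        (D.U 1 * D.π w * P) * Z) := by
        rw [e]
        simp only [mul_smul_comm, smul_mul_assoc, mul_assoc]
    _ = 0 := by
        rw [h.eq, ← mul_assoc, ← mul_assoc, h2]
        simp only [zero_mul, smul_zero]

/-- PLAN. For measurable `A ⊆ {w = 1}`, `T = U 1 π w`, `e = π 1_A`: `U 1 e = T e`,
`(1-P) T = (1-P) T (1-P)`, `‖T‖ ≤ 1`, so `‖(1-P) U e Ω‖ ≤ ‖(1-P) e Ω‖`, i.e.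
`∫_A (1 - ρ ∘ σ 1) ≤ ∫_A (1 - ρ)` (`pair_conj`, `τ_comm`, `τ_π_mul`). Take
`A = {w = 1, ρ (σ 1 x) < ρ x}`. -/
theorem Inv.mono (hP : D.Proj P) (hw : Bd w) (h : D.Inv P w) (h1 : ∀ x, 0 ≤ w x ∧ w x ≤ 1) :
    ∀ᵐ x ∂D.μ, w x = 1 → D.ρ P x ≤ D.ρ P (D.σ 1 x) := by
  have hr := bd_ρ (D := D) P
  have hr1 : Bd fun x => D.ρ P (D.σ 1 x) := hr.comp (meas_σ _)
  set A : Set X := {x | w x = 1 ∧ D.ρ P (D.σ 1 x) < D.ρ P x} with hA
  have mA : MeasurableSet A :=
    (hw.1 (measurableSet_singleton 1)).inter (measurableSet_lt hr1.1 hr.1)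
  have hb := Bd.indicator_one mA
  have he := proj_ind (D := D) mA
  have e1 : D.π w * D.π (A.indicator 1) = D.π (A.indicator 1) := by
    rw [π_mul hw hb]
    congr 1
    funext x
    by_cases hx : x ∈ A
    · rw [hx.1, one_mul]
    · simp [hx]
  have e2 : (1 - P) * D.U 1 * D.π (A.indicator 1) =
      (1 - P) * (D.U 1 * (D.π w * ((1 - P) * D.π (A.indicator 1)))) := by
    have : (1 - P) * (D.U 1 * (D.π w * (P * D.π (A.indicator 1)))) = 0 := by
      rw [← zero_mul (D.π (A.indicator 1)), ← h]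
      simp only [mul_assoc]
    rw [sub_mul 1 P (D.π _), mul_sub, mul_sub, mul_sub, this, sub_zero, one_mul, e1, mul_assoc]
  have n1 : ‖((1 - D.U (-1) * P * D.U 1) * D.π (A.indicator 1)) D.Ω‖ ≤
      ‖((1 - P) * D.π (A.indicator 1)) D.Ω‖ := by
    have e : 1 - D.U (-1) * P * D.U 1 = D.U (-1) * ((1 - P) * D.U 1) := by
      rw [sub_mul, mul_sub, one_mul, U_neg_mul, mul_assoc]
    rw [e, mul_assoc, e2, mul_apply_eq_comp, norm_U, mul_apply_eq_comp]
    refine ((1 - P).le_of_opNorm_le hP.one_sub.2.norm_le _).trans ?_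
    rw [one_mul, mul_apply_eq_comp, norm_U, mul_apply_eq_comp]
    refine ((D.π w).le_of_opNorm_le (norm_π_le hw zero_le_one (Eventually.of_forall fun x => ?_))
      _).trans_eq (one_mul _)
    rw [abs_of_nonneg (h1 x).1]
    exact (h1 x).2
  have t1 := τ_proj_mul (conj_proj hP 1).one_sub he
  have t2 := τ_proj_mul hP.one_sub he
  rw [mul_sub, mul_one, τ_sub, τ_π_mul (conj_proj hP 1) hb, pair_conj hP 1 hb, τ_π hb,
    ← Complex.ofReal_sub, Complex.ofReal_inj] at t1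
  rw [mul_sub, mul_one, τ_sub, τ_π_mul hP hb, τ_π hb, ← Complex.ofReal_sub,
    Complex.ofReal_inj] at t2
  have n2 := pow_le_pow_left₀ (norm_nonneg _) n1 2
  have m : ∫ x, A.indicator 1 (D.σ (-1) x) * D.ρ P x ∂D.μ =
      ∫ x, A.indicator 1 x * D.ρ P (D.σ 1 x) ∂D.μ := by
    have := integral_map (μ := D.μ) (meas_σ (D := D) 1).aemeasurable
      ((hb.comp (meas_σ (D := D) (-1))).mul hr).1.aestronglyMeasurable
    rw [(D.mp 1).map_eq] at this
    rw [this]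
    simp only [← D.σ_add, neg_add_cancel, D.σ_zero]
  have i1 := (hb.mul hr).integrable D.μ
  have i2 := (hb.mul hr1).integrable D.μ
  have nn : ∀ x, 0 ≤ A.indicator 1 x * D.ρ P x - A.indicator 1 x * D.ρ P (D.σ 1 x) := by
    intro x
    by_cases hx : x ∈ A
    · simpa [hx] using hx.2.le
    · simp [hx]
  have z : ∫ x, (A.indicator 1 x * D.ρ P x - A.indicator 1 x * D.ρ P (D.σ 1 x)) ∂D.μ = 0 := by
    refine le_antisymm ?_ (integral_nonneg nn)
    rw [integral_sub i1 i2]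
    linarith
  filter_upwards [(integral_eq_zero_iff_of_nonneg nn (i1.sub i2)).1 z] with x hx hw1
  by_contra hlt
  have hxA : x ∈ A := ⟨hw1, not_le.1 hlt⟩
  simp only [Set.indicator_of_mem hxA, Pi.one_apply, one_mul, Pi.zero_apply] at hx
  linarith [hxA.2]

/-- PLAN. `(1-Q) P = (1-Q) π(1-y) P`, `‖π(1-y) P Ω‖ = ‖P π(1-y) Ω‖ ≤ ‖π(1-y)Ω‖` (`norm_star_Ω`),
`Proj.dist_sq`. -/
theorem close_of_range (hP : D.Proj P) (hQ : D.Proj Q) (hτ : D.τ Q = D.τ P) {y : X → ℝ}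
    (hy : Bd y) (h : (1 - Q) * D.π y * P = 0) :
    ‖Q D.Ω - P D.Ω‖ ^ 2 ≤ 2 * ∫ x, (1 - y x) ^ 2 ∂D.μ := by
  have hy' := (Bd.const (1 : ℝ)).sub hy
  have e : (1 - Q) * P = (1 - Q) * (D.π (fun x => 1 - y x) * P) := by
    rw [π_sub (Bd.const 1) hy, π_one, sub_mul 1 (D.π y), mul_sub, ← mul_assoc _ (D.π y), h,
      sub_zero, one_mul]
  rw [hP.dist_sq hQ hτ, e, ← norm_π_Ω_sq hy', mul_apply_eq_comp]
  refine mul_le_mul_of_nonneg_left (pow_le_pow_left₀ (norm_nonneg _) ?_ 2) zero_le_two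
  refine ((1 - Q).le_of_opNorm_le hQ.one_sub.2.norm_le _).trans ?_
  rw [one_mul]
  exact (norm_mul_Ω_le (mem_π hy') hP.1).trans
    (mul_le_of_le_one_right (norm_nonneg _) hP.2.norm_le)

end Crest.Agent.R113.Sys
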