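import Mathlib

/-! Row 113: frequencies without common rigid times. -/

set_option autoImplicit false

open MeasureTheory

namespace Crest.Agent.R113

/-- dependent recursive choice -/
theorem exists_seq_dep {α : Type*} [Nonempty α] (Q : (ℕ → α) → ℕ → Prop)
    (hloc : ∀ f g l, (∀ j ≤ l, f j = g j) → Q f l → Q g l)
    (hstep : ∀ f l, (∀ j < l, Q f j) → ∃ y, Q (Function.update f l y) l) :
    ∃ f : ℕ → α, ∀ l, Q f l := by
  classical
  choose! st hst using hstep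
  let F : ℕ → ℕ → α := fun n => Nat.rec (fun _ => Classical.arbitrary α)
    (fun l f => Function.update f l (st f l)) n
  have hF : ∀ n, F (n + 1) = Function.update (F n) n (st (F n) n) := fun n => rfl
  have hQ : ∀ n, ∀ j < n, Q (F n) j := by
    intro n
    induction n with
    | zero => intro j hj; omega
    | succ n ih =>
      intro j hj
      rcases Nat.lt_succ_iff_lt_or_eq.1 hj with h | rfl
      · refine hloc (F n) _ j (fun i hi => ?_) (ih j h)
        rw [hF, Function.update_of_ne (by omega)]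
      · exact hst _ _ ih
  have hst' : ∀ j n, j < n → F n j = F (j + 1) j := by
    intro j n hn
    induction n with
    | zero => omega
    | succ n ih =>
      rcases Nat.lt_succ_iff_lt_or_eq.1 hn with h | rfl
      · rw [hF, Function.update_of_ne (by omega), ih h]
      · rfl
  refine ⟨fun j => F (j + 1) j, fun l => hloc (F (l + 1)) _ l (fun j hj => ?_) (hQ (l + 1) l (by omega))⟩
  exact hst' j (l + 1) (by omega)

/-- the set of `t ∈ [1,2]` with `ρ t` close to an integer is small.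
PLAN: it is covered by the intervals of length `2ε/ρ` around `k/ρ`, `k ∈ [ρ - 1/2, 2ρ + 1/2]`
(at most `ρ + 2 ≤ 3ρ` of them) if `ε ≤ 1/2`; trivial otherwise. -/
theorem vol_rigid {ρ ε : ℝ} (hρ : 1 ≤ ρ) (hε : 0 ≤ ε) :
    volume.real {t ∈ Set.Icc (1 : ℝ) 2 | ‖((ρ * t : ℝ) : UnitAddCircle)‖ < ε} ≤ 6 * ε := by
  have hρ0 : 0 < ρ := by linarith
  have hsub : {t ∈ Set.Icc (1 : ℝ) 2 | ‖((ρ * t : ℝ) : UnitAddCircle)‖ < ε} ⊆
      ⋃ k ∈ Finset.Icc ⌈ρ - 1 / 2⌉ ⌊2 * ρ + 1 / 2⌋, Set.Ioo ((k - ε) / ρ) ((k + ε) / ρ) := by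
    rintro t ⟨⟨h1, h2⟩, h3⟩
    rw [UnitAddCircle.norm_eq, abs_lt] at h3
    have h4 := abs_le.1 (abs_sub_round (ρ * t))
    simp only [Set.mem_iUnion, Finset.mem_Icc, Int.ceil_le, Int.le_floor, Set.mem_Ioo]
    refine ⟨round (ρ * t), ⟨by nlinarith, by nlinarith⟩, ?_, ?_⟩
    · rw [div_lt_iff₀ hρ0]; linarith
    · rw [lt_div_iff₀ hρ0]; linarith
  refine (measureReal_mono hsub ?_).trans ((measureReal_biUnion_finset_le _ _).trans ?_)
  · exact ((measure_biUnion_finset_le _ _).trans_lt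
      (ENNReal.sum_lt_top.2 fun k _ => measure_Ioo_lt_top)).ne
  · have h1 : ∀ k : ℤ, volume.real (Set.Ioo ((k - ε) / ρ) ((k + ε) / ρ)) = 2 * ε / ρ := by
      intro k
      rw [Real.volume_real_Ioo_of_le (by gcongr; linarith)]
      ring
    simp only [h1, Finset.sum_const, Int.card_Icc, nsmul_eq_mul]
    have h2 := Int.floor_le (2 * ρ + 1 / 2)
    have h3 := Int.le_ceil (ρ - 1 / 2)
    have h4 : (((⌊2 * ρ + 1 / 2⌋ + 1 - ⌈ρ - 1 / 2⌉).toNat : ℕ) : ℝ) ≤ 3 * ρ := by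
      rcases le_total (⌊2 * ρ + 1 / 2⌋ + 1 - ⌈ρ - 1 / 2⌉) 0 with h | h
      · rw [Int.toNat_of_nonpos h]; simp; linarith
      · have : (((⌊2 * ρ + 1 / 2⌋ + 1 - ⌈ρ - 1 / 2⌉).toNat : ℕ) : ℝ) =
            ((⌊2 * ρ + 1 / 2⌋ + 1 - ⌈ρ - 1 / 2⌉ : ℤ) : ℝ) := by
          rw [← Int.cast_natCast, Int.toNat_of_nonneg h]
        rw [this]; push_cast; linarith
    calc _ ≤ 3 * ρ * (2 * ε / ρ) := by gcongr
      _ = _ := by field_simp; ring

namespace NRA

noncomputable def rg (s g : ℕ) : ℝ := g * (1000 ^ s / (2 * 1000 ^ 20))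

noncomputable def af (s g j : ℕ) (x : ℝ) : ℝ :=
  if ‖((rg s g / 1000 ^ j * x : ℝ) : UnitAddCircle)‖ < 3 / 1000 ^ 20 then 1000 ^ 18 else 1

noncomputable def GS (s n : ℕ) : Finset ℕ :=
  (Finset.range (3 * 1000 ^ (4 * n + 20))).filter fun g => (1000 : ℝ) ^ (s + n) / 1000 ≤ rg s g

noncomputable def wt (t : ℕ → ℝ) (s n g i : ℕ) : ℝ :=
  if i ≤ s + n then (∏ j ∈ Finset.Ico s i, af s g j (t j)) / 1000 ^ (9 * n) * 2 ^ (s + n - i) else 0

noncomputable def Phi (t : ℕ → ℝ) (i : ℕ) : ℝ :=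
  ∑ s ∈ Finset.range (i + 1), ∑ n ∈ Finset.Icc 5 s, ∑ g ∈ GS s n, wt t s n g i

lemma one_le_af (s g j : ℕ) (x : ℝ) : 1 ≤ af s g j x := by
  unfold af; split_ifs <;> norm_num

lemma wt_nonneg (t : ℕ → ℝ) (s n g i : ℕ) : 0 ≤ wt t s n g i := by
  unfold wt
  split_ifs
  · have := Finset.prod_nonneg (s := Finset.Ico s i) (f := fun j => af s g j (t j))
      fun j _ => zero_le_one.trans (one_le_af _ _ _ _)
    positivity
  · exact le_rfl

/-- integrable on `[1,2]` with integral at most `c` -/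
def IB (F : ℝ → ℝ) (c : ℝ) : Prop :=
  IntegrableOn F (Set.Icc 1 2) ∧ ∫ y in Set.Icc (1 : ℝ) 2, F y ≤ c

lemma IB.sum {ι : Type} (s : Finset ι) {F : ι → ℝ → ℝ} {c : ι → ℝ} (h : ∀ k ∈ s, IB (F k) (c k)) :
    IB (fun y => ∑ k ∈ s, F k y) (∑ k ∈ s, c k) :=
  ⟨integrable_finset_sum s fun k hk => (h k hk).1, by
    rw [integral_finset_sum s fun k hk => (h k hk).1]
    exact Finset.sum_le_sum fun k hk => (h k hk).2⟩

lemma IB.mul {F : ℝ → ℝ} {c a : ℝ} (h : IB F c) (ha : 0 ≤ a) : IB (fun y => a * F y) (a * c) :=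
  ⟨h.1.const_mul a, by rw [integral_const_mul]; exact mul_le_mul_of_nonneg_left h.2 ha⟩

lemma ib_af (s g j : ℕ) (h : 1 ≤ rg s g / 1000 ^ j) : IB (af s g j) (3 / 2) := by
  set A : Set ℝ := {x | ‖((rg s g / 1000 ^ j * x : ℝ) : UnitAddCircle)‖ < 3 / 1000 ^ 20} with hA
  have hAm : MeasurableSet A := by
    refine (isOpen_lt ?_ continuous_const).measurableSet
    exact ((AddCircle.continuous_mk' (1 : ℝ)).comp (continuous_const.mul continuous_id)).norm
  have e : af s g j = fun x => 1 + A.indicator (fun _ => (1000 ^ 18 - 1 : ℝ)) x := by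
    funext x
    by_cases hx : x ∈ A
    · have hx' : ‖((rg s g / 1000 ^ j * x : ℝ) : UnitAddCircle)‖ < 3 / 1000 ^ 20 := hx
      rw [Set.indicator_of_mem hx, af, if_pos hx']; ring
    · have hx' : ¬ ‖((rg s g / 1000 ^ j * x : ℝ) : UnitAddCircle)‖ < 3 / 1000 ^ 20 := hx
      rw [Set.indicator_of_notMem hx, af, if_neg hx']; ring
  have i1 : IntegrableOn (fun _ : ℝ => (1 : ℝ)) (Set.Icc 1 2) := continuous_const.integrableOn_Icc
  have i2 : IntegrableOn (A.indicator fun _ => (1000 ^ 18 - 1 : ℝ)) (Set.Icc 1 2) :=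
    Integrable.indicator continuous_const.integrableOn_Icc hAm
  rw [e]
  refine ⟨i1.add i2, ?_⟩
  rw [integral_add i1 i2, integral_indicator hAm, Measure.restrict_restrict hAm]
  have h1 := vol_rigid h (ε := 3 / 1000 ^ 20) (by positivity)
  have h2 : A ∩ Set.Icc 1 2 = {t ∈ Set.Icc (1 : ℝ) 2 |
      ‖((rg s g / 1000 ^ j * t : ℝ) : UnitAddCircle)‖ < 3 / 1000 ^ 20} := by
    ext x; simp only [hA, Set.mem_inter_iff, Set.mem_setOf_eq]; tauto
  simp only [integral_const, measureReal_restrict_apply_univ, smul_eq_mul, mul_one, h2]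
  rw [Real.volume_real_Icc_of_le (by norm_num)]
  have h3 := mul_le_mul_of_nonneg_right h1 (show (0 : ℝ) ≤ 1000 ^ 18 - 1 by norm_num)
  refine le_trans (add_le_add le_rfl h3) (by norm_num)

lemma new_le (t : ℕ → ℝ) (s : ℕ) : ∑ n ∈ Finset.Icc 5 s, ∑ g ∈ GS s n, wt t s n g s ≤ 1 / 4 := by
  have h1 : ∀ n ∈ Finset.Icc 5 s, ∑ g ∈ GS s n, wt t s n g s ≤ 1 / 8 * (1 / 2) ^ n := by
    intro n hn
    obtain ⟨k, rfl⟩ : ∃ k, n = k + 5 := ⟨n - 5, by have := (Finset.mem_Icc.1 hn).1; omega⟩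
    simp only [wt, Nat.le_add_right, if_true, Finset.Ico_self, Finset.prod_empty,
      Nat.add_sub_cancel_left, Finset.sum_const, nsmul_eq_mul]
    have h2 : ((GS s (k + 5)).card : ℝ) ≤ 3 * 1000 ^ (4 * (k + 5) + 20) := by
      have : (GS s (k + 5)).card ≤ 3 * 1000 ^ (4 * (k + 5) + 20) :=
        (Finset.card_filter_le _ _).trans (by rw [Finset.card_range])
      exact_mod_cast this
    have h3 : ((2 : ℝ) / 1000 ^ 5) ^ k ≤ (1 / 2) ^ k := pow_le_pow_left₀ (by positivity) (by norm_num) k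
    calc _ ≤ 3 * 1000 ^ (4 * (k + 5) + 20) * (1 / 1000 ^ (9 * (k + 5)) * 2 ^ (k + 5) : ℝ) := by gcongr
      _ = 96 / 1000 ^ 5 * (2 / 1000 ^ 5) ^ k := by
          rw [div_pow, ← pow_mul]
          field_simp
          ring
      _ ≤ 96 / 1000 ^ 5 * (1 / 2) ^ k := by gcongr
      _ ≤ _ := by
          rw [pow_add, mul_comm ((1 / 2 : ℝ) ^ k), ← mul_assoc]
          gcongr
          norm_num
  refine (Finset.sum_le_sum h1).trans ?_
  rw [← Finset.mul_sum]
  have h2 : ∑ n ∈ Finset.Icc 5 s, (1 / 2 : ℝ) ^ n ≤ ∑ n ∈ Finset.range (s + 1), (1 / 2 : ℝ) ^ n :=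
    Finset.sum_le_sum_of_subset_of_nonneg
      (fun n hn => Finset.mem_range.2 (by have := (Finset.mem_Icc.1 hn).2; omega))
      fun _ _ _ => by positivity
  have h3 := sum_geometric_two_le (s + 1)
  linarith

lemma wt_succ (f : ℕ → ℝ) {s i : ℕ} (hs : s ≤ i) (n g : ℕ) (y : ℝ) :
    wt (Function.update f i y) s n g (i + 1) =
      (if i + 1 ≤ s + n then wt f s n g i / 2 else 0) * af s g i y := by
  unfold wt
  split_ifs with h1 h2
  · rw [Finset.prod_Ico_succ_top hs, Function.update_self,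
      Finset.prod_congr rfl fun j hj => by
        rw [Function.update_of_ne (ne_of_lt (Finset.mem_Ico.1 hj).2)],
      show s + n - i = s + n - (i + 1) + 1 by omega, pow_succ]
    ring
  · omega
  · rw [zero_mul]

lemma step (f : ℕ → ℝ) (i : ℕ) (h : Phi f i ≤ 1) :
    ∃ y ∈ Set.Icc (1 : ℝ) 2, Phi (Function.update f i y) (i + 1) ≤ 1 := by
  have h1 : IB (fun y => ∑ s ∈ Finset.range (i + 1), ∑ n ∈ Finset.Icc 5 s, ∑ g ∈ GS s n,
      (if i + 1 ≤ s + n then wt f s n g i / 2 else 0) * af s g i y)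
      (∑ s ∈ Finset.range (i + 1), ∑ n ∈ Finset.Icc 5 s, ∑ g ∈ GS s n, 3 / 4 * wt f s n g i) := by
    refine IB.sum _ fun s _ => IB.sum _ fun n _ => IB.sum _ fun g hg => ?_
    have hw := wt_nonneg f s n g i
    split_ifs with hi
    · have h2 : 1 ≤ rg s g / 1000 ^ i := by
        rw [one_le_div (by positivity)]
        refine le_trans ?_ (Finset.mem_filter.1 hg).2
        rw [le_div_iff₀ (by norm_num), ← pow_succ]
        exact pow_le_pow_right₀ (by norm_num) hi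
      have := (ib_af s g i h2).mul (a := wt f s n g i / 2) (by positivity)
      exact ⟨this.1, this.2.trans_eq (by ring)⟩
    · simp only [zero_mul]
      exact ⟨integrable_zero _ _ _, by rw [integral_zero]; positivity⟩
  obtain ⟨y, hy, h2⟩ := exists_le_setAverage (μ := volume) (s := Set.Icc (1 : ℝ) 2)
    (by rw [Real.volume_Icc]; norm_num) measure_Icc_lt_top.ne h1.1
  rw [setAverage_eq, Real.volume_real_Icc_of_le (by norm_num)] at h2
  refine ⟨y, hy, ?_⟩
  have h3 := h1.2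
  simp only [← Finset.mul_sum] at h3
  have h4 := new_le (Function.update f i y) (i + 1)
  rw [Phi, Finset.sum_range_succ, Finset.sum_congr rfl fun s hs => Finset.sum_congr rfl fun n _ =>
    Finset.sum_congr rfl fun g _ => wt_succ f (Nat.lt_succ_iff.1 (Finset.mem_range.1 hs)) n g y]
  rw [show (2:ℝ)-1 = 1 by norm_num, inv_one, one_smul] at h2
  beta_reduce at h2
  unfold Phi at h
  linarith

lemma phi_congr {f g : ℕ → ℝ} {i : ℕ} (h : ∀ j < i, f j = g j) : Phi f i = Phi g i := by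
  unfold Phi wt
  refine Finset.sum_congr rfl fun s _ => Finset.sum_congr rfl fun n _ =>
    Finset.sum_congr rfl fun k _ => ?_
  rw [Finset.prod_congr rfl fun j hj => by rw [h j (Finset.mem_Ico.1 hj).2]]

end NRA

/-- PLAN (greedy choice with a potential). `B = 1000`, `tol = B⁻²⁰`, `λ = B⁹`. Constraints are
triples `(s,n,g)`, `5 ≤ n ≤ s`, `g ∈ ℕ`, `r_g = g h_s`, `h_s = tol B^s / 2`, with
`B^{s+n} - h_s ≤ r_g ≤ B^{s+4n}` (at most `3 B^{4n+20}` values of `g`). `cnt t (s,g) i` = number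
of `j ∈ [s,i)` with `‖r_g t_j / B^j‖ < 3 tol`. Potential
`Φ_i(t) = ∑_{(s,n,g) : s ≤ i ≤ s+n} λ^{2 cnt} / λ^n * 2^{s+n-i}` (finite sum, depends on `t_j`, `j<i`).
Invariant `Q t i : t i ∈ [1,2] ∧ Φ_{i+1}(t) ≤ 1` (`exists_seq_dep`; `Φ_0 = 0`): averaging over
`t_i ∈ [1,2]` (`exists_le_setAverage`/`exists_le_integral`) each old term is multiplied by at most
`(1 + 18 tol λ²)/2 ≤ 3/4` (`vol_rigid`, `r_g/B^i ≥ 1`), the new terms (`s = i+1`) sum to at most
`∑_{n≥5} 3 B^{20} (2/B⁵)^n ≤ 1/4`. At `i = s+n`, `Φ ≤ 1` forces `2 cnt ≤ n`. A real `r` is within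
`h_s` of `r_g`, `g = ⌊r/h_s⌋₊`, so `|r - r_g| t_j/B^j ≤ tol` for `j ≥ s`. -/
theorem exists_nr : ∃ t : ℕ → ℝ, (∀ i, 1 ≤ t i ∧ t i ≤ 2) ∧
    ∀ s n : ℕ, 5 ≤ n → n ≤ s → ∀ r : ℝ, 1000 ^ (s + n) ≤ r → r ≤ 1000 ^ (s + 4 * n) →
      2 * ((Finset.Ico s (s + n)).filter fun i =>
        ‖((r * (t i / 1000 ^ i) : ℝ) : UnitAddCircle)‖ < 2 / 1000 ^ 20).card ≤ n := by
  obtain ⟨t, ht⟩ := exists_seq_dep (α := ℝ)
    (fun t i => t i ∈ Set.Icc (1 : ℝ) 2 ∧ NRA.Phi t (i + 1) ≤ 1)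
    (fun f g l h hq => ⟨h l le_rfl ▸ hq.1, by
      rw [← NRA.phi_congr fun j hj => h j (Nat.lt_succ_iff.1 hj)]; exact hq.2⟩)
    (fun f l h => by
      have h0 : NRA.Phi f l ≤ 1 := by
        cases l with
        | zero => simp [NRA.Phi]
        | succ l => exact (h l (Nat.lt_succ_self l)).2
      obtain ⟨y, hy, h1⟩ := NRA.step f l h0
      exact ⟨y, by rw [Function.update_self]; exact hy, h1⟩)
  refine ⟨t, fun i => (ht i).1, fun s n hn hs r hr1 hr2 => ?_⟩
  set h : ℝ := 1000 ^ s / (2 * 1000 ^ 20) with hh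
  have hh0 : 0 < h := by positivity
  have hr0 : 0 ≤ r := le_trans (by positivity) hr1
  set g : ℕ := ⌊r / h⌋₊ with hg
  have hg1 : NRA.rg s g ≤ r := by
    have := Nat.floor_le (div_nonneg hr0 hh0.le)
    rwa [le_div_iff₀ hh0] at this
  have hg2 : r < NRA.rg s g + h := by
    have := Nat.lt_floor_add_one (r / h)
    rw [div_lt_iff₀ hh0, add_mul, one_mul] at this
    exact this
  have hmem : g ∈ NRA.GS s n := by
    refine Finset.mem_filter.2 ⟨Finset.mem_range.2 ?_, ?_⟩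
    · rw [hg, Nat.floor_lt (div_nonneg hr0 hh0.le), div_lt_iff₀ hh0, hh]
      push_cast
      refine hr2.trans_lt ?_
      rw [pow_add, pow_add]
      have : (0 : ℝ) < 1000 ^ s * 1000 ^ (4 * n) := by positivity
      linarith
    · have h1 : (1000 : ℝ) ^ s ≤ 1000 ^ (s + n) := pow_le_pow_right₀ (by norm_num) (by omega)
      have h2 : h ≤ 1000 ^ s / 2 := by
        rw [hh]; gcongr; norm_num
      have : (0 : ℝ) < 1000 ^ (s + n) := by positivity
      linarith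
  have h1 : NRA.wt t s n g (s + n) ≤ 1 := by
    have h2 := (ht (s + n - 1)).2
    rw [show s + n - 1 + 1 = s + n by omega] at h2
    refine le_trans ?_ h2
    refine le_trans ?_ (Finset.single_le_sum (f := fun s' => ∑ n' ∈ Finset.Icc 5 s', ∑ g' ∈ NRA.GS s' n',
      NRA.wt t s' n' g' (s + n)) (fun _ _ => Finset.sum_nonneg fun _ _ => Finset.sum_nonneg fun _ _ =>
        NRA.wt_nonneg _ _ _ _ _) (Finset.mem_range.2 (show s < s + n + 1 by omega)))
    refine le_trans ?_ (Finset.single_le_sum (f := fun n' => ∑ g' ∈ NRA.GS s n',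
      NRA.wt t s n' g' (s + n)) (fun _ _ => Finset.sum_nonneg fun _ _ => NRA.wt_nonneg _ _ _ _ _)
      (Finset.mem_Icc.2 ⟨hn, hs⟩))
    exact Finset.single_le_sum (f := fun g' => NRA.wt t s n g' (s + n))
      (fun _ _ => NRA.wt_nonneg _ _ _ _ _) hmem
  rw [NRA.wt, if_pos le_rfl, Nat.sub_self, pow_zero, mul_one, div_le_one (by positivity)] at h1
  set F := (Finset.Ico s (s + n)).filter fun i =>
    ‖((r * (t i / 1000 ^ i) : ℝ) : UnitAddCircle)‖ < 2 / 1000 ^ 20 with hF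
  have h2 : ∏ j ∈ F, NRA.af s g j (t j) ≤ ∏ j ∈ Finset.Ico s (s + n), NRA.af s g j (t j) :=
    Finset.prod_le_prod_of_subset_of_one_le (Finset.filter_subset _ _)
      (fun _ _ => zero_le_one.trans (NRA.one_le_af _ _ _ _)) fun _ _ _ => NRA.one_le_af _ _ _ _
  have h3 : ∀ j ∈ F, NRA.af s g j (t j) = 1000 ^ 18 := by
    intro j hj
    obtain ⟨hj1, hj2⟩ := Finset.mem_filter.1 hj
    have hsj : (1000 : ℝ) ^ s ≤ 1000 ^ j := pow_le_pow_right₀ (by norm_num) (Finset.mem_Ico.1 hj1).1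
    rw [NRA.af, if_pos]
    have e : NRA.rg s g / 1000 ^ j * t j = r * (t j / 1000 ^ j) - (r - NRA.rg s g) * (t j / 1000 ^ j) := by
      ring
    have h4 : ‖(((r - NRA.rg s g) * (t j / 1000 ^ j) : ℝ) : UnitAddCircle)‖ ≤ 1 / 1000 ^ 20 := by
      refine (QuotientAddGroup.norm_mk_le_norm).trans ?_
      have ht1 := (ht j).1.1
      have ht2 := (ht j).1.2
      rw [Real.norm_of_nonneg (mul_nonneg (by linarith) (by positivity))]
      calc _ ≤ h * (2 / 1000 ^ s) := by gcongr; linarith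
        _ = _ := by rw [hh]; field_simp
    rw [e, AddCircle.coe_sub]
    refine (norm_sub_le _ _).trans_lt ?_
    linarith [show (3 : ℝ) / 1000 ^ 20 = 2 / 1000 ^ 20 + 1 / 1000 ^ 20 by ring]
  rw [Finset.prod_congr rfl h3, Finset.prod_const, ← pow_mul] at h2
  have h5 := (pow_le_pow_iff_right₀ (by norm_num : (1 : ℝ) < 1000)).1 (h2.trans h1)
  omega

end Crest.Agent.R113
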