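import Crest.Agent.R113.Alg

/-! Row 113: waiting times. -/

set_option autoImplicit false

open MeasureTheory Filter Topology
open scoped ENNReal

namespace Crest.Agent.R113.Sys

variable {X : Type*} [MeasurableSpace X] {D : Sys X} {S S' : Set X} {N N' : ℕ}

theorem Hit.pos (h : D.Hit S N) (x : X) : 0 < N := by
  obtain ⟨j, hj, -⟩ := h x; omega

theorem Hit.mono (h : D.Hit S N) (hS : S ⊆ S') (hN : N ≤ N') : D.Hit S' N' := fun x => by
  obtain ⟨j, hj, hx⟩ := h x; exact ⟨j, by omega, hS hx⟩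

theorem Hit.back (h : D.Hit S N) (x : X) : ∃ j < N, D.σ (-(j + 1 : ℕ)) x ∈ S := by
  obtain ⟨j, hj, hx⟩ := h (D.σ (-N) x)
  rw [← D.σ_add] at hx
  refine ⟨N - 1 - j, by omega, ?_⟩
  rwa [show (-((N - 1 - j + 1 : ℕ) : ℤ)) = j + -N by omega]

theorem Hit.wt_lt_iff (h : D.Hit S N) (x : X) (n : ℕ) :
    D.wt S x < n ↔ ∃ j < n, D.σ (j : ℕ) x ∈ S := by
  obtain ⟨j, -, hj⟩ := h x
  exact ⟨fun h1 => ⟨_, h1, Nat.sInf_mem (s := {j : ℕ | D.σ j x ∈ S}) ⟨j, hj⟩⟩,
    fun ⟨i, h1, h2⟩ => (Nat.sInf_le h2).trans_lt h1⟩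

theorem Hit.wb_lt_iff (h : D.Hit S N) (x : X) (n : ℕ) :
    D.wb S x < n ↔ ∃ j < n, D.σ (-(j + 1 : ℕ)) x ∈ S := by
  obtain ⟨j, -, hj⟩ := h.back x
  exact ⟨fun h1 => ⟨_, h1, Nat.sInf_mem (s := {j : ℕ | D.σ (-(j + 1 : ℕ)) x ∈ S}) ⟨j, hj⟩⟩,
    fun ⟨i, h1, h2⟩ => (Nat.sInf_le h2).trans_lt h1⟩

theorem Hit.wt_lt (h : D.Hit S N) (x : X) : D.wt S x < N := (h.wt_lt_iff x N).2 (h x)

theorem Hit.wb_lt (h : D.Hit S N) (x : X) : D.wb S x < N := (h.wb_lt_iff x N).2 (h.back x)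

theorem Hit.fin_mem (h : D.Hit S N) (x : X) : D.fin S x ∈ S := by
  obtain ⟨j, -, hj⟩ := h x
  exact Nat.sInf_mem (s := {j : ℕ | D.σ j x ∈ S}) ⟨j, hj⟩

theorem wt_le {x : X} {j : ℕ} (hj : D.σ (j : ℕ) x ∈ S) : D.wt S x ≤ j := Nat.sInf_le hj

theorem not_mem_of_lt_wt {x : X} {j : ℕ} (hj : j < D.wt S x) : D.σ (j : ℕ) x ∉ S :=
  fun h => absurd (wt_le h) (by omega)

private theorem wait_nm {x : X} {t : ℤ} (h0 : 0 ≤ t) (h1 : t < D.wt S x) : D.σ t x ∉ S := by
  lift t to ℕ using h0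
  exact not_mem_of_lt_wt (by omega)

private theorem wait_wt_eq {x : X} {n : ℕ} (h1 : D.σ n x ∈ S)
    (h2 : ∀ t : ℤ, 0 ≤ t → t < n → D.σ t x ∉ S) : D.wt S x = n := by
  refine le_antisymm (wt_le h1) (not_lt.1 fun h => h2 (D.wt S x) (by omega) (by omega) ?_)
  exact Nat.sInf_mem (s := {j : ℕ | D.σ j x ∈ S}) ⟨n, h1⟩

private theorem wait_wb_le {x : X} {j : ℕ} (hj : D.σ (-(j + 1 : ℕ)) x ∈ S) : D.wb S x ≤ j :=
  Nat.sInf_le hj

private theorem wait_wb_mem (h : D.Hit S N) (x : X) : D.σ (-(D.wb S x + 1 : ℕ)) x ∈ S := by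
  obtain ⟨j, -, hj⟩ := h.back x
  exact Nat.sInf_mem (s := {j : ℕ | D.σ (-(j + 1 : ℕ)) x ∈ S}) ⟨j, hj⟩

private theorem wait_nm' {x : X} {t : ℤ} (h0 : t < 0) (h1 : -(D.wb S x + 1 : ℤ) < t) :
    D.σ t x ∉ S := by
  intro h
  have h2 := wait_wb_le (D := D) (S := S) (x := x) (j := (-t - 1).toNat)
    (by rwa [show (-(((-t - 1).toNat + 1 : ℕ) : ℤ)) = t by omega])
  omega

private theorem wait_meas {A : ℕ → Set X} (hA : ∀ j, MeasurableSet (A j)) :
    Measurable fun x => sInf {j | x ∈ A j} := by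
  refine measurable_to_countable' fun n => ?_
  have e : (fun x => sInf {j | x ∈ A j}) ⁻¹' {n} =
      (A n ∩ ⋂ j, ⋂ (_ : j < n), (A j)ᶜ) ∪ ({_x | n = 0} ∩ ⋂ j, (A j)ᶜ) := by
    ext x
    simp only [Set.mem_preimage, Set.mem_singleton_iff, Set.mem_union, Set.mem_inter_iff,
      Set.mem_iInter, Set.mem_compl_iff, Set.mem_setOf_eq]
    by_cases hx : ∃ j, x ∈ A j
    · have h1 : x ∈ A (sInf {j | x ∈ A j}) := Nat.sInf_mem (s := {j | x ∈ A j}) hx
      constructor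
      · rintro rfl
        exact .inl ⟨h1, fun j hj h2 => absurd (Nat.sInf_le (s := {j | x ∈ A j}) h2) (by omega)⟩
      · rintro (⟨h2, h3⟩ | ⟨-, h3⟩)
        · exact le_antisymm (Nat.sInf_le h2) (not_lt.1 fun h => h3 _ h h1)
        · exact (h3 _ h1).elim
    · have h1 : {j | x ∈ A j} = ∅ := Set.eq_empty_of_forall_notMem fun j hj => hx ⟨j, hj⟩
      rw [h1, Nat.sInf_empty]
      constructor
      · rintro rfl
        exact .inr ⟨rfl, fun j hj => hx ⟨j, hj⟩⟩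
      · rintro (⟨h2, -⟩ | ⟨h2, -⟩)
        · exact (hx ⟨_, h2⟩).elim
        · exact h2.symm
  rw [e]
  exact ((hA n).inter (.iInter fun j => .iInter fun _ => (hA j).compl)).union
    ((MeasurableSet.const _).inter (.iInter fun j => (hA j).compl))

private theorem wait_int {f : X → ℝ} (hf : Bd f) (k : ℤ) :
    ∫ x, f (D.σ k x) ∂D.μ = ∫ x, f x ∂D.μ := by
  rw [← integral_map (meas_σ k).aemeasurable hf.1.aestronglyMeasurable, (D.mp k).map_eq]

theorem Hit.wt_eq_zero (h : D.Hit S N) (x : X) : D.wt S x = 0 ↔ x ∈ S := by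
  constructor
  · intro h0
    have := h.fin_mem x
    rwa [fin, h0, Nat.cast_zero, D.σ_zero] at this
  · intro hx
    exact Nat.le_zero.1 (wt_le (by rwa [Nat.cast_zero, D.σ_zero]))

theorem Hit.wt_anti (h : D.Hit S N) (hS : S ⊆ S') (x : X) : D.wt S' x ≤ D.wt S x :=
  wt_le (hS (h.fin_mem x))

/-- no hitting hypothesis needed (`sInf ∅ = 0`): `measurable_to_countable'`, `Nat.sInf_eq_zero`,
`Nat.sInf_upward_closed..`/`Nat.find` characterisation -/
theorem meas_wt (hS : MeasurableSet S) : Measurable (D.wt S) :=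
  wait_meas (A := fun j => D.σ j ⁻¹' S) fun _ => meas_σ _ hS

theorem Hit.meas_wt (_h : D.Hit S N) (hS : MeasurableSet S) : Measurable (D.wt S) :=
  Sys.meas_wt hS

theorem Hit.meas_wb (h : D.Hit S N) (hS : MeasurableSet S) : Measurable (D.wb S) :=
  wait_meas (A := fun j => D.σ (-(j + 1 : ℕ)) ⁻¹' S) fun _ => meas_σ _ hS

theorem Hit.bd_wt (h : D.Hit S N) (hS : MeasurableSet S) : Bd fun x => (D.wt S x : ℝ) :=
  Bd.of_bound (measurable_from_nat.comp (h.meas_wt hS)) (a := 0) (b := N) fun x =>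
    ⟨Nat.cast_nonneg _, by exact_mod_cast (h.wt_lt x).le⟩

theorem Hit.bd_wb (h : D.Hit S N) (hS : MeasurableSet S) : Bd fun x => (D.wb S x : ℝ) :=
  Bd.of_bound (measurable_from_nat.comp (h.meas_wb hS)) (a := 0) (b := N) fun x =>
    ⟨Nat.cast_nonneg _, by exact_mod_cast (h.wb_lt x).le⟩

theorem Hit.meas_fin (h : D.Hit S N) (hS : MeasurableSet S) : Measurable (D.fin S) :=
  meas_act.comp (measurable_id.prodMk (measurable_from_nat.comp (h.meas_wt hS)))

theorem Hit.meas_IB (h : D.Hit S N) (hS : MeasurableSet S) : MeasurableSet (D.IB S) := by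
  have h1 : Measurable fun x => (D.wt S x : ℤ) := measurable_from_nat.comp (h.meas_wt hS)
  exact (measurable_snd (measurableSet_singleton 0).compl).inter
    (measurableSet_eq_fun (measurable_snd.add (h1.comp meas_act)) (h1.comp measurable_fst))

theorem Hit.wt_add (h : D.Hit S N) {x : X} {j : ℕ} (hj : j ≤ D.wt S x) :
    D.wt S (D.σ (j : ℕ) x) + j = D.wt S x := by
  rw [wait_wt_eq (n := D.wt S x - j), Nat.sub_add_cancel hj]
  · rw [← D.σ_add, show ((D.wt S x - j : ℕ) : ℤ) + j = D.wt S x by omega]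
    exact h.fin_mem x
  · intro t h0 h1
    rw [← D.σ_add]
    exact wait_nm (by omega) (by omega)

theorem Hit.fin_add (h : D.Hit S N) {x : X} {j : ℕ} (hj : j ≤ D.wt S x) :
    D.fin S (D.σ (j : ℕ) x) = D.fin S x := by
  rw [fin, fin, ← D.σ_add, ← Nat.cast_add, h.wt_add hj]

theorem Hit.wt_succ (h : D.Hit S N) {x : X} (hx : x ∉ S) :
    D.wt S (D.σ 1 x) + 1 = D.wt S x :=
  h.wt_add (j := 1) (Nat.pos_of_ne_zero fun h0 => hx ((h.wt_eq_zero x).1 h0))

theorem Hit.fin_succ (h : D.Hit S N) {x : X} (hx : x ∉ S) : D.fin S (D.σ 1 x) = D.fin S x :=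
  h.fin_add (j := 1) (Nat.pos_of_ne_zero fun h0 => hx ((h.wt_eq_zero x).1 h0))

/-- no wall at distance `≤ |r|`: the waiting time is shifted -/
theorem Hit.wt_shift (h : D.Hit S N) {x : X} {r : ℤ} (hx : ∀ j : ℤ, |j| ≤ |r| → D.σ j x ∉ S) :
    r + (D.wt S (D.σ r x) : ℤ) = D.wt S x := by
  have h1 : r ≤ D.wt S x := by
    by_contra h1
    refine hx (D.wt S x) ?_ (h.fin_mem x)
    rw [abs_of_nonneg (by omega), abs_of_nonneg (by omega)]
    omega
  rw [wait_wt_eq (n := (D.wt S x - r).toNat) (x := D.σ r x)]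
  · omega
  · rw [← D.σ_add, show (((D.wt S x - r).toNat : ℕ) : ℤ) + r = D.wt S x by omega]
    exact h.fin_mem x
  · intro t h0 h1
    rw [← D.σ_add]
    by_cases h2 : 0 ≤ t + r
    · exact wait_nm h2 (by omega)
    · refine hx _ ?_
      rw [abs_of_neg (by omega), abs_of_neg (by omega)]
      omega

theorem fin_eq_of_IB {p : X × ℤ} (hp : p ∈ D.IB S) : D.fin S (D.σ p.2 p.1) = D.fin S p.1 := by
  rw [fin, fin, ← D.σ_add, add_comm, hp.2]

theorem Hit.wt_sub (h' : D.Hit S' N') (hS : S' ⊆ S) (x : X) :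
    D.wt S' x = D.wt S x + D.wt S' (D.fin S x) := by
  rw [add_comm]
  exact (h'.wt_add (h'.wt_anti hS x)).symm

theorem Hit.wb_fin (h : D.Hit S N) (x : X) : D.wb S (D.fin S x) = D.wb S x + D.wt S x := by
  refine le_antisymm (wait_wb_le ?_) (not_lt.1 fun h1 => ?_)
  · rw [fin, ← D.σ_add, show -((D.wb S x + D.wt S x + 1 : ℕ) : ℤ) + D.wt S x =
      -((D.wb S x + 1 : ℕ) : ℤ) by omega]
    exact wait_wb_mem h x
  · have h2 := wait_wb_mem h (D.fin S x)
    generalize D.wb S (D.fin S x) = n at h1 h2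
    rw [fin, ← D.σ_add] at h2
    by_cases h3 : 0 ≤ -((n + 1 : ℕ) : ℤ) + D.wt S x
    · exact wait_nm h3 (by omega) h2
    · exact wait_nm' (by omega) (by omega) h2

theorem Hit.wb_shift_iff (h : D.Hit S N) (x : X) (n : ℕ) :
    D.wb S (D.σ (n : ℕ) x) < n ↔ D.wt S x < n := by
  rw [h.wb_lt_iff, h.wt_lt_iff]
  constructor
  · rintro ⟨j, h1, h2⟩
    rw [← D.σ_add] at h2
    refine ⟨n - 1 - j, by omega, ?_⟩
    rwa [show ((n - 1 - j : ℕ) : ℤ) = -((j + 1 : ℕ) : ℤ) + n by omega]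
  · rintro ⟨j, h1, h2⟩
    refine ⟨n - 1 - j, by omega, ?_⟩
    rwa [← D.σ_add, show -((n - 1 - j + 1 : ℕ) : ℤ) + n = j by omega]

private theorem wait_layer {t : X → ℕ} (ht : Measurable t) (h : ∀ x, t x < N) :
    ∫ x, (t x : ℝ) ∂D.μ = ∑ n ∈ Finset.range N, D.μ.real {x | n < t x} := by
  have h1 : ∀ n, MeasurableSet {x | n < t x} := fun n => measurableSet_lt measurable_const ht
  have e : ∀ x, (t x : ℝ) = ∑ n ∈ Finset.range N, {x | n < t x}.indicator 1 x := fun x => by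
    have h2 : (Finset.range N).filter (· < t x) = Finset.range (t x) := by
      ext n
      have := h x
      simp only [Finset.mem_filter, Finset.mem_range]
      omega
    simp only [Set.indicator_apply, Set.mem_setOf_eq, Pi.one_apply, Finset.sum_boole, h2,
      Finset.card_range]
  simp only [e]
  rw [integral_finset_sum _ fun n _ => (Bd.indicator_one (h1 n)).integrable _]
  exact Finset.sum_congr rfl fun n _ => integral_indicator_one (h1 n)

/-- `∑_{n=1}^{N} 1[t < n] = N - t` gives `∫ wt = ∫ wb` with `wb_shift_iff` -/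
theorem Hit.integral_wt_wb (h : D.Hit S N) (hS : MeasurableSet S) :
    ∫ x, (D.wt S x : ℝ) ∂D.μ = ∫ x, (D.wb S x : ℝ) ∂D.μ := by
  rw [wait_layer (h.meas_wt hS) h.wt_lt, wait_layer (h.meas_wb hS) h.wb_lt]
  refine Finset.sum_congr rfl fun n _ => ?_
  rw [← (D.mp (n + 1 : ℕ)).measureReal_preimage
    (measurableSet_lt measurable_const (h.meas_wb hS)).nullMeasurableSet]
  congr 1
  ext x
  have := h.wb_shift_iff x (n + 1)
  simp only [Set.mem_setOf_eq, Set.mem_preimage]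
  omega

/-- PLAN. `d = wt ∘ σ 1 - wt ≥ -1` pointwise and `∫ d = 0`, `|d| ≤ d + 2`. -/
theorem Hit.var_wt (h : D.Hit S N) (hS : MeasurableSet S) :
    ∫ x, |(D.wt S (D.σ 1 x) : ℝ) - D.wt S x| ∂D.μ ≤ 2 := by
  have h1 := h.bd_wt hS
  have h2 := h1.comp (meas_σ (D := D) 1)
  refine (integral_mono ((h2.sub h1).abs.integrable _)
    (((h2.sub h1).add (Bd.const (2 : ℝ))).integrable _) fun x => ?_).trans (le_of_eq ?_)
  · have h3 : D.wt S x ≤ D.wt S (D.σ 1 x) + 1 := by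
      by_cases hx : x ∈ S
      · rw [(h.wt_eq_zero x).2 hx]; omega
      · exact (h.wt_succ hx).ge
    have h4 : (D.wt S x : ℝ) ≤ D.wt S (D.σ 1 x) + 1 := by exact_mod_cast h3
    exact abs_le.2 ⟨by linarith, by linarith⟩
  · rw [integral_add ((h2.sub h1).integrable _) (integrable_const _),
      integral_sub (h2.integrable _) (h1.integrable _), wait_int h1]
    simp

/-- PLAN. `d = wb ∘ σ 1 - wb ≤ 1` pointwise and `∫ d = 0`, `|d| ≤ 2 - d`. -/
theorem Hit.var_wb (h : D.Hit S N) (hS : MeasurableSet S) :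
    ∫ x, |(D.wb S (D.σ 1 x) : ℝ) - D.wb S x| ∂D.μ ≤ 2 := by
  have h1 := h.bd_wb hS
  have h2 := h1.comp (meas_σ (D := D) 1)
  refine (integral_mono ((h2.sub h1).abs.integrable _)
    (((Bd.const (2 : ℝ)).sub (h2.sub h1)).integrable _) fun x => ?_).trans (le_of_eq ?_)
  · have h3 : D.wb S (D.σ 1 x) ≤ D.wb S x + 1 := by
      refine wait_wb_le ?_
      rw [← D.σ_add, show -((D.wb S x + 1 + 1 : ℕ) : ℤ) + 1 = -((D.wb S x + 1 : ℕ) : ℤ) by omega]
      exact wait_wb_mem h x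
    have h4 : (D.wb S (D.σ 1 x) : ℝ) ≤ D.wb S x + 1 := by exact_mod_cast h3
    exact abs_le.2 ⟨by linarith, by linarith⟩
  · rw [integral_sub (integrable_const _) ((h2.sub h1).integrable _),
      integral_sub (h2.integrable _) (h1.integrable _), wait_int h1]
    simp

/-- union bound -/
theorem real_window_le (hS : MeasurableSet S) (n : ℕ) :
    D.μ.real {x | ∃ j < n, D.σ (j : ℕ) x ∈ S} ≤ n * D.μ.real S := by
  have e : {x | ∃ j < n, D.σ (j : ℕ) x ∈ S} = ⋃ j ∈ Finset.range n, D.σ (j : ℕ) ⁻¹' S := by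
    ext x
    simp
  rw [e]
  refine (measureReal_biUnion_finset_le _ _).trans (le_of_eq ?_)
  simp only [(D.mp _).measureReal_preimage hS.nullMeasurableSet, Finset.sum_const,
    Finset.card_range, nsmul_eq_mul]

theorem Hit.one_le (h : D.Hit S N) (hS : MeasurableSet S) : 1 ≤ N * D.μ.real S := by
  have h1 := real_window_le (D := D) hS N
  rwa [Set.eq_univ_of_forall (s := {x | ∃ j < N, D.σ (j : ℕ) x ∈ S}) h, probReal_univ] at h1

/-- the scale-free form of `Erg` -/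
theorem Erg.scaled (hE : D.Erg) {f : X → ℝ} (hf : Bd f) {ε A : ℝ} (hε : 0 < ε) (hA : 0 < A) :
    ∃ η > 0, ∀ g : X → ℝ, Bd g → (∃ c₀ : ℝ, ∫ x, (g x - c₀) ^ 2 ∂D.μ ≤ A ^ 2) →
      ∫ x, |g (D.σ 1 x) - g x| ∂D.μ ≤ η →
        |∫ x, f x * g x ∂D.μ - (∫ x, f x ∂D.μ) * ∫ x, g x ∂D.μ| ≤ ε := by
  obtain ⟨η, hη, H⟩ := hE f hf (ε / A) (div_pos hε hA)
  refine ⟨η * A, mul_pos hη hA, fun g hg ⟨c, hc⟩ hv => ?_⟩
  have h1 := H (fun x => A⁻¹ * (g x - c)) ((Bd.const _).mul (hg.sub (Bd.const c))) ?_ ?_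
  · have e1 : ∀ x, f x * (A⁻¹ * (g x - c)) = A⁻¹ * (f x * g x - c * f x) := fun x => by ring
    simp only [e1] at h1
    rw [integral_const_mul, integral_const_mul,
      integral_sub ((hf.mul hg).integrable _) (((Bd.const c).mul hf).integrable _),
      integral_sub (hg.integrable _) (integrable_const _), integral_const_mul, integral_const,
      probReal_univ, one_smul] at h1
    rw [le_div_iff₀ hA] at h1
    refine le_trans (le_of_eq ?_) h1
    rw [← abs_of_pos hA, ← abs_mul, abs_of_pos hA]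
    congr 1
    field_simp
    ring
  · simp only [mul_pow]
    rw [integral_const_mul, inv_pow, inv_mul_le_iff₀ (by positivity), mul_one]
    exact hc
  · have e1 : ∀ x, |A⁻¹ * (g (D.σ 1 x) - c) - A⁻¹ * (g x - c)| = A⁻¹ * |g (D.σ 1 x) - g x| :=
      fun x => by
        rw [← mul_sub, sub_sub_sub_cancel_right, abs_mul, abs_of_pos (inv_pos.2 hA)]
    simp only [e1]
    rw [integral_const_mul, inv_mul_le_iff₀ hA, mul_comm]
    exact hv

end Crest.Agent.R113.Sys
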