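import Crest.Agent.R113.Erg
import Crest.Agent.R113.Wait
import Crest.Agent.R113.NR

/-! Row 113: the levels of the construction for the irrational rotation. -/

set_option autoImplicit false

open MeasureTheory Filter Topology
open scoped ENNReal

namespace Crest.Agent.R113

local notation "μT" => (AddCircle.haarAddCircle : Measure UnitAddCircle)

/-- block length bound -/
def NN (i : ℕ) : ℕ := 4 * 1000 ^ i

/-- ideal walls -/
def Iw (a : ℕ → ℕ) (ϑ : ℕ → ℝ) (R : ℕ → ℕ) (l : ℕ) : Set UnitAddCircle :=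
  {x | ‖a l • x‖ ≤ R l * ϑ l}

/-- ideal walls of the levels in `[i, min l (2i))` -/
def Ut (a : ℕ → ℕ) (ϑ : ℕ → ℝ) (R : ℕ → ℕ) (i l : ℕ) : Set UnitAddCircle :=
  ⋃ j ∈ Finset.Ico i (min l (2 * i)), Iw a ϑ R j

/-- the two test functions -/
noncomputable def Phi : Bool → ℝ → ℝ
  | true, t => max 0 (min 1 t)
  | false, t => if t < 2 / 1000 then 1 else 0

/-- the ideal normalised waiting times -/
noncomputable def xi (θ : ℝ) (a : ℕ → ℕ) (ϑ : ℕ → ℝ) (R : ℕ → ℕ) (b : Bool) (i l : ℕ)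
    (x : UnitAddCircle) : ℝ :=
  Phi b (((rot θ).wt (Ut a ϑ R i l) x : ℝ) / NN i)

/-- the data of the construction -/
structure Lev (θ : ℝ) where
  a : ℕ → ℕ
  ϑ : ℕ → ℝ
  R : ℕ → ℕ
  J : ℕ → Set UnitAddCircle
  y : ℕ → ℝ
  i₀ : ℕ
  i₀_ge : 30 ≤ i₀
  a_pos : ∀ i, 0 < a i
  a_dvd : ∀ i, a i ∣ a (i + 1)
  hϑ : ∀ i, a i • ((θ : ℝ) : UnitAddCircle) = (ϑ i : UnitAddCircle)
  ϑ_ge : ∀ i, 1 / (2 * 1000 ^ i) ≤ ϑ i
  ϑ_le : ∀ i, ϑ i ≤ 3 / 1000 ^ i
  R_pos : ∀ i, 1 ≤ R i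
  R_le : ∀ i, i₀ ≤ i → R i ≤ i
  J_closed : ∀ i, IsClosed (J i)
  J_symm : ∀ i, ∀ x ∈ J i, -x ∈ J i
  J_hit : ∀ i, (rot θ).Hit (J i) (R i)
  J_zero : ∀ i, (0 : UnitAddCircle) ∉ J i
  J_small : ∀ i, ∀ x ∈ J i, ‖x‖ ≤ y i
  y_tend : Tendsto y atTop (𝓝 0)
  nr : ∀ s n : ℕ, 5 ≤ n → n ≤ s → ∀ r : ℤ, (1000 : ℤ) ^ (s + n) ≤ |r| → |r| ≤ 1000 ^ (s + 4 * n) →
    2 * ((Finset.Ico s (s + n)).filter fun i =>
      ‖(((r : ℝ) * ϑ i : ℝ) : UnitAddCircle)‖ < 1 / 1000 ^ 20).card ≤ n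
  cov : ∀ b i l, i < l → ∀ g : UnitAddCircle → ℝ, Measurable g → (∀ x, |g x| ≤ 1) →
    (∀ x, g (x + ((1 / (a l : ℝ) : ℝ) : UnitAddCircle)) = g x) →
      |∫ x, xi θ a ϑ R b i l x * g x ∂μT - (∫ x, xi θ a ϑ R b i l x ∂μT) * ∫ x, g x ∂μT|
        ≤ 1 / 2 ^ l

theorem bd_xi (θ : ℝ) (a : ℕ → ℕ) (ϑ : ℕ → ℝ) (R : ℕ → ℕ) (b : Bool) (i l : ℕ) :
    Measurable (xi θ a ϑ R b i l) ∧ ∀ x, 0 ≤ xi θ a ϑ R b i l x ∧ xi θ a ϑ R b i l x ≤ 1 := by
  refine ⟨?_, fun x => ?_⟩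
  · have hS : MeasurableSet (Ut a ϑ R i l) :=
      Finset.measurableSet_biUnion _ fun j _ =>
        (isClosed_le (continuous_norm.comp (continuous_nsmul (a j))) continuous_const).measurableSet
    exact (measurable_from_nat (f := fun n : ℕ => Phi b ((n : ℝ) / NN i))).comp (Sys.meas_wt hS)
  · unfold xi
    cases b
    · simp only [Phi]
      split_ifs <;> simp
    · simp only [Phi]
      exact ⟨le_max_left _ _, max_le zero_le_one (min_le_left _ _)⟩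

namespace LevA

theorem xi_congr (θ : ℝ) {a a' : ℕ → ℕ} {ϑ ϑ' : ℕ → ℝ} (R : ℕ → ℕ) (b : Bool) (i : ℕ) {l : ℕ}
    (ha : ∀ j < l, a j = a' j) (hϑ : ∀ j < l, ϑ j = ϑ' j) :
    xi θ a ϑ R b i l = xi θ a' ϑ' R b i l := by
  have : Ut a ϑ R i l = Ut a' ϑ' R i l := by
    refine Set.iUnion₂_congr fun j hj => ?_
    have hj' : j < l := lt_of_lt_of_le (Finset.mem_Ico.1 hj).2 (min_le_left _ _)
    unfold Iw
    rw [ha j hj', hϑ j hj']
  funext x
  unfold xi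
  rw [this]

theorem norm_coe_le (x : ℝ) : ‖(x : UnitAddCircle)‖ ≤ |x| := QuotientAddGroup.norm_mk_le_norm

theorem norm_abs_mul (r x : ℝ) :
    ‖((|r| * x : ℝ) : UnitAddCircle)‖ = ‖((r * x : ℝ) : UnitAddCircle)‖ := by
  rcases abs_choice r with h | h <;> rw [h]
  rw [neg_mul, AddCircle.coe_neg, norm_neg]

/-- the invariant of the recursive choice -/
def Q (θ : ℝ) (t : ℕ → ℝ) (R : ℕ → ℕ) (f : ℕ → ℕ × ℝ) (l : ℕ) : Prop :=
  0 < (f l).1 ∧ (∀ j < l, (f j).1 ∣ (f l).1) ∧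
    (f l).1 • ((θ : ℝ) : UnitAddCircle) = ((f l).2 : UnitAddCircle) ∧
    |(f l).2 - t l / 1000 ^ l| ≤ 1 / 1000 ^ (5 * l + 20) ∧
    ∀ b i, i < l → ∀ g : UnitAddCircle → ℝ, Measurable g → (∀ x, |g x| ≤ 1) →
      (∀ x, g (x + ((1 / ((f l).1 : ℝ) : ℝ) : UnitAddCircle)) = g x) →
        |∫ x, xi θ (fun j => (f j).1) (fun j => (f j).2) R b i l x * g x ∂μT -
          (∫ x, xi θ (fun j => (f j).1) (fun j => (f j).2) R b i l x ∂μT) * ∫ x, g x ∂μT|
          ≤ 1 / 2 ^ l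

theorem exists_Q {θ : ℝ} (hθ : Irrational θ) (t : ℕ → ℝ) (R : ℕ → ℕ) :
    ∃ f : ℕ → ℕ × ℝ, ∀ l, Q θ t R f l := by
  refine exists_seq_dep (Q θ t R) (fun f g l h hQ => ?_) (fun f l h => ?_)
  · obtain ⟨h1, h2, h3, h4, h5⟩ := hQ
    have hx : ∀ b i, xi θ (fun j => (g j).1) (fun j => (g j).2) R b i l =
        xi θ (fun j => (f j).1) (fun j => (f j).2) R b i l := fun b i =>
      xi_congr θ R b i (fun j hj => by rw [h j hj.le]) (fun j hj => by rw [h j hj.le])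
    unfold Q
    simp only [hx, ← h l le_rfl]
    exact ⟨h1, fun j hj => h j hj.le ▸ h2 j hj, h3, h4, h5⟩
  · have hB : ∀ b i, Bd (xi θ (fun j => (f j).1) (fun j => (f j).2) R b i l) := fun b i =>
      ⟨(bd_xi _ _ _ _ _ _ _).1, 1, fun x => by
        have := (bd_xi θ (fun j => (f j).1) (fun j => (f j).2) R b i l).2 x
        rw [Real.norm_eq_abs, abs_of_nonneg this.1]
        exact this.2⟩
    choose A hA using fun b i => periodic_cov (hB b i) (ε := 1 / 2 ^ l) (by positivity)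
    obtain ⟨a, hd, hAa, ha, ϑ, hϑ, he⟩ := exists_freq hθ (a₀ := ∏ j ∈ Finset.range l, (f j).1)
      (Finset.prod_pos fun j hj => (h j (Finset.mem_range.1 hj)).1)
      ((Finset.range l).sup fun i => max (A true i) (A false i)) (t l / 1000 ^ l)
      (ε := 1 / 1000 ^ (5 * l + 20)) (by positivity)
    refine ⟨(a, ϑ), ?_⟩
    have hx : ∀ b i, xi θ (fun j => (Function.update f l (a, ϑ) j).1)
        (fun j => (Function.update f l (a, ϑ) j).2) R b i l =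
        xi θ (fun j => (f j).1) (fun j => (f j).2) R b i l := fun b i =>
      xi_congr θ R b i (fun j hj => by rw [Function.update_of_ne hj.ne])
        (fun j hj => by rw [Function.update_of_ne hj.ne])
    unfold Q
    simp only [hx, Function.update_self]
    refine ⟨ha, fun j hj => ?_, he, hϑ, fun b i hi => hA b i a (le_trans ?_ hAa)⟩
    · rw [Function.update_of_ne hj.ne]
      exact (Finset.dvd_prod_of_mem _ (Finset.mem_range.2 hj)).trans hd
    · refine le_trans ?_ (Finset.le_sup (f := fun i => max (A true i) (A false i))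
        (Finset.mem_range.2 hi))
      cases b
      · exact le_max_right _ _
      · exact le_max_left _ _

end LevA

/-- PLAN. `A q = {1/(2(q+2)) ≤ ‖x‖ ≤ 1/(q+2)}` has nonempty interior, `exists_hit` gives `r q ≥ 1`.
`q i = Nat.findGreatest (fun q => r q ≤ i) i`, `J i = A (q i)`, `R i = r (q i)`,
`i₀ = max 30 (r 0)`; `q i → ∞`. -/
theorem exists_J {θ : ℝ} (hθ : Irrational θ) :
    ∃ (R : ℕ → ℕ) (J : ℕ → Set UnitAddCircle) (y : ℕ → ℝ) (i₀ : ℕ), 30 ≤ i₀ ∧ (∀ i, 1 ≤ R i) ∧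
      (∀ i, i₀ ≤ i → R i ≤ i) ∧ (∀ i, IsClosed (J i)) ∧ (∀ i, ∀ x ∈ J i, -x ∈ J i) ∧
      (∀ i, (rot θ).Hit (J i) (R i)) ∧ (∀ i, (0 : UnitAddCircle) ∉ J i) ∧
      (∀ i, ∀ x ∈ J i, ‖x‖ ≤ y i) ∧ Tendsto y atTop (𝓝 0) := by
  classical
  let A : ℕ → Set UnitAddCircle := fun q =>
    {x | 1 / (2 * ((q : ℝ) + 2)) ≤ ‖x‖ ∧ ‖x‖ ≤ 1 / ((q : ℝ) + 2)}
  have hA : ∀ q, (interior (A q)).Nonempty := fun q => by
    have hq : (0 : ℝ) < (q : ℝ) + 2 := by positivity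
    have hO : IsOpen {x : UnitAddCircle | 1 / (2 * ((q : ℝ) + 2)) < ‖x‖ ∧ ‖x‖ < 1 / ((q : ℝ) + 2)} :=
      (isOpen_lt continuous_const continuous_norm).inter (isOpen_lt continuous_norm continuous_const)
    have hn : ‖((3 / (4 * ((q : ℝ) + 2)) : ℝ) : UnitAddCircle)‖ = 3 / (4 * ((q : ℝ) + 2)) := by
      have h0 : (0 : ℝ) ≤ 3 / (4 * ((q : ℝ) + 2)) := by positivity
      rw [(AddCircle.norm_coe_eq_abs_iff (1 : ℝ) one_ne_zero).2, abs_of_nonneg h0]
      rw [abs_of_nonneg h0, abs_one, div_le_div_iff₀ (by positivity) (by positivity)]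
      have : (0 : ℝ) ≤ q := Nat.cast_nonneg q
      linarith
    refine ⟨((3 / (4 * ((q : ℝ) + 2)) : ℝ) : UnitAddCircle),
      interior_maximal (s := A q) (fun x hx => And.intro hx.1.le hx.2.le) hO ⟨?_, ?_⟩⟩
    · rw [hn, div_lt_div_iff₀ (by positivity) (by positivity)]
      linarith
    · rw [hn, div_lt_div_iff₀ (by positivity) (by positivity)]
      linarith
  choose r hr using fun q => exists_hit hθ (hA q)
  let q : ℕ → ℕ := fun i => Nat.findGreatest (fun q => r q ≤ i) i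
  refine ⟨fun i => r (q i), fun i => A (q i), fun i => 1 / ((q i : ℝ) + 2), max 30 (r 0),
    le_max_left _ _, fun i => (hr _).pos 0, fun i hi => ?_, fun i => ?_, fun i x hx => ?_,
    fun i => hr _, fun i h => ?_, fun i x hx => hx.2, ?_⟩
  · exact Nat.findGreatest_spec (P := fun q => r q ≤ i) (Nat.zero_le i)
      ((le_max_right _ _).trans hi)
  · exact (isClosed_le continuous_const continuous_norm).inter
      (isClosed_le continuous_norm continuous_const)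
  · simpa only [A, Set.mem_ofPred_eq, norm_neg] using hx
  · have := h.1
    rw [norm_zero] at this
    exact absurd this (not_le.2 (by positivity))
  · have hq : Tendsto q atTop atTop := tendsto_atTop_atTop.2 fun k =>
      ⟨max k (r k), fun i hi => Nat.le_findGreatest (P := fun q => r q ≤ i)
        ((le_max_left _ _).trans hi) ((le_max_right _ _).trans hi)⟩
    exact tendsto_const_nhds.div_atTop
      (tendsto_atTop_add_const_right _ _ (tendsto_natCast_atTop_atTop.comp hq))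

/-- PLAN. `t` from `exists_nr`, `exists_J`; `exists_seq_dep` on `α = ℕ × ℝ` with
`Q f l`: `0 < a l`, `∀ j < l, a j ∣ a l`, `a l • θ = ϑ l`,
`|ϑ l - t l/1000^l| ≤ 1/1000^(5l+20)`, and the `cov` property for all `b`, `i < l` (`xi .. i l`
only depends on the data of index `< l`; `periodic_cov` for the finitely many `(b,i)`,
`exists_freq` with `a₀ = ∏_{j<l} a j`). For `nr`: `|r| ≤ 1000^(5 i)` for `i ≥ s ≥ n`. -/
theorem exists_lev {θ : ℝ} (hθ : Irrational θ) : Nonempty (Lev θ) := by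
  obtain ⟨t, ht, hnr⟩ := exists_nr
  obtain ⟨R, J, y, i₀, h1, h2, h3, h4, h5, h6, h7, h8, h9⟩ := exists_J hθ
  obtain ⟨f, hf⟩ := LevA.exists_Q hθ t R
  have he : ∀ i : ℕ, (1 : ℝ) / 1000 ^ (5 * i + 20) ≤ 1 / (2 * 1000 ^ i) := fun i => by
    refine one_div_le_one_div_of_le (by positivity) ?_
    calc (2 : ℝ) * 1000 ^ i ≤ 1000 * 1000 ^ i := by gcongr; norm_num
      _ = 1000 ^ (i + 1) := by ring
      _ ≤ _ := pow_le_pow_right₀ (by norm_num) (by omega)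
  refine ⟨⟨fun j => (f j).1, fun j => (f j).2, R, J, y, i₀, h1, fun i => (hf i).1,
    fun i => (hf (i + 1)).2.1 i (Nat.lt_succ_self i), fun i => (hf i).2.2.1, fun i => ?_,
    fun i => ?_, h2, h3, h4, h5, h6, h7, h8, h9, fun s n hn hns r hr1 hr2 => ?_,
    fun b i l => (hf l).2.2.2.2 b i⟩⟩
  · have a1 := (abs_le.1 ((hf i).2.2.2.1.trans (he i))).1
    have a2 : (1 : ℝ) / 1000 ^ i ≤ t i / 1000 ^ i := by gcongr; exact (ht i).1
    have a3 : (1 : ℝ) / 1000 ^ i = 2 * (1 / (2 * 1000 ^ i)) := by field_simp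
    linarith
  · have a1 := (abs_le.1 ((hf i).2.2.2.1.trans (he i))).2
    have a2 : t i / 1000 ^ i ≤ (2 : ℝ) / 1000 ^ i := by gcongr; exact (ht i).2
    have a3 : (3 : ℝ) / 1000 ^ i = 2 / 1000 ^ i + 2 * (1 / (2 * 1000 ^ i)) := by
      field_simp; norm_num
    have a4 : (0 : ℝ) ≤ 1 / (2 * 1000 ^ i) := by positivity
    linarith
  · have hr2' : |(r : ℝ)| ≤ 1000 ^ (s + 4 * n) := by exact_mod_cast hr2
    refine le_trans (Nat.mul_le_mul_left 2 (Finset.card_le_card fun i hi => ?_))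
      (hnr s n hn hns |(r : ℝ)| (by exact_mod_cast hr1) hr2')
    rw [Finset.mem_filter] at hi ⊢
    refine ⟨hi.1, ?_⟩
    have hsi := (Finset.mem_Ico.1 hi.1).1
    have e : (r : ℝ) * (t i / 1000 ^ i) = r * (f i).2 + r * (t i / 1000 ^ i - (f i).2) := by ring
    have b1 : |(r : ℝ) * (t i / 1000 ^ i - (f i).2)| ≤ 1 / 1000 ^ 20 := by
      rw [abs_mul, abs_sub_comm]
      calc _ ≤ (1000 : ℝ) ^ (5 * i) * (1 / 1000 ^ (5 * i + 20)) :=
            mul_le_mul (hr2'.trans (pow_le_pow_right₀ (by norm_num) (by omega)))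
              (hf i).2.2.2.1 (abs_nonneg _) (by positivity)
        _ = _ := by rw [pow_add]; field_simp
    rw [LevA.norm_abs_mul, e, AddCircle.coe_add]
    have b2 := (LevA.norm_coe_le _).trans b1
    have b3 := hi.2
    have b4 : (2 : ℝ) / 1000 ^ 20 = 1 / 1000 ^ 20 + 1 / 1000 ^ 20 := by ring
    exact (norm_add_le _ _).trans_lt (by linarith)

namespace Lev

variable {θ : ℝ} (L : Lev θ)

/-- ideal walls -/
abbrev I (l : ℕ) : Set UnitAddCircle := Iw L.a L.ϑ L.R l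

/-- walls -/
def W (l : ℕ) : Set UnitAddCircle := L.J l ∩ L.I l

/-- walls of level at least `i` -/
def S (i : ℕ) : Set UnitAddCircle := ⋃ l ∈ Set.Ici i, L.W l

/-- ideal normalised waiting time -/
noncomputable abbrev ξ (b : Bool) (i : ℕ) : UnitAddCircle → ℝ := xi θ L.a L.ϑ L.R b i (2 * i)

end Lev

end Crest.Agent.R113
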