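import Crest.Agent.R113.Path
import Crest.Agent.R113.Inv
import Crest.Agent.R113.Wait
import Crest.Agent.R113.KKT

/-! Row 113: choice of the reweighting. -/

set_option autoImplicit false

open MeasureTheory Filter Topology
open scoped ENNReal

namespace Crest.Agent.R113.Sys

variable {X : Type*} [MeasurableSpace X] {D : Sys X} {p : D.H →L[ℂ] D.H} {φ u₁ : X → ℝ}
  {S Z : Set X} {N : ℕ} {c C : ℝ}

namespace ScanA

theorem bsq {f : X → ℝ} (hf : Bd f) : Bd fun x => f x ^ 2 := by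
  simpa [pow_two] using hf.mul hf

theorem cs (μ : Measure X) [IsFiniteMeasure μ] {f g : X → ℝ} (hf : Bd f) (hg : Bd g) :
    |∫ x, f x * g x ∂μ| ≤ √(∫ x, f x ^ 2 ∂μ) * √(∫ x, g x ^ 2 ∂μ) := by
  have hA : 0 ≤ ∫ x, f x ^ 2 ∂μ := integral_nonneg fun x => sq_nonneg _
  rw [← Real.sqrt_mul hA]
  refine Real.abs_le_sqrt ?_
  have h := discrim_le_zero (a := ∫ x, f x ^ 2 ∂μ) (b := 2 * ∫ x, f x * g x ∂μ)
    (c := ∫ x, g x ^ 2 ∂μ) fun s => by
      have i1 := ((Bd.const (s * s)).mul (bsq hf)).integrable μ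
      have i2 := ((Bd.const (2 * s)).mul (hf.mul hg)).integrable μ
      have : (∫ x, f x ^ 2 ∂μ) * (s * s) + (2 * ∫ x, f x * g x ∂μ) * s + ∫ x, g x ^ 2 ∂μ =
          ∫ x, (s * s * f x ^ 2 + 2 * s * (f x * g x) + g x ^ 2) ∂μ := by
        rw [integral_add (i1.fun_add i2) ((bsq hg).integrable μ), integral_add i1 i2,
          integral_const_mul, integral_const_mul]
        ring
      rw [this]
      exact integral_nonneg fun x => by
        simp only [Pi.zero_apply]; nlinarith [sq_nonneg (s * f x + g x)]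
  unfold discrim at h
  nlinarith

theorem int_le {f : X → ℝ} (hf : Bd f) {A : ℝ} (h : ∀ x, f x ≤ A) : ∫ x, f x ∂D.μ ≤ A := by
  simpa using integral_mono (hf.integrable D.μ) (integrable_const A) h

end ScanA

open ScanA

/-- PLAN. For each `β` take `h β` from `exists_kkt` with `e = fin S`,
`A h = ρ(rw p (u₁ + β t + h)) - ρ p`, `t = wt/N ∈ [0,1]` (`ρ_monotone`, `ρ_lip`).
For `β₁ < β₂`, `b = β₂ - β₁`, `k = b t + (h₂ - h₁)`, `M β = ∫ t ρ^β ∈ [0,1]`, `x = ‖h₂-h₁‖₂`: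
`∫ k (ρ² - ρ¹) = b (M₂ - M₁) - a x²` (KKT twice), it is `≥ 0`, and `M₂ - M₁ ≤ 2(b + x)` (`ρ_lip`,
Cauchy-Schwarz), so `x ≤ 4b/a`, `‖k‖₂ ≤ 5b/a`. On `IB S`, `|Δ k| ≥ b/N` (`fin_eq_of_IB`,
`eq_of_comap`). `gain_set` gives `M₂ - M₁ ≥ (b/N²)(I₁ - 20 b/a)`. Telescoping over the grid
`β₀ + q Λ/Q`, `q ≤ Q`: if all `I_q > N²/Λ + η` then `1 ≥ (Λ/N²)(N²/Λ + η - 20Λ/(Qa)) > 1`. -/
theorem exists_scan (hp : D.Proj p) (hS : MeasurableSet S) (hit : D.Hit S N) (hu₁ : Bd u₁)
    {β₀ Λ a η : ℝ} (hΛ : 0 < Λ) (ha : 0 < a) (ha1 : a ≤ 1) (hη : 0 < η) :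
    ∃ β ∈ Set.Icc β₀ (β₀ + Λ), ∃ h : X → ℝ,
      Measurable[MeasurableSpace.comap (D.fin S) inferInstance] h ∧ (∀ x, |h x| ≤ 1 / a) ∧
      (∀ g : X → ℝ, Measurable[MeasurableSpace.comap (D.fin S) inferInstance] g → Bd g →
        ∫ x, (D.ρ (D.rw p fun x => u₁ x + β * ((D.wt S x : ℝ) / N) + h x) x - D.ρ p x) * g x ∂D.μ
          = -a * ∫ x, h x * g x ∂D.μ) ∧
      D.En (D.rw p fun x => u₁ x + β * ((D.wt S x : ℝ) / N) + h x) ((D.IB S).indicator 1) ≤
        N ^ 2 / Λ + η := by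
  have : Nonempty X := nonempty_of_isProbabilityMeasure D.μ
  have hN0 : (0 : ℝ) < N := by exact_mod_cast hit.pos (Classical.arbitrary X)
  set t : X → ℝ := fun x => (D.wt S x : ℝ) / N with ht
  have bt : Bd t := by simpa [ht, div_eq_mul_inv] using (hit.bd_wt hS).mul (Bd.const (N : ℝ)⁻¹)
  have ht1 : ∀ x, 0 ≤ t x ∧ t x ≤ 1 := fun x =>
    ⟨by positivity, div_le_one_of_le₀ (by exact_mod_cast (hit.wt_lt x).le) hN0.le⟩
  have hfin := hit.meas_fin hS
  have bv : ∀ (β : ℝ) {h : X → ℝ}, Bd h → Bd fun x => u₁ x + β * t x + h x := fun β h hh =>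
    (hu₁.add ((Bd.const β).mul bt)).add hh
  have hk : ∀ β : ℝ, ∃ h : X → ℝ,
      Measurable[MeasurableSpace.comap (D.fin S) inferInstance] h ∧ (∀ x, |h x| ≤ 1 / a) ∧
      ∀ g : X → ℝ, Measurable[MeasurableSpace.comap (D.fin S) inferInstance] g → Bd g →
        ∫ x, (D.ρ (D.rw p fun x => u₁ x + β * t x + h x) x - D.ρ p x) * g x ∂D.μ
          = -a * ∫ x, h x * g x ∂D.μ := fun β => by
    refine exists_kkt D.μ hfin
      (fun h x => D.ρ (D.rw p fun x => u₁ x + β * t x + h x) x - D.ρ p x) (fun h _ => ?_)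
      (fun h h' hh hh' => ?_) (fun h h' hh hh' => ?_) ha ha1
    · refine ⟨(bd_ρ _).1.sub (bd_ρ _).1, fun x => ?_⟩
      have := D.ρ_nonneg p x; have := D.ρ_le_one p x
      have := D.ρ_nonneg (D.rw p fun x => u₁ x + β * t x + h x) x
      have := D.ρ_le_one (D.rw p fun x => u₁ x + β * t x + h x) x
      rw [abs_le]; constructor <;> linarith
    · have := ρ_monotone hp (bv β hh) (bv β hh')
      simpa using this
    · have := ρ_lip hp (bv β hh) (bv β hh')
      simpa using this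
  choose h hm hb hK using hk
  have bh : ∀ β, Bd (h β) := fun β => ⟨meas_of_comap hfin (hm β), 1 / a, hb β⟩
  set v : ℝ → X → ℝ := fun β x => u₁ x + β * t x + h β x with hv
  have bv' : ∀ β, Bd (v β) := fun β => bv β (bh β)
  set r : ℝ → X → ℝ := fun β => D.ρ (D.rw p (v β)) with hr
  have br : ∀ β, Bd (r β) := fun β => bd_ρ _
  set M : ℝ → ℝ := fun β => ∫ x, t x * r β x ∂D.μ with hM
  have M0 : ∀ β, 0 ≤ M β := fun β =>
    integral_nonneg fun x => mul_nonneg (ht1 x).1 (ρ_nonneg _ _)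
  have M1 : ∀ β, M β ≤ 1 := fun β => int_le (bt.mul (br β)) fun x =>
    mul_le_one₀ (ht1 x).2 (ρ_nonneg _ _) (ρ_le_one _ _)
  have step : ∀ β b : ℝ, 0 < b →
      b / N ^ 2 * (D.En (D.rw p (v β)) ((D.IB S).indicator 1) - 20 * b / a) ≤ M (β + b) - M β := by
    intro β b hb0
    set dd : X → ℝ := fun x => h (β + b) x - h β x with hdd
    have bd : Bd dd := (bh _).sub (bh _)
    have md : Measurable[MeasurableSpace.comap (D.fin S) inferInstance] dd := (hm _).sub (hm _)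
    set k : X → ℝ := fun x => b * t x + dd x with hkdef
    have bk : Bd k := ((Bd.const b).mul bt).add bd
    have hvk : (fun x => v β x + k x) = v (β + b) := by
      funext x; simp only [hv, hkdef, hdd]; ring
    set y := ∫ x, dd x ^ 2 ∂D.μ with hy
    have y0 : 0 ≤ y := integral_nonneg fun x => sq_nonneg _
    have e1 : ∫ x, (r (β + b) x - r β x) * dd x ∂D.μ = -a * y := by
      have h1 := hK (β + b) dd md bd
      have h2 := hK β dd md bd
      have e : ∫ x, (r (β + b) x - r β x) * dd x ∂D.μ =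
          ∫ x, (r (β + b) x - D.ρ p x) * dd x ∂D.μ - ∫ x, (r β x - D.ρ p x) * dd x ∂D.μ := by
        rw [← integral_sub ((((br _).sub (bd_ρ p)).mul bd).integrable D.μ)
          ((((br _).sub (bd_ρ p)).mul bd).integrable D.μ)]
        congr 1; funext x; ring
      have e' : y = ∫ x, h (β + b) x * dd x ∂D.μ - ∫ x, h β x * dd x ∂D.μ := by
        rw [← integral_sub (((bh _).mul bd).integrable D.μ) (((bh _).mul bd).integrable D.μ), hy]
        congr 1; funext x; simp only [hdd]; ring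
      rw [e, e']
      simp only [hr, hv]
      rw [h1, h2]; ring
    have e2 : ∫ x, (r (β + b) x - r β x) * k x ∂D.μ = b * (M (β + b) - M β) - a * y := by
      have i1 := (bt.mul (br (β + b))).integrable D.μ
      have i2 := (bt.mul (br β)).integrable D.μ
      rw [sub_eq_add_neg (b * _), ← neg_mul, ← e1, hM]
      simp only
      rw [← integral_sub i1 i2, ← integral_const_mul,
        ← integral_add ((i1.sub' i2).const_mul b)
          ((((br _).sub (br _)).mul bd).integrable D.μ)]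
      congr 1; funext x; simp only [hkdef]; ring
    have e3 : 0 ≤ ∫ x, (r (β + b) x - r β x) * k x ∂D.μ := by
      have := ρ_monotone hp (bv' (β + b)) (bv' β)
      convert this using 4 with x
      rw [← hvk]; ring
    have e4 : ∫ x, k x ^ 2 ∂D.μ ≤ 2 * b ^ 2 + 2 * y := by
      have : ∫ x, k x ^ 2 ∂D.μ ≤ ∫ x, (2 * b ^ 2 + 2 * dd x ^ 2) ∂D.μ := by
        refine integral_mono ((bsq bk).integrable D.μ)
          (((Bd.const _).add ((Bd.const 2).mul (bsq bd))).integrable D.μ) fun x => ?_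
        have h1 : (b * t x) ^ 2 ≤ b ^ 2 :=
          pow_le_pow_left₀ (mul_nonneg hb0.le (ht1 x).1)
            (mul_le_of_le_one_right hb0.le (ht1 x).2) 2
        simp only [hkdef]
        nlinarith [sq_nonneg (b * t x - dd x)]
      rw [integral_add (integrable_const _) (((Bd.const 2).mul (bsq bd)).integrable D.μ)] at this
      simpa [integral_const_mul] using this
    have e5 : ∫ x, (r (β + b) x - r β x) ^ 2 ∂D.μ ≤ 4 * ∫ x, k x ^ 2 ∂D.μ := by
      have := ρ_lip hp (bv' (β + b)) (bv' β)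
      convert this using 5 with x
      rw [← hvk]; ring
    have e6 : b * (M (β + b) - M β) ≤
        4 * b ^ 2 / a + a / 16 * ∫ x, (r (β + b) x - r β x) ^ 2 ∂D.μ := by
      have i1 := (bt.mul (br (β + b))).integrable D.μ
      have i2 := (bt.mul (br β)).integrable D.μ
      have i3 := ((Bd.const (a / 16)).mul (bsq ((br (β + b)).sub (br β)))).integrable D.μ
      have : ∫ x, b * (t x * r (β + b) x - t x * r β x) ∂D.μ ≤
          ∫ x, (4 * b ^ 2 / a + a / 16 * (r (β + b) x - r β x) ^ 2) ∂D.μ := by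
        refine integral_mono ((i1.sub' i2).const_mul b) ((integrable_const _).fun_add i3)
          fun x => ?_
        simp only
        set e := r (β + b) x - r β x
        have h1 : b * (t x * r (β + b) x - t x * r β x) = (b * t x) * e := by simp only [e]; ring
        have h2 : (b * t x) ^ 2 ≤ b ^ 2 :=
          pow_le_pow_left₀ (mul_nonneg hb0.le (ht1 x).1)
            (mul_le_of_le_one_right hb0.le (ht1 x).2) 2
        rw [h1, div_add' _ _ _ ha.ne', le_div_iff₀ ha]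
        nlinarith [sq_nonneg (2 * (b * t x) - a * e / 4)]
      rw [integral_const_mul, integral_sub i1 i2, integral_add (integrable_const _) i3,
        integral_const_mul] at this
      simpa using this
    have e7 : ∫ x, k x ^ 2 ∂D.μ ≤ (5 * b / a) ^ 2 := by
      have h1 : a * y ≤ 4 * b ^ 2 / a + a / 2 * (b ^ 2 + y) := by nlinarith
      have h2 : b ^ 2 ≤ b ^ 2 / a ^ 2 := le_div_self (sq_nonneg _) (by positivity) (by nlinarith)
      have h3 : 4 * b ^ 2 / a = a * (4 * (b ^ 2 / a ^ 2)) := by field_simp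
      have h4 : y ≤ 8 * (b ^ 2 / a ^ 2) + b ^ 2 := by
        rw [h3] at h1
        have : a * y ≤ a * (8 * (b ^ 2 / a ^ 2) + b ^ 2) := by nlinarith
        exact le_of_mul_le_mul_left this ha
      have h5 : (5 * b / a) ^ 2 = 25 * (b ^ 2 / a ^ 2) := by ring
      have h6 : 0 ≤ b ^ 2 / a ^ 2 := by positivity
      linarith
    have e8 : √(∫ x, k x ^ 2 ∂D.μ) ≤ 5 * b / a := Real.sqrt_le_iff.2 ⟨by positivity, e7⟩
    have e9 := gain_set hp (bv' β) bk (hit.meas_IB hS) (l := b / N) (by positivity) fun q hq => by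
      have h1 : dd (D.σ q.2 q.1) = dd q.1 := eq_of_comap md (fin_eq_of_IB hq)
      have h2 : (D.wt S (D.σ q.2 q.1) : ℝ) - D.wt S q.1 = -(q.2 : ℝ) := by
        have : ((q.2 + (D.wt S (D.σ q.2 q.1) : ℤ) : ℤ) : ℝ) = ((D.wt S q.1 : ℤ) : ℝ) := by
          rw [hq.2]
        push_cast at this
        linarith
      have h3 : D.Δ k q = b / N * (-(q.2 : ℝ)) := by
        simp only [Δ, hkdef, h1, ht]; rw [← h2]; ring
      rw [h3, abs_mul, abs_neg, abs_of_pos (by positivity : 0 < b / N)]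
      refine le_mul_of_one_le_right (by positivity) ?_
      exact_mod_cast Int.one_le_abs hq.1
    rw [hvk] at e9
    have e10 : ∫ x, k x * r (β + b) x ∂D.μ - ∫ x, k x * r β x ∂D.μ =
        ∫ x, (r (β + b) x - r β x) * k x ∂D.μ := by
      rw [← integral_sub ((bk.mul (br _)).integrable D.μ) ((bk.mul (br _)).integrable D.μ)]
      congr 1; funext x; ring
    have e11 : (b / N) ^ 2 * (D.En (D.rw p (v β)) ((D.IB S).indicator 1) - 20 * b / a) ≤
        b * (M (β + b) - M β) := by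
      have h1 : 0 ≤ a * y := by positivity
      have h2 : (b / N) ^ 2 * (D.En (D.rw p (v β)) ((D.IB S).indicator 1) - 20 * b / a) ≤
          (b / N) ^ 2 * (D.En (D.rw p (v β)) ((D.IB S).indicator 1) -
            4 * √(∫ x, k x ^ 2 ∂D.μ)) := by
        refine mul_le_mul_of_nonneg_left ?_ (sq_nonneg _)
        have : 20 * b / a = 4 * (5 * b / a) := by ring
        linarith
      have h3 := e9.trans (le_of_eq (e10.trans e2))
      linarith
    refine le_of_mul_le_mul_left (le_trans (le_of_eq ?_) e11) hb0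
    ring
  by_contra hcon
  have hI : ∀ β ∈ Set.Icc β₀ (β₀ + Λ),
      N ^ 2 / Λ + η < D.En (D.rw p (v β)) ((D.IB S).indicator 1) := fun β hβ => by
    by_contra hlt
    exact hcon ⟨β, hβ, h β, hm β, hb β, hK β, not_lt.1 hlt⟩
  obtain ⟨Q, hQ⟩ := exists_nat_gt (40 * Λ / (a * η))
  have hQ0 : (0 : ℝ) < Q := lt_trans (by positivity) hQ
  set b := Λ / Q with hbdef
  have hb0 : 0 < b := by positivity
  have hb1 : 20 * b / a ≤ η / 2 := by
    rw [div_lt_iff₀ (by positivity)] at hQ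
    rw [hbdef, div_le_iff₀ ha, ← mul_div_assoc, div_le_iff₀ hQ0]
    linarith
  have ind : ∀ q : ℕ, q ≤ Q →
      q * (b / N ^ 2 * (N ^ 2 / Λ + η / 2)) ≤ M (β₀ + q * b) - M β₀ := by
    intro q hq
    induction q with
    | zero => simp
    | succ q ih =>
      have h1 := ih (by omega)
      have h2 := step (β₀ + q * b) b hb0
      have h3 := hI (β₀ + q * b) ⟨by have : 0 ≤ q * b := by positivity
                                     linarith, by
        have : (q : ℝ) * b ≤ Q * b :=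
          mul_le_mul_of_nonneg_right (by exact_mod_cast (by omega : q ≤ Q)) hb0.le
        have e : Q * b = Λ := by rw [hbdef]; field_simp
        linarith⟩
      have h4 : b / N ^ 2 * (N ^ 2 / Λ + η / 2) ≤
          b / N ^ 2 * (D.En (D.rw p (v (β₀ + q * b))) ((D.IB S).indicator 1) - 20 * b / a) :=
        mul_le_mul_of_nonneg_left (by linarith) (by positivity)
      have e : β₀ + ((q + 1 : ℕ) : ℝ) * b = β₀ + q * b + b := by push_cast; ring
      rw [e]
      push_cast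
      linarith
  have h1 := ind Q le_rfl
  have e : Q * (b / N ^ 2 * (N ^ 2 / Λ + η / 2)) = 1 + Λ * η / (2 * N ^ 2) := by
    rw [hbdef]; field_simp
  have h2 : 0 < Λ * η / (2 * N ^ 2) := by positivity
  have := M0 β₀
  have := M1 (β₀ + Q * b)
  linarith

/-- PLAN. `cum x = ∑_{j < wt x} φ(σ j x)`, `u₁ = -min cum (N C)`, `G = {cum ≤ N C}`;
for `x ∉ S`, `cum x = φ x + cum (σ 1 x)`; `Gᶜ ⊆ {∃ j < N, σ j x ∈ Z}`. -/
theorem exists_flat (hφ : Measurable φ) (hφ0 : ∀ x, 0 ≤ φ x) (hS : MeasurableSet S)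
    (hZ : MeasurableSet Z) (hit : D.Hit S N) (hle : ∀ x ∉ S, x ∉ Z → φ x ≤ C) (hC : 0 ≤ C) :
    ∃ u₁ : X → ℝ, Bd u₁ ∧ (∀ x, |u₁ x| ≤ N * C) ∧ (∀ x ∉ S, u₁ (D.σ 1 x) - u₁ x ≤ φ x) ∧
      ∃ G : Set X, MeasurableSet G ∧ D.μ.real Gᶜ ≤ N * D.μ.real Z ∧
        ∀ x ∈ G, x ∉ S → D.σ 1 x ∈ G ∧ u₁ (D.σ 1 x) - u₁ x = φ x := by
  set cum : X → ℝ := fun x => ∑ j ∈ Finset.range (D.wt S x), φ (D.σ (j : ℕ) x) with hcum
  have mcum : Measurable cum := by
    have : Measurable fun q : X × ℕ => ∑ j ∈ Finset.range q.2, φ (D.σ (j : ℕ) q.1) :=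
      measurable_from_prod_countable_left fun n =>
        Finset.measurable_sum (Finset.range n) fun j _ => hφ.comp (meas_σ (j : ℕ))
    exact this.comp (measurable_id.prodMk (hit.meas_wt hS))
  have cum0 : ∀ x, 0 ≤ cum x := fun x => Finset.sum_nonneg fun j _ => hφ0 _
  have hstep : ∀ x ∉ S, cum x = φ x + cum (D.σ 1 x) := fun x hx => by
    simp only [hcum]
    rw [← hit.wt_succ hx, Finset.sum_range_succ', add_comm]
    congr 1
    · simp [D.σ_zero]
    · refine Finset.sum_congr rfl fun j _ => ?_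
      rw [← D.σ_add]; simp
  have hD : 0 ≤ (N : ℝ) * C := by positivity
  have habs : ∀ x, |-min (cum x) (N * C)| ≤ N * C := fun x => by
    rw [abs_neg, abs_of_nonneg (le_min (cum0 x) hD)]
    exact min_le_right _ _
  refine ⟨fun x => -min (cum x) (N * C), ⟨(mcum.min measurable_const).neg, _, habs⟩, habs,
    fun x hx => ?_, {x | cum x ≤ N * C}, measurableSet_le mcum measurable_const, ?_,
    fun x hx hxS => ?_⟩
  · simp only
    rw [hstep x hx]
    have := hφ0 x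
    simp only [min_def]; split_ifs <;> linarith
  · refine le_trans (measureReal_mono ?_) (real_window_le hZ N)
    intro x hx
    by_contra hcon
    simp only [Set.mem_setOf_eq, not_exists, not_and] at hcon
    apply hx
    have hw := hit.wt_lt x
    calc cum x ≤ ∑ _j ∈ Finset.range (D.wt S x), C := Finset.sum_le_sum fun j hj =>
          hle _ (not_mem_of_lt_wt (Finset.mem_range.1 hj))
            (hcon j (by have := Finset.mem_range.1 hj; omega))
      _ = D.wt S x * C := by simp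
      _ ≤ N * C := mul_le_mul_of_nonneg_right (by exact_mod_cast hw.le) hC
  · have h1 := hstep x hxS
    have h2 : cum x ≤ N * C := hx
    have h3 : cum (D.σ 1 x) ≤ N * C := by have := hφ0 x; linarith
    refine ⟨h3, ?_⟩
    simp only [min_eq_left h2, min_eq_left h3]
    linarith

/-- PLAN. `D₀ = N C`, `β₀ = (m+1)(D₀+1)`, `Λ = (m+1)N²`, `E = EE m N C = D₀+β₀+Λ ≥ 1`,
`a = 1/((m+1)E)`, `η = 1/(m+1)`; `u = u₁ + β t + h` from `exists_flat`, `exists_scan`,
`ζ = ρ(rw p u) - ρ p`, `|ζ| ≤ 1`. `ρ_monotone` with `v = 0` (`rw_zero`): `0 ≤ ∫ ζ u ≤ D₀ + β∫ζ t - a‖h‖²`.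
Hence `∫ ζ t ≥ -D₀/β ≥ -1/(m+1)` and `a²‖h‖² ≤ a E = 1/(m+1)`, Cauchy-Schwarz.
Monotonicity: `Inv.rw` with `c = exp(β/N)`; the new weight is
`exp(β/N + u(σ 1 x) - u x - φ x) ≤ 1` (on `S`: `≤ 3K - c`; off `S`: `wt_succ`, `fin_succ`,
`eq_of_comap`), equal to `1` on `G \ S`; `Inv.mono`. -/
theorem exists_rw (hp : D.Proj p) (hφ : Measurable φ) (hφ0 : ∀ x, 0 ≤ φ x)
    (hinv : D.Inv p fun x => Real.exp (-φ x)) (hS : MeasurableSet S) (hZ : MeasurableSet Z)
    (hit : D.Hit S N) (hge : ∀ x ∈ S, c ≤ φ x) (hle : ∀ x ∉ S, x ∉ Z → φ x ≤ C) (hC : 0 ≤ C)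
    (m : ℕ) (hc : 3 * KK m N C ≤ c) :
    ∃ u : X → ℝ, Bd u ∧ (∀ x, |u x| ≤ KK m N C) ∧
      (∀ g : X → ℝ, Measurable[MeasurableSpace.comap (D.fin S) inferInstance] g → Bd g →
        |∫ x, (D.ρ (D.rw p u) x - D.ρ p x) * g x ∂D.μ| ≤
          √(1 / (m + 1 : ℝ)) * √(∫ x, g x ^ 2 ∂D.μ)) ∧
      -(1 / (m + 1 : ℝ)) ≤ ∫ x, (D.ρ (D.rw p u) x - D.ρ p x) * ((D.wt S x : ℝ) / N) ∂D.μ ∧
      D.En (D.rw p u) ((D.IB S).indicator 1) ≤ 2 / (m + 1 : ℝ) ∧
      ∃ G : Set X, MeasurableSet G ∧ D.μ.real Gᶜ ≤ N * D.μ.real Z ∧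
        (∀ x ∈ G, x ∉ S → D.σ 1 x ∈ G) ∧
        ∀ᵐ x ∂D.μ, x ∈ G → x ∉ S → D.ρ (D.rw p u) x ≤ D.ρ (D.rw p u) (D.σ 1 x) := by
  have : Nonempty X := nonempty_of_isProbabilityMeasure D.μ
  have hN1 : (1 : ℝ) ≤ N := by exact_mod_cast hit.pos (Classical.arbitrary X)
  have hN0 : (0 : ℝ) < N := by linarith
  have hm0 : (0 : ℝ) < m + 1 := by positivity
  have hm1 : (1 : ℝ) ≤ m + 1 := by have : (0 : ℝ) ≤ m := by positivity
                                   linarith
  obtain ⟨u₁, hu₁, hu₁b, hu₁s, G, hG, hGc, hG1⟩ := exists_flat hφ hφ0 hS hZ hit hle hC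
  have hD : 0 ≤ (N : ℝ) * C := by positivity
  obtain ⟨E, hE⟩ : ∃ E, E = EE m N C := ⟨_, rfl⟩
  have hE' : E = N * C + ((m + 1) * (N * C + 1) + (m + 1) * N ^ 2) := by rw [hE, EE]; ring
  have hβ₀ : N * C + 1 ≤ (m + 1 : ℝ) * (N * C + 1) := le_mul_of_one_le_left (by linarith) hm1
  have hΛ : (0 : ℝ) < (m + 1) * N ^ 2 := by positivity
  have hE1 : 1 ≤ E := by linarith
  have hE0 : 0 < E := by linarith
  have hKK : KK m N C = E + (m + 1) * E := by rw [KK, ← hE]; ring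
  have hmE : 1 ≤ (m + 1) * E := one_le_mul_of_one_le_of_one_le hm1 hE1
  obtain ⟨β, ⟨hβ1, hβ2⟩, h, hm, hb, hK, hI⟩ := exists_scan hp hS hit hu₁
    (β₀ := (m + 1) * (N * C + 1)) hΛ (a := 1 / ((m + 1) * E)) (by positivity)
    ((div_le_one (by positivity)).2 hmE) (η := 1 / (m + 1)) (by positivity)
  rw [one_div_one_div] at hb
  have hβ0 : 0 < β := by linarith
  have hβE : N * C + β ≤ E := by linarith
  set t : X → ℝ := fun x => (D.wt S x : ℝ) / N with ht
  have bt : Bd t := by simpa [ht, div_eq_mul_inv] using (hit.bd_wt hS).mul (Bd.const (N : ℝ)⁻¹)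
  have ht1 : ∀ x, 0 ≤ t x ∧ t x ≤ 1 := fun x =>
    ⟨by positivity, div_le_one_of_le₀ (by exact_mod_cast (hit.wt_lt x).le) hN0.le⟩
  have hfin := hit.meas_fin hS
  have bh : Bd h := ⟨meas_of_comap hfin hm, _, hb⟩
  set u : X → ℝ := fun x => u₁ x + β * t x + h x with hu
  have bu : Bd u := (hu₁.add ((Bd.const β).mul bt)).add bh
  have huK : ∀ x, |u x| ≤ KK m N C := fun x => by
    have h1 := abs_le.1 (hu₁b x)
    have h2 := abs_le.1 (hb x)
    have h3 : 0 ≤ β * t x := mul_nonneg hβ0.le (ht1 x).1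
    have h4 : β * t x ≤ β := mul_le_of_le_one_right hβ0.le (ht1 x).2
    rw [hKK, abs_le]
    simp only [hu]
    constructor <;> linarith
  set ζ : X → ℝ := fun x => D.ρ (D.rw p u) x - D.ρ p x with hζ
  have bζ : Bd ζ := (bd_ρ _).sub (bd_ρ _)
  have ζ1 : ∀ x, |ζ x| ≤ 1 := fun x => by
    have := D.ρ_nonneg p x; have := D.ρ_le_one p x
    have := D.ρ_nonneg (D.rw p u) x
    have := D.ρ_le_one (D.rw p u) x
    rw [abs_le]; simp only [hζ]; constructor <;> linarith
  have hK' : ∀ g : X → ℝ, Measurable[MeasurableSpace.comap (D.fin S) inferInstance] g → Bd g →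
      ∫ x, ζ x * g x ∂D.μ = -(1 / ((m + 1) * E)) * ∫ x, h x * g x ∂D.μ := hK
  have key : 1 / ((m + 1) * E) * ∫ x, h x ^ 2 ∂D.μ ≤ N * C + β * ∫ x, ζ x * t x ∂D.μ := by
    have h1 := ρ_monotone hp bu (Bd.const 0)
    rw [rw_zero hp] at h1
    have i1 := (bζ.mul hu₁).integrable D.μ
    have i2 := ((Bd.const β).mul (bζ.mul bt)).integrable D.μ
    have e : ∫ x, (D.ρ (D.rw p u) x - D.ρ p x) * (u x - 0) ∂D.μ =
        ∫ x, ζ x * u₁ x ∂D.μ + β * ∫ x, ζ x * t x ∂D.μ + ∫ x, ζ x * h x ∂D.μ := by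
      rw [← integral_const_mul, ← integral_add i1 i2,
        ← integral_add (i1.fun_add i2) ((bζ.mul bh).integrable D.μ)]
      congr 1; funext x; simp only [hζ, hu]; ring
    rw [e, hK' h hm bh] at h1
    have h2 : ∫ x, ζ x * u₁ x ∂D.μ ≤ N * C := int_le (bζ.mul hu₁) fun x => by
      refine (le_abs_self _).trans ?_
      rw [abs_mul]
      exact (mul_le_of_le_one_left (abs_nonneg _) (ζ1 x)).trans (hu₁b x)
    simp only [sq]
    linarith
  have hT1 : ∫ x, ζ x * t x ∂D.μ ≤ 1 := int_le (bζ.mul bt) fun x => by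
    refine (le_abs_self _).trans ?_
    rw [abs_mul, abs_of_nonneg (ht1 x).1]
    exact mul_le_one₀ (ζ1 x) (ht1 x).1 (ht1 x).2
  have hh0 : 0 ≤ ∫ x, h x ^ 2 ∂D.μ := integral_nonneg fun x => sq_nonneg _
  refine ⟨u, bu, huK, fun g hg bg => ?_, ?_, ?_, G, hG, hGc, fun x hx hxS => (hG1 x hx hxS).1, ?_⟩
  · have h1 : |∫ x, ζ x * g x ∂D.μ| ≤ 1 / ((m + 1) * E) * √(∫ x, h x ^ 2 ∂D.μ) *
        √(∫ x, g x ^ 2 ∂D.μ) := by
      rw [hK' g hg bg, abs_mul, abs_neg, abs_of_pos (by positivity), mul_assoc]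
      exact mul_le_mul_of_nonneg_left (cs D.μ bh bg) (by positivity)
    refine h1.trans (mul_le_mul_of_nonneg_right ?_ (Real.sqrt_nonneg _))
    refine Real.le_sqrt_of_sq_le ?_
    rw [mul_pow, Real.sq_sqrt hh0]
    have h2 : 1 / ((m + 1) * E) * ∫ x, h x ^ 2 ∂D.μ ≤ E := by nlinarith
    calc (1 / ((m + 1) * E)) ^ 2 * ∫ x, h x ^ 2 ∂D.μ
        = 1 / ((m + 1) * E) * (1 / ((m + 1) * E) * ∫ x, h x ^ 2 ∂D.μ) := by ring
      _ ≤ 1 / ((m + 1) * E) * E := mul_le_mul_of_nonneg_left h2 (by positivity)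
      _ = 1 / (m + 1) := by field_simp
  · have h1 : 0 ≤ 1 / ((m + 1) * E) * ∫ x, h x ^ 2 ∂D.μ := by positivity
    by_contra hcon
    have h2 : ∫ x, ζ x * t x ∂D.μ < -(1 / (m + 1)) := not_le.1 hcon
    have h3 : N * C + 1 ≤ β * (1 / (m + 1)) := by
      rw [mul_one_div, le_div_iff₀ hm0]; linarith
    nlinarith
  · refine hI.trans (le_of_eq ?_)
    field_simp
    norm_num
  · have bw : Bd fun x => Real.exp (-φ x) :=
      Bd.of_bound (Real.measurable_exp.comp hφ.neg) (a := 0) (b := 1) fun x =>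
        ⟨(Real.exp_pos _).le, Real.exp_le_one_iff.2 (neg_nonpos.2 (hφ0 x))⟩
    have hinv' := Inv.rw hp bw hinv bu (Real.exp (β / N))
    have eW : ∀ x, Real.exp (β / N) * (Real.exp (u (D.σ 1 x) - u x) * Real.exp (-φ x)) =
        Real.exp (β / N + (u (D.σ 1 x) - u x) - φ x) := fun x => by
      rw [← Real.exp_add, ← Real.exp_add]; congr 1; ring
    have eU : ∀ x ∉ S, β / N + (u (D.σ 1 x) - u x) = u₁ (D.σ 1 x) - u₁ x := fun x hx => by
      have h1 : h (D.σ 1 x) = h x := eq_of_comap hm (hit.fin_succ hx)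
      have h2 : (D.wt S x : ℝ) = D.wt S (D.σ 1 x) + 1 := by exact_mod_cast (hit.wt_succ hx).symm
      simp only [hu, ht, h1, h2]
      ring
    have hmono := Inv.mono (rw_proj hp bu)
      ((Bd.const _).mul (((bu.comp (meas_σ 1)).sub bu).exp.mul bw)) hinv' fun x => by
        rw [eW]
        refine ⟨(Real.exp_pos _).le, Real.exp_le_one_iff.2 ?_⟩
        by_cases hx : x ∈ S
        · have h1 := abs_le.1 (huK x)
          have h2 := abs_le.1 (huK (D.σ 1 x))
          have h3 := hge x hx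
          have h4 : β / N ≤ β := div_le_self hβ0.le hN1
          have h5 : β ≤ KK m N C := by rw [hKK]; linarith
          linarith
        · rw [eU x hx]
          linarith [hu₁s x hx]
    filter_upwards [hmono] with x hx hxG hxS
    apply hx
    rw [eW, eU x hxS, (hG1 x hxG hxS).2, sub_self, Real.exp_zero]

end Crest.Agent.R113.Sys
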