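import Crest.Agent.R113.Sum
import Crest.Agent.R113.Scan
import Crest.Agent.R113.Block

/-! Row 113: the abstract theorem. -/

set_option autoImplicit false

open MeasureTheory Filter Topology
open scoped ENNReal

namespace Crest.Agent.R113

open Sys

variable {X : Type*} [MeasurableSpace X] {D : Sys X} {p : D.H →L[ℂ] D.H} {φ : X → ℝ}

/-- PLAN. `r = ρ(rw p u)`, `r₀ = ρ p`, `t = ∫ r = ∫ r₀`, `ζ = r - r₀`, `S = S m`, `N = N m`.
`∫ r (wb - wt)/N = ∫ r₀ (wb - wt)/N + ∫ ζ (wb+wt)/N - 2∫ ζ wt/N ≤ ε₁ + 2e + 2e`, as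
`wb + wt = wb ∘ fin` (`wb_fin`) is block constant and `≤ 2N`; the first term is small by
`bias_small` (one level, `ι = Unit`, `w = 1`, `Γ = 1`, `c₀ = 0`). `block_sum`, `block_const` with
`b = ε₁ + 4e + 2/N²` give `g = G₀ ∘ fin` with `∫|r - g| ≤ b' = Γ b + δ`. Then
`∫ r² ≤ ∫ r g + b' ≤ ∫ r₀ g + e + b' ≤ t ∫ g + ε₂ + e + b' ≤ t² + 2b' + e + ε₂` using `Erg` for `g`
(`∫|g∘σ 1 - g| ≤ μ S → 0` by `fin_succ`, `S_tend`). Take `ε₁, ε₂, e, 1/N` small. -/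
theorem sq_le (d : Design D φ) (hE : D.Erg) (hp : D.Proj p) {Γ δ ε : ℝ} (hΓ : 1 ≤ Γ) (hε : 0 < ε) :
    ∃ m₀ : ℕ, ∃ e₀ > (0 : ℝ), ∀ m ≥ m₀, ∀ e : ℝ, 0 ≤ e → e ≤ e₀ → ∀ u : X → ℝ, Bd u →
      (∀ g : X → ℝ, Measurable[MeasurableSpace.comap (D.fin (d.S m)) inferInstance] g → Bd g →
        |∫ x, (D.ρ (D.rw p u) x - D.ρ p x) * g x ∂D.μ| ≤ e * √(∫ x, g x ^ 2 ∂D.μ)) →
      -e ≤ ∫ x, (D.ρ (D.rw p u) x - D.ρ p x) * ((D.wt (d.S m) x : ℝ) / d.N m) ∂D.μ →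
      ∀ G : Set X, MeasurableSet G → D.μ.real Gᶜ ≤ d.N m * D.μ.real (d.Z m) →
        (∀ x ∈ G, x ∉ d.S m → D.σ 1 x ∈ G) →
        (∀ᵐ x ∂D.μ, x ∈ G → x ∉ d.S m → D.ρ (D.rw p u) x ≤ D.ρ (D.rw p u) (D.σ 1 x)) →
        D.μ.real {x | (D.wt (d.S m) x : ℝ) ≤ d.N m / Γ} ≤ δ →
        ∫ x, D.ρ (D.rw p u) x ^ 2 ∂D.μ ≤ (D.τ p).re ^ 2 + 2 * δ + ε := by
  have hΓ0 : 0 < Γ := by linarith
  obtain ⟨η, hη, hErg⟩ := hE (D.ρ p) (bd_ρ p) (ε / 4) (by positivity)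
  obtain ⟨m₁, hm₁⟩ := bias_small d hE (bd_ρ p) (Γ := 1) (ε := ε / (8 * Γ)) one_pos (by positivity)
  obtain ⟨m₂, hm₂⟩ := eventually_atTop.1 (d.S_tend.eventually (ge_mem_nhds hη))
  obtain ⟨m₃, hm₃⟩ := eventually_atTop.1
    ((tendsto_natCast_atTop_atTop (R := ℝ)).comp d.N_tend |>.eventually_ge_atTop
      (16 * Γ / ε + 1))
  refine ⟨max m₁ (max m₂ m₃), ε / (4 * (8 * Γ + 1)), by positivity, ?_⟩
  intro m hm e he he₀ u hu h1 h2 G hG hGc hG1 hmono hδ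
  have hm1 : m₁ ≤ m := le_trans (le_max_left _ _) hm
  have hm2 : m₂ ≤ m := le_trans ((le_max_left _ _).trans (le_max_right _ _)) hm
  have hm3 : m₃ ≤ m := le_trans ((le_max_right _ _).trans (le_max_right _ _)) hm
  have hN : 16 * Γ / ε + 1 ≤ (d.N m : ℝ) := hm₃ m hm3
  have hq : 0 ≤ 16 * Γ / ε := by positivity
  have hN1 : (1 : ℝ) ≤ d.N m := by linarith
  have hN0 : (0 : ℝ) < d.N m := by linarith
  have hit := d.hit m
  have hS := d.S_meas m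
  set S := d.S m with hSdef
  set N := d.N m with hNdef
  set r := D.ρ (D.rw p u) with hr
  set r₀ := D.ρ p with hr₀
  have br : Bd r := bd_ρ _
  have br₀ : Bd r₀ := bd_ρ _
  have hr1 : ∀ x, 0 ≤ r x ∧ r x ≤ 1 := fun x => ⟨ρ_nonneg _ _, ρ_le_one _ _⟩
  have hr₀1 : ∀ x, 0 ≤ r₀ x ∧ r₀ x ≤ 1 := fun x => ⟨ρ_nonneg _ _, ρ_le_one _ _⟩
  have bwt := hit.bd_wt hS
  have bwb := hit.bd_wb hS
  have hwt : ∀ x, (D.wt S x : ℝ) ≤ N := fun x => by exact_mod_cast (hit.wt_lt x).le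
  have hwb : ∀ x, (D.wb S x : ℝ) ≤ N := fun x => by exact_mod_cast (hit.wb_lt x).le
  have bdiv : ∀ {f : X → ℝ}, Bd f → Bd fun x => f x / N := fun hf => by
    simpa [div_eq_mul_inv] using hf.mul (Bd.const ((N : ℝ)⁻¹))
  have sq1 : ∀ {f : X → ℝ} {A : ℝ}, Bd f → 0 ≤ A → (∀ x, 0 ≤ f x ∧ f x ≤ A) →
      ∫ x, f x ^ 2 ∂D.μ ≤ A ^ 2 := fun {f A} hf hA h => by
    have : ∫ x, f x ^ 2 ∂D.μ ≤ ∫ _x, A ^ 2 ∂D.μ := by
      refine integral_mono ?_ (integrable_const _) fun x => ?_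
      · simpa [sq] using (hf.mul hf).integrable D.μ
      · exact pow_le_pow_left₀ (h x).1 (h x).2 2
    simpa using this
  -- the bias
  have hb1 : ∫ x, r₀ x * ((D.wb S x : ℝ) / N - (D.wt S x : ℝ) / N) ∂D.μ ≤ ε / (8 * Γ) := by
    have := hm₁ m hm1 (ι := Unit) {()} (fun _ => m) (fun _ => 1) (by simp)
      (by simpa using div_self_le_one _) ⟨0, ?_⟩ ⟨0, ?_⟩
    · simpa using this
    · simpa using sq1 (bdiv bwt) zero_le_one fun x =>
        ⟨by positivity, div_le_one_of_le₀ (hwt x) hN0.le⟩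
    · simpa using sq1 (bdiv bwb) zero_le_one fun x =>
        ⟨by positivity, div_le_one_of_le₀ (hwb x) hN0.le⟩
  have hb2 : ∫ x, (r x - r₀ x) * ((D.wb S (D.fin S x) : ℝ) / N) ∂D.μ ≤ e * 2 := by
    have hbd : Bd fun x => (D.wb S (D.fin S x) : ℝ) / N := (bdiv bwb).comp (hit.meas_fin hS)
    refine (le_abs_self _).trans ((h1 _ (comap_comp (bdiv bwb).1) hbd).trans ?_)
    refine mul_le_mul_of_nonneg_left ?_ he
    refine Real.sqrt_le_iff.2 ⟨zero_le_two, sq1 hbd zero_le_two fun x => ⟨by positivity, ?_⟩⟩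
    exact (div_le_one_of_le₀ (hwb _) hN0.le).trans one_le_two
  have hb3 : ∫ x, r x * ((D.wb S x : ℝ) - D.wt S x) ∂D.μ ≤ N * (ε / (8 * Γ) + 4 * e) := by
    have e1 : ∫ x, r x * ((D.wb S x : ℝ) - D.wt S x) ∂D.μ =
        N * (∫ x, r₀ x * ((D.wb S x : ℝ) / N - (D.wt S x : ℝ) / N) ∂D.μ +
          ∫ x, (r x - r₀ x) * ((D.wb S (D.fin S x) : ℝ) / N) ∂D.μ -
          2 * ∫ x, (r x - r₀ x) * ((D.wt S x : ℝ) / N) ∂D.μ) := by
      have i1 := (br₀.mul ((bdiv bwb).sub (bdiv bwt))).integrable D.μ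
      have i2 := ((br.sub br₀).mul ((bdiv bwb).comp (hit.meas_fin hS))).integrable D.μ
      have i3 := ((br.sub br₀).mul (bdiv bwt)).integrable D.μ
      rw [← integral_add i1 i2, ← integral_const_mul, ← integral_sub (i1.fun_add i2) (i3.const_mul 2),
        ← integral_const_mul]
      refine integral_congr_ae (Eventually.of_forall fun x => ?_)
      simp only [hit.wb_fin x]
      push_cast
      field_simp
      ring
    rw [e1]
    exact mul_le_mul_of_nonneg_left (by linarith) hN0.le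
  have hZ : (N : ℝ) * D.μ.real (d.Z m) ≤ 1 / N := by
    have := d.Z_small m
    have h0 : 0 ≤ D.μ.real (d.Z m) := measureReal_nonneg
    rw [le_div_iff₀ hN0]
    calc (N : ℝ) * D.μ.real (d.Z m) * N = (N : ℝ) ^ 2 * D.μ.real (d.Z m) := by ring
      _ ≤ (N : ℝ) ^ 3 * D.μ.real (d.Z m) :=
        mul_le_mul_of_nonneg_right (pow_le_pow_right₀ hN1 (by norm_num)) h0
      _ ≤ 1 := this
  have hbs := block_sum hS hit br.1 hr1 hG hG1 hmono
  obtain ⟨G₀, hG₀, hG₀1, hG₀2⟩ := block_const hS hit br.1 hr1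
    (b := ε / (8 * Γ) + 4 * e + 2 / N) hΓ (by
      have : 2 * (N : ℝ) * D.μ.real Gᶜ ≤ N * (2 / N) := by
        have := mul_le_mul_of_nonneg_left (hGc.trans hZ) (show (0 : ℝ) ≤ 2 * N by positivity)
        refine this.trans (le_of_eq ?_)
        ring
      linarith) hδ
  set g : X → ℝ := fun x => G₀ (D.fin S x) with hg
  have bG₀ : Bd G₀ := Bd.of_bound hG₀ hG₀1
  have bg : Bd g := bG₀.comp (hit.meas_fin hS)
  have hg1 : ∀ x, 0 ≤ g x ∧ g x ≤ 1 := fun x => hG₀1 _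
  have hgsq : ∫ x, g x ^ 2 ∂D.μ ≤ 1 := by simpa using sq1 bg zero_le_one hg1
  have hgv : ∫ x, |g (D.σ 1 x) - g x| ∂D.μ ≤ η := by
    refine le_trans ?_ (hm₂ m hm2)
    rw [← integral_indicator_one hS]
    refine integral_mono (((bg.comp (meas_σ 1)).sub bg).abs.integrable D.μ)
      ((Bd.indicator_one hS).integrable D.μ) fun x => ?_
    by_cases hx : x ∈ S
    · simp only [Set.indicator_of_mem hx, Pi.one_apply]
      have := hg1 x; have := hg1 (D.σ 1 x)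
      rw [abs_le]; constructor <;> linarith
    · simp [hg, hit.fin_succ hx, hx]
  have hE1 := hErg g bg hgsq hgv
  have ht₀ : ∫ x, r₀ x ∂D.μ = (D.τ p).re := integral_ρ hp
  have ht : ∫ x, r x ∂D.μ = (D.τ p).re := by
    rw [hr, integral_ρ (rw_proj hp hu), τ_rw hp hu]
  obtain ⟨ht0, ht1⟩ := hp.τ_mem
  set t := (D.τ p).re
  have hz : ∫ x, (r x - r₀ x) * g x ∂D.μ ≤ e := by
    refine (le_abs_self _).trans ((h1 _ (comap_comp hG₀) bg).trans ?_)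
    have : √(∫ x, g x ^ 2 ∂D.μ) ≤ 1 := Real.sqrt_le_iff.2 ⟨zero_le_one, by simpa using hgsq⟩
    nlinarith
  have iabs := (br.sub bg).abs.integrable D.μ
  have s1 : ∫ x, r x ^ 2 ∂D.μ ≤ ∫ x, |r x - g x| ∂D.μ + ∫ x, (r x - r₀ x) * g x ∂D.μ +
      ∫ x, r₀ x * g x ∂D.μ := by
    have i2 := ((br.sub br₀).mul bg).integrable D.μ
    have i3 := (br₀.mul bg).integrable D.μ
    rw [← integral_add iabs i2, ← integral_add (iabs.fun_add i2) i3]
    refine integral_mono (by simpa [sq] using (br.mul br).integrable D.μ) ((iabs.fun_add i2).fun_add i3)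
      fun x => ?_
    have h3 := hr1 x
    have h4 : r x * (r x - g x) ≤ |r x - g x| :=
      (mul_le_mul_of_nonneg_left (le_abs_self _) h3.1).trans
        (mul_le_of_le_one_left (abs_nonneg _) h3.2)
    simp only
    nlinarith
  have s2 : ∫ x, g x ∂D.μ ≤ t + ∫ x, |r x - g x| ∂D.μ := by
    rw [← ht, ← integral_add (br.integrable D.μ) iabs]
    refine integral_mono (bg.integrable D.μ) ((br.integrable D.μ).add iabs) fun x => ?_
    have := neg_abs_le (r x - g x)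
    simp only
    linarith
  have habs0 : 0 ≤ ∫ x, |r x - g x| ∂D.μ := integral_nonneg fun x => abs_nonneg _
  have s3 : t * ∫ x, g x ∂D.μ ≤ t ^ 2 + ∫ x, |r x - g x| ∂D.μ := by
    have := mul_le_mul_of_nonneg_left s2 ht0
    nlinarith
  rw [ht₀] at hE1
  have s4 := (abs_le.1 hE1).2
  have c1 : Γ * (ε / (8 * Γ)) = ε / 8 := by field_simp
  have c2 : (8 * Γ + 1) * e ≤ ε / 4 := by
    rw [le_div_iff₀ (by positivity)] at he₀
    linarith
  have c3 : Γ * (2 / N) ≤ ε / 8 := by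
    have : 16 * Γ ≤ N * ε := by
      have : 16 * Γ / ε ≤ N := by linarith
      rwa [div_le_iff₀ hε] at this
    rw [← mul_div_assoc, div_le_iff₀ hN0]
    linarith
  have hG₀2' : ∫ x, |r x - g x| ∂D.μ ≤ Γ * (ε / (8 * Γ) + 4 * e + 2 / N) + δ := hG₀2
  nlinarith

/-- PLAN. If `t = re τ p ∈ (0,1)` let `δ = ε = t(1-t)/10`, `Γ` from `d.sep`. Take `m` large
(`sq_le`, `bias_small` with `f = ρ p` and `ε/20`, `e = √(1/(m+1)) ≥ 1/(m+1)` small, `Γ/N m` small),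
`u` from `exists_rw` (cost from `d.cost m m`), `Rr` with `En_tail ≤ ε`, then the weights.
`off_le`, `energy_sum`, `sq_le`, `τ_rw`: `t - t² ≤ 3δ + (a few) ε < t(1-t)`. `Proj.trivial`. -/
theorem main (d : Design D φ) (hE : D.Erg) (hp : D.Proj p)
    (hinv : D.Inv p fun x => Real.exp (-φ x)) : p = 0 ∨ p = 1 := by
  refine hp.trivial ?_
  by_contra hcon
  push Not at hcon
  obtain ⟨ht0, ht1⟩ := hp.τ_mem
  set t := (D.τ p).re with htdef
  have ht0' : 0 < t := lt_of_le_of_ne ht0 hcon.1.symm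
  have ht1' : t < 1 := lt_of_le_of_ne ht1 hcon.2
  obtain ⟨κ, hκ⟩ : ∃ κ, κ = t * (1 - t) / 20 := ⟨_, rfl⟩
  have hκ0 : 0 < κ := by rw [hκ]; have : 0 < 1 - t := by linarith
                         positivity
  obtain ⟨Γ, hΓ, hsep⟩ := d.sep κ hκ0
  have hΓ0 : 0 < Γ := by linarith
  obtain ⟨m₁, e₀, he₀, hm₁⟩ := sq_le d hE hp (δ := κ) hΓ hκ0
  obtain ⟨m₂, hm₂⟩ := bias_small d hE (bd_ρ p) hΓ0 hκ0
  have hlim : Tendsto (fun m : ℕ => √(1 / (m + 1 : ℝ))) atTop (𝓝 0) := by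
    simpa using (tendsto_one_div_add_atTop_nhds_zero_nat (𝕜 := ℝ)).sqrt
  obtain ⟨m₃, hm₃⟩ := eventually_atTop.1 ((hlim.eventually (ge_mem_nhds he₀)).and
    ((hlim.eventually (ge_mem_nhds (show 0 < κ / (12 * Γ) by positivity))).and
    ((tendsto_natCast_atTop_atTop (R := ℝ)).comp d.N_tend |>.eventually_ge_atTop
      (8 * Γ / κ + 1))))
  obtain ⟨m, hm, hδ, hR⟩ := hsep (max m₁ (max m₂ m₃))
  have hm1 : m₁ ≤ m := le_trans (le_max_left _ _) hm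
  have hm2 : m₂ ≤ m := le_trans ((le_max_left _ _).trans (le_max_right _ _)) hm
  have hm3 : m₃ ≤ m := le_trans ((le_max_right _ _).trans (le_max_right _ _)) hm
  obtain ⟨he1, he2, hN⟩ := hm₃ m hm3
  have hN' : 8 * Γ / κ + 1 ≤ (d.N m : ℝ) := hN
  have hq : 0 ≤ 8 * Γ / κ := by positivity
  have hN0 : (0 : ℝ) < d.N m := by linarith
  have hC := d.C_nonneg m
  obtain ⟨u, hu, huK, h1, h2, h3, G, hG, hGc, hG1, hmono⟩ :=
    exists_rw hp d.φ_meas d.φ_nonneg hinv (d.S_meas m) (d.Z_meas m) (d.hit m) (d.φ_ge m)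
      (d.φ_le m) hC m (by
        have := d.cost m m le_rfl
        have h0 : 0 ≤ (d.N m : ℝ) * d.C m := by positivity
        linarith)
  set e := √(1 / (m + 1 : ℝ)) with hedef
  have he : 0 ≤ e := Real.sqrt_nonneg _
  have hme : 1 / (m + 1 : ℝ) ≤ e := by
    have h0 : (0 : ℝ) ≤ 1 / (m + 1 : ℝ) := by positivity
    have h1 : 1 / (m + 1 : ℝ) ≤ 1 := by
      rw [div_le_one (by positivity)]; have : (0 : ℝ) ≤ m := by positivity
      linarith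
    refine Real.le_sqrt_of_sq_le ?_
    nlinarith
  have h2' : -e ≤ ∫ x, (D.ρ (D.rw p u) x - D.ρ p x) * ((D.wt (d.S m) x : ℝ) / d.N m) ∂D.μ := by
    linarith
  obtain ⟨Rr, hRr⟩ := ((En_tail (D.rw p u)).eventually (ge_mem_nhds hκ0)).exists
  obtain ⟨I, lev, w, hw, hΓ1, ⟨c₀, hΓ2⟩, hΓ3, Bad, hBad, hBadμ, hsep'⟩ := hR Rr
  have hsq := hm₁ m hm1 e he he1 u hu h1 h2' G hG hGc hG1 hmono hδ
  have hbias := hm₂ m hm2 I lev w (fun a ha => (hw a ha).2) hΓ1 ⟨c₀, hΓ2⟩ hΓ3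
  have hen := energy_sum d hp hinv m hu huK he h1 h2' I lev w hw hΓ0.le hΓ1 hΓ2
  have hoff := off_le (rw_proj hp hu) ((d.hit m).meas_IB (d.S_meas m)) hBad
    (Φ := fun q => ∑ a ∈ I, w a *
        (|(D.wt (d.S (lev a)) (D.σ q.2 q.1) : ℝ) - D.wt (d.S (lev a)) q.1| / d.N (lev a)))
    (Bd.finset_sum I fun a _ => (Bd.const _).mul (by
      simpa [div_eq_mul_inv, Sys.Δ] using
        (bd_Δ ((d.hit (lev a)).bd_wt (d.S_meas _))).abs.mul (Bd.const ((d.N (lev a) : ℝ)⁻¹))))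
    (fun q => Finset.sum_nonneg fun a ha => mul_nonneg (hw a ha).2 (by positivity)) Rr hsep'
  rw [τ_rw hp hu, ← htdef] at hoff
  have c1 : 12 * Γ * e ≤ κ := by
    rw [le_div_iff₀ (by positivity)] at he2; linarith
  have c2 : 2 / (m + 1 : ℝ) ≤ κ := by
    have : 2 / (m + 1 : ℝ) = 2 * (1 / (m + 1 : ℝ)) := by ring
    nlinarith
  have c3 : 4 * (2 * Γ / d.N m) ≤ κ := by
    have : 8 * Γ ≤ d.N m * κ := by
      have : 8 * Γ / κ ≤ d.N m := by linarith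
      rwa [div_le_iff₀ hκ0] at this
    rw [← mul_div_assoc, div_le_iff₀ hN0]
    linarith
  nlinarith

end Crest.Agent.R113
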