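import Crest.Agent.R113.Defs

/-! Row 113: multiplication operators. -/

set_option autoImplicit false

open MeasureTheory Filter Topology
open scoped ENNReal

namespace Crest.Agent.R113

section Bd
variable {Y : Type*} [MeasurableSpace Y]

theorem Bd.comp {Z E : Type*} [MeasurableSpace Z] [MeasurableSpace E] [Norm E] {F : Y → E}
    (hF : Bd F) {g : Z → Y} (hg : Measurable g) : Bd (fun z => F (g z)) := by
  obtain ⟨h1, C, h2⟩ := hF
  exact ⟨h1.comp hg, C, fun z => h2 _⟩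

theorem Bd.const {E : Type*} [MeasurableSpace E] [Norm E] (c : E) : Bd (fun _ : Y => c) :=
  ⟨measurable_const, ‖c‖, fun _ => le_rfl⟩

theorem Bd.add {𝕜 : Type*} [RCLike 𝕜] {f g : Y → 𝕜} (hf : Bd f) (hg : Bd g) :
    Bd (fun y => f y + g y) := by
  obtain ⟨h1, C, h2⟩ := hf
  obtain ⟨h3, C', h4⟩ := hg
  exact ⟨h1.add h3, C + C', fun y => (norm_add_le _ _).trans (add_le_add (h2 y) (h4 y))⟩

theorem Bd.neg {𝕜 : Type*} [RCLike 𝕜] {f : Y → 𝕜} (hf : Bd f) : Bd (fun y => - f y) := by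
  obtain ⟨h1, C, h2⟩ := hf
  exact ⟨h1.neg, C, fun y => by simpa using h2 y⟩

theorem Bd.sub {𝕜 : Type*} [RCLike 𝕜] {f g : Y → 𝕜} (hf : Bd f) (hg : Bd g) :
    Bd (fun y => f y - g y) := by
  simpa [sub_eq_add_neg] using hf.add hg.neg

theorem Bd.mul {𝕜 : Type*} [RCLike 𝕜] {f g : Y → 𝕜} (hf : Bd f) (hg : Bd g) :
    Bd (fun y => f y * g y) := by
  obtain ⟨h1, C, h2⟩ := hf
  obtain ⟨h3, C', h4⟩ := hg
  refine ⟨h1.mul h3, C * C', fun y => ?_⟩
  rw [norm_mul]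
  exact mul_le_mul (h2 y) (h4 y) (norm_nonneg _) ((norm_nonneg _).trans (h2 y))

theorem Bd.finset_sum {𝕜 ι : Type*} [RCLike 𝕜] (s : Finset ι) {f : ι → Y → 𝕜}
    (hf : ∀ i ∈ s, Bd (f i)) : Bd (fun y => ∑ i ∈ s, f i y) := by
  classical
  induction s using Finset.induction_on with
  | empty => simpa using Bd.const (Y := Y) (0 : 𝕜)
  | insert a s ha ih =>
    simp only [Finset.sum_insert ha]
    exact (hf a (Finset.mem_insert_self _ _)).add
      (ih fun i hi => hf i (Finset.mem_insert_of_mem hi))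

theorem Bd.ofReal {f : Y → ℝ} (hf : Bd f) : Bd (fun y => (f y : ℂ)) := by
  obtain ⟨h1, C, h2⟩ := hf
  exact ⟨Complex.measurable_ofReal.comp h1, C, fun y => by simpa using h2 y⟩

theorem Bd.exp {f : Y → ℝ} (hf : Bd f) : Bd (fun y => Real.exp (f y)) := by
  obtain ⟨h1, C, h2⟩ := hf
  refine ⟨Real.measurable_exp.comp h1, Real.exp C, fun y => ?_⟩
  rw [Real.norm_eq_abs, abs_of_pos (Real.exp_pos _)]
  exact Real.exp_le_exp.2 ((le_abs_self _).trans (h2 y))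

theorem Bd.abs {f : Y → ℝ} (hf : Bd f) : Bd (fun y => |f y|) := by
  obtain ⟨h1, C, h2⟩ := hf
  exact ⟨h1.abs, C, fun y => by simpa using h2 y⟩

theorem Bd.of_bound {f : Y → ℝ} (h1 : Measurable f) {a b : ℝ} (h : ∀ y, a ≤ f y ∧ f y ≤ b) :
    Bd f :=
  ⟨h1, max |a| |b|, fun y => abs_le_max_abs_abs (h y).1 (h y).2⟩

theorem Bd.indicator_one {A : Set Y} (hA : MeasurableSet A) :
    Bd (A.indicator (1 : Y → ℝ)) :=
  Bd.of_bound (measurable_one.indicator hA) (a := 0) (b := 1) fun y => by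
    by_cases h : y ∈ A <;> simp [h]

theorem Bd.memLp {E : Type*} [NormedAddCommGroup E] [MeasurableSpace E] [BorelSpace E]
    [SecondCountableTopology E] {f : Y → E} (hf : Bd f) (ν : Measure Y) : MemLp f ∞ ν := by
  obtain ⟨h1, C, h2⟩ := hf
  exact memLp_top_of_bound h1.aestronglyMeasurable C (Eventually.of_forall h2)

theorem Bd.memLp_fin {E : Type*} [NormedAddCommGroup E] [MeasurableSpace E] [BorelSpace E]
    [SecondCountableTopology E] {f : Y → E} (hf : Bd f) (ν : Measure Y) [IsFiniteMeasure ν]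
    (p : ℝ≥0∞) : MemLp f p ν :=
  (hf.memLp ν).mono_exponent le_top

theorem Bd.integrable {E : Type*} [NormedAddCommGroup E] [MeasurableSpace E] [BorelSpace E]
    [SecondCountableTopology E] {f : Y → E} (hf : Bd f) (ν : Measure Y) [IsFiniteMeasure ν] :
    Integrable f ν :=
  memLp_one_iff_integrable.1 (hf.memLp_fin ν 1)

end Bd

section Mul
variable {Y : Type*} [MeasurableSpace Y] {ν : Measure Y}

theorem mulOp_ae {F : Y → ℂ} (hF : Bd F) (g : Lp ℂ 2 ν) :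
    (mulOp ν F g : Y → ℂ) =ᵐ[ν] fun y => F y * g y := by
  have h := hF.memLp ν
  rw [mulOp, dif_pos h]
  filter_upwards [(ContinuousLinearMap.lsmul ℂ ℂ).coeFn_holder (r := 2) (h.toLp F) g,
    h.coeFn_toLp] with y h1 h2
  simpa [h2] using h1

theorem mulOp_congr {F G : Y → ℂ} (hF : Bd F) (hG : Bd G) (h : F =ᵐ[ν] G) :
    mulOp ν F = mulOp ν G := by
  ext1 g
  apply Lp.ext
  filter_upwards [mulOp_ae hF g, mulOp_ae hG g, h] with y h1 h2 h3
  rw [h1, h2, h3]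

theorem mulOp_mul {F G : Y → ℂ} (hF : Bd F) (hG : Bd G) :
    mulOp ν F * mulOp ν G = mulOp ν (fun y => F y * G y) := by
  ext1 g
  apply Lp.ext
  filter_upwards [mulOp_ae hF (mulOp ν G g), mulOp_ae hG g, mulOp_ae (hF.mul hG) g]
    with y h1 h2 h3
  rw [ContinuousLinearMap.mul_apply, h1, h2, h3, mul_assoc]

theorem mulOp_add {F G : Y → ℂ} (hF : Bd F) (hG : Bd G) :
    mulOp ν (fun y => F y + G y) = mulOp ν F + mulOp ν G := by
  ext1 g
  apply Lp.ext
  filter_upwards [mulOp_ae hF g, mulOp_ae hG g, mulOp_ae (hF.add hG) g,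
    Lp.coeFn_add (mulOp ν F g) (mulOp ν G g)] with y h1 h2 h3 h4
  rw [ContinuousLinearMap.add_apply, h4, h3, Pi.add_apply, h1, h2, add_mul]

theorem mulOp_const (c : ℂ) : mulOp ν (fun _ => c) = c • 1 := by
  ext1 g
  apply Lp.ext
  filter_upwards [mulOp_ae (Bd.const c) g, Lp.coeFn_smul c g] with y h1 h2
  rw [h1, ContinuousLinearMap.smul_apply, ContinuousLinearMap.one_apply, h2]
  rfl

theorem mulOp_smul {F : Y → ℂ} (hF : Bd F) (c : ℂ) :
    mulOp ν (fun y => c * F y) = c • mulOp ν F := by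
  rw [← mulOp_mul (Bd.const c) hF, mulOp_const, smul_mul_assoc, one_mul]

theorem mulOp_sub {F G : Y → ℂ} (hF : Bd F) (hG : Bd G) :
    mulOp ν (fun y => F y - G y) = mulOp ν F - mulOp ν G := by
  rw [eq_sub_iff_add_eq, ← mulOp_add (hF.sub hG) hG]
  simp

theorem Bd.conj {F : Y → ℂ} (hF : Bd F) : Bd (fun y => (starRingEnd ℂ) (F y)) := by
  obtain ⟨h1, C, h2⟩ := hF
  exact ⟨Complex.continuous_conj.measurable.comp h1, C, fun y => by simpa using h2 y⟩

theorem star_mulOp {F : Y → ℂ} (hF : Bd F) :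
    star (mulOp ν F) = mulOp ν (fun y => (starRingEnd ℂ) (F y)) := by
  rw [ContinuousLinearMap.star_eq_adjoint, eq_comm, ContinuousLinearMap.eq_adjoint_iff]
  intro g h
  rw [L2.inner_def, L2.inner_def]
  apply integral_congr_ae
  filter_upwards [mulOp_ae hF.conj g, mulOp_ae hF h] with y h1 h2
  rw [h1, h2]
  simp only [RCLike.inner_apply, map_mul, Complex.conj_conj]
  ring

theorem norm_mulOp_le {F : Y → ℂ} (hF : Bd F) {C : ℝ} (hC : 0 ≤ C) (h : ∀ᵐ y ∂ν, ‖F y‖ ≤ C) :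
    ‖mulOp ν F‖ ≤ C := by
  refine ContinuousLinearMap.opNorm_le_bound _ hC fun g => ?_
  apply Lp.norm_le_mul_norm_of_ae_le_mul
  filter_upwards [mulOp_ae hF g, h] with y h1 h2
  rw [h1, norm_mul]
  exact mul_le_mul_of_nonneg_right h2 (norm_nonneg _)

theorem norm_sq_eq (g : Lp ℂ 2 ν) : ‖g‖ ^ 2 = ∫ y, ‖(g : Y → ℂ) y‖ ^ 2 ∂ν := by
  have h := L2.inner_def (𝕜 := ℂ) g g
  rw [inner_self_eq_norm_sq_to_K] at h
  have h2 : (fun y => inner ℂ ((g : Y → ℂ) y) ((g : Y → ℂ) y)) =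
      fun y => ((‖(g : Y → ℂ) y‖ ^ 2 : ℝ) : ℂ) := by
    funext y; rw [inner_self_eq_norm_sq_to_K]; simp
  rw [h2, integral_complex_ofReal] at h
  have h3 : ((‖g‖ ^ 2 : ℝ) : ℂ) = ((∫ y, ‖(g : Y → ℂ) y‖ ^ 2 ∂ν : ℝ) : ℂ) := by
    rw [← h]; simp
  exact_mod_cast h3

theorem integrable_norm_sq (g : Lp ℂ 2 ν) : Integrable (fun y => ‖(g : Y → ℂ) y‖ ^ 2) ν :=
  (memLp_two_iff_integrable_sq_norm (Lp.aestronglyMeasurable g)).1 (Lp.memLp g)

end Mul

end Crest.Agent.R113
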