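import Crest.Agent.R113.Rw
import Crest.Agent.R113.Dens

/-! Row 113: monotonicity along the paths `s ↦ rw P (u + s g)`. -/

set_option autoImplicit false

open MeasureTheory Filter Topology
open scoped ENNReal

namespace Crest.Agent.R113.Sys

variable {X : Type*} [MeasurableSpace X] {D : Sys X} {P : D.H →L[ℂ] D.H} {u g : X → ℝ}

theorem proj_path (hP : D.Proj P) (hu : Bd u) (hg : Bd g) (s : ℝ) :
    D.Proj (D.rw P fun x => u x + s * g x) := rw_proj hP (hu.add ((Bd.const s).mul hg))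

/-- PLAN. `∫ f ρ = re τ(π f * Q) = re ⟪π f Ω, Q Ω⟫` (`τ_π_mul`, `τ_star_mul`, `star_π`);
`hasDerivAt_rw`, `τ_π_deriv`. -/
theorem hasDerivAt_pair (hP : D.Proj P) (hu : Bd u) (hg : Bd g) {f : X → ℝ} (hf : Bd f) (s₀ : ℝ) :
    HasDerivAt (fun s : ℝ => ∫ x, f x * D.ρ (D.rw P fun x => u x + s * g x) x ∂D.μ)
      (D.En (D.rw P fun x => u x + s₀ * g x) fun p => D.Δ f p * D.Δ g p) s₀ := by
  have h := (Complex.reCLM.comp ((innerSL ℂ (D.π f D.Ω)).restrictScalars ℝ)).hasFDerivAt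
    |>.comp_hasDerivAt s₀ (hasDerivAt_rw hP hu hg s₀)
  refine (h.congr_of_eventuallyEq (Eventually.of_forall fun s => ?_)).congr_deriv ?_
  · exact congrArg Complex.re (pair_eq_inner (proj_path hP hu hg s) hf)
  · have := τ_π_deriv (proj_path hP hu hg s₀) hf hg
    rw [← star_π hf, τ_star_mul] at this
    exact congrArg Complex.re this

theorem pair_monotone (hP : D.Proj P) (hu : Bd u) (hg : Bd g) {f : X → ℝ} (hf : Bd f)
    (h : ∀ p, 0 ≤ D.Δ f p * D.Δ g p) :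
    Monotone fun s : ℝ => ∫ x, f x * D.ρ (D.rw P fun x => u x + s * g x) x ∂D.μ :=
  monotone_of_deriv_nonneg (fun s => (hasDerivAt_pair hP hu hg hf s).differentiableAt) fun s => by
    rw [(hasDerivAt_pair hP hu hg hf s).deriv]
    exact En_nonneg _ h

theorem gain_mvt (hP : D.Proj P) (hu : Bd u) (hg : Bd g) : ∃ c ∈ Set.Ioo (0 : ℝ) 1,
    D.En (D.rw P fun x => u x + c * g x) (fun p => D.Δ g p ^ 2) =
      ∫ x, g x * D.ρ (D.rw P fun x => u x + g x) x ∂D.μ - ∫ x, g x * D.ρ (D.rw P u) x ∂D.μ := by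
  obtain ⟨c, hc, e⟩ := exists_hasDerivAt_eq_slope _ _ zero_lt_one
    (fun s _ => (hasDerivAt_pair hP hu hg hg s).continuousAt.continuousWithinAt)
    (fun s _ => hasDerivAt_pair hP hu hg hg s)
  refine ⟨c, hc, ?_⟩
  simpa only [sq, one_mul, zero_mul, add_zero, sub_zero, div_one] using e

/-- comonotone reweightings increase the mass (`monotone_of_deriv_nonneg`) -/
theorem pair_mono (hP : D.Proj P) (hu : Bd u) (hg : Bd g) {f : X → ℝ} (hf : Bd f)
    (h : ∀ p, 0 ≤ D.Δ f p * D.Δ g p) :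
    ∫ x, f x * D.ρ (D.rw P u) x ∂D.μ ≤ ∫ x, f x * D.ρ (D.rw P fun x => u x + g x) x ∂D.μ := by
  simpa only [one_mul, zero_mul, add_zero] using pair_monotone hP hu hg hf h zero_le_one

/-- PLAN. mean value inequality with `norm_deriv_sq`, `En_Δ_sq_le`. -/
theorem rw_lip (hP : D.Proj P) (hu : Bd u) (hg : Bd g) :
    ‖D.rw P (fun x => u x + g x) D.Ω - D.rw P u D.Ω‖ ≤ 2 * √(∫ x, g x ^ 2 ∂D.μ) := by
  have h := norm_image_sub_le_of_norm_deriv_le_segment_01' (C := 2 * √(∫ x, g x ^ 2 ∂D.μ))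
    (fun s _ => (hasDerivAt_rw hP hu hg s).hasDerivWithinAt) fun s _ => ?_
  · simpa only [one_mul, zero_mul, add_zero] using h
  · have h1 := (norm_deriv_sq (proj_path hP hu hg s) hg).trans_le
      (En_Δ_sq_le (proj_path hP hu hg s) hg)
    refine (pow_le_pow_iff_left₀ (norm_nonneg _) (by positivity) two_ne_zero).1 (h1.trans_eq ?_)
    rw [mul_pow, Real.sq_sqrt (integral_nonneg fun x => sq_nonneg _)]
    norm_num

/-- PLAN. `e s = √(En^s (Δg²))`, `φ s = ∫ g ρ^s`, `φ' = e²`, `‖ξ'‖ = e`, `G = φ 1 - φ 0 ≥ 0`.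
For `a > 0`: `‖ξ s - ξ 0‖ ≤ a s + (φ s - φ 0)/(4a) ≤ a + G/(4a)` on `[0,1]` (as `e ≤ a + e²/(4a)`;
`image_norm_le_of_norm_deriv_right_le_deriv_boundary`), so `‖ξ s - ξ 0‖ ≤ √G`. The mean value theorem
gives `s` with `e s ² = G`; `sqrt_En_lip` gives `e 0 ≤ 2 √G`. -/
theorem gain_one (hP : D.Proj P) (hu : Bd u) (hg : Bd g) (h : ∀ p, |D.Δ g p| ≤ 1) :
    D.En (D.rw P u) (fun p => D.Δ g p ^ 2) ≤
      4 * (∫ x, g x * D.ρ (D.rw P fun x => u x + g x) x ∂D.μ -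
        ∫ x, g x * D.ρ (D.rw P u) x ∂D.μ) := by
  obtain ⟨c, hc, e⟩ := gain_mvt hP hu hg
  have hm := pair_monotone hP hu hg hg fun p => mul_self_nonneg _
  have hd := hasDerivAt_pair hP hu hg hg
  set φ : ℝ → ℝ := fun s => ∫ x, g x * D.ρ (D.rw P fun x => u x + s * g x) x ∂D.μ with hφ
  have hG : φ 1 - φ 0 = ∫ x, g x * D.ρ (D.rw P fun x => u x + g x) x ∂D.μ -
      ∫ x, g x * D.ρ (D.rw P u) x ∂D.μ := by
    simp only [hφ, one_mul, zero_mul, add_zero]
  rw [← hG] at e ⊢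
  have hG0 : 0 ≤ φ 1 - φ 0 := sub_nonneg.2 (hm zero_le_one)
  have key : ∀ a > 0, ‖D.rw P (fun x => u x + c * g x) D.Ω - D.rw P u D.Ω‖ ≤
      a + (φ 1 - φ 0) / (4 * a) := by
    intro a ha
    have hx := fun s => (hasDerivAt_rw hP hu hg s).sub_const (D.rw P u D.Ω)
    have hB : ∀ s, HasDerivAt (fun s => a * s + (φ s - φ 0) / (4 * a)) _ s := fun s =>
      ((hasDerivAt_id s).const_mul a).add (((hd s).sub_const (φ 0)).div_const (4 * a))
    have := image_norm_le_of_norm_deriv_right_le_deriv_boundary (a := 0) (b := 1)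
      (fun s _ => (hx s).continuousAt.continuousWithinAt) (fun s _ => (hx s).hasDerivWithinAt)
      (by simp) hB (fun s _ => ?_) ⟨hc.1.le, hc.2.le⟩
    · refine this.trans (add_le_add (mul_le_of_le_one_right ha.le hc.2.le) ?_)
      exact div_le_div_of_nonneg_right (sub_le_sub_right (hm hc.2.le) _) (by positivity)
    · have h1 := norm_deriv_sq (proj_path hP hu hg s) hg
      simp only [← sq]
      have aux : ∀ t : ℝ, t ≤ a * 1 + t ^ 2 / (4 * a) := fun t => by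
        rw [mul_one, ← sub_le_iff_le_add', le_div_iff₀ (by positivity)]
        nlinarith [sq_nonneg (t - 2 * a)]
      rw [← h1]
      exact aux _
  have h1 : ‖D.rw P (fun x => u x + c * g x) D.Ω - D.rw P u D.Ω‖ ≤ √(φ 1 - φ 0) := by
    refine le_of_forall_pos_le_add fun ε hε => (key ((√(φ 1 - φ 0) + ε) / 2) (by positivity)).trans ?_
    have h2 : (φ 1 - φ 0) / (4 * ((√(φ 1 - φ 0) + ε) / 2)) ≤ √(φ 1 - φ 0) / 2 := by
      rw [div_le_iff₀ (by positivity)]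
      nlinarith [Real.mul_self_sqrt hG0, Real.sqrt_nonneg (φ 1 - φ 0)]
    linarith
  have h2 := sqrt_En_lip (D.rw P u) (D.rw P fun x => u x + c * g x) (bd_Δ hg) h
  rw [e, norm_sub_rev] at h2
  have h3 : √(D.En (D.rw P u) fun p => D.Δ g p ^ 2) ≤ 2 * √(φ 1 - φ 0) := by linarith
  have h4 := pow_le_pow_left₀ (Real.sqrt_nonneg _) h3 2
  rw [Real.sq_sqrt (En_nonneg _ fun p => sq_nonneg _), mul_pow, Real.sq_sqrt hG0] at h4
  linarith

/-- PLAN. mean value theorem: the gain is `En^s (Δg²) ≥ l² En^s 1_I ≥ l² (En^0 1_I - 2‖ξ s - ξ 0‖)`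
(`En_mono`, `En_lip`, `rw_lip` for `s g`). -/
theorem gain_set (hP : D.Proj P) (hu : Bd u) (hg : Bd g) {I : Set (X × ℤ)} (hI : MeasurableSet I)
    {l : ℝ} (hl : 0 ≤ l) (h : ∀ p ∈ I, l ≤ |D.Δ g p|) :
    l ^ 2 * (D.En (D.rw P u) (I.indicator 1) - 4 * √(∫ x, g x ^ 2 ∂D.μ)) ≤
      ∫ x, g x * D.ρ (D.rw P fun x => u x + g x) x ∂D.μ - ∫ x, g x * D.ρ (D.rw P u) x ∂D.μ := by
  obtain ⟨c, hc, e⟩ := gain_mvt hP hu hg
  have hb := Bd.indicator_one hI
  have h1 := En_mono (D.rw P fun x => u x + c * g x) ((Bd.const (l ^ 2)).mul hb)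
    (Ψ := fun p => D.Δ g p ^ 2) (by simpa only [sq] using (bd_Δ hg).mul (bd_Δ hg)) fun p => by
      by_cases hp : p ∈ I
      · rw [Set.indicator_of_mem hp, Pi.one_apply, mul_one, ← sq_abs (D.Δ g p)]
        exact pow_le_pow_left₀ hl (h p hp) 2
      · rw [Set.indicator_of_notMem hp, mul_zero]
        positivity
  rw [En_smul, e] at h1
  refine le_trans (mul_le_mul_of_nonneg_left ?_ (sq_nonneg l)) h1
  have h2 := En_lip (rw_proj hP hu) (proj_path hP hu hg c) hb fun p => by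
    by_cases hp : p ∈ I <;> simp [hp]
  have h3 := rw_lip hP hu ((Bd.const c).mul hg)
  have h4 : √(∫ x, (c * g x) ^ 2 ∂D.μ) ≤ √(∫ x, g x ^ 2 ∂D.μ) := by
    refine Real.sqrt_le_sqrt ?_
    simp only [mul_pow]
    rw [integral_const_mul]
    exact mul_le_of_le_one_left (integral_nonneg fun x => sq_nonneg _)
      (pow_le_one₀ hc.1.le hc.2.le)
  rw [norm_sub_rev] at h3
  linarith [le_abs_self (D.En (D.rw P u) (I.indicator 1) -
    D.En (D.rw P fun x => u x + c * g x) (I.indicator 1))]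

/-- monotonicity of `u ↦ ρ (rw P u)` -/
theorem ρ_monotone (hP : D.Proj P) (hu : Bd u) {v : X → ℝ} (hv : Bd v) :
    0 ≤ ∫ x, (D.ρ (D.rw P u) x - D.ρ (D.rw P v) x) * (u x - v x) ∂D.μ := by
  have h := pair_mono hP hv (hu.sub hv) (hu.sub hv) fun p => mul_self_nonneg _
  simp only [add_sub_cancel] at h
  rw [← sub_nonneg, ← integral_sub (((hu.sub hv).mul (bd_ρ _)).integrable _)
    (((hu.sub hv).mul (bd_ρ _)).integrable _)] at h
  refine h.trans_eq (integral_congr_ae (Eventually.of_forall fun x => ?_))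
  ring

/-- Lipschitz property of `u ↦ ρ (rw P u)` -/
theorem ρ_lip (hP : D.Proj P) (hu : Bd u) {v : X → ℝ} (hv : Bd v) :
    ∫ x, (D.ρ (D.rw P u) x - D.ρ (D.rw P v) x) ^ 2 ∂D.μ ≤ 4 * ∫ x, (u x - v x) ^ 2 ∂D.μ := by
  have h := rw_lip hP hv (hu.sub hv)
  simp only [add_sub_cancel] at h
  refine (ρ_dist (rw_proj hP hu) (rw_proj hP hv)).trans
    ((pow_le_pow_left₀ (norm_nonneg _) h 2).trans_eq ?_)
  rw [mul_pow, Real.sq_sqrt (integral_nonneg fun x => sq_nonneg _)]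
  norm_num

end Crest.Agent.R113.Sys
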