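import Crest.Agent.R113.Wait

/-! Row 113: the weight function. -/

set_option autoImplicit false

open MeasureTheory Filter Topology
open scoped ENNReal

namespace Crest.Agent.R113

local notation "μT" => (AddCircle.haarAddCircle : Measure UnitAddCircle)

private theorem phi_haar : μT = volume := by
  rw [AddCircle.volume_eq_smul_haarAddCircle]; simp

private theorem phi_eta {W : Set UnitAddCircle} (hW : IsClosed W) {ε δ : ℝ} (hε : 0 < ε)
    (hδ : 0 < δ) : ∃ η, 0 < η ∧ η ≤ δ ∧ (μT) (Metric.thickening η W \ W) ≤ ENNReal.ofReal ε := by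
  have h1 := tendsto_measure_thickening_of_isClosed (μ := μT) (s := W)
    ⟨1, one_pos, measure_ne_top _ _⟩ hW
  have h2 : (μT) W < (μT) W + ENNReal.ofReal ε :=
    ENNReal.lt_add_right (measure_ne_top _ _) (ENNReal.ofReal_pos.2 hε).ne'
  obtain ⟨η, h3, h4⟩ := ((h1.eventually (gt_mem_nhds h2)).and (Ioc_mem_nhdsGT hδ)).exists
  refine ⟨η, h4.1, h4.2, ?_⟩
  rw [measure_sdiff (Metric.self_subset_thickening h4.1 W) hW.measurableSet.nullMeasurableSet
    (measure_ne_top _ _)]
  exact tsub_le_iff_left.2 h3.le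

/-- the pair `(C i, c i)` -/
private noncomputable def phiC (z : ℕ → ℝ) (N : ℕ → ℕ) (i : ℕ) : ℝ × ℝ :=
  (z i + ∑ l : Fin i, (phiC z N l).2,
    N i * (z i + ∑ l : Fin i, (phiC z N l).2) +
      3 * (∑ m : Fin i, KK m (N m) (phiC z N m).1 +
        KK i (N i) (z i + ∑ l : Fin i, (phiC z N l).2)) + 1 + N i)
termination_by i
decreasing_by all_goals exact Fin.is_lt _

private theorem phi_KK {m N : ℕ} {C : ℝ} (h : 0 ≤ C) : 0 ≤ KK m N C := by
  unfold KK EE
  positivity

private theorem phi_consts (z : ℕ → ℝ) (hz : ∀ i, 0 ≤ z i) (N : ℕ → ℕ) (hN : ∀ i, 1 ≤ N i) :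
    ∃ c C : ℕ → ℝ, (∀ i, C i = z i + ∑ l ∈ Finset.range i, c l) ∧ (∀ i, 0 ≤ C i) ∧
      (∀ i, (N i : ℝ) ≤ c i) ∧ (∀ i l, i ≤ l → c i ≤ c l) ∧
      ∀ m i, m ≤ i → N i * C i + 3 * KK m (N m) (C m) + 1 ≤ c i := by
  let C : ℕ → ℝ := fun i => (phiC z N i).1
  let c : ℕ → ℝ := fun i => (phiC z N i).2
  have h1 : ∀ i, C i = z i + ∑ l ∈ Finset.range i, c l := by
    intro i
    simp only [C, c]
    rw [phiC, Fin.sum_univ_eq_sum_range (fun l => (phiC z N l).2) i]
  have h2 : ∀ i, c i = N i * C i + 3 * ∑ m ∈ Finset.range (i + 1), KK m (N m) (C m) + 1 + N i := by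
    intro i
    rw [Finset.sum_range_succ, h1 i]
    simp only [C, c]
    conv_lhs => rw [phiC]
    rw [Fin.sum_univ_eq_sum_range (fun l => (phiC z N l).2) i,
      Fin.sum_univ_eq_sum_range (fun m => KK m (N m) (phiC z N m).1) i]
  have h3 : ∀ i, 0 ≤ C i ∧ 0 ≤ c i := by
    intro i
    induction i using Nat.strong_induction_on with
    | _ i ih =>
      have a1 : 0 ≤ C i := by
        rw [h1]
        exact add_nonneg (hz i) (Finset.sum_nonneg fun l hl => (ih l (Finset.mem_range.1 hl)).2)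
      have a2 : 0 ≤ ∑ m ∈ Finset.range (i + 1), KK m (N m) (C m) := by
        rw [Finset.sum_range_succ]
        exact add_nonneg (Finset.sum_nonneg fun l hl => phi_KK (ih l (Finset.mem_range.1 hl)).1)
          (phi_KK a1)
      refine ⟨a1, ?_⟩
      rw [h2]
      positivity
  have h4 : ∀ m i, m ≤ i → N i * C i + 3 * KK m (N m) (C m) + 1 + N i ≤ c i := by
    intro m i hm
    have := Finset.single_le_sum (f := fun m => KK m (N m) (C m)) (s := Finset.range (i + 1))
      (fun l _ => phi_KK (h3 l).1) (Finset.mem_range.2 (Nat.lt_succ_of_le hm))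
    rw [h2]
    linarith
  refine ⟨c, C, h1, fun i => (h3 i).1, fun i => ?_, fun i l hl => ?_, fun m i hm => ?_⟩
  · have a1 := h4 i i le_rfl
    have a2 := phi_KK (m := i) (N := N i) (h3 i).1
    have a3 : 0 ≤ (N i : ℝ) * C i := mul_nonneg (Nat.cast_nonneg _) (h3 i).1
    linarith
  · rcases hl.eq_or_lt with rfl | hl
    · exact le_rfl
    · have a1 := h4 l l le_rfl
      have a2 := phi_KK (m := l) (N := N l) (h3 l).1
      have a3 : C l ≤ (N l : ℝ) * C l := le_mul_of_one_le_left (h3 l).1 (by exact_mod_cast hN l)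
      have a4 := Finset.single_le_sum (f := c) (s := Finset.range l) (fun l _ => (h3 l).2)
        (Finset.mem_range.2 hl)
      have a5 := h1 l
      have a6 := hz l
      have a7 : (0 : ℝ) ≤ N l := Nat.cast_nonneg _
      linarith
  · have a7 : (0 : ℝ) ≤ N i := Nat.cast_nonneg _
    linarith [h4 m i hm]

private theorem phi_norm (x : UnitAddCircle) : ‖x‖ ≤ 1 := by
  have := AddCircle.norm_le_half_period (x := x) 1 one_ne_zero
  rw [abs_one] at this
  linarith

/-- PLAN. `η l ≤ y l + 1/(l+1)`-small with `μ(thickening (η l) (W l) \ W l) ≤ 1/(2^(l+2) N l³)`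
(`tendsto_measure_thickening_of_isClosed`), `χ l = thickenedIndicator (η l) (W l)`,
`z i = 1/(8 N i³)`, `Z i = ball 0 (z i) ∪ ⋃_{l ≥ i} (thickening \ W l)`;
`C i = -log (z i) + ∑_{l<i} c l`, `c i = N i C i + 3 ∑_{m ≤ i} KK m (N m) (C m) + 1 + N i`
(strong recursion, e.g. via partial sums or `exists_seq_dep` of NR.lean); `c` is monotone since
`c l ≥ C l ≥ c i` for `l > i` and `c l ≥ N l`. `φ x = -log ‖x‖ + ∑' l, c l * χ l x`
(locally finite sum away from `0`, so continuous on `{0}ᶜ`; `measurable_of_continuousOn_compl_singleton`),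
`F x = ‖x‖ * exp(-∑' ..)`, continuous at `0` by squeezing. `∫⁻ ofReal φ ≥ ∑_{l<n} c l μ(W l) ≥ n`
(`Hit.one_le`). -/
theorem exists_phi {θ : ℝ} (W : ℕ → Set UnitAddCircle) (N : ℕ → ℕ) (y : ℕ → ℝ)
    (hW : ∀ i, IsClosed (W i)) (h0 : ∀ i, (0 : UnitAddCircle) ∉ W i)
    (hy : ∀ i, ∀ x ∈ W i, ‖x‖ ≤ y i) (hy0 : Tendsto y atTop (𝓝 0))
    (hit : ∀ i, (rot θ).Hit (W i) (N i)) (hN : Monotone N) (hN' : Tendsto N atTop atTop)
    (hS : Tendsto (fun i => (μT).real (⋃ l ∈ Set.Ici i, W l)) atTop (𝓝 0))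
    (hsep : (rot θ).Sep (fun i => ⋃ l ∈ Set.Ici i, W l) N) :
    ∃ (F φ : UnitAddCircle → ℝ), Continuous F ∧ (∀ x, 0 ≤ F x ∧ F x ≤ 1) ∧
      (∀ x, F x = 0 ↔ x = 0) ∧ (∀ x, x ≠ 0 → F x = Real.exp (-φ x)) ∧
      ∫⁻ x, ENNReal.ofReal (φ x) ∂μT = ⊤ ∧ Nonempty (Design (rot θ) φ) := by
  have hN1 : ∀ i, 1 ≤ N i := fun i => (hit i).pos 0
  have hN2 : ∀ i, (1 : ℝ) ≤ N i := fun i => by exact_mod_cast hN1 i
  have hN3 : ∀ i, (0 : ℝ) < N i := fun i => lt_of_lt_of_le one_pos (hN2 i)
  choose η hη0 hη1 hη2 using fun l => phi_eta (hW l) (ε := 1 / (4 * (N l : ℝ) ^ 3) * (1 / 2) ^ l)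
    (δ := 1 / ((l : ℝ) + 1)) (by have := hN3 l; positivity) (by positivity)
  let z : ℕ → ℝ := fun i => 1 / (8 * (N i : ℝ) ^ 3)
  have hz0 : ∀ i, 0 < z i := fun i => by have := hN3 i; positivity
  have hz1 : ∀ i, z i ≤ 1 := fun i => by
    have := one_le_pow₀ (n := 3) (hN2 i)
    rw [div_le_one (by linarith)]
    linarith
  obtain ⟨c, C, hC, hC0, hcN, hcm, hcost⟩ := phi_consts (fun i => -Real.log (z i))
    (fun i => neg_nonneg.2 (Real.log_nonpos (hz0 i).le (hz1 i))) N hN1
  have hc0 : ∀ i, 0 ≤ c i := fun i => (hN3 i).le.trans (hcN i)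
  let χ : ℕ → UnitAddCircle → ℝ := fun l x => thickenedIndicator (hη0 l) (W l) x
  have χc : ∀ l, Continuous (χ l) := fun l =>
    NNReal.continuous_coe.comp (thickenedIndicator (hη0 l) (W l)).continuous
  have χ0 : ∀ l x, 0 ≤ χ l x := fun l x => NNReal.coe_nonneg _
  have χ1 : ∀ l x, χ l x ≤ 1 := fun l x => thickenedIndicator_le_one (hη0 l) (W l) x
  have χW : ∀ l, ∀ x ∈ W l, χ l x = 1 := fun l x hx =>
    congrArg NNReal.toReal (thickenedIndicator_one (hη0 l) (W l) hx)
  have χO : ∀ l x, x ∉ Metric.thickening (η l) (W l) → χ l x = 0 := fun l x hx =>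
    congrArg NNReal.toReal (thickenedIndicator_zero (hη0 l) (W l) hx)
  have cχ0 : ∀ l x, 0 ≤ c l * χ l x := fun l x => mul_nonneg (hc0 l) (χ0 l x)
  have hfar : ∀ δ > (0 : ℝ), ∃ n, ∀ x : UnitAddCircle, δ < ‖x‖ →
      ∀ l ∉ Finset.range n, c l * χ l x = 0 := by
    intro δ hδ
    have h1 : Tendsto (fun l : ℕ => y l + 1 / ((l : ℝ) + 1)) atTop (𝓝 (0 + 0)) :=
      hy0.add tendsto_one_div_add_atTop_nhds_zero_nat
    rw [add_zero] at h1
    obtain ⟨n, hn⟩ := eventually_atTop.1 (h1.eventually (gt_mem_nhds hδ))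
    refine ⟨n, fun x hx l hl => ?_⟩
    rw [χO l x, mul_zero]
    intro h
    obtain ⟨w, hw, hd⟩ := Metric.mem_thickening_iff.1 h
    have a1 := hn l (by simpa using hl)
    have a2 := hy l w hw
    have a3 := hη1 l
    have a4 := norm_sub_norm_le x w
    rw [← dist_eq_norm] at a4
    linarith
  let T : UnitAddCircle → ℝ := fun x => ∑' l, c l * χ l x
  have T0 : ∀ x, 0 ≤ T x := fun x => tsum_nonneg fun l => cχ0 l x
  have Ts : ∀ x : UnitAddCircle, x ≠ 0 → Summable fun l => c l * χ l x := by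
    intro x hx
    have hx' := norm_pos_iff.2 hx
    obtain ⟨n, hn⟩ := hfar (‖x‖ / 2) (by linarith)
    exact summable_of_ne_finset_zero (hn x (by linarith))
  have Tc : ∀ x : UnitAddCircle, x ≠ 0 → ContinuousAt T x := by
    intro x hx
    have hx' := norm_pos_iff.2 hx
    obtain ⟨n, hn⟩ := hfar (‖x‖ / 2) (by linarith)
    have h1 : Continuous fun x => ∑ l ∈ Finset.range n, c l * χ l x :=
      continuous_finsetSum _ fun l _ => continuous_const.mul (χc l)
    refine h1.continuousAt.congr ?_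
    filter_upwards [continuous_norm.continuousAt.eventually
      (lt_mem_nhds (show ‖x‖ / 2 < ‖x‖ by linarith))] with x' hx'
    exact (tsum_eq_sum (hn x' hx')).symm
  have hlog : ∀ x : UnitAddCircle, 0 ≤ -Real.log ‖x‖ := fun x =>
    neg_nonneg.2 (Real.log_nonpos (norm_nonneg _) (phi_norm x))
  have hF : ∀ x : UnitAddCircle, 0 ≤ ‖x‖ * Real.exp (-T x) ∧ ‖x‖ * Real.exp (-T x) ≤ ‖x‖ :=
    fun x => ⟨by positivity, mul_le_of_le_one_right (norm_nonneg _)
      (Real.exp_le_one_iff.2 (neg_nonpos.2 (T0 x)))⟩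
  refine ⟨fun x => ‖x‖ * Real.exp (-T x), fun x => -Real.log ‖x‖ + T x, ?_,
    fun x => ⟨(hF x).1, (hF x).2.trans (phi_norm x)⟩, fun x => by simp, fun x hx => ?_, ?_, ⟨?_⟩⟩
  · refine continuous_iff_continuousAt.2 fun x => ?_
    by_cases hx : x = 0
    · subst hx
      have h1 : Tendsto (fun x : UnitAddCircle => ‖x‖) (𝓝 0) (𝓝 0) := tendsto_norm_zero
      have h2 := squeeze_zero (fun x => (hF x).1) (fun x => (hF x).2) h1
      simpa only [ContinuousAt, norm_zero, zero_mul] using h2
    · exact continuous_norm.continuousAt.mul (Tc x hx).neg.rexp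
  · rw [neg_add, neg_neg, Real.exp_add, Real.exp_log (norm_pos_iff.2 hx)]
  · refine ENNReal.eq_top_of_forall_nnreal_le fun r => ?_
    obtain ⟨n, hn⟩ := exists_nat_ge (r : ℝ)
    have hint : ∀ l, Integrable ((W l).indicator fun _ => c l) μT := fun l =>
      (integrable_const _).indicator (hW l).measurableSet
    have h1 : (n : ℝ) ≤ ∫ x, ∑ l ∈ Finset.range n, (W l).indicator (fun _ => c l) x ∂μT := by
      rw [integral_finsetSum _ fun l _ => hint l]
      refine le_trans (by simp) (Finset.card_nsmul_le_sum _ _ (1 : ℝ) fun l _ => ?_)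
      rw [integral_indicator_const _ (hW l).measurableSet, smul_eq_mul, mul_comm]
      exact ((hit l).one_le (hW l).measurableSet).trans
        (mul_le_mul_of_nonneg_right (hcN l) measureReal_nonneg)
    rw [← ENNReal.ofReal_coe_nnreal]
    refine (ENNReal.ofReal_le_ofReal (hn.trans h1)).trans ?_
    rw [ofReal_integral_eq_lintegral_ofReal (integrable_finsetSum _ fun l _ => hint l)
      (Eventually.of_forall fun x => Finset.sum_nonneg fun l _ =>
        Set.indicator_nonneg (fun _ _ => hc0 l) x)]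
    refine lintegral_mono fun x => ENNReal.ofReal_le_ofReal ?_
    refine le_add_of_nonneg_of_le (hlog x) ?_
    by_cases hx : x = 0
    · subst hx
      rw [Finset.sum_eq_zero fun l _ => Set.indicator_of_notMem (h0 l) _]
      exact T0 0
    · refine le_trans (Finset.sum_le_sum fun l _ => ?_)
        ((Ts x hx).sum_le_tsum (Finset.range n) fun l _ => cχ0 l x)
      by_cases hl : x ∈ W l
      · rw [Set.indicator_of_mem hl, χW l x hl, mul_one]
      · rw [Set.indicator_of_notMem hl]
        exact cχ0 l x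
  · refine
      { S := fun i => ⋃ l ∈ Set.Ici i, W l
        N := N
        Z := fun i => Metric.ball 0 (z i) ∪
          ⋃ l, Metric.thickening (η (i + l)) (W (i + l)) \ W (i + l)
        c := c
        C := C
        φ_meas := measurable_norm.log.neg.add (measurable_of_continuousOn_compl_singleton 0
          fun x hx => (Tc x hx).continuousWithinAt)
        φ_nonneg := fun x => add_nonneg (hlog x) (T0 x)
        S_meas := fun i => MeasurableSet.biUnion (Set.to_countable _) fun l _ =>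
          (hW l).measurableSet
        Z_meas := fun i => measurableSet_ball.union (MeasurableSet.iUnion fun l =>
          Metric.isOpen_thickening.measurableSet.diff (hW _).measurableSet)
        anti := fun i j hij => Set.biUnion_subset_biUnion_left (Set.Ici_subset_Ici.2 hij)
        hit := fun i => (hit i).mono (Set.subset_biUnion_of_mem (u := W) (Set.self_mem_Ici)) le_rfl
        N_mono := hN
        N_tend := hN'
        S_tend := hS
        C_nonneg := hC0
        φ_ge := fun i x hx => ?_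
        φ_le := fun i x hx hx' => ?_
        Z_small := fun i => ?_
        cost := hcost
        sep := hsep }
    · obtain ⟨l, hl, hx⟩ := Set.mem_iUnion₂.1 hx
      refine le_add_of_nonneg_of_le (hlog x) ((hcm i l hl).trans ?_)
      have := (Ts x fun e => h0 l (e ▸ hx)).le_tsum l fun j _ => cχ0 j x
      rwa [χW l x hx, mul_one] at this
    · simp only [Set.mem_union, not_or, Set.mem_iUnion, not_exists, mem_ball_zero_iff, not_lt,
        Set.mem_sdiff, not_and, not_not, Set.mem_Ici] at hx hx'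
      rw [hC]
      refine add_le_add (neg_le_neg (Real.log_le_log (hz0 i) hx'.1)) ?_
      have h1 : T x = ∑ l ∈ Finset.range i, c l * χ l x := by
        refine tsum_eq_sum fun l hl => ?_
        have hl' : i ≤ l := by simpa using hl
        obtain ⟨k, rfl⟩ := Nat.exists_eq_add_of_le hl'
        rw [χO _ x fun h => hx _ hl' (hx'.2 k h), mul_zero]
      rw [h1]
      exact Finset.sum_le_sum fun l _ => mul_le_of_le_one_right (hc0 l) (χ1 l x)
    · have h3 : (0 : ℝ) < (N i : ℝ) ^ 3 := pow_pos (hN3 i) 3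
      have h1 : (μT).real (Metric.ball (0 : UnitAddCircle) (z i)) ≤ 2 * z i := by
        refine (measureReal_mono Metric.ball_subset_closedBall).trans ?_
        rw [phi_haar, Measure.real, AddCircle.volume_closedBall]
        exact ENNReal.toReal_le_of_le_ofReal (by linarith [hz0 i])
          (ENNReal.ofReal_le_ofReal (min_le_right _ _))
      have h2 : (μT).real (⋃ l, Metric.thickening (η (i + l)) (W (i + l)) \ W (i + l)) ≤
          1 / (4 * (N i : ℝ) ^ 3) * 2 := by
        refine ENNReal.toReal_le_of_le_ofReal (by positivity) ((measure_iUnion_le _).trans ?_)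
        rw [← tsum_geometric_two, ← tsum_mul_left, ENNReal.ofReal_tsum_of_nonneg
          (fun l => by positivity) (summable_geometric_two.mul_left _)]
        refine ENNReal.tsum_le_tsum fun l => (hη2 _).trans (ENNReal.ofReal_le_ofReal ?_)
        refine mul_le_mul (one_div_le_one_div_of_le (by positivity) ?_)
          (pow_le_pow_of_le_one (by norm_num) (by norm_num) (Nat.le_add_left _ _))
          (by positivity) (by positivity)
        have : (N i : ℝ) ≤ N (i + l) := by exact_mod_cast hN (Nat.le_add_right _ _)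
        gcongr
      have h4 := (measureReal_union_le (μ := μT) _ _).trans (add_le_add h1 h2)
      refine (mul_le_mul_of_nonneg_left h4 h3.le).trans ?_
      have := (hN3 i).ne'
      simp only [z]
      field_simp
      norm_num

/-- PLAN. Tietze (`ContinuousMap.exists_extension` for the closed embedding `x ↦ fourier 1 x`, or
`AddCircle.toCircle`); every unit complex number is `fourier 1 x`, and it is `1` iff `x = 0`. For
the integral: `exp(t I) = fourier 1 (t/(2π))`, substitute (`t = 2π s`; a positive multiple of `⊤`)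
and `UnitAddCircle.lintegral_preimage`, `AddCircle.volume_eq_smul_haarAddCircle`;
`-log (F x) = φ x` for `x ≠ 0`. -/
theorem exists_f {F φ : UnitAddCircle → ℝ} (hF : Continuous F) (hF1 : ∀ x, 0 ≤ F x ∧ F x ≤ 1)
    (hF0 : ∀ x, F x = 0 ↔ x = 0) (hφ : ∀ x, x ≠ 0 → F x = Real.exp (-φ x))
    (hI : ∫⁻ x, ENNReal.ofReal (φ x) ∂μT = ⊤) :
    ∃ f : ℂ → ℝ, Continuous f ∧ (∀ z : ℂ, ‖z‖ = 1 → 0 ≤ f z ∧ f z ≤ 1) ∧
      (∀ z : ℂ, ‖z‖ = 1 → (f z = 0 ↔ z = 1)) ∧
      (∫⁻ t in Set.Ioc (0 : ℝ) (2 * Real.pi),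
          ENNReal.ofReal (- Real.log (f (Complex.exp ((t : ℂ) * Complex.I)))) = ⊤) ∧
      ∀ x : UnitAddCircle, f (fourier 1 x) = F x := by
  have hinj : Function.Injective fun x : UnitAddCircle => fourier 1 x := by
    intro x y h
    simp only [fourier_one] at h
    exact AddCircle.injective_toCircle one_ne_zero (Circle.ext h)
  obtain ⟨g, hg⟩ := ContinuousMap.exists_extension'
    ((fourier 1).continuous.isClosedEmbedding hinj) (⟨F, hF⟩ : C(UnitAddCircle, ℝ))
  have hg' : ∀ x : UnitAddCircle, g (fourier 1 x) = F x := fun x => congrFun hg x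
  have hexp : ∀ s : ℝ, fourier 1 (s : UnitAddCircle) =
      Complex.exp (((2 * Real.pi * s : ℝ) : ℂ) * Complex.I) := by
    intro s
    rw [fourier_coe_apply]
    congr 1
    push_cast
    ring
  have hsurj : ∀ z : ℂ, ‖z‖ = 1 → ∃ x : UnitAddCircle, fourier 1 x = z := by
    intro z hz
    refine ⟨((z.arg / (2 * Real.pi) : ℝ) : UnitAddCircle), ?_⟩
    rw [hexp, mul_div_cancel₀ _ (by positivity)]
    have := Complex.norm_mul_exp_arg_mul_I z
    rwa [hz, Complex.ofReal_one, one_mul] at this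
  refine ⟨g, g.continuous, fun z hz => ?_, fun z hz => ?_, ?_, hg'⟩
  · obtain ⟨x, rfl⟩ := hsurj z hz
    rw [hg']
    exact hF1 x
  · obtain ⟨x, rfl⟩ := hsurj z hz
    rw [hg', hF0, ← hinj.eq_iff]
    simp only [fourier_eval_zero]
  · have e1 := Set.image_mul_left_Ioc (show (0 : ℝ) < 2 * Real.pi by positivity) 0 1
    rw [mul_zero, mul_one] at e1
    rw [← e1, lintegral_image_eq_lintegral_abs_deriv_mul (f' := fun _ => 2 * Real.pi)
      measurableSet_Ioc (fun x _ => by
        simpa using ((hasDerivAt_id x).const_mul (2 * Real.pi)).hasDerivWithinAt)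
      (fun x _ y _ h => mul_left_cancel₀ (by positivity) h),
      lintegral_const_mul' _ _ ENNReal.ofReal_ne_top]
    simp only [← hexp, hg']
    have e2 := UnitAddCircle.lintegral_preimage 0 fun x => ENNReal.ofReal (-Real.log (F x))
    rw [zero_add] at e2
    rw [e2, ← phi_haar, lintegral_congr_ae (g := fun x => ENNReal.ofReal (φ x)), hI, ENNReal.mul_top]
    · rw [Ne, ENNReal.ofReal_eq_zero, not_le]
      positivity
    · have : ∀ᵐ x ∂μT, x ≠ 0 := by
        rw [ae_iff, phi_haar]
        have h : {a : UnitAddCircle | ¬ a ≠ 0} = Metric.closedBall 0 0 := by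
          ext a; simp
        rw [h, AddCircle.volume_closedBall]
        simp
      filter_upwards [this] with x hx
      rw [hφ x hx, Real.log_exp, neg_neg]

end Crest.Agent.R113
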