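import Crest.Agent.R113.Trace

/-! Row 113: the reweighted projections `rw P u`. -/

set_option autoImplicit false

open MeasureTheory Filter Topology
open scoped ENNReal

namespace Crest.Agent.R113.RwA

theorem isUnit_gen {H : Type*} [NormedAddCommGroup H] [InnerProductSpace ℂ H] [CompleteSpace H]
    {P X X' : H →L[ℂ] H} (hP : IsStarProjection P) (hX : star X = X) (h : X' * X = 1) :
    IsUnit (P * (X * X) * P + (1 - P)) := by
  have hc : (0 : ℝ) < (2 * (‖X'‖ ^ 2 + 1))⁻¹ := by positivity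
  refine ContinuousLinearMap.isUnit_of_forall_le_norm_inner_map _ (c := ⟨_, hc.le⟩) hc fun x => ?_
  have e : P * (X * X) * P + (1 - P) = star (X * P) * (X * P) + star (1 - P) * (1 - P) := by
    rw [star_mul, hX, hP.isSelfAdjoint.star_eq, hP.one_sub.isSelfAdjoint.star_eq,
      hP.one_sub.isIdempotentElem.eq]
    simp only [mul_assoc]
  have e2 : ∀ a : H →L[ℂ] H, inner ℂ ((star a * a) x) x = ((‖a x‖ ^ 2 : ℝ) : ℂ) := by
    intro a
    rw [mul_apply_eq_comp, ContinuousLinearMap.star_eq_adjoint,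
      ContinuousLinearMap.adjoint_inner_left, inner_self_eq_norm_sq_to_K]
    simp
  rw [e, add_apply, inner_add_left, e2, e2, ← Complex.ofReal_add, Complex.norm_real,
    Real.norm_eq_abs, abs_of_nonneg (by positivity)]
  have h1 : ‖P x‖ ≤ ‖X'‖ * ‖(X * P) x‖ := by
    have : P x = X' ((X * P) x) := by
      rw [← mul_apply_eq_comp, ← mul_assoc, h, one_mul]
    rw [this]
    exact X'.le_opNorm _
  have h2 : ‖x‖ ≤ ‖P x‖ + ‖(1 - P) x‖ := by
    refine le_of_eq_of_le ?_ (norm_add_le _ _)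
    simp
  change ‖x‖ ^ 2 * (2 * (‖X'‖ ^ 2 + 1))⁻¹ ≤ _
  rw [← div_eq_mul_inv, div_le_iff₀ (by positivity)]
  have h3 : ‖x‖ ^ 2 ≤ (‖X'‖ * ‖(X * P) x‖ + ‖(1 - P) x‖) ^ 2 :=
    pow_le_pow_left₀ (norm_nonneg _) (by linarith) 2
  nlinarith [sq_nonneg (‖X'‖ * ‖(X * P) x‖ - ‖(1 - P) x‖), sq_nonneg ‖(X * P) x‖,
    sq_nonneg (‖X'‖ * ‖(1 - P) x‖)]

section Alg
variable {A : Type*} [Ring A] {P X : A}

theorem comm_inv (hP : P * P = P) (hu : IsUnit (P * (X * X) * P + (1 - P))) :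
    P * Ring.inverse (P * (X * X) * P + (1 - P)) = Ring.inverse (P * (X * X) * P + (1 - P)) * P := by
  have hc : Commute P (P * (X * X) * P + (1 - P)) := by
    rw [Commute, SemiconjBy, mul_add, add_mul, mul_sub, sub_mul, hP, ← mul_assoc, ← mul_assoc, hP,
      mul_assoc _ P P, hP, mul_one, one_mul]
  obtain ⟨u, hu⟩ := hu
  rw [← hu] at hc ⊢
  rw [Ring.inverse_unit]
  exact hc.units_inv_right

theorem inv_mul_eq (hP : P * P = P) (hu : IsUnit (P * (X * X) * P + (1 - P))) :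
    Ring.inverse (P * (X * X) * P + (1 - P)) * (P * (X * X) * P) = P := by
  have e : P * (X * X) * P = (P * (X * X) * P + (1 - P)) * P := by
    rw [add_mul, sub_mul, hP, mul_assoc _ P P, hP, one_mul, sub_self, add_zero]
  rw [e, ← mul_assoc, ← e, Ring.inverse_mul_cancel _ hu, one_mul]

theorem range_eq (hP : P * P = P) (hu : IsUnit (P * (X * X) * P + (1 - P))) :
    X * P * Ring.inverse (P * (X * X) * P + (1 - P)) * P * X * (X * P) = X * P := by
  have := inv_mul_eq hP hu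
  calc _ = X * P * (Ring.inverse (P * (X * X) * P + (1 - P)) * (P * (X * X) * P)) := by
        simp only [mul_assoc]
    _ = X * P := by rw [this, mul_assoc, hP]

theorem idem_eq {Y : A} (h : X * P * Y * P * X * (X * P) = X * P) :
    X * P * Y * P * X * (X * P * Y * P * X) = X * P * Y * P * X :=
  calc _ = X * P * Y * P * X * (X * P) * (Y * P * X) := by simp only [mul_assoc]
    _ = _ := by rw [h]; simp only [mul_assoc]

end Alg

theorem deriv_alg {A : Type*} [NormedRing A] [NormedAlgebra ℝ A] [CompleteSpace A] {E : ℝ → A}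
    {G Q : A} (hE : HasDerivAt E G 0) (h0 : E 0 = 1) (hQ : Q * Q = Q) :
    HasDerivAt (fun s => E s * Q * Ring.inverse (Q * (E s * E s) * Q + (1 - Q)) * Q * E s)
      ((1 - Q) * G * Q + Q * G * (1 - Q)) 0 := by
  have hY : HasDerivAt (fun s => Q * (E s * E s) * Q + (1 - Q)) (Q * (G + G) * Q) 0 := by
    have := (((hE.mul hE).const_mul Q).mul_const Q).add_const (1 - Q)
    rw [h0, mul_one, one_mul] at this
    exact this
  have hY0 : Q * (E 0 * E 0) * Q + (1 - Q) = ((1 : Aˣ) : A) := by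
    rw [h0, mul_one, mul_one, hQ]
    simp
  have hI := (hasFDerivAt_ringInverse (𝕜 := ℝ) (1 : Aˣ)).comp_hasDerivAt_of_eq (0 : ℝ) hY hY0.symm
  have := (((hE.mul_const Q).mul hI).mul_const Q).mul hE
  refine HasDerivAt.congr_deriv this ?_
  simp only [Function.comp_apply, Pi.mul_apply, hY0]
  simp only [h0, Units.val_one, Ring.inverse_one, inv_one, neg_apply,
    ContinuousLinearMap.mulLeftRight_apply, mul_one, one_mul]
  have h1 : ∀ z, Q * (Q * z) = Q * z := fun z => by rw [← mul_assoc, hQ]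
  simp only [mul_add, add_mul, mul_sub, sub_mul, mul_neg, neg_mul, mul_assoc, hQ, h1, mul_one,
    one_mul]
  abel

theorem deriv_op {H : Type*} [NormedAddCommGroup H] [NormedSpace ℂ H] [NormedSpace ℝ H]
    [IsScalarTower ℝ ℂ H] [SMulCommClass ℂ ℝ H] [CompleteSpace H] {E : ℝ → H →L[ℂ] H}
    {G Q : H →L[ℂ] H} (hE : HasDerivAt E G 0) (h0 : E 0 = 1) (hQ : Q * Q = Q) (Ω : H) :
    HasDerivAt (fun s => (E s * Q * Ring.inverse (Q * (E s * E s) * Q + (1 - Q)) * Q * E s) Ω)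
      (((1 - Q) * G * Q + Q * G * (1 - Q)) Ω) 0 := by
  let : NormedAlgebra ℝ (H →L[ℂ] H) :=
    { ContinuousLinearMap.toNormedSpace, ContinuousLinearMap.algebra with }
  exact ((ContinuousLinearMap.apply ℂ H Ω).restrictScalars ℝ).hasFDerivAt.comp_hasDerivAt 0
    (deriv_alg hE h0 hQ)

end Crest.Agent.R113.RwA

namespace Crest.Agent.R113.Sys

variable {X : Type*} [MeasurableSpace X] {D : Sys X} {P : D.H →L[ℂ] D.H} {u v : X → ℝ}

theorem π_exp_add (hu : Bd u) (hv : Bd v) :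
    D.π (fun x => Real.exp (u x + v x)) =
      D.π (fun x => Real.exp (u x)) * D.π (fun x => Real.exp (v x)) := by
  rw [π_mul hu.exp hv.exp]
  simp only [Real.exp_add]

theorem π_exp_two (hu : Bd u) : D.π (fun x => Real.exp (2 * u x)) =
    D.π (fun x => Real.exp (u x)) * D.π (fun x => Real.exp (u x)) := by
  simp only [two_mul, π_exp_add hu hu]

theorem π_one : D.π (fun _ => 1) = 1 := by
  rw [π_const]
  simp

theorem π_exp_neg (hu : Bd u) :
    D.π (fun x => Real.exp (-u x)) * D.π (fun x => Real.exp (u x)) = 1 := by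
  rw [← π_exp_add hu.neg hu]
  simp only [neg_add_cancel, Real.exp_zero, π_one]

theorem rw_def (P : D.H →L[ℂ] D.H) (hu : Bd u) : D.rw P u = D.π (fun x => Real.exp (u x)) * P *
    Ring.inverse (P * (D.π (fun x => Real.exp (u x)) * D.π (fun x => Real.exp (u x))) * P +
      (1 - P)) * P * D.π (fun x => Real.exp (u x)) := by
  rw [Sys.rw, π_exp_two hu]

theorem isUnit_rw' (hP : D.Proj P) (hu : Bd u) : IsUnit (P * (D.π (fun x => Real.exp (u x)) *
    D.π (fun x => Real.exp (u x))) * P + (1 - P)) :=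
  RwA.isUnit_gen hP.2 (star_π hu.exp) (π_exp_neg hu)

theorem mem_inv_rw (hP : D.Proj P) (hu : Bd u) : D.Mem (Ring.inverse
    (P * (D.π (fun x => Real.exp (u x)) * D.π (fun x => Real.exp (u x))) * P + (1 - P))) :=
  (((hP.1.mul ((mem_π hu.exp).mul (mem_π hu.exp))).mul hP.1).add (mem_one.sub hP.1)).inverse

/-- PLAN. `Y = P π(e^{2u}) P + (1-P)`; with `|u| ≤ C`, `δ = e^{-2C}`:
`Y - δ•1 = star a * a + star b * b` for `a = π(√(e^{2u}-δ)) P`, `b = √(1-δ)•(1-P)`; so
`δ‖x‖² ≤ re⟪x,Yx⟫`, `Y` self-adjoint and bounded below, hence a unit (e.g. via `0 ∉ spectrum`,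
`CStarAlgebra.isUnit_of_le`, or `ContinuousLinearMap.isUnit_of_forall_le_norm_inner_map`). -/
theorem isUnit_rw (hP : D.Proj P) (hu : Bd u) :
    IsUnit (P * D.π (fun x => Real.exp (2 * u x)) * P + (1 - P)) := by
  rw [π_exp_two hu]
  exact isUnit_rw' hP hu

/-- PLAN. `X = π(e^u)`, `X * X = π(e^{2u})`, `Y` commutes with `P`, `Y (1-P) = 1-P`,
`P Y = P X X P`, `Y⁻¹` self-adjoint. -/
theorem rw_proj (hP : D.Proj P) (hu : Bd u) : D.Proj (D.rw P u) := by
  rw [rw_def P hu]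
  have hX := mem_π (D := D) hu.exp
  refine ⟨(((hX.mul hP.1).mul (mem_inv_rw hP hu)).mul hP.1).mul hX, ?_, ?_⟩
  · exact RwA.idem_eq (RwA.range_eq hP.2.isIdempotentElem.eq (isUnit_rw' hP hu))
  · rw [IsSelfAdjoint]
    simp only [star_mul, star_π hu.exp, hP.2.isSelfAdjoint.star_eq, ← Ring.inverse_star, star_add,
      star_sub, star_one, mul_assoc]

/-- PLAN. `τ(X P Y⁻¹ P X) = τ(Y⁻¹ P X X P) = τ(Y⁻¹ Y P) = τ P`. -/
theorem τ_rw (hP : D.Proj P) (hu : Bd u) : D.τ (D.rw P u) = D.τ P := by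
  rw [rw_def P hu]
  have hX := mem_π (D := D) hu.exp
  have hY := mem_inv_rw hP hu
  have := RwA.inv_mul_eq hP.2.isIdempotentElem.eq (isUnit_rw' hP hu)
  have key : ∀ E Y : D.H →L[ℂ] D.H, D.Mem E → D.Mem Y → Y * (P * (E * E) * P) = P →
      D.τ (E * P * Y * P * E) = D.τ P := by
    intro E Y hX hY h
    rw [show E * P * Y * P * E = (E * P) * (Y * P * E) by simp only [mul_assoc],
      τ_comm (hX.mul hP.1) ((hY.mul hP.1).mul hX),
      show Y * P * E * (E * P) = Y * (P * (E * E) * P) by simp only [mul_assoc], h]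
  exact key _ _ hX hY this

theorem rw_range (hP : D.Proj P) (hu : Bd u) :
    (1 - D.rw P u) * D.π (fun x => Real.exp (u x)) * P = 0 := by
  rw [mul_assoc, sub_mul, one_mul, rw_def P hu,
    RwA.range_eq hP.2.isIdempotentElem.eq (isUnit_rw' hP hu), sub_self]

theorem rw_eq_mul (hP : D.Proj P) (hu : Bd u) :
    ∃ Z, D.Mem Z ∧ D.rw P u = D.π (fun x => Real.exp (u x)) * P * Z := by
  refine ⟨_, ((mem_inv_rw hP hu).mul hP.1).mul (mem_π hu.exp), ?_⟩
  rw [rw_def P hu]
  simp only [mul_assoc]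

/-- PLAN. `(1-Q) rw P u = 0` by `rw_eq_mul`, then `Proj.dist_sq`, `eq_zero_of_Ω`. -/
theorem rw_unique {Q : D.H →L[ℂ] D.H} (hP : D.Proj P) (hu : Bd u) (hQ : D.Proj Q)
    (hτ : D.τ Q = D.τ P) (h : (1 - Q) * D.π (fun x => Real.exp (u x)) * P = 0) :
    Q = D.rw P u := by
  obtain ⟨Z, -, hZ⟩ := rw_eq_mul hP hu
  have h1 : (1 - Q) * D.rw P u = 0 := by
    rw [hZ, ← mul_assoc, ← mul_assoc, h, zero_mul]
  have h2 := (rw_proj hP hu).dist_sq hQ (hτ.trans (τ_rw hP hu).symm)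
  rw [h1] at h2
  have h3 : ‖Q D.Ω - D.rw P u D.Ω‖ = 0 := by simpa using h2
  exact sub_eq_zero.1 (eq_zero_of_Ω (hQ.1.sub (rw_proj hP hu).1) (norm_eq_zero.1 h3))

theorem rw_zero (hP : D.Proj P) : D.rw P (fun _ => 0) = P := by
  refine (rw_unique hP (Bd.const 0) hP rfl ?_).symm
  simp only [Real.exp_zero, π_one, mul_one]
  rw [sub_mul, one_mul, hP.2.isIdempotentElem.eq, sub_self]

theorem rw_rw (hP : D.Proj P) (hu : Bd u) (hv : Bd v) :
    D.rw (D.rw P u) v = D.rw P (fun x => u x + v x) := by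
  have hQ := rw_proj hP hu
  refine rw_unique hP (hu.add hv) (rw_proj hQ hv) ((τ_rw hQ hv).trans (τ_rw hP hu)) ?_
  have h1 := rw_range hQ hv
  have h2 := rw_range hP hu
  rw [mul_assoc, sub_mul, one_mul, sub_eq_zero] at h2
  simp only [add_comm (u _)]
  rw [π_exp_add hv hu, mul_assoc, mul_assoc, h2, ← mul_assoc, ← mul_assoc, h1, zero_mul]

theorem rw_congr (hu : Bd u) (hv : Bd v) (h : u =ᵐ[D.μ] v) : D.rw P u = D.rw P v := by
  have : D.π (fun x => Real.exp (u x)) = D.π (fun x => Real.exp (v x)) := by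
    refine π_congr hu.exp hv.exp ?_
    filter_upwards [h] with x hx
    rw [hx]
  rw [rw_def P hu, rw_def P hv, this]

/-- PLAN. `‖π(e^{s g}) - 1 - s π g‖ ≤ C s²` (`norm_π_le`, `Real.abs_exp_sub_one_sub_id_le`). -/
theorem hasDerivAt_π_exp {g : X → ℝ} (hg : Bd g) :
    HasDerivAt (fun s : ℝ => D.π fun x => Real.exp (s * g x)) (D.π g) 0 := by
  obtain ⟨C, hC⟩ := hg.2
  have hC' : ∀ x, |g x| ≤ |C| + 1 := fun x => (hC x).trans ((le_abs_self C).trans (by linarith))
  rw [hasDerivAt_iff_isLittleO_nhds_zero]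
  refine Asymptotics.IsBigO.trans_isLittleO (g := fun s : ℝ => s ^ 2) ?_
    (Asymptotics.isLittleO_pow_id one_lt_two)
  refine Asymptotics.IsBigO.of_bound ((|C| + 1) ^ 2) ?_
  have hp : 0 < (|C| + 1)⁻¹ := by positivity
  filter_upwards [Metric.ball_mem_nhds (0 : ℝ) hp] with s hs
  rw [mem_ball_zero_iff, Real.norm_eq_abs] at hs
  have b1 := ((Bd.const s).mul hg).exp
  have e : (D.π fun x => Real.exp ((0 + s) * g x)) - (D.π fun x => Real.exp (0 * g x)) -
      s • D.π g = D.π fun x => Real.exp (s * g x) - 1 - s * g x := by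
    rw [π_sub (b1.sub (Bd.const 1)) ((Bd.const s).mul hg), π_sub b1 (Bd.const 1), π_smul hg,
      RCLike.real_smul_eq_coe_smul (K := ℂ)]
    simp only [zero_add, zero_mul, Real.exp_zero]
    rfl
  rw [e]
  refine norm_π_le ((b1.sub (Bd.const 1)).sub ((Bd.const s).mul hg)) (by positivity)
    (Eventually.of_forall fun x => ?_)
  have h1 : |s * g x| ≤ |s| * (|C| + 1) := by
    rw [abs_mul]
    exact mul_le_mul_of_nonneg_left (hC' x) (abs_nonneg _)
  have h2 : |s| * (|C| + 1) ≤ 1 := by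
    rw [← le_div_iff₀ (by positivity), one_div]
    exact hs.le
  refine (Real.abs_exp_sub_one_sub_id_le (h1.trans h2)).trans ?_
  rw [← sq_abs, Real.norm_eq_abs, abs_pow, ← mul_pow, mul_comm (|C| + 1)]
  exact pow_le_pow_left₀ (abs_nonneg _) h1 2

/-- PLAN. At `s₀ = 0`, `u = 0`: product rule with `hasFDerivAt_ringInverse` at `Y = 1`
(`Y' = 2 P g P`): derivative `g P + P g - 2 P g P`. General case by `rw_rw`:
`rw P (u + (s₀+h) g) = rw (rw P (u + s₀ g)) (h g)`. (If `NormedAlgebra ℝ` instances on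
`D.H →L[ℂ] D.H` are troublesome, prove the algebraic part for a general Hilbert space `H`, or
differentiate in a complex variable and restrict.) -/
theorem hasDerivAt_rw (hP : D.Proj P) (hu : Bd u) {g : X → ℝ} (hg : Bd g) (s₀ : ℝ) :
    HasDerivAt (fun s : ℝ => D.rw P (fun x => u x + s * g x) D.Ω)
      (((1 - D.rw P (fun x => u x + s₀ * g x)) * D.π g * D.rw P (fun x => u x + s₀ * g x) +
        D.rw P (fun x => u x + s₀ * g x) * D.π g * (1 - D.rw P (fun x => u x + s₀ * g x))) D.Ω)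
      s₀ := by
  have hu' := hu.add ((Bd.const s₀).mul hg)
  have hQ := rw_proj hP hu'
  have h := RwA.deriv_op (hasDerivAt_π_exp (D := D) hg) (by simp [π_one])
    hQ.2.isIdempotentElem.eq D.Ω
  have h2 := HasDerivAt.comp_sub_const s₀ s₀ (by rwa [sub_self])
  refine h2.congr_of_eventuallyEq (Eventually.of_forall fun s => ?_)
  have hs := (Bd.const (s - s₀)).mul hg
  beta_reduce
  rw [← rw_def _ hs, rw_rw hP hu' hs]
  congr 2
  funext x
  ring

end Crest.Agent.R113.Sys
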