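import Crest.Agent.R113.Cov

/-! Row 113: the separation property for the rotation. -/

set_option autoImplicit false

open MeasureTheory Filter Topology
open scoped ENNReal

namespace Crest.Agent.R113

local notation "μT" => (AddCircle.haarAddCircle : Measure UnitAddCircle)

private theorem mink2 {X : Type*} [MeasurableSpace X] (μ : Measure X) [IsProbabilityMeasure μ]
    {f g : X → ℝ} {A B : ℝ} (hf : Bd f) (hg : Bd g) (hA : 0 ≤ A) (hB : 0 ≤ B)
    (h1 : ∫ x, f x ^ 2 ∂μ ≤ A ^ 2) (h2 : ∫ x, g x ^ 2 ∂μ ≤ B ^ 2) :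
    ∫ x, (f x + g x) ^ 2 ∂μ ≤ (A + B) ^ 2 := by
  have key : ∀ t : ℝ, ∫ x, (t * f x + g x) ^ 2 ∂μ =
      (∫ x, f x ^ 2 ∂μ) * (t * t) + 2 * (∫ x, f x * g x ∂μ) * t + ∫ x, g x ^ 2 ∂μ := by
    intro t
    have e : (fun x => (t * f x + g x) ^ 2) =
        fun x => (t * t) * (f x * f x) + (2 * t) * (f x * g x) + g x * g x := by
      funext x; ring
    rw [e, integral_add ((((Bd.const _).mul (hf.mul hf)).add ((Bd.const _).mul (hf.mul hg))).integrable _)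
      ((hg.mul hg).integrable _), integral_add (((Bd.const _).mul (hf.mul hf)).integrable _)
      (((Bd.const _).mul (hf.mul hg)).integrable _), integral_const_mul, integral_const_mul]
    simp only [sq]
    ring
  have hd := discrim_le_zero (a := ∫ x, f x ^ 2 ∂μ) (b := 2 * ∫ x, f x * g x ∂μ)
    (c := ∫ x, g x ^ 2 ∂μ) fun t => by
      rw [← key]
      exact integral_nonneg fun x => sq_nonneg _
  have p1 : 0 ≤ ∫ x, f x ^ 2 ∂μ := integral_nonneg fun x => sq_nonneg _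
  have p2 : 0 ≤ ∫ x, g x ^ 2 ∂μ := integral_nonneg fun x => sq_nonneg _
  have h3 : ∫ x, f x * g x ∂μ ≤ A * B := by
    refine (abs_le_of_sq_le_sq' ?_ (mul_nonneg hA hB)).2
    have := mul_le_mul h1 h2 p2 (sq_nonneg _)
    rw [discrim] at hd
    nlinarith
  have := key 1
  simp only [one_mul, mul_one] at this
  rw [this]
  nlinarith

/-- Minkowski inequality for finite sums (induction, Cauchy-Schwarz; or norms in `Lp ℝ 2 μ`) -/
theorem mink {X ι : Type*} [MeasurableSpace X] (μ : Measure X) [IsProbabilityMeasure μ]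
    (I : Finset ι) (f : ι → X → ℝ) (A : ι → ℝ) (hf : ∀ j ∈ I, Bd (f j)) (hA : ∀ j ∈ I, 0 ≤ A j)
    (h : ∀ j ∈ I, ∫ x, f j x ^ 2 ∂μ ≤ A j ^ 2) :
    ∫ x, (∑ j ∈ I, f j x) ^ 2 ∂μ ≤ (∑ j ∈ I, A j) ^ 2 := by
  classical
  induction I using Finset.induction_on with
  | empty => simp
  | insert a I ha ih =>
    have m : ∀ j ∈ I, j ∈ insert a I := fun j hj => Finset.mem_insert_of_mem hj
    have m0 := Finset.mem_insert_self a I
    simp only [Finset.sum_insert ha]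
    exact mink2 μ (hf a m0) (Bd.finset_sum I fun j hj => hf j (m j hj)) (hA a m0)
      (Finset.sum_nonneg fun j hj => hA j (m j hj)) (h a m0)
      (ih (fun j hj => hf j (m j hj)) (fun j hj => hA j (m j hj)) fun j hj => h j (m j hj))

theorem Sys.Sep.congr {X : Type*} [MeasurableSpace X] {D : Sys X} {S S' : ℕ → Set X}
    {N N' : ℕ → ℕ} (h : D.Sep S N) {i₀ : ℕ} (hS : ∀ i, i₀ ≤ i → S' i = S i)
    (hN : ∀ i, i₀ ≤ i → N' i = N i) : D.Sep S' N' := by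
  intro δ hδ
  obtain ⟨Γ, hΓ, h1⟩ := h δ hδ
  refine ⟨Γ, hΓ, fun m₀ => ?_⟩
  obtain ⟨m, hm, h2, h3⟩ := h1 (max m₀ i₀)
  have hm' : i₀ ≤ m := (le_max_right _ _).trans hm
  refine ⟨m, (le_max_left _ _).trans hm, by rwa [hS m hm', hN m hm'], fun Rr => ?_⟩
  obtain ⟨I, lev, w, a1, a2, a3, a4, a5⟩ := h3 Rr
  have e : ∀ F : ℕ × ℕ × ℕ → Set X → ℕ → ℝ,
      ∑ a ∈ I, F a (S' (lev a)) (N' (lev a)) = ∑ a ∈ I, F a (S (lev a)) (N (lev a)) :=
    fun F => Finset.sum_congr rfl fun a ha => by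
      rw [hS _ (hm'.trans (a1 a ha).1), hN _ (hm'.trans (a1 a ha).1)]
  refine ⟨I, lev, w, a1, ?_, ?_, ?_, ?_⟩
  · rw [hN m hm', e fun a _ n => w a * ((N m : ℝ) / n)]
    exact a2
  · simp only [fun x => e fun a T n => w a * ((D.wt T x : ℝ) / n)]
    exact a3
  · simp only [fun x => e fun a T n => w a * ((D.wb T x : ℝ) / n)]
    exact a4
  · simp only [fun x r => e fun a T n => w a * (|(D.wt T (D.σ r x) : ℝ) - D.wt T x| / n), hS m hm']
    exact a5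

namespace Lev

variable {θ : ℝ} (L : Lev θ)

/-- index set of the weights: `(0,0,0)` and the windows `(k,i,e)`, `k₀ ≤ k < K` -/
def idx (m k₀ K : ℕ) : Finset (ℕ × ℕ × ℕ) :=
  insert (0, 0, 0) ((Finset.Ico k₀ K).biUnion fun k =>
    {k} ×ˢ (Finset.Ico (m + 2 ^ k) (m + 2 ^ k + 2 ^ k) ×ˢ Finset.range 2))

/-- levels -/
def lev (i₁ : ℕ) (a : ℕ × ℕ × ℕ) : ℕ := if a.1 = 0 then i₁ else a.2.1 + a.2.2

/-- weights -/
noncomputable def wgt (w₀ : ℝ) (a : ℕ × ℕ × ℕ) : ℝ :=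
  if a.1 = 0 then w₀ else 80 * 1000 ^ 20 / 2 ^ a.1

/-- sums over the index set -/
theorem sum_idx {m k₀ K i₁ : ℕ} (hk₀ : 1 ≤ k₀) (w₀ : ℝ) (F : ℕ → ℝ) :
    ∑ a ∈ idx m k₀ K, wgt w₀ a * F (lev i₁ a) = w₀ * F i₁ + ∑ k ∈ Finset.Ico k₀ K,
      80 * 1000 ^ 20 / 2 ^ k *
        ∑ i ∈ Finset.Ico (m + 2 ^ k) (m + 2 ^ k + 2 ^ k), (F i + F (i + 1)) := by
  unfold idx
  rw [Finset.sum_insert, Finset.sum_biUnion]
  · congr 1
    refine Finset.sum_congr rfl fun k hk => ?_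
    have hk0 : k ≠ 0 := by have := (Finset.mem_Ico.1 hk).1; omega
    rw [Finset.sum_product, Finset.sum_singleton, Finset.sum_product, Finset.mul_sum]
    refine Finset.sum_congr rfl fun i _ => ?_
    simp only [wgt, lev, if_neg hk0, Finset.sum_range_succ, Finset.range_zero, Finset.sum_empty,
      add_zero, zero_add, mul_add]
  · intro k _ k' _ hkk
    rw [Function.onFun, Finset.disjoint_left]
    intro a h1 h2
    rw [Finset.mem_product, Finset.mem_singleton] at h1 h2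
    exact hkk (h1.1.symm.trans h2.1)
  · simp only [Finset.mem_biUnion, Finset.mem_product, Finset.mem_singleton, Finset.mem_Ico,
      not_exists, not_and]
    intro k hk h
    omega

private theorem sep_NN (i : ℕ) : (NN i : ℝ) = 4 * 1000 ^ i := by simp [NN]

private theorem sep_geo {q : ℝ} (h0 : 0 ≤ q) (h1 : q < 1) (a b : ℕ) :
    (1 - q) * ∑ k ∈ Finset.Ico a b, q ^ k ≤ q ^ a :=
  (le_div_iff₀' (sub_pos.2 h1)).1 (geom_sum_Ico_le_of_lt_one h0 h1)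

private theorem sep_lin (l : ℕ) : ((l : ℝ) + 1) / 1000 ^ l ≤ (1 / 2) ^ l := by
  have h1 : ((l : ℝ) + 1) ≤ 2 ^ l := by exact_mod_cast Nat.lt_two_pow_self
  rw [one_div_pow, div_le_div_iff₀ (by positivity) (by positivity), one_mul]
  calc ((l : ℝ) + 1) * 2 ^ l ≤ 2 ^ l * 2 ^ l := by gcongr
    _ = 4 ^ l := by rw [← mul_pow]; norm_num
    _ ≤ _ := pow_le_pow_left₀ (by norm_num) (by norm_num) _

private theorem sep_bd {i : ℕ} (hi : L.i₀ ≤ i) :
    Bd fun x => ((rot θ).wt (L.S i) x : ℝ) / NN i := by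
  simpa only [div_eq_mul_inv] using ((L.hit_S hi).bd_wt (L.S_meas i)).mul (Bd.const _)

private theorem sep_win {s : ℕ} (hs : L.i₀ ≤ s) (k : ℕ) :
    ∃ c₀ : ℝ, ∫ x, (80 * 1000 ^ 20 / 2 ^ k *
      (∑ i ∈ Finset.Ico s (s + 2 ^ k), ((rot θ).wt (L.S i) x : ℝ) / NN i - c₀)) ^ 2 ∂μT
      ≤ (2160 * 1000 ^ 20 * (3 / 4) ^ k) ^ 2 := by
  obtain ⟨c₀, h⟩ := L.var_wt hs (n := 2 ^ k) Nat.one_le_two_pow
  refine ⟨c₀, ?_⟩
  simp only [mul_pow]
  rw [integral_const_mul]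
  refine (mul_le_mul_of_nonneg_left h (by positivity)).trans ?_
  have h1 : (700 : ℝ) * (2 ^ k : ℕ) ≤ (27 * (3 / 2) ^ k) ^ 2 := by
    rw [mul_pow, ← pow_mul, mul_comm k 2, pow_mul]
    push_cast
    exact mul_le_mul (by norm_num) (pow_le_pow_left₀ (by norm_num) (by norm_num) _)
      (by positivity) (by norm_num)
  refine (mul_le_mul_of_nonneg_left h1 (by positivity)).trans (le_of_eq ?_)
  rw [← mul_pow, ← mul_pow, ← mul_pow]
  congr 1
  have : ((3 : ℝ) / 2) ^ k = (3 / 4) ^ k * 2 ^ k := by rw [← mul_pow]; norm_num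
  rw [this]
  field_simp
  norm_num

/-- PLAN. `sum_idx`, `mink`, `var_wt` at `s = m + 2^k` and `s + 1`; `√(700·2^k) ≤ 27·(3/2)^k`,
`∑ (3/4)^k ≤ 4`; the single term is bounded by `w₀` (`wt < NN`). -/
theorem idx_var {m k₀ K i₁ : ℕ} (hm : L.i₀ ≤ m) (hk₀ : 1 ≤ k₀) (hi₁ : m ≤ i₁) {w₀ : ℝ}
    (hw₀ : 0 ≤ w₀) : ∃ c₀ : ℝ, ∫ x, (∑ a ∈ idx m k₀ K, wgt w₀ a *
      (((rot θ).wt (L.S (lev i₁ a)) x : ℝ) / NN (lev i₁ a)) - c₀) ^ 2 ∂μT ≤
        (w₀ + 20000 * 1000 ^ 20) ^ 2 := by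
  choose c hc using fun k => L.sep_win (s := m + 2 ^ k) (hm.trans (Nat.le_add_right _ _)) k
  choose c' hc' using fun k => L.sep_win (s := m + 2 ^ k + 1)
    (hm.trans ((Nat.le_add_right _ _).trans (Nat.le_succ _))) k
  refine ⟨∑ k ∈ Finset.Ico k₀ K, 80 * 1000 ^ 20 / 2 ^ k * (c k + c' k), ?_⟩
  have b1 : ∀ k s (c : ℝ), L.i₀ ≤ s → Bd fun x => 80 * 1000 ^ 20 / 2 ^ k *
      (∑ i ∈ Finset.Ico s (s + 2 ^ k), ((rot θ).wt (L.S i) x : ℝ) / NN i - c) := fun k s c hs =>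
    (Bd.const _).mul ((Bd.finset_sum _ fun i hi =>
      L.sep_bd (hs.trans (Finset.mem_Ico.1 hi).1)).sub (Bd.const _))
  have b2 := fun k => b1 k (m + 2 ^ k) (c k) (hm.trans (Nat.le_add_right _ _))
  have b3 := fun k => b1 k (m + 2 ^ k + 1) (c' k)
    (hm.trans ((Nat.le_add_right _ _).trans (Nat.le_succ _)))
  have h1 := mink μT (Finset.Ico k₀ K) _ _ (fun k _ => (b2 k).add (b3 k))
    (fun k _ => by positivity)
    (fun k _ => mink2 μT (b2 k) (b3 k) (by positivity) (by positivity) (hc k) (hc' k))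
  have h2 : ∫ x, (w₀ * (((rot θ).wt (L.S i₁) x : ℝ) / NN i₁)) ^ 2 ∂μT ≤ w₀ ^ 2 := by
    have b := (Bd.const w₀).mul (L.sep_bd (hm.trans hi₁))
    have := integral_mono (μ := μT) (f := fun x => (w₀ * (((rot θ).wt (L.S i₁) x : ℝ) / NN i₁)) ^ 2)
      (by simpa only [sq] using (b.mul b).integrable _) (integrable_const (w₀ ^ 2)) fun x => by
        refine pow_le_pow_left₀ (by positivity) (mul_le_of_le_one_right hw₀ ?_) 2
        rw [div_le_one (by rw [sep_NN]; positivity)]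
        exact_mod_cast ((L.hit_S (hm.trans hi₁)).wt_lt x).le
    simpa using this
  have h3 := mink2 μT ((Bd.const w₀).mul (L.sep_bd (hm.trans hi₁)))
    (Bd.finset_sum _ fun k _ => (b2 k).add (b3 k)) hw₀
    (Finset.sum_nonneg fun k _ => by positivity) h2 h1
  refine le_trans (le_of_eq ?_) (h3.trans (pow_le_pow_left₀ (by positivity) ?_ 2))
  · refine integral_congr_ae (Eventually.of_forall fun x => ?_)
    simp only
    rw [sum_idx hk₀ w₀ fun i => ((rot θ).wt (L.S i) x : ℝ) / NN i, add_sub_assoc,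
      ← Finset.sum_sub_distrib]
    congr 2
    refine Finset.sum_congr rfl fun k _ => ?_
    rw [Finset.sum_add_distrib, show m + 2 ^ k + 1 + 2 ^ k = m + 2 ^ k + 2 ^ k + 1 by omega,
      ← Finset.sum_Ico_add' (fun i => ((rot θ).wt (L.S i) x : ℝ) / NN i) (m + 2 ^ k)
        (m + 2 ^ k + 2 ^ k) 1]
    ring
  · rw [Finset.sum_add_distrib, ← Finset.mul_sum]
    have a1 := sep_geo (q := 3 / 4) (by norm_num) (by norm_num) k₀ K
    have a2 : ((3 : ℝ) / 4) ^ k₀ ≤ 1 := pow_le_one₀ (by norm_num) (by norm_num)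
    linarith

theorem idx_mass {m k₀ K i₁ : ℕ} (hk₀ : 1 ≤ k₀) {w₀ : ℝ} :
    ∑ a ∈ idx m k₀ K, wgt w₀ a * ((NN m : ℝ) / NN (lev i₁ a)) ≤
      w₀ * ((NN m : ℝ) / NN i₁) + 160 * 1000 ^ 20 := by
  rw [sum_idx hk₀ w₀ fun i => (NN m : ℝ) / NN i]
  have h1 : ∀ k i, m + 2 ^ k ≤ i → (NN m : ℝ) / NN i ≤ (1 / 2) ^ (k + 1) := by
    intro k i hi
    have a1 : k + 1 ≤ 2 ^ k := Nat.lt_two_pow_self
    rw [sep_NN, sep_NN, one_div_pow, div_le_div_iff₀ (by positivity) (by positivity), one_mul,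
      mul_assoc]
    refine mul_le_mul_of_nonneg_left ?_ (by norm_num)
    calc (1000 : ℝ) ^ m * 2 ^ (k + 1) ≤ 1000 ^ m * 1000 ^ (k + 1) := by gcongr; norm_num
      _ = 1000 ^ (m + (k + 1)) := (pow_add _ _ _).symm
      _ ≤ _ := pow_le_pow_right₀ (by norm_num) (by omega)
  have h2 : ∀ k ∈ Finset.Ico k₀ K, (80 * 1000 ^ 20 / 2 ^ k : ℝ) *
      ∑ i ∈ Finset.Ico (m + 2 ^ k) (m + 2 ^ k + 2 ^ k), ((NN m : ℝ) / NN i + NN m / NN (i + 1)) ≤
      80 * 1000 ^ 20 * (1 / 2) ^ k := by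
    intro k _
    have a1 := Finset.sum_le_card_nsmul (Finset.Ico (m + 2 ^ k) (m + 2 ^ k + 2 ^ k))
      (fun i => (NN m : ℝ) / NN i + NN m / NN (i + 1)) ((1 / 2) ^ k) fun i hi => by
        have := (Finset.mem_Ico.1 hi).1
        have b1 := h1 k i this
        have b2 := h1 k (i + 1) (by omega)
        rw [pow_succ] at b1 b2
        linarith
    rw [Nat.card_Ico, Nat.add_sub_cancel_left, nsmul_eq_mul] at a1
    refine (mul_le_mul_of_nonneg_left a1 (by positivity)).trans (le_of_eq ?_)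
    push_cast
    field_simp
  refine add_le_add le_rfl ((Finset.sum_le_sum h2).trans ?_)
  rw [← Finset.mul_sum]
  have a1 := sep_geo (q := 1 / 2) (by norm_num) (by norm_num) k₀ K
  have a2 : ((1 : ℝ) / 2) ^ k₀ ≤ 1 := pow_le_one₀ (by norm_num) (by norm_num)
  linarith

private theorem sep_scale {m k₀ : ℕ} {t : ℤ} (h1 : (1000 : ℤ) ^ (m + 2 ^ (k₀ + 1)) < t) (d : ℕ)
    (h2 : t ≤ 1000 ^ (m + 2 ^ (k₀ + d + 1))) : ∃ k ∈ Finset.Ico k₀ (k₀ + d),
      (1000 : ℤ) ^ (m + 2 ^ (k + 1)) ≤ t ∧ t ≤ 1000 ^ (m + 2 ^ (k + 2)) := by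
  induction d with
  | zero => exact absurd h2 (not_le.2 h1)
  | succ d ih =>
    by_cases h : t ≤ 1000 ^ (m + 2 ^ (k₀ + d + 1))
    · obtain ⟨k, hk, h3⟩ := ih h
      rw [Finset.mem_Ico] at hk
      exact ⟨k, Finset.mem_Ico.2 ⟨hk.1, by omega⟩, h3⟩
    · exact ⟨k₀ + d, Finset.mem_Ico.2 ⟨by omega, by omega⟩, (not_le.1 h).le, h2⟩

private theorem sep_shift {i : ℕ} (hi : L.i₀ ≤ i) {s : ℝ} {x : UnitAddCircle}
    (hx : ¬ ∃ l ≥ i, ∃ j : ℤ, |(j : ℝ)| ≤ s ∧ (rot θ).σ j x ∈ L.I l) {r : ℤ} (hr : |(r : ℝ)| ≤ s) :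
    r + ((rot θ).wt (L.S i) ((rot θ).σ r x) : ℤ) = (rot θ).wt (L.S i) x := by
  refine (L.hit_S hi).wt_shift fun j hj h => hx ?_
  obtain ⟨l, hl, h'⟩ := Set.mem_iUnion₂.1 h
  exact ⟨l, hl, j, le_trans (by exact_mod_cast hj) hr, h'.2⟩

/-- PLAN. Given `δ` (wlog `≤ 1`) choose `k₀ ≥ 3` with `∑_{k ≥ k₀} (20000/2^k + 1/2^(2^k)) ≤ δ/3`,
`Γ₁ ≥ 1` with `28/Γ₁ ≤ δ/6`, `s₀` with `7/1000^s₀ ≤ δ/6`; `i₁ = m + 2^(k₀+1) + s₀`,
`w₀ = Γ₁ NN i₁/NN m = Γ₁ 1000^(2^(k₀+1)+s₀)`, `Γ = w₀ + 20000·1000²⁰`; `m ≥ i₀` large so that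
`7(i+1)/1000^i ≤ δ/6` for `i ≥ m`. `Bad` = union of: walls of level `≥ m` within `NN m/Γ₁`
(`real_near`; off it `|r| ≤ NN m/Γ₁` is in block by `wt_shift`), walls of level `≥ i₁` within
`1000^(m+2^(k₀+1))` (off it `|Δ wt_{i₁}| = |r|`), and the sets of `window_sep` for
`s = m + 2^k`, `n = 2^k`, `k₀ ≤ k < K`; every `r` with `1000^(m+2^(k₀+1)) ≤ |r| ≤ Rr` has
`1000^(m+2^(k+1)) ≤ |r| ≤ 1000^(m+2^(k+2))` for some `k₀ ≤ k < K` (`K` large). The backward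
variance follows from `wb_eq` and `integral_sub_left_eq_self`. -/
theorem sep : (rot θ).Sep L.S NN := by
  intro δ hδ
  obtain ⟨k₁, hk₁⟩ := exists_pow_lt_of_lt_one (x := δ / 200000) (y := (1 / 2 : ℝ)) (by positivity)
    (by norm_num)
  have hsmall : ∀ k, k₁ ≤ k → ((1 : ℝ) / 2) ^ k ≤ δ / 200000 := fun k hk =>
    (pow_le_pow_of_le_one (by norm_num) (by norm_num) hk).trans hk₁.le
  set k₀ := k₁ + 3 with hk₀
  set Γ₁ : ℝ := 1 + 168 / δ with hΓ₁
  have hΓ1 : 1 ≤ Γ₁ := le_add_of_nonneg_right (by positivity)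
  have hΓ2 : 28 / Γ₁ ≤ δ / 6 := by
    rw [div_le_iff₀ (by positivity), hΓ₁, mul_add, mul_one]
    have : δ / 6 * (168 / δ) = 28 := by field_simp; norm_num
    linarith
  obtain ⟨T, hT⟩ : ∃ T, T = 2 ^ (k₀ + 1) := ⟨_, rfl⟩
  set w₀ : ℝ := Γ₁ * 1000 ^ (T + k₁) with hw₀
  have hw1 : Γ₁ ≤ w₀ := le_mul_of_one_le_right (by positivity) (one_le_pow₀ (by norm_num))
  refine ⟨w₀ + 20000 * 1000 ^ 20, by linarith, fun m₀ => ?_⟩
  set m := max m₀ (max L.i₀ k₁) with hm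
  have hm1 : L.i₀ ≤ m := (le_max_left _ _).trans (le_max_right _ _)
  have hm2 : k₁ ≤ m := (le_max_right _ _).trans (le_max_right _ _)
  have hNN : ∀ i, (0 : ℝ) < NN i := fun i => by rw [sep_NN]; positivity
  have near1 : (μT).real {x | ∃ l ≥ m, ∃ j : ℤ, |(j : ℝ)| ≤ NN m / Γ₁ ∧ (rot θ).σ j x ∈ L.I l} ≤
      δ / 3 := by
    refine (L.real_near m hm1 (by positivity)).trans ?_
    have a1 := (sep_lin m).trans (hsmall m hm2)
    have e : 7 * ((m : ℝ) + 1 + NN m / Γ₁) / 1000 ^ m =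
        7 * (((m : ℝ) + 1) / 1000 ^ m) + 28 / Γ₁ := by
      rw [sep_NN]; field_simp; ring
    rw [e]
    linarith
  have near2 : (μT).real {x | ∃ l ≥ m + T + k₁, ∃ j : ℤ, |(j : ℝ)| ≤ 1000 ^ (m + T) ∧
      (rot θ).σ j x ∈ L.I l} ≤ δ / 3 := by
    refine (L.real_near (m + T + k₁) (by omega) (by positivity)).trans ?_
    have a1 := (sep_lin (m + T + k₁)).trans (hsmall _ (by omega))
    have a2 : (1000 : ℝ) ^ (m + T) / 1000 ^ (m + T + k₁) ≤ (1 / 2) ^ k₁ := by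
      rw [pow_add _ (m + T), ← div_div, div_self (by positivity), one_div_pow]
      exact one_div_le_one_div_of_le (by positivity) (pow_le_pow_left₀ (by norm_num) (by norm_num) _)
    have a3 := hsmall k₁ le_rfl
    rw [mul_div_assoc, add_div]
    linarith
  refine ⟨m, le_max_left _ _, ?_, fun Rr => ?_⟩
  · refine le_trans (measureReal_mono (fun x hx => ?_)) (near1.trans (by linarith))
    obtain ⟨l, hl, h'⟩ := Set.mem_iUnion₂.1 ((L.hit_S hm1).fin_mem x)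
    refine ⟨l, hl, ((rot θ).wt (L.S m) x : ℕ), ?_, h'.2⟩
    rw [Int.cast_natCast, abs_of_nonneg (by positivity)]
    refine le_trans hx (div_le_div_of_nonneg_left (hNN m).le (by positivity) (by linarith))
  have hk1 : 1 ≤ k₀ := by omega
  obtain ⟨c₀, hc₀⟩ := L.idx_var (m := m) (K := k₀ + Rr) (i₁ := m + T + k₁) hm1 hk1 (by omega)
    (w₀ := w₀) (by positivity)
  have hwin : ∀ k : ℕ, ∃ Bad : Set UnitAddCircle, k₀ ≤ k → _ := fun k => by
    by_cases hk : k₀ ≤ k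
    · obtain ⟨B, hB⟩ := L.window_sep (s := m + 2 ^ k) (n := 2 ^ k)
        (hm1.trans (Nat.le_add_right _ _))
        (le_trans (by norm_num) (Nat.pow_le_pow_right (by norm_num) (show 3 ≤ k by omega)))
        (Nat.le_add_left _ _)
      exact ⟨B, fun _ => hB⟩
    · exact ⟨∅, fun h => absurd h hk⟩
  choose B hB using hwin
  refine ⟨idx m k₀ (k₀ + Rr), lev (m + T + k₁), wgt w₀, fun a ha => ⟨?_, ?_⟩, ?_, ⟨c₀, hc₀⟩,
    ⟨c₀, ?_⟩, ({x | ∃ l ≥ m, ∃ j : ℤ, |(j : ℝ)| ≤ NN m / Γ₁ ∧ (rot θ).σ j x ∈ L.I l} ∪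
      {x | ∃ l ≥ m + T + k₁, ∃ j : ℤ, |(j : ℝ)| ≤ 1000 ^ (m + T) ∧ (rot θ).σ j x ∈ L.I l}) ∪
      ⋃ k ∈ Finset.Ico k₀ (k₀ + Rr), B k, ((L.meas_near _ _).union (L.meas_near _ _)).union
      (Finset.measurableSet_biUnion _ fun k hk => (hB k (Finset.mem_Ico.1 hk).1).1), ?_,
      fun x hx r hr0 hrR hIB => ?_⟩
  · unfold lev
    split_ifs with h
    · omega
    · simp only [idx, Finset.mem_insert, Finset.mem_biUnion, Finset.mem_product,
        Finset.mem_Ico] at ha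
      rcases ha with rfl | ⟨k, -, -, ⟨h1, -⟩, -⟩
      · exact absurd rfl h
      · exact (Nat.le_add_right _ _).trans (h1.trans (Nat.le_add_right _ _))
  · unfold wgt
    split_ifs <;> positivity
  · refine (idx_mass hk1).trans ?_
    have : (NN m : ℝ) / NN (m + T + k₁) ≤ 1 := by
      rw [div_le_one (hNN _), sep_NN, sep_NN]
      exact mul_le_mul_of_nonneg_left (pow_le_pow_right₀ (by norm_num) (by omega)) (by norm_num)
    have := mul_le_of_le_one_right (show 0 ≤ w₀ by positivity) this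
    linarith
  · simp only [L.wb_eq]
    refine le_trans (le_of_eq ?_) hc₀
    exact integral_sub_left_eq_self (fun x => (∑ a ∈ idx m k₀ (k₀ + Rr), wgt w₀ a *
      (((rot θ).wt (L.S (lev (m + T + k₁) a)) x : ℝ) / NN (lev (m + T + k₁) a)) - c₀) ^ 2) μT _
  · refine (measureReal_union_le _ _).trans ((add_le_add ((measureReal_union_le _ _).trans
      (add_le_add near1 near2)) (measureReal_biUnion_finset_le _ _)).trans ?_)
    have a1 : ∑ k ∈ Finset.Ico k₀ (k₀ + Rr), (μT).real (B k) ≤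
        ∑ k ∈ Finset.Ico k₀ (k₀ + Rr), 20001 * ((1 : ℝ) / 2) ^ k := by
      refine Finset.sum_le_sum fun k hk => (hB k (Finset.mem_Ico.1 hk).1).2.1.trans ?_
      have b1 : (1 : ℝ) / 2 ^ (m + 2 ^ k) ≤ 1 / 2 ^ k :=
        one_div_le_one_div_of_le (by positivity) (pow_le_pow_right₀ (by norm_num)
          (Nat.lt_two_pow_self.le.trans (Nat.le_add_left _ _)))
      rw [one_div_pow]
      push_cast
      have b2 : (20000 : ℝ) / 2 ^ k = 20000 * (1 / 2 ^ k) := by ring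
      linarith
    rw [← Finset.mul_sum] at a1
    have a2 := sep_geo (q := 1 / 2) (by norm_num) (by norm_num) k₀ (k₀ + Rr)
    have a3 := hsmall k₀ (by omega)
    change δ / 3 + δ / 3 + ∑ k ∈ Finset.Ico k₀ (k₀ + Rr), (μT).real (B k) ≤ δ
    linarith
  · simp only [Set.mem_union, not_or, Set.mem_iUnion, not_exists] at hx
    obtain ⟨⟨hx1, hx2⟩, hx3⟩ := hx
    rw [sum_idx hk1 w₀ fun i =>
      |((rot θ).wt (L.S i) ((rot θ).σ r x) : ℝ) - (rot θ).wt (L.S i) x| / NN i]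
    have hlow : NN m / Γ₁ < |(r : ℝ)| := by
      by_contra h
      exact hIB ⟨hr0, L.sep_shift hm1 hx1 (not_lt.1 h)⟩
    by_cases hr : |r| ≤ 1000 ^ (m + T)
    · have a1 := L.sep_shift (i := m + T + k₁) (by omega) hx2 (r := r) (by exact_mod_cast hr)
      have a2 : (r : ℝ) + (rot θ).wt (L.S (m + T + k₁)) ((rot θ).σ r x) =
          (rot θ).wt (L.S (m + T + k₁)) x := by exact_mod_cast a1
      refine le_add_of_le_of_nonneg ?_ (Finset.sum_nonneg fun k _ => by positivity)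
      rw [← a2, show ((rot θ).wt (L.S (m + T + k₁)) ((rot θ).σ r x) : ℝ) -
        (r + (rot θ).wt (L.S (m + T + k₁)) ((rot θ).σ r x)) = -r by ring, abs_neg]
      have a3 : w₀ * (NN m / Γ₁ / NN (m + T + k₁)) = 1 := by
        rw [sep_NN, sep_NN, hw₀, add_assoc, pow_add _ m]
        field_simp
      rw [← a3]
      gcongr
    · obtain ⟨k, hk, a1, a2⟩ := sep_scale (hT ▸ not_le.1 hr) Rr (hrR.trans (by
        have b1 : Rr < 2 ^ (k₀ + Rr + 1) :=
          lt_of_lt_of_le Nat.lt_two_pow_self (Nat.pow_le_pow_right (by norm_num) (by omega))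
        have b2 : m + 2 ^ (k₀ + Rr + 1) < 1000 ^ (m + 2 ^ (k₀ + Rr + 1)) :=
          Nat.lt_pow_self (by norm_num)
        exact_mod_cast (show Rr ≤ 1000 ^ (m + 2 ^ (k₀ + Rr + 1)) by omega)))
      have a3 := (hB k (Finset.mem_Ico.1 hk).1).2.2 x (hx3 k hk) r
        (by rwa [add_assoc, ← two_mul, ← pow_succ'])
        (a2.trans (pow_le_pow_right₀ (by norm_num) (by rw [pow_add]; omega)))
      refine le_add_of_nonneg_of_le (by positivity) (le_trans ?_ (Finset.single_le_sum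
        (f := fun k => (80 * 1000 ^ 20 / 2 ^ k : ℝ) *
          ∑ i ∈ Finset.Ico (m + 2 ^ k) (m + 2 ^ k + 2 ^ k),
            (|((rot θ).wt (L.S i) ((rot θ).σ r x) : ℝ) - (rot θ).wt (L.S i) x| / NN i +
            |((rot θ).wt (L.S (i + 1)) ((rot θ).σ r x) : ℝ) - (rot θ).wt (L.S (i + 1)) x| /
              NN (i + 1))) (fun k _ => by positivity) hk))
      refine le_trans (le_of_eq ?_) (mul_le_mul_of_nonneg_left a3 (by positivity))
      push_cast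
      field_simp

end Lev

end Crest.Agent.R113
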