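import Crest.Agent.R113.Uni

/-! Row 113 (S0150): weighted shifts on `ℓ²(ℤ)`. -/

set_option autoImplicit false

open Filter Topology

namespace Crest.Agent.R113

open Crest.AnalysisR.TwoAdic

namespace ShiftA

theorem mem_shift (e : ℤ) (v : seqHilbert) : Memℓp (fun k => v (k - e)) 2 :=
  memℓp_gen ((Equiv.subRight e).summable_iff.2 ((lp.memℓp v).summable (by norm_num)))

theorem bound {e : ℤ} {C : ℝ} (hC : 0 ≤ C) {x v : seqHilbert} (h : ∀ j, ‖x (j + e)‖ ≤ C * ‖v j‖) :
    ‖x‖ ≤ C * ‖v‖ := by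
  let y : seqHilbert := ⟨fun k => v (k - e), mem_shift e v⟩
  have h1 : ‖y‖ = ‖v‖ := by
    rw [lp.norm_eq_tsum_rpow (by norm_num), lp.norm_eq_tsum_rpow (by norm_num)]
    congr 1
    exact (Equiv.subRight e).tsum_eq fun k => ‖v k‖ ^ (2 : ENNReal).toReal
  have h2 : ‖x‖ ≤ ‖(C : ℂ) • y‖ := lp.norm_mono (by norm_num) fun k => by
    have := h (k - e)
    rw [sub_add_cancel] at this
    rw [lp.coeFn_smul, Pi.smul_apply, norm_smul, Complex.norm_real, Real.norm_of_nonneg hC]
    exact this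
  rwa [norm_smul, Complex.norm_real, Real.norm_of_nonneg hC, h1] at h2

theorem basis_apply (j k : ℤ) : basisVec j k = if k = j then 1 else 0 := by
  rw [basisVec, lp.single_apply, Pi.single_apply]

theorem mem_of_basis {W : Submodule ℂ seqHilbert} (hW : IsClosed (W : Set seqHilbert))
    {v : seqHilbert} (h : ∀ j, v j ≠ 0 → basisVec j ∈ W) : v ∈ W := by
  refine hW.mem_of_tendsto (lp.hasSum_single (by norm_num) v)
    (Eventually.of_forall fun s => W.sum_mem fun j _ => ?_)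
  by_cases hj : v j = 0
  · rw [hj, lp.single_zero]
    exact W.zero_mem
  · have := W.smul_mem (v j) (h j hj)
    rwa [basisVec, ← lp.single_smul, smul_eq_mul, mul_one] at this

theorem closed_tail (h : ℤ) : IsClosed (tailSpace h : Set seqHilbert) :=
  Submodule.isClosed_topologicalClosure _

theorem basis_mem_tail {h j : ℤ} (hj : h ≤ j) : basisVec j ∈ tailSpace h :=
  Submodule.le_topologicalClosure _ (Submodule.subset_span ⟨⟨j, hj⟩, rfl⟩)

end ShiftA
open ShiftA

theorem exists_wsh (w : ℤ → ℝ) (e : ℤ) (hw : ∀ j, |w j| ≤ 1) :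
    ∃ S : seqHilbert →L[ℂ] seqHilbert, ∀ (v : seqHilbert) (j : ℤ),
      S v (j + e) = (w j : ℂ) * v j := by
  have h1 : ∀ (v : seqHilbert) (k : ℤ), ‖(w k : ℂ) * v k‖ ≤ 1 * ‖v k‖ := fun v k => by
    rw [norm_mul, Complex.norm_real]
    exact mul_le_mul_of_nonneg_right (hw k) (norm_nonneg _)
  let L : seqHilbert →ₗ[ℂ] seqHilbert :=
    { toFun := fun v => ⟨fun k => (w (k - e) : ℂ) * v (k - e),
        (mem_shift e v).mono' fun k => by simpa using h1 v (k - e)⟩
      map_add' := fun v v' => lp.ext (funext fun k => mul_add _ _ _)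
      map_smul' := fun c v => lp.ext (funext fun k => mul_left_comm _ _ _) }
  have h2 : ∀ (v : seqHilbert) (j : ℤ), L v (j + e) = (w j : ℂ) * v j := fun v j => by
    change (w (j + e - e) : ℂ) * v (j + e - e) = _
    rw [add_sub_cancel_right]
  exact ⟨L.mkContinuous 1 fun v => bound zero_le_one fun j => by rw [h2]; exact h1 v j, h2⟩

open Classical in
/-- the weighted shift `δ_j ↦ w j δ_{j+e}` -/
noncomputable def wsh (w : ℤ → ℝ) (e : ℤ) : seqHilbert →L[ℂ] seqHilbert :=
  if hw : ∀ j, |w j| ≤ 1 then (exists_wsh w e hw).choose else 0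

variable {w : ℤ → ℝ} {e : ℤ}

theorem wsh_apply (hw : ∀ j, |w j| ≤ 1) (v : seqHilbert) (j : ℤ) :
    wsh w e v (j + e) = (w j : ℂ) * v j := by
  rw [wsh, dif_pos hw]
  exact (exists_wsh w e hw).choose_spec v j

theorem wsh_basis (hw : ∀ j, |w j| ≤ 1) (j : ℤ) :
    wsh w e (basisVec j) = (w j : ℂ) • basisVec (j + e) := by
  refine lp.ext (funext fun k => ?_)
  obtain ⟨i, rfl⟩ : ∃ i, k = i + e := ⟨k - e, by ring⟩
  rw [wsh_apply hw, lp.coeFn_smul, Pi.smul_apply, basis_apply, basis_apply]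
  by_cases h : i = j <;> simp [h]

/-- an operator acting as a weighted shift has norm at most the sup of the weights -/
theorem norm_le_of_apply {S : seqHilbert →L[ℂ] seqHilbert} {c : ℤ → ℝ} {C : ℝ} (hC : 0 ≤ C)
    (hc : ∀ j, |c j| ≤ C) (h : ∀ (v : seqHilbert) (j : ℤ), S v (j + e) = (c j : ℂ) * v j) :
    ‖S‖ ≤ C := by
  refine S.opNorm_le_bound hC fun v => bound (e := e) hC fun j => ?_
  rw [h, norm_mul, Complex.norm_real]
  exact mul_le_mul_of_nonneg_right (hc j) (norm_nonneg _)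

theorem wsh_pow_apply (hw : ∀ j, |w j| ≤ 1) (n : ℕ) (v : seqHilbert) (j : ℤ) :
    (wsh w e ^ n) v (j + n * e) = ((∏ i ∈ Finset.range n, w (j + i * e) : ℝ) : ℂ) * v j := by
  induction n with
  | zero => simp
  | succ n ih =>
    rw [pow_succ', mul_apply_eq_comp, Nat.cast_succ, add_mul, one_mul, ← add_assoc,
      wsh_apply hw, ih, Finset.prod_range_succ]
    push_cast
    ring

theorem mem_tail {h : ℤ} {v : seqHilbert} : v ∈ tailSpace h ↔ ∀ j < h, v j = 0 := by
  refine ⟨fun hv j hj => ?_, fun hv => mem_of_basis (closed_tail h) fun j hj =>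
    basis_mem_tail (not_lt.1 fun h' => hj (hv j h'))⟩
  have : tailSpace h ≤ LinearMap.ker (lp.evalCLM ℂ (fun _ : ℤ => ℂ) 2 j).toLinearMap := by
    refine Submodule.topologicalClosure_minimal _ (Submodule.span_le.2 ?_)
      (ContinuousLinearMap.isClosed_ker _)
    rintro _ ⟨⟨i, hi⟩, rfl⟩
    change basisVec i j = 0
    rw [basis_apply, if_neg (by omega)]
  exact this hv

theorem Grow.abs_le {u : ℤ → ℝ} (h : Grow u) (j : ℤ) : |Real.exp (-u j)| ≤ Real.exp (-10) := by
  rw [abs_of_pos (Real.exp_pos _), Real.exp_le_exp]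
  have h1 := h.ge j
  have h2 : (1 : ℝ) ≤ |2 * (j : ℝ) + 1| := by
    exact_mod_cast Int.one_le_abs (show 2 * j + 1 ≠ 0 by omega)
  linarith

theorem Grow.abs_le_one {u : ℤ → ℝ} (h : Grow u) (j : ℤ) : |Real.exp (-u j)| ≤ 1 :=
  (h.abs_le j).trans (Real.exp_le_one_iff.2 (by norm_num))

theorem Grow.norm_pow {u : ℤ → ℝ} (h : Grow u) (n : ℕ) :
    ‖wsh (fun j => Real.exp (-u j)) 1 ^ n‖ ≤ Real.exp (-10 * (((n + 1) ^ 2 / 4 : ℕ) : ℝ)) := by
  refine norm_le_of_apply (Real.exp_pos _).le (fun j => ?_) (wsh_pow_apply h.abs_le_one n)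
  rw [← Real.exp_sum, abs_of_pos (Real.exp_pos _), Real.exp_le_exp, Finset.sum_neg_distrib, neg_mul]
  simpa using h.window j n

/-- `lp.hasSum_inner`, reindexed by `a ↦ a + n`, and `Grow.coeff` with `conj ∘ y` -/
theorem Grow.orth {u : ℤ → ℝ} (h : Grow u) {v y : seqHilbert}
    (h0 : ∀ n : ℕ, inner ℂ y ((wsh (fun j => Real.exp (-u j)) 1 ^ n) v) = 0) :
    ∀ a b, a ≤ b → v a = 0 ∨ y b = 0 := by
  have := h.coeff (v := v) (y := fun b => (starRingEnd ℂ) (y b)) (M := max ‖v‖ ‖y‖)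
    (fun a => (lp.norm_apply_le_norm (by norm_num) v a).trans (le_max_left _ _))
    (fun b => by
      rw [Complex.norm_conj]
      exact (lp.norm_apply_le_norm (by norm_num) y b).trans (le_max_right _ _)) fun n => by
      have h1 := lp.hasSum_inner (𝕜 := ℂ) y ((wsh (fun j => Real.exp (-u j)) 1 ^ n) v)
      rw [h0, ← (Equiv.addRight (n : ℤ)).hasSum_iff] at h1
      refine (congrArg (HasSum · 0) (funext fun a => ?_)).mpr h1
      have h2 := wsh_pow_apply h.abs_le_one (e := 1) n v a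
      simp only [mul_one] at h2
      simp only [Function.comp_apply, Equiv.coe_addRight, RCLike.inner_apply, h2]
      rw [← Real.exp_sum, Finset.sum_neg_distrib]
      push_cast
      ring
  simpa using this

/-- PLAN. If `W ≠ ⊥, ⊤` pick `0 ≠ y ∈ Wᗮ`, `y b ≠ 0`; all `v ∈ W` vanish at all `a ≤ b`, so
`h = min {a | ∃ v ∈ W, v a ≠ 0}` exists (`Int.exists_least_of_bdd`); `W ≤ tail h`, every
`y ∈ Wᗮ` vanishes at `b ≥ h`, so `tail h ≤ Wᗮᗮ = W`. -/
theorem Grow.unicell {u : ℤ → ℝ} (h : Grow u) (W : Submodule ℂ seqHilbert)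
    (hW : IsClosed (W : Set seqHilbert)) :
    (∀ v ∈ W, wsh (fun j => Real.exp (-u j)) 1 v ∈ W) ↔
      (W = ⊥ ∨ W = ⊤ ∨ ∃ h : ℤ, W = tailSpace h) := by
  constructor
  · intro hS
    by_cases h1 : W = ⊥
    · exact Or.inl h1
    by_cases h2 : W = ⊤
    · exact Or.inr (Or.inl h2)
    have := hW.completeSpace_coe
    have key : ∀ v ∈ W, ∀ y ∈ Wᗮ, ∀ a b, a ≤ b → v a = 0 ∨ y b = 0 := fun v hv y hy =>
      h.orth fun n => Submodule.inner_left_of_mem_orthogonal (K := W) (by
        induction n with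
        | zero => exact hv
        | succ n ih => rw [pow_succ']; exact hS _ ih) hy
    have ne : ∀ v : seqHilbert, v ≠ 0 → ∃ a, v a ≠ 0 := fun v hv => by
      by_contra hc
      exact hv (lp.ext (funext fun a => not_not.1 fun h' => hc ⟨a, h'⟩))
    obtain ⟨y, hy, hy0⟩ := (Submodule.ne_bot_iff _).1
      fun h' => h2 (Submodule.orthogonal_eq_bot_iff.1 h')
    obtain ⟨b, hb⟩ := ne y hy0
    obtain ⟨v, hv, hv0⟩ := (Submodule.ne_bot_iff _).1 h1
    obtain ⟨a, ha⟩ := ne v hv0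
    obtain ⟨m, ⟨v', hv', hm⟩, hmin⟩ := Int.exists_least_of_bdd (P := fun a => ∃ v ∈ W, v a ≠ 0)
      ⟨b, fun z ⟨v, hv, hz⟩ => (not_le.1 fun h' => (key v hv y hy z b h').elim hz hb).le⟩
      ⟨a, v, hv, ha⟩
    refine Or.inr (Or.inr ⟨m, le_antisymm (fun x hx => mem_tail.2 fun j hj => ?_) fun x hx => ?_⟩)
    · by_contra hc
      exact hj.not_ge (hmin j ⟨x, hx, hc⟩)
    · rw [← W.orthogonal_orthogonal, Submodule.mem_orthogonal]
      intro z hz
      rw [lp.inner_eq_tsum]
      refine (tsum_congr fun i => ?_).trans tsum_zero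
      rcases lt_or_ge i m with hi | hi
      · rw [mem_tail.1 hx i hi, inner_zero_right]
      · rw [(key v' hv' z hz m i hi).resolve_left hm, inner_zero_left]
  · rintro (rfl | rfl | ⟨m, rfl⟩) v hv
    · rw [Submodule.mem_bot] at hv ⊢
      rw [hv, map_zero]
    · trivial
    · refine mem_tail.2 fun j hj => ?_
      rw [← sub_add_cancel j 1, wsh_apply h.abs_le_one, mem_tail.1 hv _ (by omega), mul_zero]

theorem ShiftA.basis_eq (hw : ∀ j, |w j| ≤ 1) (hw0 : ∀ j, 0 < w j) (j : ℤ) :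
    wsh w (-1) (((w (j + 1) : ℂ))⁻¹ • basisVec (j + 1)) = basisVec j := by
  rw [map_smul, wsh_basis hw, smul_smul, inv_mul_cancel₀ (by exact_mod_cast (hw0 _).ne'), one_smul,
    add_neg_cancel_right]

theorem closure_image_tail (hw : ∀ j, |w j| ≤ 1) (hw0 : ∀ j, 0 < w j) (h : ℤ) :
    closure (wsh w (-1) '' (tailSpace h : Set seqHilbert)) = (tailSpace (h - 1) : Set seqHilbert) := by
  refine Set.Subset.antisymm (closure_minimal ?_ (closed_tail _)) fun v hv => ?_
  · rintro _ ⟨v, hv, rfl⟩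
    refine mem_tail.2 fun j hj => ?_
    rw [← add_neg_cancel_right j 1, wsh_apply hw, mem_tail.1 hv _ (by omega), mul_zero]
  · refine mem_of_basis (W := ((tailSpace h).map (wsh w (-1)).toLinearMap).topologicalClosure)
      (Submodule.isClosed_topologicalClosure _) fun j hj => Submodule.le_topologicalClosure _
        ⟨_, Submodule.smul_mem _ _ (basis_mem_tail ?_), basis_eq hw hw0 j⟩
    have := not_lt.1 fun h' => hj (mem_tail.1 hv j h')
    omega

theorem closure_range (hw : ∀ j, |w j| ≤ 1) (hw0 : ∀ j, 0 < w j) :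
    closure (Set.range (wsh w (-1))) = Set.univ := by
  refine Set.eq_univ_of_forall fun v => ?_
  exact mem_of_basis (W := (LinearMap.range (wsh w (-1)).toLinearMap).topologicalClosure)
    (Submodule.isClosed_topologicalClosure _) fun j _ => Submodule.le_topologicalClosure _
      ⟨_, basis_eq hw hw0 j⟩

end Crest.Agent.R113
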