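import Crest.Agent.R113.Test
import Crest.Agent.R113.KKT

/-! Row 113: the weighted sum of the energy estimates. -/

set_option autoImplicit false

open MeasureTheory Filter Topology
open scoped ENNReal

namespace Crest.Agent.R113

open Sys

variable {X : Type*} [MeasurableSpace X] {D : Sys X} {p : D.H →L[ℂ] D.H} {φ u : X → ℝ}

theorem Bd.div_const {Y : Type*} [MeasurableSpace Y] {f : Y → ℝ} (hf : Bd f) (c : ℝ) :
    Bd fun x => f x / c := by
  simpa [div_eq_mul_inv] using hf.mul (Bd.const c⁻¹)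

theorem Bd.sq {Y : Type*} [MeasurableSpace Y] {f : Y → ℝ} (hf : Bd f) : Bd fun x => f x ^ 2 := by
  simpa [pow_two] using hf.mul hf

theorem KK_nonneg (m N : ℕ) {C : ℝ} (hC : 0 ≤ C) : 0 ≤ KK m N C := by
  unfold KK EE; positivity

theorem Design.N_pos (d : Design D φ) (i : ℕ) : (0 : ℝ) < d.N i := by
  have : Nonempty X := nonempty_of_isProbabilityMeasure D.μ
  exact_mod_cast (d.hit i).pos (Classical.arbitrary X)

theorem Design.bd_WT (d : Design D φ) {ι : Type*} (I : Finset ι) (lev : ι → ℕ) (w : ι → ℝ) :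
    Bd fun x => ∑ a ∈ I, w a * ((D.wt (d.S (lev a)) x : ℝ) / d.N (lev a)) :=
  Bd.finset_sum I fun _ _ => (Bd.const _).mul (((d.hit _).bd_wt (d.S_meas _)).div_const _)

theorem Design.bd_WB (d : Design D φ) {ι : Type*} (I : Finset ι) (lev : ι → ℕ) (w : ι → ℝ) :
    Bd fun x => ∑ a ∈ I, w a * ((D.wb (d.S (lev a)) x : ℝ) / d.N (lev a)) :=
  Bd.finset_sum I fun _ _ => (Bd.const _).mul (((d.hit _).bd_wb (d.S_meas _)).div_const _)

theorem Design.sum_div_le (d : Design D φ) (m : ℕ) {ι : Type*} (I : Finset ι) (lev : ι → ℕ)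
    (w : ι → ℝ) {Γ : ℝ} (hΓ1 : ∑ a ∈ I, w a * ((d.N m : ℝ) / d.N (lev a)) ≤ Γ) :
    ∑ a ∈ I, w a / d.N (lev a) ≤ Γ / d.N m := by
  rw [le_div_iff₀ (d.N_pos m), Finset.sum_mul]
  refine le_trans (le_of_eq (Finset.sum_congr rfl fun a _ => ?_)) hΓ1
  ring

/-- PLAN. `test_energy` at level `i = lev a ≥ m` (cost: `d.cost m i`, `KK ≥ 0`), divided by `N i`;
`√(2 N μZ) ≤ 2/N i` by `Z_small`, and `∑ w/N i ≤ Γ/N m`. With `ζ = ρ(rw p u) - ρ p` (`∫ ζ = 0` by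
`integral_ρ`, `τ_rw`): `∫ wb ρp - ∫ wt ρ(rw) = ∫ ρp (wb - wt) - ∫ ζ wt`, and
`wt_i = wt_m + wt_i ∘ fin_m` (`wt_sub`), so `-∑ w ∫ ζ wt_i/N_i = -(∑ w N_m/N_i) ∫ ζ wt_m/N_m - ∫ ζ g`
with the block constant `g = ∑ w wt_i(fin_m x)/N_i - c₀ = (∑ w wt_i/N_i - c₀) - (∑ w N_m/N_i) wt_m/N_m`,
`‖g‖₂ ≤ 2Γ` (`(a-b)² ≤ 2a²+2b²` gives `∫ g² ≤ 4Γ²`), `comap_comp`. -/
theorem energy_sum (d : Design D φ) (hp : D.Proj p) (hinv : D.Inv p fun x => Real.exp (-φ x))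
    (m : ℕ) (hu : Bd u) (huK : ∀ x, |u x| ≤ KK m (d.N m) (d.C m)) {e : ℝ} (he : 0 ≤ e)
    (h1 : ∀ g : X → ℝ, Measurable[MeasurableSpace.comap (D.fin (d.S m)) inferInstance] g → Bd g →
        |∫ x, (D.ρ (D.rw p u) x - D.ρ p x) * g x ∂D.μ| ≤ e * √(∫ x, g x ^ 2 ∂D.μ))
    (h2 : -e ≤ ∫ x, (D.ρ (D.rw p u) x - D.ρ p x) * ((D.wt (d.S m) x : ℝ) / d.N m) ∂D.μ)
    {ι : Type*} (I : Finset ι) (lev : ι → ℕ) (w : ι → ℝ) (hw : ∀ a ∈ I, m ≤ lev a ∧ 0 ≤ w a)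
    {Γ : ℝ} (hΓ : 0 ≤ Γ) (hΓ1 : ∑ a ∈ I, w a * ((d.N m : ℝ) / d.N (lev a)) ≤ Γ) {c₀ : ℝ}
    (hΓ2 : ∫ x, (∑ a ∈ I, w a * ((D.wt (d.S (lev a)) x : ℝ) / d.N (lev a)) - c₀) ^ 2 ∂D.μ
      ≤ Γ ^ 2) :
    D.En (D.rw p u) (fun q => ∑ a ∈ I, w a *
        (|(D.wt (d.S (lev a)) (D.σ q.2 q.1) : ℝ) - D.wt (d.S (lev a)) q.1| / d.N (lev a))) ≤
      4 * (∫ x, D.ρ p x * (∑ a ∈ I, w a * ((D.wb (d.S (lev a)) x : ℝ) / d.N (lev a)) -
          ∑ a ∈ I, w a * ((D.wt (d.S (lev a)) x : ℝ) / d.N (lev a))) ∂D.μ +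
        3 * Γ * e + 2 * Γ / d.N m) := by
  set r := D.ρ (D.rw p u) with hr
  set r₀ := D.ρ p with hr₀
  have br : Bd r := bd_ρ _
  have br₀ : Bd r₀ := bd_ρ _
  have bwt : ∀ i, Bd fun x => (D.wt (d.S i) x : ℝ) := fun i => (d.hit i).bd_wt (d.S_meas i)
  have bwb : ∀ i, Bd fun x => (D.wb (d.S i) x : ℝ) := fun i => (d.hit i).bd_wb (d.S_meas i)
  have hNm := d.N_pos m
  -- one level
  have one : ∀ a ∈ I, D.En (D.rw p u) (fun q => w a *
        (|(D.wt (d.S (lev a)) (D.σ q.2 q.1) : ℝ) - D.wt (d.S (lev a)) q.1| / d.N (lev a))) ≤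
      4 * (∫ x, (w a * ((D.wb (d.S (lev a)) x : ℝ) / d.N (lev a))) * r₀ x ∂D.μ -
        ∫ x, (w a * ((D.wt (d.S (lev a)) x : ℝ) / d.N (lev a))) * r x ∂D.μ +
          2 * (w a / d.N (lev a))) := by
    intro a ha
    obtain ⟨hmi, hw0⟩ := hw a ha
    set i := lev a
    have hNi := d.N_pos i
    have ht := test_energy hp d.φ_meas d.φ_nonneg hinv (d.S_meas i) (d.Z_meas i) (d.hit i)
      (d.φ_ge i) (d.φ_le i) (d.C_nonneg i) hu huK (by
        have := d.cost m i hmi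
        have := KK_nonneg m (d.N m) (d.C_nonneg m)
        linarith)
    have hZ : (d.N i : ℝ) * √(2 * (d.N i * D.μ.real (d.Z i))) ≤ 2 := by
      rw [← Real.sqrt_sq hNi.le, ← Real.sqrt_mul (sq_nonneg _), Real.sqrt_sq hNi.le]
      refine Real.sqrt_le_iff.2 ⟨zero_le_two, ?_⟩
      have := d.Z_small i
      nlinarith
    have e1 : (fun q : X × ℤ => w a *
        (|(D.wt (d.S i) (D.σ q.2 q.1) : ℝ) - D.wt (d.S i) q.1| / d.N i)) =
        fun q => (w a / d.N i) * |D.Δ (fun x => (D.wt (d.S i) x : ℝ)) q| := by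
      funext q; simp only [Sys.Δ]; ring
    have e2 : ∫ x, (w a * ((D.wb (d.S i) x : ℝ) / d.N i)) * r₀ x ∂D.μ =
        (w a / d.N i) * ∫ x, (D.wb (d.S i) x : ℝ) * r₀ x ∂D.μ := by
      rw [← integral_const_mul]; congr 1; funext x; ring
    have e3 : ∫ x, (w a * ((D.wt (d.S i) x : ℝ) / d.N i)) * r x ∂D.μ =
        (w a / d.N i) * ∫ x, (D.wt (d.S i) x : ℝ) * r x ∂D.μ := by
      rw [← integral_const_mul]; congr 1; funext x; ring
    rw [e1, En_smul, e2, e3]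
    have h0 : 0 ≤ w a / d.N i := by positivity
    have := mul_le_mul_of_nonneg_left ht h0
    have := mul_le_mul_of_nonneg_left hZ h0
    nlinarith
  have bWT := d.bd_WT I lev w
  have bWB := d.bd_WB I lev w
  set WT : X → ℝ := fun x => ∑ a ∈ I, w a * ((D.wt (d.S (lev a)) x : ℝ) / d.N (lev a)) with hWT
  set WB : X → ℝ := fun x => ∑ a ∈ I, w a * ((D.wb (d.S (lev a)) x : ℝ) / d.N (lev a)) with hWB
  have s1 : D.En (D.rw p u) (fun q => ∑ a ∈ I, w a *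
        (|(D.wt (d.S (lev a)) (D.σ q.2 q.1) : ℝ) - D.wt (d.S (lev a)) q.1| / d.N (lev a))) ≤
      4 * (∫ x, WB x * r₀ x ∂D.μ - ∫ x, WT x * r x ∂D.μ + 2 * (Γ / d.N m)) := by
    rw [En_sum (D.rw p u) I (Φ := fun a q => w a *
        (|(D.wt (d.S (lev a)) (D.σ q.2 q.1) : ℝ) - D.wt (d.S (lev a)) q.1| / d.N (lev a)))
      (fun a _ => (Bd.const _).mul (Bd.div_const (bd_Δ (bwt (lev a))).abs _))]
    refine (Finset.sum_le_sum one).trans ?_
    rw [← Finset.mul_sum, Finset.sum_add_distrib, Finset.sum_sub_distrib, ← Finset.mul_sum,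
      ← integral_finset_sum I (fun a _ => (((Bd.const _).mul ((bwb _).div_const _)).mul br₀).integrable D.μ),
      ← integral_finset_sum I (fun a _ => (((Bd.const _).mul ((bwt _).div_const _)).mul br).integrable D.μ)]
    simp only [← Finset.sum_mul]
    have := d.sum_div_le m I lev w hΓ1
    linarith
  set lam := ∑ a ∈ I, w a * ((d.N m : ℝ) / d.N (lev a)) with hlam
  have hlam0 : 0 ≤ lam := Finset.sum_nonneg fun a ha => mul_nonneg (hw a ha).2 (by positivity)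
  set t : X → ℝ := fun x => (D.wt (d.S m) x : ℝ) / d.N m with ht
  have bt : Bd t := (bwt m).div_const _
  have ht1 : ∀ x, 0 ≤ t x ∧ t x ≤ 1 := fun x =>
    ⟨by positivity, div_le_one_of_le₀ (by exact_mod_cast ((d.hit m).wt_lt x).le) hNm.le⟩
  have hfin := (d.hit m).meas_fin (d.S_meas m)
  set g : X → ℝ := fun x => WT (D.fin (d.S m) x) - c₀ with hg
  have bg : Bd g := (bWT.sub (Bd.const c₀)).comp hfin
  have hdec : ∀ x, WT x = lam * t x + g x + c₀ := by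
    intro x
    simp only [hWT, hlam, ht, hg, Finset.sum_mul]
    rw [add_assoc, sub_add_cancel, ← Finset.sum_add_distrib]
    refine Finset.sum_congr rfl fun a ha => ?_
    rw [(d.hit (lev a)).wt_sub (d.anti (hw a ha).1) x]
    push_cast
    field_simp
  have hgsq : ∫ x, g x ^ 2 ∂D.μ ≤ (2 * Γ) ^ 2 := by
    have : ∫ x, g x ^ 2 ∂D.μ ≤ ∫ x, (2 * (WT x - c₀) ^ 2 + 2 * Γ ^ 2) ∂D.μ := by
      refine integral_mono (bg.sq.integrable D.μ)
        ((((Bd.const 2).mul (bWT.sub (Bd.const c₀)).sq).add (Bd.const _)).integrable D.μ) fun x => ?_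
      have h3 : g x = (WT x - c₀) - lam * t x := by rw [hdec x]; ring
      have h4 : 0 ≤ lam * t x := mul_nonneg hlam0 (ht1 x).1
      have h5 : lam * t x ≤ Γ := (mul_le_of_le_one_right hlam0 (ht1 x).2).trans hΓ1
      have h6 : (lam * t x) ^ 2 ≤ Γ ^ 2 := pow_le_pow_left₀ h4 h5 2
      simp only [h3]
      nlinarith [sq_nonneg ((WT x - c₀) + lam * t x)]
    rw [integral_add (((Bd.const 2).mul (bWT.sub (Bd.const c₀)).sq).integrable D.μ)
      (integrable_const _), integral_const_mul] at this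
    simp only [integral_const, probReal_univ, one_smul] at this
    have h7 : ∫ x, (WT x - c₀) ^ 2 ∂D.μ ≤ Γ ^ 2 := hΓ2
    nlinarith
  have hz1 : -(e * (2 * Γ)) ≤ ∫ x, (r x - r₀ x) * g x ∂D.μ := by
    have h3 := h1 g (comap_comp (G := fun y => WT y - c₀) (bWT.sub (Bd.const c₀)).1) bg
    have h4 : √(∫ x, g x ^ 2 ∂D.μ) ≤ 2 * Γ := Real.sqrt_le_iff.2 ⟨by positivity, hgsq⟩
    have := (abs_le.1 h3).1
    nlinarith
  have hz0 : ∫ x, (r x - r₀ x) ∂D.μ = 0 := by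
    rw [integral_sub (br.integrable D.μ) (br₀.integrable D.μ), hr, hr₀,
      integral_ρ (rw_proj hp hu), integral_ρ hp, τ_rw hp hu, sub_self]
  have s2 : ∫ x, WB x * r₀ x ∂D.μ - ∫ x, WT x * r x ∂D.μ =
      ∫ x, r₀ x * (WB x - WT x) ∂D.μ - (lam * ∫ x, (r x - r₀ x) * t x ∂D.μ +
        ∫ x, (r x - r₀ x) * g x ∂D.μ + c₀ * ∫ x, (r x - r₀ x) ∂D.μ) := by
    have i1 := ((Bd.const lam).mul ((br.sub br₀).mul bt)).integrable D.μ
    have i2 := ((br.sub br₀).mul bg).integrable D.μ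
    have i3 := ((Bd.const c₀).mul (br.sub br₀)).integrable D.μ
    rw [← integral_const_mul, ← integral_const_mul, ← integral_add i1 i2,
      ← integral_add (i1.fun_add i2) i3,
      ← integral_sub ((br₀.mul (bWB.sub bWT)).integrable D.μ) ((i1.fun_add i2).fun_add i3),
      ← integral_sub ((bWB.mul br₀).integrable D.μ) ((bWT.mul br).integrable D.μ)]
    refine integral_congr_ae (Eventually.of_forall fun x => ?_)
    simp only
    rw [hdec x]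
    ring
  rw [s2, hz0] at s1
  have h2' : -e ≤ ∫ x, (r x - r₀ x) * t x ∂D.μ := h2
  have h3 := mul_le_mul_of_nonneg_left h2' hlam0
  have h4 := mul_le_mul_of_nonneg_right hΓ1 he
  refine s1.trans ?_
  have e4 : 2 * Γ / d.N m = 2 * (Γ / d.N m) := by ring
  rw [e4]
  nlinarith

/-- PLAN. `G = ∑ w wb/N - ∑ w wt/N` has integral zero (`integral_wt_wb`), `∫ (G - (c₁-c₀))² ≤ 4Γ²`,
and `∫ |G∘σ 1 - G| ≤ ∑ w 4/N_i ≤ 4Γ/N m` (`var_wt`, `var_wb`); `Erg.scaled` with `A = 2Γ`,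
`N_tend`. -/
theorem bias_small (d : Design D φ) (hE : D.Erg) {f : X → ℝ} (hf : Bd f) {Γ ε : ℝ} (hΓ : 0 < Γ)
    (hε : 0 < ε) : ∃ m₀ : ℕ, ∀ m ≥ m₀, ∀ {ι : Type} (I : Finset ι) (lev : ι → ℕ) (w : ι → ℝ),
      (∀ a ∈ I, 0 ≤ w a) → ∑ a ∈ I, w a * ((d.N m : ℝ) / d.N (lev a)) ≤ Γ →
      (∃ c₀ : ℝ, ∫ x, (∑ a ∈ I, w a * ((D.wt (d.S (lev a)) x : ℝ) / d.N (lev a)) - c₀) ^ 2 ∂D.μ
        ≤ Γ ^ 2) →
      (∃ c₀ : ℝ, ∫ x, (∑ a ∈ I, w a * ((D.wb (d.S (lev a)) x : ℝ) / d.N (lev a)) - c₀) ^ 2 ∂D.μ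
        ≤ Γ ^ 2) →
      ∫ x, f x * (∑ a ∈ I, w a * ((D.wb (d.S (lev a)) x : ℝ) / d.N (lev a)) -
          ∑ a ∈ I, w a * ((D.wt (d.S (lev a)) x : ℝ) / d.N (lev a))) ∂D.μ ≤ ε := by
  obtain ⟨η, hη, hErg⟩ := hE.scaled hf hε (A := 2 * Γ) (by positivity)
  obtain ⟨m₀, hm₀⟩ := eventually_atTop.1
    ((tendsto_natCast_atTop_atTop (R := ℝ)).comp d.N_tend |>.eventually_ge_atTop (4 * Γ / η))
  refine ⟨m₀, fun m hm ι I lev w hw hΓ1 ⟨c₀, h₀⟩ ⟨c₁, h₁⟩ => ?_⟩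
  have hN : 4 * Γ / η ≤ (d.N m : ℝ) := hm₀ m hm
  have hNm := d.N_pos m
  have bwt : ∀ i, Bd fun x => (D.wt (d.S i) x : ℝ) := fun i => (d.hit i).bd_wt (d.S_meas i)
  have bwb : ∀ i, Bd fun x => (D.wb (d.S i) x : ℝ) := fun i => (d.hit i).bd_wb (d.S_meas i)
  have bWT := d.bd_WT I lev w
  have bWB := d.bd_WB I lev w
  set WT : X → ℝ := fun x => ∑ a ∈ I, w a * ((D.wt (d.S (lev a)) x : ℝ) / d.N (lev a)) with hWT
  set WB : X → ℝ := fun x => ∑ a ∈ I, w a * ((D.wb (d.S (lev a)) x : ℝ) / d.N (lev a)) with hWB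
  have h0 : ∫ x, (WB x - WT x) ∂D.μ = 0 := by
    rw [integral_sub (bWB.integrable D.μ) (bWT.integrable D.μ), hWT, hWB,
      integral_finset_sum I (fun a _ => ((Bd.const _).mul ((bwb _).div_const _)).integrable D.μ),
      integral_finset_sum I (fun a _ => ((Bd.const _).mul ((bwt _).div_const _)).integrable D.μ),
      sub_eq_zero]
    refine Finset.sum_congr rfl fun a _ => ?_
    rw [integral_const_mul, integral_const_mul, integral_div, integral_div,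
      (d.hit _).integral_wt_wb (d.S_meas _)]
  have h := hErg (fun x => WB x - WT x) (bWB.sub bWT) ⟨c₁ - c₀, ?_⟩ ?_
  · rw [h0, mul_zero, sub_zero] at h
    exact (le_abs_self _).trans h
  · have i1 := ((Bd.const 2).mul (bWB.sub (Bd.const c₁)).sq).integrable D.μ
    have i2 := ((Bd.const 2).mul (bWT.sub (Bd.const c₀)).sq).integrable D.μ
    have : ∫ x, (WB x - WT x - (c₁ - c₀)) ^ 2 ∂D.μ ≤
        ∫ x, (2 * (WB x - c₁) ^ 2 + 2 * (WT x - c₀) ^ 2) ∂D.μ := by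
      refine integral_mono (((bWB.sub bWT).sub (Bd.const _)).sq.integrable D.μ) (i1.fun_add i2)
        fun x => ?_
      simp only
      nlinarith [sq_nonneg ((WB x - c₁) + (WT x - c₀))]
    rw [integral_add i1 i2, integral_const_mul, integral_const_mul] at this
    have h2 : ∫ x, (WT x - c₀) ^ 2 ∂D.μ ≤ Γ ^ 2 := h₀
    have h3 : ∫ x, (WB x - c₁) ^ 2 ∂D.μ ≤ Γ ^ 2 := h₁
    nlinarith
  · have bv : ∀ a, Bd fun x => w a / d.N (lev a) *
        (|(D.wb (d.S (lev a)) (D.σ 1 x) : ℝ) - D.wb (d.S (lev a)) x| +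
          |(D.wt (d.S (lev a)) (D.σ 1 x) : ℝ) - D.wt (d.S (lev a)) x|) := fun a =>
      (Bd.const _).mul ((((bwb _).comp (meas_σ 1)).sub (bwb _)).abs.add
        (((bwt _).comp (meas_σ 1)).sub (bwt _)).abs)
    have : ∫ x, |(WB (D.σ 1 x) - WT (D.σ 1 x)) - (WB x - WT x)| ∂D.μ ≤
        ∫ x, ∑ a ∈ I, w a / d.N (lev a) *
        (|(D.wb (d.S (lev a)) (D.σ 1 x) : ℝ) - D.wb (d.S (lev a)) x| +
          |(D.wt (d.S (lev a)) (D.σ 1 x) : ℝ) - D.wt (d.S (lev a)) x|) ∂D.μ := by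
      refine integral_mono ((((bWB.sub bWT).comp (meas_σ 1)).sub (bWB.sub bWT)).abs.integrable D.μ)
        ((Bd.finset_sum I fun a _ => bv a).integrable D.μ) fun x => ?_
      simp only [hWT, hWB, ← Finset.sum_sub_distrib]
      refine (Finset.abs_sum_le_sum_abs _ _).trans (Finset.sum_le_sum fun a ha => ?_)
      have h0 : 0 ≤ w a / d.N (lev a) := div_nonneg (hw a ha) (by positivity)
      rw [← abs_of_nonneg h0, mul_add, ← abs_mul, ← abs_mul]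
      refine le_trans (le_of_eq ?_) (abs_sub _ _)
      congr 1
      ring
    refine this.trans ?_
    rw [integral_finset_sum I fun a _ => (bv a).integrable D.μ]
    have h4 : ∀ a ∈ I, ∫ x, w a / d.N (lev a) *
        (|(D.wb (d.S (lev a)) (D.σ 1 x) : ℝ) - D.wb (d.S (lev a)) x| +
          |(D.wt (d.S (lev a)) (D.σ 1 x) : ℝ) - D.wt (d.S (lev a)) x|) ∂D.μ ≤
        4 * (w a / d.N (lev a)) := by
      intro a ha
      have h0 : 0 ≤ w a / d.N (lev a) := div_nonneg (hw a ha) (by positivity)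
      rw [integral_const_mul,
        integral_add ((((bwb _).comp (meas_σ 1)).sub (bwb _)).abs.integrable D.μ)
          ((((bwt _).comp (meas_σ 1)).sub (bwt _)).abs.integrable D.μ), mul_comm]
      refine mul_le_mul_of_nonneg_right ?_ h0
      have := (d.hit (lev a)).var_wt (d.S_meas _)
      have := (d.hit (lev a)).var_wb (d.S_meas _)
      linarith
    refine (Finset.sum_le_sum h4).trans ?_
    rw [← Finset.mul_sum]
    have h5 := d.sum_div_le m I lev w hΓ1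
    have h6 : 4 * (Γ / d.N m) ≤ η := by
      rw [div_le_iff₀ hη] at hN
      rw [← mul_div_assoc, div_le_iff₀ hNm]
      linarith
    linarith

/-- PLAN. pointwise `1[q.2 ≠ 0] ≤ 1_IB q + 1_Bad q.1 + 1[R < |q.2|] + Φ q`; `En_off`, `En_mono`,
`En_add`, `En_fst`, `ρ ≤ 1`. -/
theorem off_le {P : D.H →L[ℂ] D.H} (hP : D.Proj P) {IB : Set (X × ℤ)} (hIB : MeasurableSet IB)
    {Bad : Set X} (hBad : MeasurableSet Bad) {Φ : X × ℤ → ℝ} (hΦ : Bd Φ) (hΦ0 : ∀ q, 0 ≤ Φ q)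
    (Rr : ℕ) (h : ∀ x ∉ Bad, ∀ r : ℤ, r ≠ 0 → |r| ≤ Rr → (x, r) ∉ IB → 1 ≤ Φ (x, r)) :
    (D.τ P).re - ∫ x, D.ρ P x ^ 2 ∂D.μ ≤ D.En P (IB.indicator 1) + D.μ.real Bad +
      D.En P (fun q => if (Rr : ℤ) < |q.2| then 1 else 0) + D.En P Φ := by
  have b1 : Bd (IB.indicator (1 : X × ℤ → ℝ)) := Bd.indicator_one hIB
  have b2 : Bd fun q : X × ℤ => Bad.indicator (1 : X → ℝ) q.1 := bd_R (Bd.indicator_one hBad)
  have bz : ∀ f : ℤ → ℝ, (∀ k, 0 ≤ f k ∧ f k ≤ 1) → Bd fun q : X × ℤ => f q.2 := fun f hf =>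
    (Bd.of_bound (measurable_of_countable f) hf).comp measurable_snd
  have b3 : Bd fun q : X × ℤ => if (Rr : ℤ) < |q.2| then (1 : ℝ) else 0 :=
    bz (fun k => if (Rr : ℤ) < |k| then (1 : ℝ) else 0) fun k => by split_ifs <;> simp
  have b0 : Bd fun q : X × ℤ => if q.2 = 0 then (0 : ℝ) else 1 :=
    bz (fun k => if k = 0 then (0 : ℝ) else 1) fun k => by split_ifs <;> simp
  rw [← En_off hP]
  have h2 : D.En P (fun q => Bad.indicator (1 : X → ℝ) q.1) ≤ D.μ.real Bad := by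
    rw [En_fst hP (Bd.indicator_one hBad), ← integral_indicator_one hBad]
    refine integral_mono (((Bd.indicator_one hBad).mul (bd_ρ P)).integrable D.μ)
      ((Bd.indicator_one hBad).integrable D.μ) fun x => ?_
    exact mul_le_of_le_one_right (Set.indicator_nonneg (fun _ _ => zero_le_one) x) (ρ_le_one _ _)
  have h3 := En_mono P b0 (((b1.add b2).add b3).add hΦ) fun q => by
    have p1 : 0 ≤ IB.indicator (1 : X × ℤ → ℝ) q := Set.indicator_nonneg (fun _ _ => zero_le_one) _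
    have p2 : 0 ≤ Bad.indicator (1 : X → ℝ) q.1 := Set.indicator_nonneg (fun _ _ => zero_le_one) _
    have p3 : 0 ≤ if (Rr : ℤ) < |q.2| then (1 : ℝ) else 0 := by split_ifs <;> simp
    have p4 := hΦ0 q
    by_cases c0 : q.2 = 0
    · rw [if_pos c0]; linarith
    rw [if_neg c0]
    by_cases c1 : q ∈ IB
    · rw [Set.indicator_of_mem c1, Pi.one_apply]; linarith
    by_cases c2 : q.1 ∈ Bad
    · rw [Set.indicator_of_mem c2, Pi.one_apply]; linarith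
    by_cases c3 : (Rr : ℤ) < |q.2|
    · rw [if_pos c3]; linarith
    have := h q.1 c2 q.2 c0 (not_lt.1 c3) c1
    linarith
  rw [En_add P ((b1.add b2).add b3) hΦ, En_add P (b1.add b2) b3, En_add P b1 b2] at h3
  linarith

end Crest.Agent.R113
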