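import Crest.Agent.R113.Path
import Crest.Agent.R113.Inv
import Crest.Agent.R113.Wait

/-! Row 113: the energy estimate coming from the walls. -/

set_option autoImplicit false

open MeasureTheory Filter Topology
open scoped ENNReal

namespace Crest.Agent.R113.Sys

variable {X : Type*} [MeasurableSpace X] {D : Sys X} {p : D.H →L[ℂ] D.H} {φ u : X → ℝ}
  {S Z : Set X} {N : ℕ} {c C K : ℝ}

namespace TestA

theorem sum_ind (N t : ℕ) (h : t ≤ N) :
    ∑ n ∈ Finset.range N, (if t < n + 1 then (1 : ℝ) else 0) = N - t := by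
  induction N, h using Nat.le_induction with
  | base =>
    rw [sub_self]
    exact Finset.sum_eq_zero fun n hn => if_neg (by have := Finset.mem_range.1 hn; omega)
  | succ N h ih =>
    rw [Finset.sum_range_succ, ih, if_pos (by omega)]
    push_cast; ring

theorem sum_ind_sq (N t t' : ℕ) (h : t ≤ N) (h' : t' ≤ N) :
    ∑ n ∈ Finset.range N, (-(if t < n + 1 then (1 : ℝ) else 0) - -(if t' < n + 1 then 1 else 0)) ^ 2
      = |(t : ℝ) - t'| := by
  rcases le_total t t' with htt | htt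
  · have : ∀ n ∈ Finset.range N,
        (-(if t < n + 1 then (1 : ℝ) else 0) - -(if t' < n + 1 then 1 else 0)) ^ 2 =
        (if t < n + 1 then (1 : ℝ) else 0) - (if t' < n + 1 then 1 else 0) := by
      intro n _
      split_ifs <;> first | omega | norm_num
    rw [Finset.sum_congr rfl this, Finset.sum_sub_distrib, sum_ind N t h, sum_ind N t' h',
      abs_of_nonpos (sub_nonpos.2 (by exact_mod_cast htt))]
    ring
  · have : ∀ n ∈ Finset.range N,
        (-(if t < n + 1 then (1 : ℝ) else 0) - -(if t' < n + 1 then 1 else 0)) ^ 2 =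
        (if t' < n + 1 then (1 : ℝ) else 0) - (if t < n + 1 then 1 else 0) := by
      intro n _
      split_ifs <;> first | omega | norm_num
    rw [Finset.sum_congr rfl this, Finset.sum_sub_distrib, sum_ind N t h, sum_ind N t' h',
      abs_of_nonneg (sub_nonneg.2 (by exact_mod_cast htt))]
    ring

theorem bd_ind {t : X → ℕ} (ht : Measurable t) (n : ℕ) :
    Bd fun x => if t x < n then (1 : ℝ) else 0 :=
  (Bd.of_bound (f := fun k : ℕ => if k < n then (1 : ℝ) else 0) (measurable_of_countable _)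
    (a := 0) (b := 1) fun k => by split_ifs <;> simp).comp ht

theorem exists_tail (μ : Measure X) [IsFiniteMeasure μ] {f : X → ℝ} (hf : Measurable f) {η : ℝ}
    (hη : 0 < η) (c : ℝ) : ∃ M, c ≤ M ∧ μ.real {x | M < f x} ≤ η := by
  have h1 : Tendsto (fun k : ℕ => μ {x | (k : ℝ) < f x}) atTop (𝓝 (μ (⋂ k : ℕ, {x | (k : ℝ) < f x}))) := by
    refine tendsto_measure_iInter_atTop (fun k => ?_) (fun k l hkl x hx => ?_)
      ⟨0, measure_ne_top _ _⟩
    · exact (measurableSet_lt measurable_const hf).nullMeasurableSet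
    · exact lt_of_le_of_lt (by exact_mod_cast hkl : (k : ℝ) ≤ l) hx
  have h2 : (⋂ k : ℕ, {x | (k : ℝ) < f x}) = ∅ := by
    refine Set.eq_empty_of_forall_notMem fun x hx => ?_
    obtain ⟨k, hk⟩ := exists_nat_gt (f x)
    exact lt_asymm hk (Set.mem_iInter.1 hx k)
  rw [h2, measure_empty] at h1
  have h3 := (ENNReal.tendsto_toReal ENNReal.zero_ne_top).comp h1
  rw [ENNReal.toReal_zero] at h3
  obtain ⟨k, hk1, hk2⟩ := ((h3.eventually (ge_mem_nhds hη)).and
    ((tendsto_natCast_atTop_atTop (R := ℝ)).eventually_ge_atTop c)).exists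
  exact ⟨k, hk2, hk1⟩

end TestA

open TestA

/-- PLAN. `F = {wt < n}`, `Sn x = ∑_{j<n} φ (σ j x)`, `P' = U(-n) p U n` (`conj_proj`, `τ_conj`,
`Inv.pow` with `w = exp(-φ)`: `(1-P') π(exp(-Sn)) p = 0`). Fix `η > 0`, choose `M ≥ c` with
`μ{Sn > M} ≤ η`. Let `S̃ = min Sn M` on `F`, `min Sn (n C)` off `F` (bounded, `0 ≤ S̃ ≤ Sn`,
`S̃ ≥ c` on `F`, `S̃ = Sn` off `{Sn > M} ∪ {∃ j<n, σ j x ∈ Z}`, `real_window_le`).
`Q = rw p (-S̃)`; `y = exp(-(Sn - S̃)) ∈ [0,1]`, `(1-P') π y Q = 0` by `rw_eq_mul`; `close_of_range`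
gives `‖P'Ω - QΩ‖² ≤ 2(η + n μ Z)`; `pair_ρ_dist`, `pair_conj`, `wb_shift_iff` compare with the
left side. Finally `Q = rw p ((u - 1_F) + w)`, `w = -S̃ - u + 1_F`, `w ≤ -c+K+1` on `F`,
`w ≥ -N C - K` off `F`, so `Δ(-1_F) Δ w ≥ 0` and `pair_mono` with `f = -1_F` gives
`∫ 1_F ρ Q ≤ ∫ 1_F ρ (rw p (u - 1_F))`. Let `η → 0`. -/
theorem test_lower (hp : D.Proj p) (hφ : Measurable φ) (hφ0 : ∀ x, 0 ≤ φ x)
    (hinv : D.Inv p fun x => Real.exp (-φ x)) (hS : MeasurableSet S) (hZ : MeasurableSet Z)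
    (hit : D.Hit S N) (hge : ∀ x ∈ S, c ≤ φ x) (hle : ∀ x ∉ S, x ∉ Z → φ x ≤ C) (hC : 0 ≤ C)
    (hu : Bd u) (huK : ∀ x, |u x| ≤ K) (hc : N * C + 2 * K + 1 ≤ c) {n : ℕ} (hn : n ≤ N) :
    ∫ x, (if D.wb S x < n then 1 else 0) * D.ρ p x ∂D.μ - √(2 * (N * D.μ.real Z)) ≤
      ∫ x, (if D.wt S x < n then 1 else 0) *
        D.ρ (D.rw p fun x => u x - if D.wt S x < n then 1 else 0) x ∂D.μ := by
  set iF : X → ℝ := fun x => if D.wt S x < n then 1 else 0 with hiF
  have biF : Bd iF := bd_ind (hit.meas_wt hS) n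
  set Sn : X → ℝ := fun x => ∑ j ∈ Finset.range n, φ (D.σ (j : ℕ) x) with hSn
  have mSn : Measurable Sn := Finset.measurable_sum _ fun j _ => hφ.comp (meas_σ _)
  have Sn0 : ∀ x, 0 ≤ Sn x := fun x => Finset.sum_nonneg fun j _ => hφ0 _
  have bw : Bd fun x => Real.exp (-φ x) :=
    Bd.of_bound (Real.measurable_exp.comp hφ.neg) (a := 0) (b := 1) fun x =>
      ⟨(Real.exp_pos _).le, Real.exp_le_one_iff.2 (neg_nonpos.2 (hφ0 x))⟩
  set P' := D.U (-(n : ℤ)) * p * D.U n with hP'
  have pP' : D.Proj P' := conj_proj hp n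
  have h0 : (1 - P') * D.π (fun x => Real.exp (-Sn x)) * p = 0 := by
    have := Inv.pow hp bw hinv n
    convert this using 5 with x
    rw [← Real.exp_sum, Finset.sum_neg_distrib]
  have hL : ∫ x, (if D.wb S x < n then 1 else 0) * D.ρ p x ∂D.μ = ∫ x, iF x * D.ρ P' x ∂D.μ := by
    rw [hP', pair_conj hp n biF]
    congr 1
    funext x
    have := hit.wb_shift_iff (D.σ (-(n : ℤ)) x) n
    rw [← D.σ_add, add_neg_cancel, D.σ_zero] at this
    simp only [hiF, this]
  have hnC : (n : ℝ) * C ≤ N * C := mul_le_mul_of_nonneg_right (by exact_mod_cast hn) hC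
  have hnC0 : 0 ≤ (n : ℝ) * C := by positivity
  have key : ∀ η > 0, ∫ x, iF x * D.ρ P' x ∂D.μ -
      ∫ x, iF x * D.ρ (D.rw p fun x => u x - iF x) x ∂D.μ ≤ √(2 * (η + N * D.μ.real Z)) := by
    intro η hη
    obtain ⟨M, hM, hMη⟩ := exists_tail D.μ mSn hη (max c 0)
    have hMc : c ≤ M := (le_max_left _ _).trans hM
    have hM0 : 0 ≤ M := (le_max_right _ _).trans hM
    set St : X → ℝ := fun x => if D.wt S x < n then min (Sn x) M else min (Sn x) (n * C) with hSt
    have mSt : Measurable St :=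
      Measurable.ite (measurableSet_lt (hit.meas_wt hS) measurable_const)
        (mSn.min measurable_const) (mSn.min measurable_const)
    have St0 : ∀ x, 0 ≤ St x := fun x => by
      simp only [hSt]; split_ifs
      exacts [le_min (Sn0 x) hM0, le_min (Sn0 x) hnC0]
    have St1 : ∀ x, St x ≤ Sn x := fun x => by
      simp only [hSt]; split_ifs <;> exact min_le_left _ _
    have bSt : Bd St := Bd.of_bound mSt (a := 0) (b := max M (n * C)) fun x => ⟨St0 x, by
      simp only [hSt]; split_ifs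
      exacts [(min_le_right _ _).trans (le_max_left _ _),
        (min_le_right _ _).trans (le_max_right _ _)]⟩
    have StF : ∀ x, D.wt S x < n → c ≤ St x := fun x hx => by
      simp only [hSt, if_pos hx]
      refine le_min ((hge _ (hit.fin_mem x)).trans ?_) hMc
      exact Finset.single_le_sum (f := fun j : ℕ => φ (D.σ (j : ℕ) x)) (fun j _ => hφ0 _)
        (Finset.mem_range.2 hx)
    have StF' : ∀ x, ¬ D.wt S x < n → St x ≤ N * C := fun x hx => by
      simp only [hSt, if_neg hx]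
      exact (min_le_right _ _).trans hnC
    set E : Set X := {x | M < Sn x} ∪ {x | ∃ j < n, D.σ (j : ℕ) x ∈ Z} with hE
    have mE : MeasurableSet E := by
      refine (measurableSet_lt measurable_const mSn).union ?_
      have : {x | ∃ j < n, D.σ (j : ℕ) x ∈ Z} = ⋃ j ∈ Finset.range n, D.σ (j : ℕ) ⁻¹' Z := by
        ext x; simp
      rw [this]
      exact Finset.measurableSet_biUnion _ fun j _ => meas_σ _ hZ
    have μE : D.μ.real E ≤ η + N * D.μ.real Z := by
      refine (measureReal_union_le _ _).trans (add_le_add hMη ((real_window_le hZ n).trans ?_))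
      exact mul_le_mul_of_nonneg_right (by exact_mod_cast hn) measureReal_nonneg
    have StE : ∀ x ∉ E, St x = Sn x := fun x hx => by
      simp only [hE, Set.mem_union, Set.mem_setOf_eq, not_or, not_lt, not_exists, not_and] at hx
      simp only [hSt]; split_ifs with h
      · exact min_eq_left hx.1
      · refine min_eq_left ?_
        calc Sn x ≤ ∑ _j ∈ Finset.range n, C := Finset.sum_le_sum fun j hj =>
              hle _ (not_mem_of_lt_wt (by have := Finset.mem_range.1 hj; omega))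
                (hx.2 j (Finset.mem_range.1 hj))
          _ = n * C := by simp
    set Q := D.rw p fun x => -St x with hQ
    have pQ : D.Proj Q := rw_proj hp bSt.neg
    set y : X → ℝ := fun x => Real.exp (-(Sn x - St x)) with hy
    have y1 : ∀ x, 0 ≤ y x ∧ y x ≤ 1 := fun x =>
      ⟨(Real.exp_pos _).le, Real.exp_le_one_iff.2 (by have := St1 x; linarith)⟩
    have by' : Bd y := Bd.of_bound (Real.measurable_exp.comp (mSn.sub mSt).neg) y1
    have h1 : (1 - P') * D.π y * Q = 0 := by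
      obtain ⟨Zz, -, hZz⟩ := rw_eq_mul hp bSt.neg
      have e : D.π y * D.π (fun x => Real.exp (-St x)) = D.π fun x => Real.exp (-Sn x) := by
        rw [π_mul by' bSt.neg.exp]
        congr 1; funext x
        rw [hy, ← Real.exp_add]; congr 1; ring
      rw [hQ, hZz]
      calc (1 - P') * D.π y * (D.π (fun x => Real.exp (-St x)) * p * Zz)
          = (1 - P') * (D.π y * D.π (fun x => Real.exp (-St x))) * p * Zz := by
            simp only [mul_assoc]
        _ = 0 := by rw [e, h0, zero_mul]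
    have h2 := close_of_range pQ pP' (by rw [hP', τ_conj hp.1, hQ, τ_rw hp bSt.neg]) by' h1
    have h3 : ∫ x, (1 - y x) ^ 2 ∂D.μ ≤ D.μ.real E := by
      rw [← integral_indicator_one mE]
      refine integral_mono ?_ ((Bd.indicator_one mE).integrable D.μ) fun x => ?_
      · simpa [sq] using (((Bd.const 1).sub by').mul ((Bd.const 1).sub by')).integrable D.μ
      · by_cases hx : x ∈ E
        · simp only [Set.indicator_of_mem hx, Pi.one_apply]
          have := y1 x
          nlinarith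
        · simp [hy, StE x hx, hx]
    have h4 : ‖P' D.Ω - Q D.Ω‖ ≤ √(2 * (η + N * D.μ.real Z)) :=
      Real.le_sqrt_of_sq_le (by linarith)
    have h5 := pair_ρ_dist pP' pQ biF
    have h6 : √(∫ x, iF x ^ 2 ∂D.μ) ≤ 1 := by
      refine Real.sqrt_le_iff.2 ⟨zero_le_one, ?_⟩
      have : ∫ x, iF x ^ 2 ∂D.μ ≤ ∫ _x, (1 : ℝ) ∂D.μ := by
        refine integral_mono ?_ (integrable_const _) fun x => ?_
        · simpa [sq] using (biF.mul biF).integrable D.μ
        · simp only [hiF]; split_ifs <;> norm_num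
      simpa using this
    have h7 := pair_mono hp (hu.sub biF) (g := fun x => -St x - u x + iF x)
      ((bSt.neg.sub hu).add biF) biF.neg (fun q => by
        simp only [Δ, hiF]
        have a1 := abs_le.1 (huK (D.σ q.2 q.1))
        have a2 := abs_le.1 (huK q.1)
        split_ifs with c1 c2 c2
        · simp
        · have := StF _ c1; have := StF' _ c2
          nlinarith
        · have := StF' _ c1; have := StF _ c2
          nlinarith
        · simp)
    have e2 : (fun x => u x - iF x + (-St x - u x + iF x)) = fun x => -St x := by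
      funext x; ring
    simp only [e2, neg_mul, integral_neg] at h7
    have h8 := (abs_le.1 h5).2
    have h9 : √(∫ x, iF x ^ 2 ∂D.μ) * ‖P' D.Ω - Q D.Ω‖ ≤ √(2 * (η + N * D.μ.real Z)) :=
      (mul_le_of_le_one_left (norm_nonneg _) h6).trans h4
    linarith
  have hlim : Tendsto (fun η : ℝ => √(2 * (η + N * D.μ.real Z))) (𝓝[>] 0)
      (𝓝 √(2 * (N * D.μ.real Z))) := by
    have : Continuous fun η : ℝ => √(2 * (η + N * D.μ.real Z)) := by fun_prop
    simpa using (this.tendsto 0).mono_left nhdsWithin_le_nhds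
  have := ge_of_tendsto hlim (eventually_mem_nhdsWithin.mono key)
  rw [hL]
  linarith

/-- PLAN. `gain_one` with `g = -1_{wt < n}` and `test_lower`, summed over `n = 1..N`:
`∑ₙ 1[t<n] = N - t` for `t < N`, `∑ₙ (1[t<n] - 1[t'<n])² = |t - t'|`, `∫ ρ(rw p u) = ∫ ρ p`
(`integral_ρ`, `τ_rw`), `En_sum`. -/
theorem test_energy (hp : D.Proj p) (hφ : Measurable φ) (hφ0 : ∀ x, 0 ≤ φ x)
    (hinv : D.Inv p fun x => Real.exp (-φ x)) (hS : MeasurableSet S) (hZ : MeasurableSet Z)
    (hit : D.Hit S N) (hge : ∀ x ∈ S, c ≤ φ x) (hle : ∀ x ∉ S, x ∉ Z → φ x ≤ C) (hC : 0 ≤ C)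
    (hu : Bd u) (huK : ∀ x, |u x| ≤ K) (hc : N * C + 2 * K + 1 ≤ c) :
    D.En (D.rw p u) (fun q => |D.Δ (fun x => (D.wt S x : ℝ)) q|) ≤
      4 * (∫ x, (D.wb S x : ℝ) * D.ρ p x ∂D.μ - ∫ x, (D.wt S x : ℝ) * D.ρ (D.rw p u) x ∂D.μ +
        N * √(2 * (N * D.μ.real Z))) := by
  have bF := fun n => bd_ind (hit.meas_wt hS) n
  have bB := fun n => bd_ind (hit.meas_wb hS) n
  have one : ∀ n ∈ Finset.range N,
      D.En (D.rw p u) (fun q => D.Δ (fun x => -(if D.wt S x < n + 1 then (1 : ℝ) else 0)) q ^ 2) ≤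
      4 * (∫ x, (if D.wt S x < n + 1 then 1 else 0) * D.ρ (D.rw p u) x ∂D.μ -
        ∫ x, (if D.wb S x < n + 1 then 1 else 0) * D.ρ p x ∂D.μ + √(2 * (N * D.μ.real Z))) := by
    intro n hn
    have h1 := gain_one hp hu (bF (n + 1)).neg fun q => by
      simp only [Δ]; split_ifs <;> norm_num
    have h2 := test_lower hp hφ hφ0 hinv hS hZ hit hge hle hC hu huK hc
      (n := n + 1) (Finset.mem_range.1 hn)
    simp only [neg_mul, integral_neg, ← sub_eq_add_neg] at h1
    linarith
  have h := Finset.sum_le_sum one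
  rw [← En_sum _ _ fun n _ => by
    simpa [sq] using (bd_Δ (bF (n + 1)).neg).mul (bd_Δ (bF (n + 1)).neg)] at h
  have e1 : (fun q : X × ℤ => ∑ n ∈ Finset.range N,
      D.Δ (fun x => -(if D.wt S x < n + 1 then (1 : ℝ) else 0)) q ^ 2) =
      fun q => |D.Δ (fun x => (D.wt S x : ℝ)) q| := by
    funext q
    exact sum_ind_sq N _ _ (hit.wt_lt _).le (hit.wt_lt _).le
  rw [e1, ← Finset.mul_sum, Finset.sum_add_distrib, Finset.sum_sub_distrib,
    ← integral_finset_sum _ fun n _ => ((bF (n + 1)).mul (bd_ρ _)).integrable D.μ,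
    ← integral_finset_sum _ fun n _ => ((bB (n + 1)).mul (bd_ρ _)).integrable D.μ] at h
  simp only [← Finset.sum_mul, sum_ind N _ (hit.wt_lt _).le, sum_ind N _ (hit.wb_lt _).le,
    sub_mul, Finset.sum_const, Finset.card_range, nsmul_eq_mul] at h
  rw [integral_sub (((Bd.const _).mul (bd_ρ _)).integrable D.μ)
      (((hit.bd_wt hS).mul (bd_ρ _)).integrable D.μ),
    integral_sub (((Bd.const _).mul (bd_ρ _)).integrable D.μ)
      (((hit.bd_wb hS).mul (bd_ρ _)).integrable D.μ), integral_const_mul, integral_const_mul,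
    integral_ρ (rw_proj hp hu), integral_ρ hp, τ_rw hp hu] at h
  linarith

end Crest.Agent.R113.Sys
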