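import Crest.Agent.R113.Cfc
import Crest.Agent.R113.Alg
import Crest.Prelude.Def_RotationRep

/-! Row 113: transport from `ℓ²(ℤ × ℤ)` to `L²(𝕋 × ℤ)`. -/

set_option autoImplicit false

open MeasureTheory Filter Topology
open scoped ENNReal

namespace Crest.Agent.R113

open Crest.AnalysisR.RotationRep

private theorem tr_bd (b : ℤ) : Bd fun x : UnitAddCircle => fourier b x :=
  ⟨(fourier b).continuous.measurable, 1, fun x => (Circle.norm_coe _).le⟩

private noncomputable def trE (θ : ℝ) (i : ℤ × ℤ) : (rot θ).H :=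
  (rot θ).U i.1 ((rot θ).πR (fun x => fourier i.2 x) (rot θ).Ω)

private theorem tr_ae (θ : ℝ) (i : ℤ × ℤ) (k : ℤ) : ∀ᵐ x ∂(rot θ).μ,
    (trE θ i : UnitAddCircle × ℤ → ℂ) (x, k) = if k = i.1 then fourier i.2 x else 0 := by
  filter_upwards [Sys.ae_ν_iff.1 (Sys.U_ae i.1 ((rot θ).πR (fun x => fourier i.2 x) (rot θ).Ω)) k,
    Sys.ae_ν_iff.1 (Sys.πR_ae (tr_bd i.2) (rot θ).Ω) (k - i.1),
    Sys.ae_ν_iff.1 (Sys.Ω_ae (D := rot θ)) (k - i.1)] with x h1 h2 h3
  rw [trE, h1, h2, h3]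
  simp only [sub_eq_zero, mul_ite, mul_one, mul_zero]

private theorem tr_inner (θ : ℝ) (i : ℤ × ℤ) (g : (rot θ).H) :
    inner ℂ (trE θ i) g = fourierCoeff (fun x => (g : UnitAddCircle × ℤ → ℂ) (x, i.1)) i.2 := by
  rw [L2.inner_def, Sys.integral_of_slice (L2.integrable_inner _ g) i.1]
  · refine integral_congr_ae ?_
    filter_upwards [tr_ae θ i i.1] with x hx
    rw [hx, if_pos rfl, RCLike.inner_apply, fourier_neg, smul_eq_mul, mul_comm]
  · intro j hj
    filter_upwards [tr_ae θ i j] with x hx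
    rw [hx, if_neg hj, inner_zero_left]

private theorem tr_on (θ : ℝ) : Orthonormal ℂ (trE θ) := by
  rw [orthonormal_iff_ite]
  rintro ⟨a, b⟩ ⟨a', b'⟩
  rw [tr_inner, fourierCoeff_congr_ae (tr_ae θ (a', b') a)]
  by_cases h : a = a'
  · subst h
    simp only [if_true, Prod.mk.injEq, true_and]
    exact (congrFun (fourierCoeff_fourier b') b).trans (Pi.single_apply _ _ _)
  · simp [h, fourierCoeff]

private theorem tr_complete (θ : ℝ) : (Submodule.span ℂ (Set.range (trE θ)))ᗮ = ⊥ := by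
  rw [eq_bot_iff]
  intro g hg
  rw [Submodule.mem_bot]
  have h1 : ∀ i, inner ℂ (trE θ i) g = 0 := fun i =>
    Submodule.inner_right_of_mem_orthogonal (Submodule.subset_span (Set.mem_range_self i)) hg
  have h2 : ∀ k, ∀ᵐ x ∂(rot θ).μ, (g : UnitAddCircle × ℤ → ℂ) (x, k) = 0 := by
    intro k
    have hm : MemLp (fun x => (g : UnitAddCircle × ℤ → ℂ) (x, k)) 2 AddCircle.haarAddCircle :=
      Sys.memLp_slice g k
    have h3 : hm.toLp _ = 0 := by
      apply fourierBasis.repr.injective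
      ext b
      rw [fourierBasis_repr, fourierCoeff_congr_ae hm.coeFn_toLp, map_zero]
      exact (tr_inner θ (k, b) g).symm.trans (h1 _)
    have h4 := hm.coeFn_toLp
    rw [h3] at h4
    exact h4.symm.trans (Lp.coeFn_zero _ _ _)
  have h5 : (g : UnitAddCircle × ℤ → ℂ) =ᵐ[(rot θ).ν] 0 := Sys.ae_ν_iff.2 h2
  exact Lp.ext (h5.trans (Lp.coeFn_zero _ _ _).symm)

/-- PLAN. `e (a,b) = U a (πR (fourier b) Ω)`, a.e. equal to `(x,k) ↦ if k = a then fourier b x else 0`.
Orthonormal (`orthonormal_fourier`), and a vector orthogonal to all of them has slices with zero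
Fourier coefficients (`memLp_slice`, `fourierBasis`), so vanishes (`ae_ν_iff`):
`HilbertBasis.mkOfOrthogonalEqBot`. -/
theorem exists_basis (θ : ℝ) : ∃ e : HilbertBasis (ℤ × ℤ) ℂ (rot θ).H,
    (∀ a b : ℤ, (rot θ).U 1 (e (a, b)) = e (a + 1, b)) ∧
    ∀ a b : ℤ, (rot θ).πL (fun x => fourier 1 x) (e (a, b)) =
      Complex.exp (2 * Real.pi * Complex.I * θ * a) • e (a, b + 1) := by
  refine ⟨HilbertBasis.mkOfOrthogonalEqBot (tr_on θ) (tr_complete θ), fun a b => ?_, fun a b => ?_⟩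
  · rw [HilbertBasis.coe_mkOfOrthogonalEqBot, trE, trE, add_comm, Sys.U_add]
    rfl
  · rw [HilbertBasis.coe_mkOfOrthogonalEqBot]
    refine Lp.ext (Sys.ae_ν_iff.2 fun k => ?_)
    filter_upwards [Sys.ae_ν_iff.1 (Sys.πL_ae (tr_bd 1) (trE θ (a, b))) k, tr_ae θ (a, b) k,
      tr_ae θ (a, b + 1) k, Sys.ae_ν_iff.1 (Lp.coeFn_smul
        (Complex.exp (2 * Real.pi * Complex.I * θ * a)) (trE θ (a, b + 1))) k] with x h1 h2 h3 h4
    rw [h1, h2, h4, Pi.smul_apply, h3]
    split_ifs with h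
    · subst h
      have e1 : fourier 1 ((rot θ).σ k x) = fourier 1 x * fourier 1 (((k * θ : ℝ)) : UnitAddCircle) := by
        show fourier 1 (x + k • ((θ : ℝ) : UnitAddCircle)) = _
        rw [← AddCircle.coe_zsmul, zsmul_eq_mul, fourier_apply, fourier_apply, fourier_apply,
          smul_add, AddCircle.toCircle_add, Circle.coe_mul]
      simp only [e1, fourier_coe_apply, fourier_add, smul_eq_mul]
      have e2 : (2 * Real.pi * Complex.I * ((1 : ℤ) : ℂ) * ((k * θ : ℝ) : ℂ) / ((1 : ℝ) : ℂ)) =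
          2 * Real.pi * Complex.I * θ * k := by push_cast; ring
      rw [e2]
      ring
    · simp

/-- PLAN. `Φ = e.repr.symm`, `Ψ = Φ.conjStarAlgEquiv`; `Ψ U = U 1`, `Ψ V = πL (fourier 1)` (equal on
the basis, `lp.ext_continuousLinearMap`/density), `P = Ψ p`. The operators `Ψ⁻¹ (R b)`,
`Ψ⁻¹ (πR f)` commute with `U, V, U*, V*` (`mem_U`, `mem_πL`, `Mem.star`), so `p` commutes with them.
`Ψ (cfc f V) = cfc f (Ψ V)` (`StarAlgHom.map_cfc`/`StarAlgHomClass.map_cfc`), `cfc_mulOp`. -/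
theorem transport {θ : ℝ} {f : ℂ → ℝ} (hf : Continuous f)
    {U V : lp (fun _ : ℤ × ℤ => ℂ) 2 →L[ℂ] lp (fun _ : ℤ × ℤ => ℂ) 2} (hUV : IsRotationPair θ U V)
    {p : lp (fun _ : ℤ × ℤ => ℂ) 2 →L[ℂ] lp (fun _ : ℤ × ℤ => ℂ) 2}
    (hp : p ∈ vonNeumannGenerated {U, V}) (hp' : IsStarProjection p)
    (hinv : (1 - p) * (U * cfc (fun z : ℂ => (f z : ℂ)) V) * p = 0) :
    ∃ P, (rot θ).Proj P ∧ (rot θ).Inv P (fun x => f (fourier 1 x)) ∧
      (P = 0 → p = 0) ∧ (P = 1 → p = 1) := by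
  obtain ⟨e, he1, he2⟩ := exists_basis θ
  let Ψ := e.repr.symm.conjStarAlgEquiv
  have hΨ : ∀ T i, Ψ T (e i) = e.repr.symm (T (lp.single 2 i 1)) := by
    intro T i
    rw [LinearIsometryEquiv.conjStarAlgEquiv_apply_apply, LinearIsometryEquiv.symm_symm,
      HilbertBasis.repr_self]
  have hd : Dense (Submodule.span ℂ (Set.range e) : Set (rot θ).H) :=
    Submodule.dense_iff_topologicalClosure_eq_top.2 e.dense_span
  have hU : Ψ U = (rot θ).U 1 := by
    refine ContinuousLinearMap.ext_on hd ?_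
    rintro _ ⟨⟨a, b⟩, rfl⟩
    rw [hΨ, hUV.1, HilbertBasis.repr_symm_single, he1]
  have hV : Ψ V = (rot θ).πL fun x => fourier 1 x := by
    refine ContinuousLinearMap.ext_on hd ?_
    rintro _ ⟨⟨a, b⟩, rfl⟩
    rw [hΨ, hUV.2, map_smul, HilbertBasis.repr_symm_single, he2]
  have hcomm : ∀ T, (∀ x, (rot θ).Mem x → Commute x T) → Commute (Ψ p) T := by
    intro T hT
    have h1 : Ψ.symm T ∈ Set.centralizer ({U, V} ∪ star '' {U, V}) := by
      intro m hm
      have h2 : (rot θ).Mem (Ψ m) := by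
        rcases hm with (rfl | rfl) | ⟨_, rfl | rfl, rfl⟩
        · rw [hU]; exact Sys.mem_U 1
        · rw [hV]; exact Sys.mem_πL (tr_bd 1)
        · rw [map_star, hU]; exact (Sys.mem_U 1).star
        · rw [map_star, hV]; exact (Sys.mem_πL (tr_bd 1)).star
      apply EquivLike.injective Ψ
      rw [map_mul, map_mul, StarAlgEquiv.apply_symm_apply]
      exact hT _ h2
    have h3 := congrArg Ψ (hp _ h1)
    rw [map_mul, map_mul, StarAlgEquiv.apply_symm_apply] at h3
    exact h3.symm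
  have hn' : IsStarNormal (Ψ V) := by
    rw [hV]
    refine ⟨?_⟩
    have b := Sys.bd_L (D := rot θ) (tr_bd 1)
    unfold Sys.πL
    rw [star_mulOp b, Commute, SemiconjBy, mulOp_mul b.conj b, mulOp_mul b b.conj]
    simp only [mul_comm]
  have hn : IsStarNormal V := by
    refine ⟨EquivLike.injective Ψ ?_⟩
    rw [map_mul, map_mul, map_star]
    exact hn'.star_comm_self
  have hg : Continuous fun z : ℂ => (f z : ℂ) := Complex.continuous_ofReal.comp hf
  have hcfc : Ψ (cfc (fun z : ℂ => (f z : ℂ)) V) = (rot θ).π fun x => f (fourier 1 x) := by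
    rw [StarAlgHomClass.map_cfc Ψ _ V hg.continuousOn (StarAlgEquiv.isometry Ψ).continuous hn hn',
      hV]
    exact cfc_mulOp (Sys.bd_L (tr_bd 1)) hg
  refine ⟨Ψ p, ⟨⟨fun b => hcomm _ fun x hx => hx.1 b, fun g hg => hcomm _ fun x hx => hx.2 g hg⟩,
    hp'.map Ψ⟩, ?_, fun h => Ψ.injective (h.trans (map_zero Ψ).symm),
    fun h => Ψ.injective (h.trans (map_one Ψ).symm)⟩
  have := congrArg Ψ hinv
  rwa [map_mul, map_mul, map_mul, map_sub, map_one, map_zero, hU, hcfc] at this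

end Crest.Agent.R113
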