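import Crest.Prelude.Def_TwoAdicShift

/-! Row 113 (S0150): unicellular bilateral weighted shifts. -/

set_option autoImplicit false

open Filter Topology

namespace Crest.Agent.R113

open Crest.AnalysisR.TwoAdic

/-- costs growing monotonically on both sides (the conditions are symmetric under `j ↦ -1-j`) -/
structure Grow (u : ℤ → ℝ) : Prop where
  ge : ∀ j : ℤ, 5 * |2 * (j : ℝ) + 1| + 5 ≤ u j
  pos : ∀ j : ℤ, 0 ≤ j → u j + 10 ≤ u (j + 1)
  neg : ∀ j : ℤ, j ≤ -1 → u j + 10 ≤ u (j - 1)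

/-- the cheapest window: induction on `n` removing the end point with the larger `|2j+1| ≥ n`
(and parity), or compare with `∑ (5|2j+1|+5)`. -/
theorem Grow.window {u : ℤ → ℝ} (h : Grow u) (a : ℤ) (n : ℕ) :
    10 * (((n + 1) ^ 2 / 4 : ℕ) : ℝ) ≤ ∑ j ∈ Finset.range n, u (a + j) := by
  induction n using Nat.twoStepInduction generalizing a with
  | zero => simp
  | one =>
    have h1 := h.ge a
    have h2 : (1 : ℝ) ≤ |2 * (a : ℝ) + 1| := by
      have : (1 : ℤ) ≤ |2 * a + 1| := Int.one_le_abs (by omega)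
      exact_mod_cast this
    norm_num
    linarith
  | more n ih _ =>
    have e : (n + 2 + 1) ^ 2 / 4 = (n + 1) ^ 2 / 4 + (n + 2) := by
      have : (n + 2 + 1) ^ 2 = (n + 1) ^ 2 + 4 * (n + 2) := by ring
      rw [this, Nat.add_mul_div_left _ _ (by norm_num)]
    rw [e, Finset.sum_range_succ, Finset.sum_range_succ']
    have h1 := ih (a + 1)
    have h2 := h.ge a
    have h3 := h.ge (a + ((n + 1 : ℕ) : ℤ))
    have h4 : ∑ j ∈ Finset.range n, u (a + 1 + (j : ℤ)) =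
        ∑ j ∈ Finset.range n, u (a + ((j + 1 : ℕ) : ℤ)) := by
      refine Finset.sum_congr rfl fun j _ => ?_
      congr 1
      push_cast
      ring
    rw [h4] at h1
    have h5 := neg_abs_le (2 * (a : ℝ) + 1)
    have h6 := le_abs_self (2 * ((a + ((n + 1 : ℕ) : ℤ) : ℤ) : ℝ) + 1)
    rw [Nat.cast_add _ (n + 2)]
    simp only [Nat.cast_zero, add_zero]
    push_cast at h3 h6 ⊢
    push_cast at h1
    linarith

namespace UniA

theorem pos_l {a b : ℝ} (h : 0 < a * b) (hb : 0 < b) : 0 < a := (mul_pos_iff_of_pos_right hb).1 h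

theorem refl {u : ℤ → ℝ} (h : Grow u) : Grow fun j => u (-1 - j) where
  ge j := by
    have := h.ge (-1 - j)
    have e : |2 * ((-1 - j : ℤ) : ℝ) + 1| = |2 * (j : ℝ) + 1| := by
      rw [← abs_neg]; congr 1; push_cast; ring
    rwa [e] at this
  pos j hj := by
    have := h.neg (-1 - j) (by omega)
    have e : -1 - j - 1 = -1 - (j + 1) := by ring
    rwa [e] at this
  neg j hj := by
    have := h.pos (-1 - j) (by omega)
    have e : -1 - j + 1 = -1 - (j - 1) := by ring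
    rwa [e] at this

theorem mono_pos {u : ℤ → ℝ} (h : Grow u) {a : ℤ} (ha : 0 ≤ a) (i : ℕ) :
    u a + 10 * i ≤ u (a + i) := by
  induction i with
  | zero => simp
  | succ i ih =>
    have := h.pos (a + i) (by omega)
    push_cast
    rw [← add_assoc]
    linarith

theorem mono_neg {u : ℤ → ℝ} (h : Grow u) {a : ℤ} (ha : a ≤ -1) (i : ℕ) :
    u a + 10 * i ≤ u (a - i) := by
  induction i with
  | zero => simp
  | succ i ih =>
    have := h.neg (a - i) (by omega)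
    push_cast
    rw [← sub_sub]
    linarith

theorem exists_G (u : ℤ → ℝ) : ∃ G : ℤ → ℝ, ∀ a, G (a + 1) = G a + u a := by
  refine ⟨fun a => ∑ j ∈ Finset.range a.toNat, u j -
    ∑ j ∈ Finset.range (-a).toNat, u (-1 - j), fun a => ?_⟩
  rcases le_or_gt 0 a with h | h
  · obtain ⟨n, rfl⟩ := Int.eq_ofNat_of_zero_le h
    have e1 : ((n : ℤ) + 1).toNat = n + 1 := by omega
    have e2 : (-((n : ℤ) + 1)).toNat = 0 := by omega
    have e3 : (-(n : ℤ)).toNat = 0 := by omega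
    simp only [e1, e2, e3, Int.toNat_natCast, Finset.sum_range_succ]
    simp
  · obtain ⟨n, rfl⟩ : ∃ n : ℕ, a = -1 - n := ⟨(-1 - a).toNat, by omega⟩
    have e1 : (-1 - (n : ℤ) + 1).toNat = 0 := by omega
    have e2 : (-(-1 - (n : ℤ) + 1)).toNat = n := by omega
    have e3 : (-1 - (n : ℤ)).toNat = 0 := by omega
    have e4 : (-(-1 - (n : ℤ))).toNat = n + 1 := by omega
    simp only [e1, e2, e3, e4, Finset.sum_range_succ]
    simp

theorem G_add {u G : ℤ → ℝ} (hG : ∀ a, G (a + 1) = G a + u a) (a : ℤ) (n : ℕ) :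
    G (a + n) = G a + ∑ j ∈ Finset.range n, u (a + j) := by
  induction n with
  | zero => simp
  | succ n ih =>
    rw [Finset.sum_range_succ]
    push_cast
    rw [← add_assoc, hG, ih]
    ring

theorem G_ge {u G : ℤ → ℝ} (h : Grow u) (hG : ∀ a, G (a + 1) = G a + u a) (b : ℤ) (n : ℕ) :
    G b + 10 * b * n + 5 * (n : ℝ) ^ 2 ≤ G (b + n) := by
  induction n with
  | zero => simp
  | succ n ih =>
    have h1 := h.ge (b + n)
    have h2 := le_abs_self (2 * ((b + n : ℤ) : ℝ) + 1)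
    push_cast at h1 h2 ⊢
    rw [← add_assoc, hG]
    nlinarith

theorem newton (α : ℕ → ℝ) (h0 : 0 < α 0) (L C : ℝ)
    (hb : ∀ m : ℕ, α m ≤ Real.exp (L + C * m - 5 * (m : ℝ) ^ 2)) :
    ∃ μ : ℕ → ℕ, (∀ j m : ℕ, α m * Real.exp (2 * j * m) ≤ α (μ j) * Real.exp (2 * j * μ j)) ∧
      Monotone μ ∧ (∃ D : ℝ, ∀ j, 5 * (μ j : ℝ) ≤ 2 * j + D) ∧
      ((∀ N, ∃ m ≥ N, 0 < α m) → ∀ N, ∃ j₀, ∀ j ≥ j₀, N ≤ μ j) := by
  set D := |C| + |L - Real.log (α 0)| with hD
  have key : ∀ j m : ℕ, 2 * (j : ℝ) + D < 5 * m → α m * Real.exp (2 * j * m) < α 0 := by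
    intro j m hm
    have hD0 : 0 ≤ D := by positivity
    have hm1 : (1 : ℝ) ≤ m := by
      rcases Nat.eq_zero_or_pos m with rfl | h
      · simp only [Nat.cast_zero, mul_zero] at hm
        have : (0 : ℝ) ≤ j := Nat.cast_nonneg j
        linarith
      · exact_mod_cast h
    refine (mul_le_mul_of_nonneg_right (hb m) (Real.exp_pos _).le).trans_lt ?_
    rw [← Real.exp_add, ← Real.lt_log_iff_exp_lt h0]
    have h1 := le_abs_self C
    have h2 := le_abs_self (L - Real.log (α 0))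
    have h3 := abs_nonneg (L - Real.log (α 0))
    have h4 : (2 * (j : ℝ) + D) * m < 5 * m * m := mul_lt_mul_of_pos_right hm (by linarith)
    have h5 : C * m ≤ |C| * m := mul_le_mul_of_nonneg_right h1 (by linarith)
    have h6 : |L - Real.log (α 0)| ≤ |L - Real.log (α 0)| * m := le_mul_of_one_le_right h3 hm1
    rw [hD] at h4
    nlinarith
  have ex : ∀ j : ℕ, ∃ k : ℕ, ∀ m : ℕ,
      α m * Real.exp (2 * j * m) ≤ α k * Real.exp (2 * j * k) := by
    intro j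
    obtain ⟨N, hN⟩ := exists_nat_gt (2 * (j : ℝ) + D)
    obtain ⟨k, -, hk⟩ := Finset.exists_max_image (Finset.range (N + 1))
      (fun m : ℕ => α m * Real.exp (2 * j * m)) ⟨0, by simp⟩
    refine ⟨k, fun m => ?_⟩
    by_cases hm : m < N + 1
    · exact hk m (Finset.mem_range.2 hm)
    · have h1 : (N : ℝ) ≤ m := by exact_mod_cast (by omega : N ≤ m)
      have h2 := key j m (by have : (0 : ℝ) ≤ m := Nat.cast_nonneg m; linarith)
      have h3 := hk 0 (by simp)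
      simp only [Nat.cast_zero, mul_zero, Real.exp_zero, mul_one] at h3
      linarith
  choose μ hμ using ex
  have hge : ∀ j, α 0 ≤ α (μ j) * Real.exp (2 * j * μ j) := fun j => by
    simpa using hμ j 0
  have hpos : ∀ j, 0 < α (μ j) := fun j =>
    pos_l (h0.trans_le (hge j)) (Real.exp_pos _)
  refine ⟨μ, hμ, monotone_nat_of_le_succ fun j => ?_, ⟨D, fun j => ?_⟩, fun hN N => ?_⟩
  · by_contra hc
    push Not at hc
    have h1 := hμ j (μ (j + 1))
    have h2 := hμ (j + 1) (μ j)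
    have h3 := mul_le_mul h1 h2 (mul_pos (hpos _) (Real.exp_pos _)).le
      (mul_pos (hpos _) (Real.exp_pos _)).le
    have h4 : (α (μ j) * α (μ (j + 1))) * Real.exp (2 * j * μ (j + 1) + 2 * (j + 1 : ℕ) * μ j) ≤
        (α (μ j) * α (μ (j + 1))) *
          Real.exp (2 * j * μ j + 2 * (j + 1 : ℕ) * μ (j + 1)) := by
      rw [Real.exp_add, Real.exp_add]
      linarith
    have h5 := Real.exp_le_exp.1 (le_of_mul_le_mul_left h4 (mul_pos (hpos _) (hpos _)))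
    have h6 : (μ (j + 1) : ℝ) < μ j := by exact_mod_cast hc
    push_cast at h5
    nlinarith
  · by_contra hc
    push Not at hc
    linarith [key j (μ j) hc, hge j]
  · obtain ⟨m, hm, hα⟩ := hN N
    have hB : ∀ k, α k ≤ α (μ 0) := fun k => by simpa using hμ 0 k
    obtain ⟨j₀, hj₀⟩ := exists_nat_gt (Real.log (α (μ 0) / α m))
    refine ⟨j₀, fun j hj => ?_⟩
    by_contra hc
    push Not at hc
    have h1 := (hμ j m).trans (mul_le_mul_of_nonneg_right (hB (μ j)) (Real.exp_pos _).le)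
    have h2 : (μ j : ℝ) + 1 ≤ m := by exact_mod_cast (by omega : μ j + 1 ≤ m)
    have h3 : (j₀ : ℝ) ≤ j := by exact_mod_cast hj
    have h4 : α (μ 0) / α m < Real.exp j :=
      (Real.log_lt_iff_lt_exp (div_pos (hpos 0) hα)).1 (by linarith)
    rw [div_lt_iff₀ hα] at h4
    have h5 : Real.exp j * Real.exp (2 * j * μ j) ≤ Real.exp (2 * j * m) := by
      rw [← Real.exp_add]
      apply Real.exp_le_exp.2
      have : (0 : ℝ) ≤ j := Nat.cast_nonneg j
      nlinarith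
    have h6 := mul_lt_mul_of_pos_right h4 (Real.exp_pos (2 * j * μ j))
    have h7 := mul_le_mul_of_nonneg_left h5 hα.le
    linarith

theorem counting {μ κ : ℕ → ℕ} (hμ : Monotone μ) (hκ : Monotone κ) {D D' : ℝ}
    (h1 : ∀ j, 5 * (μ j : ℝ) ≤ 2 * j + D) (h2 : ∀ j, 5 * (κ j : ℝ) ≤ 2 * j + D') (j₀ : ℕ) :
    ∃ j ≥ j₀, μ (j + 1) = μ j ∧ κ (j + 1) = κ j := by
  by_contra hc
  push Not at hc
  have key : ∀ i, i ≤ μ (j₀ + i) + κ (j₀ + i) := by
    intro i
    induction i with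
    | zero => omega
    | succ i ih =>
      have a1 : μ (j₀ + i) ≤ μ (j₀ + i + 1) := hμ (Nat.le_succ _)
      have a2 : κ (j₀ + i) ≤ κ (j₀ + i + 1) := hκ (Nat.le_succ _)
      have a3 := hc (j₀ + i) (by omega)
      rw [← add_assoc]
      by_cases a4 : μ (j₀ + i + 1) = μ (j₀ + i)
      · have := a3 a4
        omega
      · omega
  obtain ⟨i, hi⟩ := exists_nat_gt (4 * (j₀ : ℝ) + D + D')
  have a1 : (i : ℝ) ≤ μ (j₀ + i) + κ (j₀ + i) := by exact_mod_cast key i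
  have a2 := h1 (j₀ + i)
  have a3 := h2 (j₀ + i)
  push_cast at a2 a3
  linarith

/-- the gap at a vertex of the Newton polygon -/
theorem gap {α : ℕ → ℝ} {μ : ℕ → ℕ}
    (h : ∀ j m : ℕ, α m * Real.exp (2 * j * m) ≤ α (μ j) * Real.exp (2 * j * μ j)) {j : ℕ}
    (hj : μ (j + 1) = μ j) (m : ℕ) :
    α m ≤ α (μ j) * Real.exp (-((2 * j + 1) * ((m : ℝ) - μ j)) - |(m : ℝ) - μ j|) := by
  rcases le_total (m : ℝ) (μ j) with hm | hm
  · have h1 := h j m
    rw [abs_of_nonpos (by linarith)]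
    have e : Real.exp (-((2 * j + 1) * ((m : ℝ) - μ j)) - -((m : ℝ) - μ j)) =
        Real.exp (2 * j * μ j) / Real.exp (2 * j * m) := by
      rw [← Real.exp_sub]; congr 1; ring
    rw [e, ← mul_div_assoc, le_div_iff₀ (Real.exp_pos _)]
    exact h1
  · have h1 := h (j + 1) m
    rw [hj] at h1
    rw [abs_of_nonneg (by linarith)]
    have e : Real.exp (-((2 * j + 1) * ((m : ℝ) - μ j)) - ((m : ℝ) - μ j)) =
        Real.exp (2 * (j + 1 : ℕ) * μ j) / Real.exp (2 * (j + 1 : ℕ) * m) := by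
      rw [← Real.exp_sub]; congr 1; push_cast; ring
    rw [e, ← mul_div_assoc, le_div_iff₀ (Real.exp_pos _)]
    exact h1

/-- the Newton polygon on the half line `b ≥ b₀` -/
theorem poly {u G Y : ℤ → ℝ} (h : Grow u) (hG : ∀ a, G (a + 1) = G a + u a) {M : ℝ}
    (hY : ∀ b, Y b ≤ M * Real.exp (-G b)) {b₀ : ℤ} (h0 : 0 < Y b₀) :
    ∃ κ : ℕ → ℕ, Monotone κ ∧ (∃ D : ℝ, ∀ j, 5 * (κ j : ℝ) ≤ 2 * j + D) ∧
      ((∀ N : ℤ, ∃ b ≥ N, 0 < Y b) → ∀ N, ∃ j₀, ∀ j ≥ j₀, N ≤ κ j) ∧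
      ∀ j, κ (j + 1) = κ j → ∀ b ≥ b₀, Y b ≤ Y (b₀ + κ j) *
        Real.exp (-((2 * j + 1) * ((b : ℝ) - (b₀ + κ j : ℤ))) - |(b : ℝ) - (b₀ + κ j : ℤ)|) := by
  have hM : 0 < M := pos_l (h0.trans_le (hY b₀)) (Real.exp_pos _)
  obtain ⟨κ, h1, h2, h3, h4⟩ := newton (fun k => Y (b₀ + k)) (by simpa using h0)
    (Real.log M - G b₀) (-10 * b₀) (fun m => by
      refine (hY _).trans ?_
      rw [← Real.exp_log hM, ← Real.exp_add, Real.log_exp]
      apply Real.exp_le_exp.2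
      linarith [G_ge h hG b₀ m])
  refine ⟨κ, h2, h3, fun hN => h4 fun N => ?_, fun j hj b hb => ?_⟩
  · obtain ⟨b, hb, hb'⟩ := hN (b₀ + N)
    refine ⟨(b - b₀).toNat, by omega, ?_⟩
    have : b₀ + ((b - b₀).toNat : ℤ) = b := by omega
    simpa only [this] using hb'
  · obtain ⟨m, rfl⟩ : ∃ m : ℕ, b = b₀ + m := ⟨(b - b₀).toNat, by omega⟩
    have := gap h1 hj m
    have e : ((b₀ + m : ℤ) : ℝ) - (b₀ + κ j : ℤ) = (m : ℝ) - κ j := by push_cast; ring
    rw [e]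
    exact this

/-- the terms to the right of `a₀` -/
theorem side {u G A Y : ℤ → ℝ} (h : Grow u) (hG : ∀ a, G (a + 1) = G a + u a) {M : ℝ}
    (hA : ∀ a, A a ≤ M * Real.exp (G a)) (hY : ∀ b, Y b ≤ M * Real.exp (-G b))
    (hY0 : ∀ b, 0 ≤ Y b) {a₀ b₀ : ℤ} (hab : a₀ ≤ b₀) (ha₀ : 0 < A a₀) (hb₀ : 0 < Y b₀)
    {ε : ℝ} (hε : 0 < ε) :
    ∃ s₀ : ℝ, ∃ n₀ : ℕ, ∀ s ≥ s₀, ∀ n ≥ n₀, ∀ a' : ℤ, a' ≤ a₀ → b₀ ≤ a' + (n : ℕ) →
      A a₀ ≤ A a' * Real.exp (s * ((a₀ : ℝ) - a')) →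
      (∀ b ≥ b₀, Y b ≤ Y (a' + n) *
        Real.exp (-(s * ((b : ℝ) - (a' + n : ℤ))) - |(b : ℝ) - (a' + n : ℤ)|)) →
      ∃ p : ℤ, ∀ a > a₀, A a * Y (a + n) ≤ A a' * Y (a' + n) *
        (ε * (Real.exp (-|(a : ℝ) - a'|) + Real.exp (-|(a : ℝ) - p|))) := by
  have hM : 0 < M := pos_l (hb₀.trans_le (hY b₀)) (Real.exp_pos _)
  obtain ⟨m, rfl⟩ : ∃ m, M = Real.exp m := ⟨_, (Real.exp_log hM).symm⟩
  obtain ⟨e, rfl⟩ : ∃ e, ε = Real.exp e := ⟨_, (Real.exp_log hε).symm⟩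
  obtain ⟨α, hα⟩ : ∃ α, A a₀ = Real.exp α := ⟨_, (Real.exp_log ha₀).symm⟩
  obtain ⟨β, hβ⟩ : ∃ β, Y b₀ = Real.exp β := ⟨_, (Real.exp_log hb₀).symm⟩
  obtain ⟨n₀, hn₀⟩ := exists_nat_gt (2 * m - α - β - e)
  refine ⟨max (max 0 (u a₀)) (m - α + G a₀ + u a₀ - e), n₀ + 1,
    fun s hs n hn a' h1 h2 h3 h4 => ?_⟩
  have hs0 : 0 ≤ s := le_trans ((le_max_left _ _).trans (le_max_left _ _)) hs
  have hs1 : u a₀ ≤ s := le_trans ((le_max_right _ _).trans (le_max_left _ _)) hs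
  have hs2 : m - α + G a₀ + u a₀ - e ≤ s := le_trans (le_max_right _ _) hs
  have hex : ∃ k : ℕ, s < u k := by
    obtain ⟨k, hk⟩ := exists_nat_gt (s - u 0)
    have := mono_pos h le_rfl k
    have h0 : (0 : ℝ) ≤ k := Nat.cast_nonneg k
    exact ⟨k, by rw [zero_add] at this; linarith⟩
  classical
  set p := Nat.find hex with hp
  have hp1 : s < u p := Nat.find_spec hex
  have hp2 : ∀ k < p, u k ≤ s := fun k hk => not_lt.1 (Nat.find_min hex hk)
  have hA' : 0 < A a' := pos_l (ha₀.trans_le h3) (Real.exp_pos _)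
  have hY' : 0 < Y (a' + n) :=
    pos_l (hb₀.trans_le (h4 b₀ le_rfl)) (Real.exp_pos _)
  obtain ⟨α', hα'⟩ : ∃ α, A a' = Real.exp α := ⟨_, (Real.exp_log hA').symm⟩
  obtain ⟨β', hβ'⟩ : ∃ β, Y (a' + n) = Real.exp β := ⟨_, (Real.exp_log hY').symm⟩
  have h5 := h4 b₀ le_rfl
  rw [hα, hα', ← Real.exp_add, Real.exp_le_exp] at h3
  rw [hβ, hβ', ← Real.exp_add, Real.exp_le_exp] at h5
  refine ⟨p, fun a ha => ?_⟩
  rw [hα', hβ', mul_add, mul_add]
  simp only [← Real.exp_add]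
  rcases le_or_gt a p with hap | hap
  · -- estimate (I)
    refine le_add_of_le_of_nonneg ?_ (Real.exp_pos _).le
    have h6 := h4 (a + n) (by omega)
    rw [hβ', ← Real.exp_add] at h6
    have h7 := hA a
    rw [← Real.exp_add] at h7
    refine (mul_le_mul h7 h6 (hY0 _) (Real.exp_pos _).le).trans ?_
    rw [← Real.exp_add, Real.exp_le_exp]
    have e1 : ((a + n : ℤ) : ℝ) - (a' + n : ℤ) = (a : ℝ) - a' := by push_cast; ring
    rw [e1]
    obtain ⟨k, rfl⟩ : ∃ k : ℕ, a = a₀ + 1 + k := ⟨(a - a₀ - 1).toNat, by omega⟩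
    have h8 : ∑ j ∈ Finset.range k, u (a₀ + 1 + j) ≤ k * s := by
      have := Finset.sum_le_card_nsmul (Finset.range k) (fun j : ℕ => u (a₀ + 1 + j)) s (by
        intro j hj
        rw [Finset.mem_range] at hj
        rcases le_or_gt 0 (a₀ + 1 + j) with h9 | h9
        · obtain ⟨i, hi⟩ := Int.eq_ofNat_of_zero_le h9
          rw [hi]
          exact hp2 i (by omega)
        · have := mono_neg h (a := a₀ + 1 + j) (by omega) (j + 1)
          have e2 : a₀ + 1 + j - ((j + 1 : ℕ) : ℤ) = a₀ := by push_cast; ring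
          rw [e2] at this
          have h0 : (0 : ℝ) ≤ ((j + 1 : ℕ) : ℝ) := Nat.cast_nonneg _
          linarith)
      simpa using this
    rw [G_add hG, hG]
    push_cast
    nlinarith
  · -- estimate (II)
    refine le_add_of_nonneg_of_le (Real.exp_pos _).le ?_
    have h6 := hY (a + n)
    have h7 := hA a
    rw [← Real.exp_add] at h6 h7
    refine (mul_le_mul h7 h6 (hY0 _) (Real.exp_pos _).le).trans ?_
    rw [← Real.exp_add, Real.exp_le_exp, G_add hG]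
    obtain ⟨k, rfl⟩ : ∃ k : ℕ, a = p + (k + 1 : ℕ) := ⟨(a - p - 1).toNat, by omega⟩
    have h8 : (n : ℝ) * (s + 10 * (k + 1)) ≤
        ∑ j ∈ Finset.range n, u (p + (k + 1 : ℕ) + j) := by
      have := Finset.card_nsmul_le_sum (Finset.range n) (fun j : ℕ => u (p + (k + 1 : ℕ) + j))
        (s + 10 * (k + 1)) (by
        intro j _
        have := mono_pos h (a := p) (by omega) (k + 1 + j)
        have h0 : (0 : ℝ) ≤ j := Nat.cast_nonneg _
        push_cast at this ⊢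
        rw [← add_assoc] at this
        linarith)
      rwa [Finset.card_range, nsmul_eq_mul] at this
    have e1 : |(((p : ℤ) + (k + 1 : ℕ) : ℤ) : ℝ) - ((p : ℤ) : ℝ)| = k + 1 := by
      push_cast
      rw [add_sub_cancel_left]
      exact abs_of_nonneg (by positivity)
    rw [e1]
    have hn1 : (n₀ : ℝ) + 1 ≤ n := by exact_mod_cast hn
    have hn2 : (0 : ℝ) ≤ n₀ := Nat.cast_nonneg _
    have hk : (0 : ℝ) ≤ k := Nat.cast_nonneg _
    have h9 := abs_nonneg ((b₀ : ℝ) - (a' + n : ℤ))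
    have h10 : (a₀ : ℝ) ≤ b₀ := by exact_mod_cast hab
    have h11 := mul_le_mul_of_nonneg_left h10 hs0
    have h12 : 0 ≤ ((n : ℝ) - 1) * k := mul_nonneg (by linarith) hk
    push_cast at h5 h9
    nlinarith

theorem hasSum_geo {q : ℝ} (h0 : 0 ≤ q) (h1 : q < 1) (p : ℤ) :
    HasSum (fun a : ℤ => q ^ (a - p).natAbs) ((1 - q)⁻¹ + q * (1 - q)⁻¹) := by
  have h : HasSum (fun a : ℤ => q ^ a.natAbs) ((1 - q)⁻¹ + q * (1 - q)⁻¹) := by
    refine HasSum.of_nat_of_neg_add_one ?_ ?_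
    · simpa using hasSum_geometric_of_lt_one h0 h1
    · have := (hasSum_geometric_of_lt_one h0 h1).mul_left q
      have e : (fun n : ℕ => q ^ (-((n : ℤ) + 1)).natAbs) = fun n : ℕ => q * q ^ n := by
        funext n
        rw [show (-((n : ℤ) + 1)).natAbs = n + 1 by omega, pow_succ']
      rw [e]
      exact this
  exact (Equiv.subRight p).hasSum_iff.2 h

theorem exp_le_half (a p : ℤ) : Real.exp (-|(a : ℝ) - p|) ≤ (1 / 2) ^ (a - p).natAbs := by
  have e : |(a : ℝ) - p| = ((a - p).natAbs : ℕ) := by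
    rw [Nat.cast_natAbs]; push_cast; rfl
  rw [e, ← mul_neg_one, Real.exp_nat_mul]
  refine pow_le_pow_left₀ (Real.exp_pos _).le ?_ _
  rw [Real.exp_neg, one_div]
  exact inv_anti₀ (by norm_num) (by linarith [Real.add_one_le_exp (1 : ℝ)])

/-- a dominant term -/
theorem dominant {u G A Y : ℤ → ℝ} (h : Grow u) (hG : ∀ a, G (a + 1) = G a + u a) {M : ℝ}
    (hA : ∀ a, A a ≤ M * Real.exp (G a)) (hY : ∀ b, Y b ≤ M * Real.exp (-G b))
    (hA0 : ∀ a, 0 ≤ A a) (hY0 : ∀ b, 0 ≤ Y b) {a₀ b₀ : ℤ} (hab : a₀ ≤ b₀) (ha₀ : 0 < A a₀)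
    (hb₀ : 0 < Y b₀) :
    ∃ (n : ℕ) (a' p p' : ℤ), 0 < A a' * Y (a' + n) ∧ ∀ a ≠ a', A a * Y (a + n) ≤
      A a' * Y (a' + n) * ((1 / 4) ^ (a - a').natAbs + (1 / 100) *
        ((1 / 2) ^ (a - a').natAbs + (1 / 2) ^ (a - p).natAbs + (1 / 2) ^ (a - p').natAbs)) := by
  by_cases hc : (∃ N : ℤ, ∀ b ≥ N, Y b ≤ 0) ∧ ∃ N : ℤ, ∀ a ≤ N, A a ≤ 0
  · obtain ⟨⟨N, hN⟩, N', hN'⟩ := hc
    obtain ⟨b', hb1, hb2⟩ := Int.exists_greatest_of_bdd (P := fun b => 0 < Y b)
      ⟨N, fun b hb => by by_contra hc; exact absurd (hN b (by omega)) (not_le.2 hb)⟩ ⟨b₀, hb₀⟩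
    obtain ⟨a', ha1, ha2⟩ := Int.exists_least_of_bdd (P := fun a => 0 < A a)
      ⟨N', fun a ha => by by_contra hc; exact absurd (hN' a (by omega)) (not_le.2 ha)⟩ ⟨a₀, ha₀⟩
    have h1 := hb2 b₀ hb₀
    have h2 := ha2 a₀ ha₀
    have e : a' + ((b' - a').toNat : ℤ) = b' := by omega
    refine ⟨(b' - a').toNat, a', 0, 0, by rw [e]; exact mul_pos ha1 hb1, fun a ha => ?_⟩
    have h3 : A a * Y (a + ((b' - a').toNat : ℤ)) = 0 := by
      rcases lt_or_gt_of_ne ha with h4 | h4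
      · have : A a = 0 := le_antisymm (not_lt.1 fun h5 => by have := ha2 a h5; omega) (hA0 a)
        rw [this, zero_mul]
      · have : Y (a + ((b' - a').toNat : ℤ)) = 0 :=
          le_antisymm (not_lt.1 fun h5 => by have := hb2 _ h5; omega) (hY0 _)
        rw [this, mul_zero]
    rw [h3]
    have := hA0 a'
    have := hY0 (a' + ((b' - a').toNat : ℤ))
    positivity
  have h' := refl h
  have hG' : ∀ a, (fun a => -G (-a)) (a + 1) = (fun a => -G (-a)) a + (fun j => u (-1 - j)) a := by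
    intro a
    have := hG (-1 - a)
    have e1 : -1 - a + 1 = -a := by ring
    have e2 : -(a + 1) = -1 - a := by ring
    simp only [e2]
    rw [e1] at this
    linarith
  have hA' : ∀ a, (fun a => Y (-a)) a ≤ M * Real.exp ((fun a => -G (-a)) a) := fun a => hY (-a)
  have hY' : ∀ b, (fun b => A (-b)) b ≤ M * Real.exp (-(fun a => -G (-a)) b) := fun b => by
    simpa using hA (-b)
  have ha₀' : 0 < (fun a => Y (-a)) (-b₀) := by simpa using hb₀
  have hb₀' : 0 < (fun b => A (-b)) (-a₀) := by simpa using ha₀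
  obtain ⟨κ, k1, ⟨D, k2⟩, k3, k4⟩ := poly h hG hY hb₀
  obtain ⟨μ, m1, ⟨D', m2⟩, m3, m4⟩ := poly h' hG' hY' hb₀'
  obtain ⟨s₁, n₁, S1⟩ := side h hG hA hY hY0 hab ha₀ hb₀ (ε := 1 / 100) (by norm_num)
  obtain ⟨s₂, n₂, S2⟩ := side h' hG' hA' hY' (fun b => hA0 _) (neg_le_neg hab) ha₀' hb₀'
    (ε := 1 / 100) (by norm_num)
  obtain ⟨j₁, hj₁⟩ : ∃ j₁, ∀ j ≥ j₁, n₁ + n₂ ≤ μ j + κ j := by
    rw [not_and_or] at hc
    rcases hc with hc | hc
    · push Not at hc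
      obtain ⟨j₁, hj₁⟩ := k3 hc (n₁ + n₂)
      exact ⟨j₁, fun j hj => by have := hj₁ j hj; omega⟩
    · push Not at hc
      obtain ⟨j₁, hj₁⟩ := m3 (fun N => by
        obtain ⟨a, h1, h2⟩ := hc (-N)
        exact ⟨-a, by omega, by simpa using h2⟩) (n₁ + n₂)
      exact ⟨j₁, fun j hj => by have := hj₁ j hj; omega⟩
  obtain ⟨j₂, hj₂⟩ := exists_nat_ge (max s₁ s₂)
  obtain ⟨j, hj, c1, c2⟩ := counting m1 k1 m2 k2 (j₁ + j₂)
  have hn := hj₁ j (by omega)
  have hs : max s₁ s₂ ≤ 2 * (j : ℝ) + 1 := by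
    have : (j₂ : ℝ) ≤ j := by exact_mod_cast (by omega : j₂ ≤ j)
    have : (0 : ℝ) ≤ j := Nat.cast_nonneg j
    linarith
  set s : ℝ := 2 * j + 1 with hsdef
  obtain ⟨n, hn'⟩ : ∃ n : ℕ, (n : ℤ) = b₀ - a₀ + μ j + κ j := ⟨(b₀ - a₀).toNat + μ j + κ j, by omega⟩
  obtain ⟨a', ha'⟩ : ∃ a' : ℤ, a' = a₀ - μ j := ⟨_, rfl⟩
  have eb : b₀ + κ j = a' + n := by omega
  have ea : -a₀ + μ j = -a' := by omega
  have HY := k4 j c2
  have HA := m4 j c1
  rw [eb] at HY
  rw [ea] at HA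
  have HA2 : ∀ a ≤ a₀, A a ≤ A a' * Real.exp (s * ((a : ℝ) - a') - |(a : ℝ) - a'|) := by
    intro a ha
    have := HA (-a) (by omega)
    simp only [neg_neg] at this
    have e1 : ((-a : ℤ) : ℝ) - (-a' : ℤ) = -((a : ℝ) - a') := by push_cast; ring
    rw [e1, abs_neg, mul_neg, neg_neg] at this
    exact this
  have hA'pos : 0 < A a' :=
    pos_l (ha₀.trans_le (HA2 a₀ le_rfl)) (Real.exp_pos _)
  have hY'pos : 0 < Y (a' + n) :=
    pos_l (hb₀.trans_le (HY b₀ le_rfl)) (Real.exp_pos _)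
  obtain ⟨p, hp⟩ := S1 s ((le_max_left _ _).trans hs) n (by omega) a' (by omega) (by omega)
    ((HA2 a₀ le_rfl).trans (mul_le_mul_of_nonneg_left
      (Real.exp_le_exp.2 (by linarith [abs_nonneg ((a₀ : ℝ) - a')])) hA'pos.le)) HY
  have ea2 : -(a' + n) + n = -a' := by ring
  obtain ⟨p', hp'⟩ := S2 s ((le_max_right _ _).trans hs) n (by omega) (-(a' + n)) (by omega)
    (by omega) (by
      simp only [neg_neg]
      refine (HY b₀ le_rfl).trans (mul_le_mul_of_nonneg_left (Real.exp_le_exp.2 ?_) hY'pos.le)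
      have := abs_nonneg ((b₀ : ℝ) - (a' + n : ℤ))
      push_cast at this ⊢
      linarith) (by rw [ea2]; exact HA)
  refine ⟨n, a', p, -(p' + n), mul_pos hA'pos hY'pos, fun a ha => ?_⟩
  have hP := mul_pos hA'pos hY'pos
  have q1 : (0 : ℝ) ≤ (1 / 4) ^ (a - a').natAbs := by positivity
  have q2 : (0 : ℝ) ≤ (1 / 2) ^ (a - a').natAbs := by positivity
  have q3 : (0 : ℝ) ≤ (1 / 2) ^ (a - p).natAbs := by positivity
  have q4 : (0 : ℝ) ≤ (1 / 2) ^ (a - -(p' + n)).natAbs := by positivity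
  have r2 := exp_le_half a a'
  by_cases c3 : a₀ < a
  · refine (hp a c3).trans (mul_le_mul_of_nonneg_left ?_ hP.le)
    have r3 := exp_le_half a p
    linarith
  by_cases c4 : a + n < b₀
  · have := hp' (-(a + n)) (by omega)
    have e1 : -(-(a + n) + n) = a := by ring
    have e2 : -(-(a' + n) + n) = a' := by ring
    have e3 : |((-(a + n) : ℤ) : ℝ) - (-(a' + n) : ℤ)| = |(a : ℝ) - a'| := by
      rw [← abs_neg]; congr 1; push_cast; ring
    have e4 : |((-(a + n) : ℤ) : ℝ) - p'| = |(a : ℝ) - (-(p' + n) : ℤ)| := by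
      rw [← abs_neg]; congr 1; push_cast; ring
    simp only [neg_neg, e1, e2, e3, e4] at this
    rw [mul_comm (Y _), mul_comm (Y _)] at this
    refine this.trans (mul_le_mul_of_nonneg_left ?_ hP.le)
    have r4 := exp_le_half a (-(p' + n))
    linarith
  · have h1 := HA2 a (by omega)
    have h2 := HY (a + n) (by omega)
    have e1 : ((a + n : ℤ) : ℝ) - (a' + n : ℤ) = (a : ℝ) - a' := by push_cast; ring
    rw [e1] at h2
    refine (mul_le_mul h1 h2 (hY0 _) (mul_pos hA'pos (Real.exp_pos _)).le).trans ?_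
    rw [mul_mul_mul_comm, ← Real.exp_add]
    refine mul_le_mul_of_nonneg_left ?_ hP.le
    have e2 : s * ((a : ℝ) - a') - |(a : ℝ) - a'| + (-(s * ((a : ℝ) - a')) - |(a : ℝ) - a'|) =
        -|(a : ℝ) - a'| + -|(a : ℝ) - a'| := by ring
    have e3 : ((1 : ℝ) / 4) ^ (a - a').natAbs =
        (1 / 2) ^ (a - a').natAbs * (1 / 2) ^ (a - a').natAbs := by
      rw [← mul_pow]; norm_num
    rw [e2, Real.exp_add]
    have := mul_le_mul r2 r2 (Real.exp_pos _).le q2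
    linarith

end UniA

/-- PLAN. Suppose `a₀ ≤ b₀`, `v a₀ ≠ 0`, `y b₀ ≠ 0`. `G (a+1) - G a = u a`, `A a = ‖v a‖ e^{G a}`,
`Y b = ‖y b‖ e^{-G b}`; the term of index `a` has norm `A a * Y (a+n)`.
(i) If `supp v` is bounded below and `supp y` above, `n = max supp y - min supp v` leaves one term.
(ii) Otherwise, for `s ≥ 0` let `m s` maximise `m ↦ A (a₀-m) e^{s m}` and `k s` maximise
`k ↦ Y (b₀+k) e^{s k}` (`m k : ℕ`; `∑_{j∈[a₀-m,a₀)} u j ≥ 5m² - Cm`, so maxima exist and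
`m s, k s ≤ s/5 + C`). Both are monotone in `s` and `m s + k s → ∞`. By counting, for every `j₀`
there is `j ≥ j₀` with `m (2j) = m (2j+2)`, `k (2j) = k (2j+2)`; for `s = 2j+1`, `a* = a₀ - m*`,
`b* = b₀ + k*`, `n = b* - a*`: `A (a₀-m) ≤ A* e^{-s(m-m*) - |m-m*|}` and similarly for `Y`.
Terms `a = a* + d` with `a ≤ a₀`, `a + n ≥ b₀` are `≤ A* Y* e^{-2|d|}`, total `≤ 0.32 A* Y*`.
Terms with `a > a₀`: (I) `≤ A*Y* (M/‖v a₀‖) exp(∑_{j∈[a₀,a)} (u j - s))`, (II)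
`≤ A* Y* C exp(s n - ∑_{j∈[a,a+n)} u j)`. Let `a₁` be the least `a ≥ max (a₀+1) 0` with
`u a ≥ s+1`. For `a ≥ a₁` use (II): `≤ C e^{-n} e^{-10(a-a₁)}`; for `a₀ < a < a₁` use (I):
`≤ C e^{u a₀ - s} e^{-9(a-a₀-1)}` (`s` large). So these terms total `≤ 2C(e^{-n} + e^{u a₀ - s})`.
Terms with `a + n < b₀` are symmetric (reflect `u j ↦ u (-1-j)`, `v a ↦ y (-a)`, `y b ↦ v (-b)`:
state the side estimate as a lemma). For large `j` the main term dominates: contradiction. -/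
theorem Grow.coeff {u : ℤ → ℝ} (h : Grow u) {v y : ℤ → ℂ} {M : ℝ} (hv : ∀ a, ‖v a‖ ≤ M)
    (hy : ∀ b, ‖y b‖ ≤ M)
    (h0 : ∀ n : ℕ, HasSum (fun a : ℤ => v a * y (a + n) *
      (Real.exp (-∑ j ∈ Finset.range n, u (a + j)) : ℂ)) 0) :
    ∀ a b, a ≤ b → v a = 0 ∨ y b = 0 := by
  intro a₀ b₀ hab
  by_contra hc
  push Not at hc
  obtain ⟨G, hG⟩ := UniA.exists_G u
  obtain ⟨n, a', p, p', hP, hd⟩ := UniA.dominant (A := fun a => ‖v a‖ * Real.exp (G a))
    (Y := fun b => ‖y b‖ * Real.exp (-G b)) h hG (M := M)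
    (fun a => mul_le_mul_of_nonneg_right (hv a) (Real.exp_pos _).le)
    (fun b => mul_le_mul_of_nonneg_right (hy b) (Real.exp_pos _).le)
    (fun a => by positivity) (fun b => by positivity) hab
    (mul_pos (norm_pos_iff.2 hc.1) (Real.exp_pos _))
    (mul_pos (norm_pos_iff.2 hc.2) (Real.exp_pos _))
  have hn : ∀ a : ℤ, ‖v a * y (a + n) *
      (Real.exp (-∑ j ∈ Finset.range n, u (a + j)) : ℂ)‖ =
      ‖v a‖ * Real.exp (G a) * (‖y (a + n)‖ * Real.exp (-G (a + n))) := by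
    intro a
    rw [norm_mul, norm_mul, Complex.norm_real, Real.norm_eq_abs, abs_of_pos (Real.exp_pos _),
      mul_mul_mul_comm, ← Real.exp_add, UniA.G_add hG]
    congr 2
    ring
  classical
  have s0 := hasSum_ite_sub_hasSum (h0 n) a'
  have s1 := hasSum_ite_sub_hasSum (UniA.hasSum_geo (q := 1 / 4) (by norm_num) (by norm_num) a') a'
  have s2 := fun r => UniA.hasSum_geo (q := 1 / 2) (by norm_num) (by norm_num) r
  have s3 := (s1.add ((((s2 a').add (s2 p)).add (s2 p')).mul_left (1 / 100))).mul_left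
    (‖v a'‖ * Real.exp (G a') * (‖y (a' + n)‖ * Real.exp (-G (a' + n))))
  have s4 := s0.norm_le_of_bounded s3 fun a => by
    by_cases ha : a = a'
    · simp only [ha, if_true, norm_zero]
      positivity
    · simp only [ha, if_false]
      rw [hn]
      exact hd a ha
  rw [zero_sub, norm_neg, hn] at s4
  simp only [sub_self, Int.natAbs_zero, pow_zero] at s4 hP
  norm_num at s4
  linarith

end Crest.Agent.R113
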